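import Mathlib

/-!
# Row 130 (S0175): abstract circle actions — averaging and angular expansion

Parameter-free measure theory for the Monge approximants of row 130.

* `lintegral_twist` : the general averaging identity.
* `map_twist_eq_self` : if `φ` is invariant, `x ↦ R (φ x) x` preserves every invariant measure.
* `map_expand_pos`, `map_expand_neg` : the "angular expansion" `E_N x = R (arg (z x ^ N) / N) x`
  pushes the restriction of `ν` to each of `{0 ≤ Im (z^N)}`, `{Im (z^N) < 0}` to `ν / 2`.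
-/

set_option autoImplicit false
open MeasureTheory Set
open scoped ENNReal

namespace Crest.Agent.S0175lib

section Periodic

/-- A periodic `ℝ≥0∞`-valued function has the same lower integral over every period window. -/
theorem lintegral_Ioc_periodic {T : ℝ} (hT : 0 < T) (h : ℝ → ℝ≥0∞)
    (hper : Function.Periodic h T) (a b : ℝ) :
    ∫⁻ θ in Ioc a (a + T), h θ = ∫⁻ θ in Ioc b (b + T), h θ := by
  have : Fact (0 < T) := ⟨hT⟩
  have e1 := AddCircle.lintegral_preimage T a (hper.lift)
  have e2 := AddCircle.lintegral_preimage T b (hper.lift)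
  simp only [Function.Periodic.lift_coe] at e1 e2
  rw [e1, e2]

/-- Translation of the variable in a window integral. -/
theorem lintegral_Ioc_add (h : ℝ → ℝ≥0∞) (a b c : ℝ) :
    ∫⁻ θ in Ioc a b, h (θ + c) = ∫⁻ θ in Ioc (a + c) (b + c), h θ := by
  have hme : MeasurableEmbedding (fun θ : ℝ => θ + c) :=
    (MeasurableEquiv.addRight c).measurableEmbedding
  have hmp : MeasurePreserving (fun θ : ℝ => θ + c) volume volume :=
    measurePreserving_add_right volume c
  have := hmp.setLIntegral_comp_emb hme h (Ioc a b)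
  rw [this, Set.image_add_const_Ioc]

/-- Periodic shift inside a fixed period window. -/
theorem lintegral_Ioc_periodic_shift {T : ℝ} (hT : 0 < T) (h : ℝ → ℝ≥0∞)
    (hper : Function.Periodic h T) (c : ℝ) :
    ∫⁻ θ in Ioc 0 T, h (c + θ) = ∫⁻ θ in Ioc 0 T, h θ := by
  have e := lintegral_Ioc_add h 0 T c
  simp only [add_comm _ c] at e
  rw [e, add_zero]
  have := lintegral_Ioc_periodic hT h hper c 0
  simpa using this

end Periodic

section OneDim

open Real

/-- Pushforward of Lebesgue measure under `θ ↦ 2θ + q`. -/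
theorem map_two_mul_add (q : ℝ) :
    Measure.map (fun θ : ℝ => 2 * θ + q) volume = (1 / 2 : ℝ≥0∞) • (volume : Measure ℝ) := by
  have h1 : (fun θ : ℝ => 2 * θ + q) = (fun θ : ℝ => θ + q) ∘ (fun θ : ℝ => 2 * θ) := rfl
  rw [h1, ← Measure.map_map (measurable_add_const q) (measurable_const_mul 2),
    Real.map_volume_mul_left (two_ne_zero), Measure.map_smul,
    (measurePreserving_add_right volume q).map_eq]
  congr 1
  rw [abs_of_pos (by positivity : (0:ℝ) < 2⁻¹), ENNReal.ofReal_inv_of_pos two_pos]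
  simp

/-- Affine substitution `τ = 2θ + q` on an open interval. -/
theorem lintegral_Ioo_two_mul_add (h : ℝ → ℝ≥0∞) (hm : Measurable h) (a b q : ℝ) :
    ∫⁻ θ in Ioo a b, h (2 * θ + q) = (1 / 2 : ℝ≥0∞) * ∫⁻ τ in Ioo (2 * a + q) (2 * b + q), h τ := by
  have hg : Measurable (fun θ : ℝ => 2 * θ + q) := (measurable_const_mul 2).add_const q
  have hF : Measurable ((Ioo (2 * a + q) (2 * b + q)).indicator h) := hm.indicator measurableSet_Ioo
  have e1 := lintegral_map hF hg (μ := volume)
  rw [map_two_mul_add, lintegral_smul_measure, lintegral_indicator measurableSet_Ioo] at e1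
  rw [smul_eq_mul] at e1
  rw [e1, ← lintegral_indicator measurableSet_Ioo]
  refine lintegral_congr (fun θ => ?_)
  by_cases hθ : θ ∈ Ioo a b
  · have : 2 * θ + q ∈ Ioo (2 * a + q) (2 * b + q) := by
      constructor <;> [linarith [hθ.1]; linarith [hθ.2]]
    rw [indicator_of_mem hθ, indicator_of_mem this]
  · have : 2 * θ + q ∉ Ioo (2 * a + q) (2 * b + q) := by
      intro h'
      exact hθ ⟨by linarith [h'.1], by linarith [h'.2]⟩
    rw [indicator_of_notMem hθ, indicator_of_notMem this]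

/-- Splitting a window of `n` periods into `n` translated copies of one period. -/
theorem lintegral_Ioc_nsmul (G : ℝ → ℝ≥0∞) (c ℓ : ℝ) (hℓ : 0 ≤ ℓ) (n : ℕ) :
    ∫⁻ θ in Ioc c (c + n * ℓ), G θ
      = ∑ k ∈ Finset.range n, ∫⁻ θ in Ioc c (c + ℓ), G (θ + k * ℓ) := by
  induction n with
  | zero => simp
  | succ n ih =>
    have h1 : c ≤ c + n * ℓ := by nlinarith [Nat.cast_nonneg (α := ℝ) n]
    have h2 : c + n * ℓ ≤ c + ((n + 1 : ℕ) : ℝ) * ℓ := by push_cast; nlinarith
    rw [← Ioc_union_Ioc_eq_Ioc h1 h2,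
      lintegral_union measurableSet_Ioc (Ioc_disjoint_Ioc_of_le le_rfl), ih,
      Finset.sum_range_succ]
    congr 1
    rw [lintegral_Ioc_add]
    have e : c + ((n + 1 : ℕ) : ℝ) * ℓ = c + ℓ + n * ℓ := by push_cast; ring
    rw [e]

/-- Sector decomposition of a `2π`-periodic integrand: `N` sectors of width `ℓ = 2π/N`
starting at `c`, each split in two halves. -/
theorem lintegral_sectors (G : ℝ → ℝ≥0∞) (hper : Function.Periodic G (2 * π)) (N : ℕ)
    (hN : 0 < N) (c : ℝ) :
    ∫⁻ θ in Ioc 0 (2 * π), G θ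
      = ∑ k ∈ Finset.range N, ((∫⁻ θ in Ioo c (c + π / N), G (θ + k * (2 * π / N)))
          + ∫⁻ θ in Ioo (c + π / N) (c + 2 * π / N), G (θ + k * (2 * π / N))) := by
  have hNpos : (0 : ℝ) < N := Nat.cast_pos.mpr hN
  have hpi : (0 : ℝ) < 2 * π := by positivity
  have hℓ : (0 : ℝ) ≤ 2 * π / N := by positivity
  have e0 : ∫⁻ θ in Ioc 0 (2 * π), G θ = ∫⁻ θ in Ioc c (c + N * (2 * π / N)), G θ := by
    have := lintegral_Ioc_periodic hpi G hper 0 c
    rw [zero_add] at this
    rw [this]
    congr 3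
    field_simp
  rw [e0, lintegral_Ioc_nsmul G c _ hℓ N]
  refine Finset.sum_congr rfl (fun k _ => ?_)
  have h1 : c ≤ c + π / N := by
    have : 0 ≤ π / N := by positivity
    linarith
  have h2 : c + π / N ≤ c + 2 * π / N := by
    have : π / N ≤ 2 * π / N := by
      apply div_le_div_of_nonneg_right _ hNpos.le
      linarith [Real.pi_pos]
    linarith
  rw [← Ioc_union_Ioc_eq_Ioc h1 h2,
    lintegral_union measurableSet_Ioc (Ioc_disjoint_Ioc_of_le le_rfl)]
  congr 1
  · exact (setLIntegral_congr Ioo_ae_eq_Ioc).symm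
  · exact (setLIntegral_congr Ioo_ae_eq_Ioc).symm

/-- Value of `arg` of a rotated nonzero complex number, given the branch. -/
theorem arg_exp_mul_of_mem {w : ℂ} (hw : w ≠ 0) (t : ℝ) (m : ℤ)
    (h : t + Complex.arg w - 2 * m * π ∈ Ioc (-π) π) :
    Complex.arg (Complex.exp (t * Complex.I) * w) = t + Complex.arg w - 2 * m * π := by
  have hr : 0 < ‖w‖ := norm_pos_iff.mpr hw
  have key : Complex.exp (t * Complex.I) * w
      = (‖w‖ : ℂ) * (Complex.cos ((t + Complex.arg w - 2 * m * π : ℝ) : ℂ)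
          + Complex.sin ((t + Complex.arg w - 2 * m * π : ℝ) : ℂ) * Complex.I) := by
    rw [← Complex.exp_mul_I]
    conv_lhs => rw [← Complex.norm_mul_exp_arg_mul_I w]
    rw [mul_left_comm, ← Complex.exp_add]
    congr 1
    have : ((t + Complex.arg w - 2 * m * π : ℝ) : ℂ) * Complex.I
        = (t * Complex.I + Complex.arg w * Complex.I) - m * (2 * π * Complex.I) := by
      push_cast; ring
    rw [this, Complex.exp_sub, Complex.exp_int_mul_two_pi_mul_I, div_one]
  rw [key, Complex.arg_mul_cos_add_sin_mul_I hr h]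

/-- Power of a rotated complex number. -/
theorem exp_mul_pow (N : ℕ) (θ : ℝ) (z : ℂ) :
    (Complex.exp (θ * Complex.I) * z) ^ N
      = Complex.exp (((N * θ : ℝ) : ℂ) * Complex.I) * z ^ N := by
  rw [mul_pow, ← Complex.exp_nat_mul]
  congr 2
  push_cast; ring

/-- On the first half of a sector, `arg` of the `N`-th power is `N (θ - c)`. -/
theorem arg_first_half (N : ℕ) (hN : 0 < N) {z : ℂ} (hz : z ≠ 0) (k : ℕ) {θ : ℝ}
    (hθ : θ ∈ Ioo (-(Complex.arg (z ^ N)) / N) (-(Complex.arg (z ^ N)) / N + π / N)) :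
    Complex.arg ((Complex.exp (((θ + k * (2 * π / N) : ℝ) : ℂ) * Complex.I) * z) ^ N)
      = N * θ + Complex.arg (z ^ N) ∧
    0 < N * θ + Complex.arg (z ^ N) ∧ N * θ + Complex.arg (z ^ N) < π := by
  have hNpos : (0 : ℝ) < N := Nat.cast_pos.mpr hN
  have hw : z ^ N ≠ 0 := pow_ne_zero _ hz
  have h1 : 0 < N * θ + Complex.arg (z ^ N) := by
    have := hθ.1
    rw [div_lt_iff₀ hNpos] at this
    linarith
  have h2 : N * θ + Complex.arg (z ^ N) < π := by
    have := hθ.2
    rw [← add_div, lt_div_iff₀ hNpos] at this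
    linarith
  refine ⟨?_, h1, h2⟩
  rw [exp_mul_pow]
  have e : (N : ℝ) * (θ + k * (2 * π / N)) + Complex.arg (z ^ N) - 2 * ((k : ℕ) : ℤ) * π
      = N * θ + Complex.arg (z ^ N) := by
    push_cast; field_simp; ring
  have := arg_exp_mul_of_mem hw ((N : ℝ) * (θ + k * (2 * π / N))) (k : ℤ)
    (by rw [e]; exact ⟨by linarith [Real.pi_pos], h2.le⟩)
  rw [this, e]

/-- On the second half of a sector, `arg` of the `N`-th power is `N (θ - c) - 2π`. -/
theorem arg_second_half (N : ℕ) (hN : 0 < N) {z : ℂ} (hz : z ≠ 0) (k : ℕ) {θ : ℝ}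
    (hθ : θ ∈ Ioo (-(Complex.arg (z ^ N)) / N + π / N) (-(Complex.arg (z ^ N)) / N + 2 * π / N)) :
    Complex.arg ((Complex.exp (((θ + k * (2 * π / N) : ℝ) : ℂ) * Complex.I) * z) ^ N)
      = N * θ + Complex.arg (z ^ N) - 2 * π ∧
    -π < N * θ + Complex.arg (z ^ N) - 2 * π ∧ N * θ + Complex.arg (z ^ N) - 2 * π < 0 := by
  have hNpos : (0 : ℝ) < N := Nat.cast_pos.mpr hN
  have hw : z ^ N ≠ 0 := pow_ne_zero _ hz
  have h1 : -π < N * θ + Complex.arg (z ^ N) - 2 * π := by
    have := hθ.1
    rw [← add_div, div_lt_iff₀ hNpos] at this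
    linarith
  have h2 : N * θ + Complex.arg (z ^ N) - 2 * π < 0 := by
    have := hθ.2
    rw [← add_div, lt_div_iff₀ hNpos] at this
    linarith
  refine ⟨?_, h1, h2⟩
  rw [exp_mul_pow]
  have e : (N : ℝ) * (θ + k * (2 * π / N)) + Complex.arg (z ^ N) - 2 * ((k + 1 : ℕ) : ℤ) * π
      = N * θ + Complex.arg (z ^ N) - 2 * π := by
    push_cast; field_simp; ring
  have := arg_exp_mul_of_mem hw ((N : ℝ) * (θ + k * (2 * π / N))) ((k + 1 : ℕ) : ℤ)
    (by rw [e]; exact ⟨h1, by linarith [Real.pi_pos]⟩)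
  rw [this, e]

/-- Sector decomposition of the plain integral of a periodic function. -/
theorem lintegral_sectors' (h : ℝ → ℝ≥0∞) (hper : Function.Periodic h (2 * π)) (N : ℕ)
    (hN : 0 < N) (c : ℝ) :
    ∫⁻ θ in Ioc 0 (2 * π), h θ
      = ∑ k ∈ Finset.range N,
          ∫⁻ τ in Ioo (c + k * (2 * π / N)) (c + 2 * π / N + k * (2 * π / N)), h τ := by
  have hNpos : (0 : ℝ) < N := Nat.cast_pos.mpr hN
  have hpi : (0 : ℝ) < 2 * π := by positivity
  have hℓ : (0 : ℝ) ≤ 2 * π / N := by positivity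
  have e0 : ∫⁻ θ in Ioc 0 (2 * π), h θ = ∫⁻ θ in Ioc c (c + N * (2 * π / N)), h θ := by
    have := lintegral_Ioc_periodic hpi h hper 0 c
    rw [zero_add] at this
    rw [this]
    congr 3
    field_simp
  rw [e0, lintegral_Ioc_nsmul h c _ hℓ N]
  refine Finset.sum_congr rfl (fun k _ => ?_)
  rw [lintegral_Ioc_add]
  exact (setLIntegral_congr Ioo_ae_eq_Ioc).symm

/-- **1-D expansion lemma, upper half.** -/
theorem oneDim_pos (N : ℕ) (hN : 0 < N) {z : ℂ} (hz : z ≠ 0) (h : ℝ → ℝ≥0∞)
    (hm : Measurable h) (hper : Function.Periodic h (2 * π)) :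
    ∫⁻ θ in Ioc 0 (2 * π),
        h (Complex.arg ((Complex.exp (θ * Complex.I) * z) ^ N) / N + θ)
          * (if 0 ≤ ((Complex.exp (θ * Complex.I) * z) ^ N).im then 1 else 0)
      = (1 / 2 : ℝ≥0∞) * ∫⁻ θ in Ioc 0 (2 * π), h θ := by
  have hNpos : (0 : ℝ) < N := Nat.cast_pos.mpr hN
  set c : ℝ := -(Complex.arg (z ^ N)) / N with hc
  set G : ℝ → ℝ≥0∞ := fun θ =>
    h (Complex.arg ((Complex.exp (θ * Complex.I) * z) ^ N) / N + θ)
      * (if 0 ≤ ((Complex.exp (θ * Complex.I) * z) ^ N).im then 1 else 0) with hG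
  have hGper : Function.Periodic G (2 * π) := by
    intro θ
    have e : Complex.exp (((θ + 2 * π : ℝ) : ℂ) * Complex.I) = Complex.exp ((θ : ℂ) * Complex.I) := by
      have := Complex.exp_mul_I_periodic (θ : ℂ)
      simpa using this
    simp only [hG, e]
    rw [← add_assoc, hper]
  rw [lintegral_sectors G hGper N hN c, lintegral_sectors' h hper N hN c, Finset.mul_sum]
  refine Finset.sum_congr rfl (fun k _ => ?_)
  have p1 : ∫⁻ θ in Ioo c (c + π / N), G (θ + k * (2 * π / N))
      = ∫⁻ θ in Ioo c (c + π / N), h (2 * θ + (-c + k * (2 * π / N))) := by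
    refine setLIntegral_congr_fun measurableSet_Ioo (fun θ hθ => ?_)
    obtain ⟨e1, e2, e3⟩ := arg_first_half N hN hz k hθ
    have him : 0 ≤ ((Complex.exp (((θ + k * (2 * π / N) : ℝ) : ℂ) * Complex.I) * z) ^ N).im := by
      rw [← Complex.arg_nonneg_iff, e1]; exact e2.le
    simp only [hG, e1, if_pos him, mul_one]
    congr 1
    rw [hc]; field_simp; ring
  have p2 : ∫⁻ θ in Ioo (c + π / N) (c + 2 * π / N), G (θ + k * (2 * π / N)) = 0 := by
    rw [← lintegral_zero (μ := volume.restrict (Ioo (c + π / N) (c + 2 * π / N)))]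
    refine setLIntegral_congr_fun measurableSet_Ioo (fun θ hθ => ?_)
    obtain ⟨e1, e2, e3⟩ := arg_second_half N hN hz k hθ
    have him : ¬ 0 ≤ ((Complex.exp (((θ + k * (2 * π / N) : ℝ) : ℂ) * Complex.I) * z) ^ N).im := by
      rw [not_le, ← Complex.arg_neg_iff, e1]; exact e3
    simp only [hG, if_neg him, mul_zero]
  rw [p1, p2, add_zero, lintegral_Ioo_two_mul_add h hm]
  have q1 : 2 * c + (-c + k * (2 * π / N)) = c + k * (2 * π / N) := by ring
  have q2 : 2 * (c + π / N) + (-c + k * (2 * π / N)) = c + 2 * π / N + k * (2 * π / N) := by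
    ring
  rw [q1, q2]

/-- **1-D expansion lemma, lower half.** -/
theorem oneDim_neg (N : ℕ) (hN : 0 < N) {z : ℂ} (hz : z ≠ 0) (h : ℝ → ℝ≥0∞)
    (hm : Measurable h) (hper : Function.Periodic h (2 * π)) :
    ∫⁻ θ in Ioc 0 (2 * π),
        h (Complex.arg ((Complex.exp (θ * Complex.I) * z) ^ N) / N + θ)
          * (if ((Complex.exp (θ * Complex.I) * z) ^ N).im < 0 then 1 else 0)
      = (1 / 2 : ℝ≥0∞) * ∫⁻ θ in Ioc 0 (2 * π), h θ := by
  have hNpos : (0 : ℝ) < N := Nat.cast_pos.mpr hN
  set c : ℝ := -(Complex.arg (z ^ N)) / N with hc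
  set G : ℝ → ℝ≥0∞ := fun θ =>
    h (Complex.arg ((Complex.exp (θ * Complex.I) * z) ^ N) / N + θ)
      * (if ((Complex.exp (θ * Complex.I) * z) ^ N).im < 0 then 1 else 0) with hG
  have hGper : Function.Periodic G (2 * π) := by
    intro θ
    have e : Complex.exp (((θ + 2 * π : ℝ) : ℂ) * Complex.I) = Complex.exp ((θ : ℂ) * Complex.I) := by
      have := Complex.exp_mul_I_periodic (θ : ℂ)
      simpa using this
    simp only [hG, e]
    rw [← add_assoc, hper]
  rw [lintegral_sectors G hGper N hN c, lintegral_sectors' h hper N hN c, Finset.mul_sum]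
  refine Finset.sum_congr rfl (fun k _ => ?_)
  have p1 : ∫⁻ θ in Ioo c (c + π / N), G (θ + k * (2 * π / N)) = 0 := by
    rw [← lintegral_zero (μ := volume.restrict (Ioo c (c + π / N)))]
    refine setLIntegral_congr_fun measurableSet_Ioo (fun θ hθ => ?_)
    obtain ⟨e1, e2, e3⟩ := arg_first_half N hN hz k hθ
    have him : ¬ ((Complex.exp (((θ + k * (2 * π / N) : ℝ) : ℂ) * Complex.I) * z) ^ N).im < 0 := by
      rw [← Complex.arg_neg_iff, e1, not_lt]; exact e2.le
    simp only [hG, if_neg him, mul_zero]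
  have p2 : ∫⁻ θ in Ioo (c + π / N) (c + 2 * π / N), G (θ + k * (2 * π / N))
      = ∫⁻ θ in Ioo (c + π / N) (c + 2 * π / N),
          h (2 * θ + (-c - 2 * π / N + k * (2 * π / N))) := by
    refine setLIntegral_congr_fun measurableSet_Ioo (fun θ hθ => ?_)
    obtain ⟨e1, e2, e3⟩ := arg_second_half N hN hz k hθ
    have him : ((Complex.exp (((θ + k * (2 * π / N) : ℝ) : ℂ) * Complex.I) * z) ^ N).im < 0 := by
      rw [← Complex.arg_neg_iff, e1]; exact e3
    simp only [hG, e1, if_pos him, mul_one]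
    congr 1
    rw [hc]; field_simp; ring
  rw [p1, p2, zero_add, lintegral_Ioo_two_mul_add h hm]
  have q1 : 2 * (c + π / N) + (-c - 2 * π / N + k * (2 * π / N)) = c + k * (2 * π / N) := by
    ring
  have q2 : 2 * (c + 2 * π / N) + (-c - 2 * π / N + k * (2 * π / N))
      = c + 2 * π / N + k * (2 * π / N) := by
    ring
  rw [q1, q2]

end OneDim

section Action

variable {X : Type*} [MeasurableSpace X]

/-- A jointly measurable action of `ℝ` on `X` which factors through `ℝ / 2πℤ`. -/
structure IsCircleAction (R : ℝ → X → X) : Prop where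
  meas : Measurable (fun p : ℝ × X => R p.1 p.2)
  zero : ∀ x, R 0 x = x
  add : ∀ θ φ x, R (θ + φ) x = R θ (R φ x)
  per : ∀ x, R (2 * Real.pi) x = x

theorem IsCircleAction.measurable_apply {R : ℝ → X → X} (hR : IsCircleAction R) (θ : ℝ) :
    Measurable (R θ) :=
  hR.meas.comp (measurable_const.prodMk measurable_id)

theorem IsCircleAction.measurable_orbit {R : ℝ → X → X} (hR : IsCircleAction R) (x : X) :
    Measurable (fun θ => R θ x) :=
  hR.meas.comp (measurable_id.prodMk measurable_const)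

theorem IsCircleAction.periodic {R : ℝ → X → X} (hR : IsCircleAction R) (x : X) :
    Function.Periodic (fun θ => R θ x) (2 * Real.pi) := by
  intro θ
  simp only [hR.add, hR.per]

/-- **General averaging identity.** If, along (almost) every orbit, the twisted angular integral
is `κ` times the plain one, then `x ↦ R (ψ x) x` pushes `w • ν` to `κ • ν`. -/
theorem lintegral_twist {R : ℝ → X → X} (hR : IsCircleAction R) (ν : Measure X) [SFinite ν]
    (hν : ∀ θ, ν.map (R θ) = ν) (ψ : X → ℝ) (hψ : Measurable ψ) (w : X → ℝ≥0∞)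
    (hw : Measurable w) (κ : ℝ≥0∞)
    (H : ∀ᵐ x ∂ν, ∀ h : ℝ → ℝ≥0∞, Measurable h → Function.Periodic h (2 * Real.pi) →
      ∫⁻ θ in Ioc 0 (2 * Real.pi), h (ψ (R θ x) + θ) * w (R θ x)
        = κ * ∫⁻ θ in Ioc 0 (2 * Real.pi), h θ)
    (g : X → ℝ≥0∞) (hg : Measurable g) :
    ∫⁻ x, g (R (ψ x) x) * w x ∂ν = κ * ∫⁻ x, g x ∂ν := by
  set I := Ioc (0 : ℝ) (2 * Real.pi) with hIdef
  have hpi : (0 : ℝ) < 2 * Real.pi := by positivity
  have hI : volume I = ENNReal.ofReal (2 * Real.pi) := by simp [hIdef]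
  have hI0 : volume I ≠ 0 := by
    rw [hI]; simpa using hpi
  have hItop : volume I ≠ ⊤ := by
    rw [hI]; exact ENNReal.ofReal_ne_top
  have hF : Measurable (fun x => g (R (ψ x) x) * w x) :=
    (hg.comp (hR.meas.comp (hψ.prodMk measurable_id))).mul hw
  have s1 : ∀ θ, ∫⁻ x, g (R (ψ x) x) * w x ∂ν
      = ∫⁻ x, g (R (ψ (R θ x) + θ) x) * w (R θ x) ∂ν := by
    intro θ
    conv_lhs => rw [← hν θ]
    rw [lintegral_map hF (hR.measurable_apply θ)]
    simp only [hR.add]
  have s2 : ∀ θ, ∫⁻ x, g (R θ x) ∂ν = ∫⁻ x, g x ∂ν := by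
    intro θ
    conv_rhs => rw [← hν θ]
    rw [lintegral_map hg (hR.measurable_apply θ)]
  have hm1 : Measurable (fun p : ℝ × X => g (R (ψ (R p.1 p.2) + p.1) p.2) * w (R p.1 p.2)) := by
    have h1 : Measurable (fun p : ℝ × X => (ψ (R p.1 p.2) + p.1, p.2)) :=
      ((hψ.comp hR.meas).add measurable_fst).prodMk measurable_snd
    exact (hg.comp (hR.meas.comp h1)).mul (hw.comp hR.meas)
  have hm2 : Measurable (fun p : ℝ × X => g (R p.1 p.2)) := hg.comp hR.meas
  have key : volume I * ∫⁻ x, g (R (ψ x) x) * w x ∂ν = volume I * (κ * ∫⁻ x, g x ∂ν) := by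
    calc volume I * ∫⁻ x, g (R (ψ x) x) * w x ∂ν
        = ∫⁻ _θ in I, (∫⁻ x, g (R (ψ x) x) * w x ∂ν) := by
          rw [setLIntegral_const, mul_comm]
      _ = ∫⁻ θ in I, (∫⁻ x, g (R (ψ (R θ x) + θ) x) * w (R θ x) ∂ν) :=
          lintegral_congr (fun θ => s1 θ)
      _ = ∫⁻ x, (∫⁻ θ in I, g (R (ψ (R θ x) + θ) x) * w (R θ x)) ∂ν :=
          lintegral_lintegral_swap
            (f := fun θ x => g (R (ψ (R θ x) + θ) x) * w (R θ x)) hm1.aemeasurable
      _ = ∫⁻ x, κ * (∫⁻ θ in I, g (R θ x)) ∂ν := by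
          refine lintegral_congr_ae ?_
          filter_upwards [H] with x hx
          exact hx (fun θ => g (R θ x)) (hg.comp (hR.measurable_orbit x))
            (fun θ => by simp only [hR.periodic x θ])
      _ = κ * ∫⁻ x, (∫⁻ θ in I, g (R θ x)) ∂ν := by
          refine lintegral_const_mul _ ?_
          exact (hm2.comp measurable_swap).lintegral_prod_right'
      _ = κ * ∫⁻ θ in I, (∫⁻ x, g (R θ x) ∂ν) := by
          rw [lintegral_lintegral_swap (f := fun θ x => g (R θ x)) hm2.aemeasurable]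
      _ = κ * ∫⁻ _θ in I, (∫⁻ x, g x ∂ν) := by simp_rw [s2]
      _ = volume I * (κ * ∫⁻ x, g x ∂ν) := by
          rw [setLIntegral_const]; ring
  exact (ENNReal.mul_right_inj hI0 hItop).mp key

/-- **Averaging lemma.** If `φ` is invariant under the action, the twist `x ↦ R (φ x) x`
preserves every invariant (s-finite) measure. -/
theorem map_twist_eq_self {R : ℝ → X → X} (hR : IsCircleAction R) (ν : Measure X) [SFinite ν]
    (hν : ∀ θ, ν.map (R θ) = ν) (φ : X → ℝ) (hφ : Measurable φ)
    (hφR : ∀ θ x, φ (R θ x) = φ x) :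
    ν.map (fun x => R (φ x) x) = ν := by
  have hf : Measurable (fun x => R (φ x) x) := hR.meas.comp (hφ.prodMk measurable_id)
  ext S hS
  rw [Measure.map_apply hf hS]
  have hpi : (0 : ℝ) < 2 * Real.pi := by positivity
  have := lintegral_twist hR ν hν φ hφ (fun _ => 1) measurable_const 1 ?_
    (S.indicator 1) (measurable_one.indicator hS)
  · simp only [mul_one, one_mul] at this
    rw [lintegral_indicator_one hS] at this
    rw [← this, ← lintegral_indicator_one (hf hS)]
    rfl
  · refine Filter.Eventually.of_forall (fun x h _ hper => ?_)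
    simp only [hφR, mul_one, one_mul]
    exact lintegral_Ioc_periodic_shift hpi h hper (φ x)

/-- The angular expansion `E_N x = R (arg (z x ^ N) / N) x`. -/
noncomputable def expand (R : ℝ → X → X) (z : X → ℂ) (N : ℕ) (x : X) : X :=
  R (Complex.arg (z x ^ N) / N) x

theorem measurable_expand {R : ℝ → X → X} (hR : IsCircleAction R) {z : X → ℂ}
    (hz : Measurable z) (N : ℕ) : Measurable (expand R z N) :=
  hR.meas.comp (((Complex.measurable_arg.comp (hz.pow_const N)).div_const _).prodMk measurable_id)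

/-- **Expansion lemma, upper half.** The angular expansion pushes the restriction of an invariant
measure to `{0 ≤ Im (z^N)}` onto half of the measure. -/
theorem map_expand_pos {R : ℝ → X → X} (hR : IsCircleAction R) (ν : Measure X) [SFinite ν]
    (hν : ∀ θ, ν.map (R θ) = ν) (z : X → ℂ) (hz : Measurable z)
    (hzR : ∀ θ x, z (R θ x) = Complex.exp (θ * Complex.I) * z x)
    (hz0 : ∀ᵐ x ∂ν, z x ≠ 0) (N : ℕ) (hN : 0 < N) :
    (ν.restrict {x | 0 ≤ (z x ^ N).im}).map (expand R z N) = (1 / 2 : ℝ≥0∞) • ν := by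
  have hE := measurable_expand hR hz N
  have hS : MeasurableSet {x | 0 ≤ (z x ^ N).im} :=
    measurableSet_le measurable_const (Complex.measurable_im.comp (hz.pow_const N))
  ext T hT
  rw [Measure.map_apply hE hT, Measure.restrict_apply (hE hT), Measure.smul_apply, smul_eq_mul]
  have hψ : Measurable (fun x => Complex.arg (z x ^ N) / N) :=
    (Complex.measurable_arg.comp (hz.pow_const N)).div_const _
  have hw : Measurable (fun x => if 0 ≤ (z x ^ N).im then (1 : ℝ≥0∞) else 0) :=
    Measurable.ite hS measurable_const measurable_const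
  have key := lintegral_twist hR ν hν (fun x => Complex.arg (z x ^ N) / N) hψ
    (fun x => if 0 ≤ (z x ^ N).im then (1 : ℝ≥0∞) else 0) hw (1 / 2) ?_
    (T.indicator 1) (measurable_one.indicator hT)
  · rw [lintegral_indicator_one hT] at key
    rw [← key, ← lintegral_indicator_one ((hE hT).inter hS)]
    refine lintegral_congr (fun x => ?_)
    by_cases h1 : expand R z N x ∈ T <;> by_cases h2 : 0 ≤ (z x ^ N).im
    · rw [indicator_of_mem (show x ∈ expand R z N ⁻¹' T ∩ {x | 0 ≤ (z x ^ N).im} from ⟨h1, h2⟩),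
        if_pos h2, indicator_of_mem (show R (Complex.arg (z x ^ N) / N) x ∈ T from h1)]
      simp
    · rw [indicator_of_notMem (fun h => h2 h.2), if_neg h2, mul_zero]
    · rw [indicator_of_notMem (fun h => h1 h.1),
        indicator_of_notMem (show R (Complex.arg (z x ^ N) / N) x ∉ T from h1), zero_mul]
    · rw [indicator_of_notMem (fun h => h1 h.1), if_neg h2, mul_zero]
  · filter_upwards [hz0] with x hx h hm hper
    simp only [hzR]
    exact oneDim_pos N hN hx h hm hper

/-- **Expansion lemma, lower half.** -/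
theorem map_expand_neg {R : ℝ → X → X} (hR : IsCircleAction R) (ν : Measure X) [SFinite ν]
    (hν : ∀ θ, ν.map (R θ) = ν) (z : X → ℂ) (hz : Measurable z)
    (hzR : ∀ θ x, z (R θ x) = Complex.exp (θ * Complex.I) * z x)
    (hz0 : ∀ᵐ x ∂ν, z x ≠ 0) (N : ℕ) (hN : 0 < N) :
    (ν.restrict {x | (z x ^ N).im < 0}).map (expand R z N) = (1 / 2 : ℝ≥0∞) • ν := by
  have hE := measurable_expand hR hz N
  have hS : MeasurableSet {x | (z x ^ N).im < 0} :=
    measurableSet_lt (Complex.measurable_im.comp (hz.pow_const N)) measurable_const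
  ext T hT
  rw [Measure.map_apply hE hT, Measure.restrict_apply (hE hT), Measure.smul_apply, smul_eq_mul]
  have hψ : Measurable (fun x => Complex.arg (z x ^ N) / N) :=
    (Complex.measurable_arg.comp (hz.pow_const N)).div_const _
  have hw : Measurable (fun x => if (z x ^ N).im < 0 then (1 : ℝ≥0∞) else 0) :=
    Measurable.ite hS measurable_const measurable_const
  have key := lintegral_twist hR ν hν (fun x => Complex.arg (z x ^ N) / N) hψ
    (fun x => if (z x ^ N).im < 0 then (1 : ℝ≥0∞) else 0) hw (1 / 2) ?_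
    (T.indicator 1) (measurable_one.indicator hT)
  · rw [lintegral_indicator_one hT] at key
    rw [← key, ← lintegral_indicator_one ((hE hT).inter hS)]
    refine lintegral_congr (fun x => ?_)
    by_cases h1 : expand R z N x ∈ T <;> by_cases h2 : (z x ^ N).im < 0
    · rw [indicator_of_mem (show x ∈ expand R z N ⁻¹' T ∩ {x | (z x ^ N).im < 0} from ⟨h1, h2⟩),
        if_pos h2, indicator_of_mem (show R (Complex.arg (z x ^ N) / N) x ∈ T from h1)]
      simp
    · rw [indicator_of_notMem (fun h => h2 h.2), if_neg h2, mul_zero]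
    · rw [indicator_of_notMem (fun h => h1 h.1),
        indicator_of_notMem (show R (Complex.arg (z x ^ N) / N) x ∉ T from h1), zero_mul]
    · rw [indicator_of_notMem (fun h => h1 h.1), if_neg h2, mul_zero]
  · filter_upwards [hz0] with x hx h hm hper
    simp only [hzR]
    exact oneDim_neg N hN hx h hm hper

omit [MeasurableSpace X] in
theorem expand_eq {R : ℝ → X → X} (z : X → ℂ) (N : ℕ) (x : X) :
    expand R z N x = R (Complex.arg (z x ^ N) / N) x := rfl

/-- The expansion moves a point along its orbit by an angle of absolute value at most `π / N`. -/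
theorem abs_expand_angle_le (z : ℂ) (N : ℕ) (hN : 0 < N) :
    |Complex.arg (z ^ N) / N| ≤ Real.pi / N := by
  have hNpos : (0 : ℝ) < N := Nat.cast_pos.mpr hN
  rw [abs_div, abs_of_pos hNpos]
  exact div_le_div_of_nonneg_right (Complex.abs_arg_le_pi _) hNpos.le

end Action

end Crest.Agent.S0175lib
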