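import Mathlib

/-!
# Row 130 (S0175): abstract parity obstruction (no Monge plan on a two-valued contact set)

`parity_obstruction`: let `μ` be a finite measure, `I` a measurable set of positive measure,
`a b : X → X` measurable and injective on `I` with `a#(μ|I) = b#(μ|I) = (1/2) μ|Iᶜ`.
Then there is no measure preserving `T` sending a.e. point of `I` outside `I` and such that
a.e. point `y ∉ I` with `T y ∈ I` satisfies `a (T y) = y ∨ b (T y) = y`.
-/

set_option autoImplicit false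
open MeasureTheory
open scoped ENNReal

namespace Crest.Agent.S0175lib

/-- Half of the parity argument: the set of `x ∈ I` with `T (a x) = x` is null. -/
theorem parity_null {X : Type*} [MeasurableSpace X] [MeasurableEq X] (μ : Measure X)
    [IsFiniteMeasure μ] (I : Set X) (hI : MeasurableSet I)
    (a T : X → X) (ha : Measurable a) (hT : Measurable T)
    (hpa : ∀ S, MeasurableSet S → μ (Iᶜ ∩ S) = 2 * μ (I ∩ a ⁻¹' S))
    (hTμ : μ.map T = μ) :
    μ (I ∩ {x | T (a x) = x}) = 0 := by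
  set Q : Set X := I ∩ {x | T (a x) = x} with hQ
  have hQm : MeasurableSet Q :=
    hI.inter (measurableSet_eq_fun (hT.comp ha) measurable_id)
  have h1 : μ (T ⁻¹' Q) = μ Q := by
    rw [← Measure.map_apply hT hQm, hTμ]
  have h2 : Q ⊆ I ∩ a ⁻¹' (T ⁻¹' Q) := by
    intro x hx
    refine ⟨hx.1, ?_⟩
    have hx' : T (a x) = x := hx.2
    simp only [Set.mem_preimage]
    rw [hx']
    exact hx
  have h3 : 2 * μ Q ≤ μ Q := by
    calc 2 * μ Q ≤ 2 * μ (I ∩ a ⁻¹' (T ⁻¹' Q)) := by gcongr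
      _ = μ (Iᶜ ∩ T ⁻¹' Q) := (hpa _ (hT hQm)).symm
      _ ≤ μ (T ⁻¹' Q) := measure_mono Set.inter_subset_right
      _ = μ Q := h1
  by_contra hne
  have hfin : μ Q ≠ ⊤ := measure_ne_top μ Q
  have : 2 * μ Q = μ Q + μ Q := two_mul _
  rw [this] at h3
  have h4 : μ Q + μ Q ≤ μ Q + 0 := by simpa using h3
  have := (ENNReal.add_le_add_iff_left hfin).mp h4
  exact hne (le_antisymm this zero_le)

/-- **Parity obstruction.** -/
theorem parity_obstruction {X : Type*} [MeasurableSpace X] [MeasurableEq X] (μ : Measure X)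
    [IsFiniteMeasure μ] (I : Set X) (hI : MeasurableSet I) (hIpos : μ I ≠ 0)
    (a b T : X → X) (ha : Measurable a) (hb : Measurable b) (hT : Measurable T)
    (hainj : Set.InjOn a I) (hbinj : Set.InjOn b I)
    (hpa : ∀ S, MeasurableSet S → μ (Iᶜ ∩ S) = 2 * μ (I ∩ a ⁻¹' S))
    (hpb : ∀ S, MeasurableSet S → μ (Iᶜ ∩ S) = 2 * μ (I ∩ b ⁻¹' S))
    (hTμ : μ.map T = μ)
    (hTI : ∀ᵐ x ∂μ, x ∈ I → T x ∉ I)
    (hTO : ∀ᵐ y ∂μ, y ∉ I → T y ∈ I → (a (T y) = y ∨ b (T y) = y)) : False := by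
  have hQA := parity_null μ I hI a T ha hT hpa hTμ
  have hQB := parity_null μ I hI b T hb hT hpb hTμ
  set A : Set X := T ⁻¹' I ∩ {y | a (T y) = y} with hA
  set B : Set X := T ⁻¹' I ∩ {y | b (T y) = y} with hB
  have hAm : MeasurableSet A := (hT hI).inter (measurableSet_eq_fun (ha.comp hT) measurable_id)
  have hBm : MeasurableSet B := (hT hI).inter (measurableSet_eq_fun (hb.comp hT) measurable_id)
  -- `T ⁻¹' I ⊆ᵐ Iᶜ ∩ (A ∪ B)`
  have hsub : ∀ᵐ y ∂μ, y ∈ T ⁻¹' I → y ∈ (Iᶜ ∩ A) ∪ (Iᶜ ∩ B) := by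
    filter_upwards [hTI, hTO] with y h1 h2 hy
    have hyI : y ∉ I := fun h => h1 h hy
    rcases h2 hyI hy with h | h
    · exact Or.inl ⟨hyI, hy, h⟩
    · exact Or.inr ⟨hyI, hy, h⟩
  have hle : μ (T ⁻¹' I) ≤ μ ((Iᶜ ∩ A) ∪ (Iᶜ ∩ B)) := measure_mono_ae hsub
  have hTI' : μ (T ⁻¹' I) = μ I := by rw [← Measure.map_apply hT hI, hTμ]
  have hA0 : μ (Iᶜ ∩ A) = 0 := by
    rw [hpa A hAm]
    have hsubA : I ∩ a ⁻¹' A ⊆ I ∩ {x | T (a x) = x} := by
      intro x hx
      refine ⟨hx.1, ?_⟩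
      have h1 : T (a x) ∈ I := hx.2.1
      have h2 : a (T (a x)) = a x := hx.2.2
      exact hainj h1 hx.1 h2
    rw [measure_mono_null hsubA hQA, mul_zero]
  have hB0 : μ (Iᶜ ∩ B) = 0 := by
    rw [hpb B hBm]
    have hsubB : I ∩ b ⁻¹' B ⊆ I ∩ {x | T (b x) = x} := by
      intro x hx
      refine ⟨hx.1, ?_⟩
      have h1 : T (b x) ∈ I := hx.2.1
      have h2 : b (T (b x)) = b x := hx.2.2
      exact hbinj h1 hx.1 h2
    rw [measure_mono_null hsubB hQB, mul_zero]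
  have : μ I ≤ 0 := by
    calc μ I = μ (T ⁻¹' I) := hTI'.symm
      _ ≤ μ ((Iᶜ ∩ A) ∪ (Iᶜ ∩ B)) := hle
      _ ≤ μ (Iᶜ ∩ A) + μ (Iᶜ ∩ B) := measure_union_le _ _
      _ = 0 := by rw [hA0, hB0, add_zero]
  exact hIpos (le_antisymm this zero_le)

/-- Set form of `μ = μ|I + a#(μ|I) + b#(μ|I)`, `a#(μ|I) = b#(μ|I)`. -/
theorem parity_half_of_decomp {X : Type*} [MeasurableSpace X] (μ : Measure X)
    [IsFiniteMeasure μ] (I : Set X) (hI : MeasurableSet I)
    (a b : X → X) (ha : Measurable a)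
    (hab : (μ.restrict I).map a = (μ.restrict I).map b)
    (hμ : μ = μ.restrict I + (μ.restrict I).map a + (μ.restrict I).map b) :
    ∀ S, MeasurableSet S → μ (Iᶜ ∩ S) = 2 * μ (I ∩ a ⁻¹' S) := by
  have key : ∀ S, MeasurableSet S →
      μ S = μ (S ∩ I) + 2 * μ (a ⁻¹' S ∩ I) := by
    intro S hS
    have h := congrArg (fun m : Measure X => m S) hμ
    simp only [Measure.add_apply] at h
    rw [← hab, Measure.map_apply ha hS, Measure.restrict_apply hS,
      Measure.restrict_apply (ha hS)] at h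
    rw [h, two_mul, add_assoc]
  have hnull : μ (a ⁻¹' I ∩ I) = 0 := by
    have h := key I hI
    rw [Set.inter_self] at h
    have hfin : μ I ≠ ⊤ := measure_ne_top μ I
    have h' : μ I + 2 * μ (a ⁻¹' I ∩ I) ≤ μ I + 0 := by rw [add_zero]; exact h.symm.le
    have h2 := (ENNReal.add_le_add_iff_left hfin).mp h'
    have h3 : 2 * μ (a ⁻¹' I ∩ I) = 0 := le_antisymm h2 zero_le
    simpa using h3
  intro S hS
  have h := key (Iᶜ ∩ S) (hI.compl.inter hS)
  have e1 : Iᶜ ∩ S ∩ I = ∅ := by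
    ext x; simp only [Set.mem_inter_iff, Set.mem_compl_iff, Set.mem_empty_iff_false, iff_false]
    tauto
  rw [e1, measure_empty, zero_add] at h
  rw [h]
  congr 1
  apply le_antisymm
  · exact measure_mono (fun x hx => ⟨hx.2, hx.1.2⟩)
  · have hsub : I ∩ a ⁻¹' S ⊆ (a ⁻¹' (Iᶜ ∩ S) ∩ I) ∪ (a ⁻¹' I ∩ I) := by
      intro x hx
      by_cases hax : a x ∈ I
      · exact Or.inr ⟨hax, hx.1⟩
      · exact Or.inl ⟨⟨hax, hx.2⟩, hx.1⟩
    calc μ (I ∩ a ⁻¹' S) ≤ μ ((a ⁻¹' (Iᶜ ∩ S) ∩ I) ∪ (a ⁻¹' I ∩ I)) := measure_mono hsub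
      _ ≤ μ (a ⁻¹' (Iᶜ ∩ S) ∩ I) + μ (a ⁻¹' I ∩ I) := measure_union_le _ _
      _ = μ (a ⁻¹' (Iᶜ ∩ S) ∩ I) := by rw [hnull, add_zero]

/-- **Parity obstruction**, measure-decomposition form (helper21's statement D). -/
theorem parity_obstruction' {X : Type*} [MeasurableSpace X] [MeasurableEq X] (μ : Measure X)
    [IsFiniteMeasure μ] (I : Set X) (hI : MeasurableSet I) (hIpos : μ I ≠ 0)
    (a b T : X → X) (ha : Measurable a) (hb : Measurable b) (hT : Measurable T)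
    (hainj : Set.InjOn a I) (hbinj : Set.InjOn b I)
    (hab : (μ.restrict I).map a = (μ.restrict I).map b)
    (hμ : μ = μ.restrict I + (μ.restrict I).map a + (μ.restrict I).map b)
    (hTμ : μ.map T = μ)
    (hT2 : ∀ᵐ x ∂μ, (x ∈ I → T x ∉ I) ∧ (x ∉ I → T x ∈ I → (x = a (T x) ∨ x = b (T x)))) :
    False := by
  have hpa := parity_half_of_decomp μ I hI a b ha hab hμ
  have hμ' : μ = μ.restrict I + (μ.restrict I).map b + (μ.restrict I).map a := by
    rw [add_assoc, add_comm ((μ.restrict I).map b), ← add_assoc]; exact hμ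
  have hpb := parity_half_of_decomp μ I hI b a hb hab.symm hμ'
  refine parity_obstruction μ I hI hIpos a b T ha hb hT hainj hbinj hpa hpb hTμ ?_ ?_
  · filter_upwards [hT2] with x hx using hx.1
  · filter_upwards [hT2] with x hx h1 h2
    rcases hx.2 h1 h2 with h | h
    · exact Or.inl h.symm
    · exact Or.inr h.symm

end Crest.Agent.S0175lib
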