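import Mathlib
import Crest.Agent.S0175.Parity

/-!
# Row 130 (S0175): abstract transverse rigidity (parallelogram argument)

`transverse_rigidity`: `μ = μ|I + a#(μ|I) + b#(μ|I)` with `a#(μ|I) = b#(μ|I)`; `w : X → F`
("transverse part") with `w (a x) = w (b x) = lam x • w x` on `I`; `T₂, T₃` measure preserving
such that a.e. triple `(x, T₂ x, T₃ x)` has exactly one point `p` in `I` and the other two
`q, r` satisfy `w q + w r = (2 * lam p) • w p`.  Then a.e. `w q = w r`.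
-/

set_option autoImplicit false
open MeasureTheory
open scoped ENNReal

namespace Crest.Agent.S0175lib

/-- In a decomposition `μ = μ|I + a#(μ|I) + b#(μ|I)` of a finite measure, a.e. point of `I` is
mapped outside `I` by `a`. -/
theorem decomp_null_left {X : Type*} [MeasurableSpace X] (μ : Measure X)
    [IsFiniteMeasure μ] (I : Set X) (hI : MeasurableSet I)
    (a b : X → X) (ha : Measurable a)
    (hμ : μ = μ.restrict I + (μ.restrict I).map a + (μ.restrict I).map b) :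
    μ (a ⁻¹' I ∩ I) = 0 := by
  have h := congrArg (fun m : Measure X => m I) hμ
  simp only [Measure.add_apply] at h
  rw [Measure.map_apply ha hI, Measure.restrict_apply hI, Measure.restrict_apply (ha hI),
    Set.inter_self] at h
  have hfin : μ I ≠ ⊤ := measure_ne_top μ I
  have h' : μ I + (μ (a ⁻¹' I ∩ I) + ((μ.restrict I).map b) I) ≤ μ I + 0 := by
    rw [add_zero, ← add_assoc]; exact h.symm.le
  have h2 := (ENNReal.add_le_add_iff_left hfin).mp h'
  exact le_antisymm (le_trans le_self_add h2) zero_le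

theorem decomp_null_right {X : Type*} [MeasurableSpace X] (μ : Measure X)
    [IsFiniteMeasure μ] (I : Set X) (hI : MeasurableSet I)
    (a b : X → X) (hb : Measurable b)
    (hμ : μ = μ.restrict I + (μ.restrict I).map a + (μ.restrict I).map b) :
    μ (b ⁻¹' I ∩ I) = 0 := by
  have hμ' : μ = μ.restrict I + (μ.restrict I).map b + (μ.restrict I).map a := by
    rw [add_assoc, add_comm ((μ.restrict I).map b), ← add_assoc]; exact hμ
  exact decomp_null_left μ I hI b a hb hμ'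

/-- Integration against a decomposed measure. -/
theorem decomp_lintegral {X : Type*} [MeasurableSpace X] (μ : Measure X)
    (I : Set X) (a b : X → X) (ha : Measurable a) (hb : Measurable b)
    (hμ : μ = μ.restrict I + (μ.restrict I).map a + (μ.restrict I).map b)
    (g : X → ℝ≥0∞) (hg : Measurable g) :
    ∫⁻ x, g x ∂μ = ∫⁻ x in I, g x ∂μ + ∫⁻ x in I, g (a x) ∂μ + ∫⁻ x in I, g (b x) ∂μ := by
  calc ∫⁻ x, g x ∂μ
      = ∫⁻ x, g x ∂(μ.restrict I + (μ.restrict I).map a + (μ.restrict I).map b) := by rw [← hμ]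
    _ = ∫⁻ x in I, g x ∂μ + ∫⁻ x in I, g (a x) ∂μ + ∫⁻ x in I, g (b x) ∂μ := by
        rw [lintegral_add_measure, lintegral_add_measure, lintegral_map hg ha, lintegral_map hg hb]

theorem enorm_parallelogram {F : Type*} [NormedAddCommGroup F] [InnerProductSpace ℝ F]
    (u v : F) : ‖u + v‖ₑ ^ 2 + ‖u - v‖ₑ ^ 2 = 2 * (‖u‖ₑ ^ 2 + ‖v‖ₑ ^ 2) := by
  have h := parallelogram_law_with_norm ℝ u v
  have e : ∀ z : F, ‖z‖ₑ ^ 2 = ENNReal.ofReal (‖z‖ ^ 2) := by
    intro z
    rw [← ofReal_norm, ENNReal.ofReal_pow (norm_nonneg z)]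
  rw [e, e, e, e, ← ENNReal.ofReal_add (by positivity) (by positivity),
    ← ENNReal.ofReal_add (by positivity) (by positivity), h,
    ENNReal.ofReal_mul (by norm_num)]
  norm_num

theorem transverse_rigidity {X : Type*} [MeasurableSpace X] {F : Type*} [NormedAddCommGroup F]
    [InnerProductSpace ℝ F] [MeasurableSpace F] [BorelSpace F] [SecondCountableTopology F]
    (μ : Measure X) [IsFiniteMeasure μ] (I : Set X) (hI : MeasurableSet I)
    (a b T₂ T₃ : X → X) (ha : Measurable a) (hb : Measurable b)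
    (hT₂ : Measurable T₂) (hT₃ : Measurable T₃)
    (hμ : μ = μ.restrict I + (μ.restrict I).map a + (μ.restrict I).map b)
    (hT₂μ : μ.map T₂ = μ) (hT₃μ : μ.map T₃ = μ)
    (w : X → F) (lam : X → ℝ) (hw : Measurable w) (hlam : Measurable lam)
    (hwint : ∫⁻ x, ‖w x‖ₑ ^ 2 ∂μ ≠ ⊤)
    (hwa : ∀ x ∈ I, w (a x) = lam x • w x) (hwb : ∀ x ∈ I, w (b x) = lam x • w x)
    (hcontact : ∀ᵐ x ∂μ,
      (x ∈ I ∧ T₂ x ∉ I ∧ T₃ x ∉ I ∧ w (T₂ x) + w (T₃ x) = (2 * lam x) • w x) ∨
      (T₂ x ∈ I ∧ x ∉ I ∧ T₃ x ∉ I ∧ w x + w (T₃ x) = (2 * lam (T₂ x)) • w (T₂ x)) ∨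
      (T₃ x ∈ I ∧ x ∉ I ∧ T₂ x ∉ I ∧ w x + w (T₂ x) = (2 * lam (T₃ x)) • w (T₃ x))) :
    ∀ᵐ x ∂μ, (x ∈ I → w (T₂ x) = w (T₃ x)) ∧ (T₂ x ∈ I → w x = w (T₃ x)) ∧
      (T₃ x ∈ I → w x = w (T₂ x)) := by
  classical
  -- the two test functions
  set fO : X → ℝ≥0∞ := Iᶜ.indicator (fun x => ‖w x‖ₑ ^ 2) with hfO
  set fI : X → ℝ≥0∞ := I.indicator (fun x => 4 * ‖lam x • w x‖ₑ ^ 2) with hfI
  have hfOm : Measurable fO := (hw.enorm.pow_const 2).indicator hI.compl
  have hfIm : Measurable fI :=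
    ((measurable_const.mul ((hlam.smul hw).enorm.pow_const 2))).indicator hI
  set J : ℝ≥0∞ := ∫⁻ x in I, ‖lam x • w x‖ₑ ^ 2 ∂μ with hJ
  have hna : ∀ᵐ x ∂(μ.restrict I), a x ∉ I := by
    rw [ae_restrict_iff' hI]
    have h0 := decomp_null_left μ I hI a b ha hμ
    have : ∀ᵐ x ∂μ, x ∉ a ⁻¹' I ∩ I := measure_eq_zero_iff_ae_notMem.mp h0
    filter_upwards [this] with x hx hxI hax
    exact hx ⟨hax, hxI⟩
  have hnb : ∀ᵐ x ∂(μ.restrict I), b x ∉ I := by
    rw [ae_restrict_iff' hI]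
    have h0 := decomp_null_right μ I hI a b hb hμ
    have : ∀ᵐ x ∂μ, x ∉ b ⁻¹' I ∩ I := measure_eq_zero_iff_ae_notMem.mp h0
    filter_upwards [this] with x hx hxI hbx
    exact hx ⟨hbx, hxI⟩
  have hmemI : ∀ᵐ x ∂(μ.restrict I), x ∈ I := ae_restrict_mem hI
  -- `∫ fO = 2 J`
  have hO : ∫⁻ x, fO x ∂μ = 2 * J := by
    rw [decomp_lintegral μ I a b ha hb hμ fO hfOm]
    have e1 : ∫⁻ x in I, fO x ∂μ = 0 := by
      rw [lintegral_eq_zero_iff hfOm]
      filter_upwards [hmemI] with x hx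
      simp [hfO, hx]
    have e2 : ∫⁻ x in I, fO (a x) ∂μ = J := by
      apply lintegral_congr_ae
      filter_upwards [hmemI, hna] with x hx hax
      simp only [hfO, Set.indicator_of_mem (show a x ∈ Iᶜ from hax), hwa x hx]
    have e3 : ∫⁻ x in I, fO (b x) ∂μ = J := by
      apply lintegral_congr_ae
      filter_upwards [hmemI, hnb] with x hx hbx
      simp only [hfO, Set.indicator_of_mem (show b x ∈ Iᶜ from hbx), hwb x hx]
    rw [e1, e2, e3, zero_add, two_mul]
  -- `∫ fI = 4 J`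
  have hIint : ∫⁻ x, fI x ∂μ = 4 * J := by
    rw [decomp_lintegral μ I a b ha hb hμ fI hfIm]
    have e1 : ∫⁻ x in I, fI x ∂μ = 4 * J := by
      rw [hJ, ← lintegral_const_mul' _ _ (by norm_num)]
      apply lintegral_congr_ae
      filter_upwards [hmemI] with x hx
      simp only [hfI, Set.indicator_of_mem hx]
    have e2 : ∫⁻ x in I, fI (a x) ∂μ = 0 := by
      rw [lintegral_eq_zero_iff (f := fun x => fI (a x)) (hfIm.comp ha)]
      filter_upwards [hna] with x hax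
      simp [hfI, hax]
    have e3 : ∫⁻ x in I, fI (b x) ∂μ = 0 := by
      rw [lintegral_eq_zero_iff (f := fun x => fI (b x)) (hfIm.comp hb)]
      filter_upwards [hnb] with x hbx
      simp [hfI, hbx]
    rw [e1, e2, e3, add_zero, add_zero]
  have hOfin : ∫⁻ x, fO x ∂μ ≠ ⊤ := by
    refine ne_top_of_le_ne_top hwint (lintegral_mono fun x => ?_)
    simp only [hfO]
    exact Set.indicator_le_self _ _ x
  have hJfin : J ≠ ⊤ := by
    intro h
    rw [hO, h] at hOfin
    simp at hOfin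
  -- the defect
  set δ : X → ℝ≥0∞ := fun x =>
    if x ∈ I then ‖w (T₂ x) - w (T₃ x)‖ₑ ^ 2
    else if T₂ x ∈ I then ‖w x - w (T₃ x)‖ₑ ^ 2
    else if T₃ x ∈ I then ‖w x - w (T₂ x)‖ₑ ^ 2 else 0 with hδ
  have hδm : Measurable δ := by
    refine Measurable.ite hI (((hw.comp hT₂).sub (hw.comp hT₃)).enorm.pow_const 2) ?_
    refine Measurable.ite (hT₂ hI) ((hw.sub (hw.comp hT₃)).enorm.pow_const 2) ?_
    exact Measurable.ite (hT₃ hI) ((hw.sub (hw.comp hT₂)).enorm.pow_const 2) measurable_const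
  have h4 : ∀ (c : ℝ) (v : F), ‖(2 * c) • v‖ₑ ^ 2 = 4 * ‖c • v‖ₑ ^ 2 := by
    intro c v
    rw [mul_smul, enorm_smul (2 : ℝ), mul_pow]
    congr 1
    rw [Real.enorm_eq_ofReal_abs]
    norm_num
  -- pointwise identity
  have hpt : ∀ᵐ x ∂μ, fI x + fI (T₂ x) + fI (T₃ x) + δ x
      = 2 * (fO x + fO (T₂ x) + fO (T₃ x)) := by
    filter_upwards [hcontact] with x hx
    rcases hx with ⟨h1, h2, h3, h4'⟩ | ⟨h1, h2, h3, h4'⟩ | ⟨h1, h2, h3, h4'⟩
    · have hd : δ x = ‖w (T₂ x) - w (T₃ x)‖ₑ ^ 2 := by simp [hδ, h1]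
      rw [hd]
      simp only [hfI, hfO, Set.indicator_of_mem h1, Set.indicator_of_notMem h2,
        Set.indicator_of_notMem h3, Set.indicator_of_mem (show T₂ x ∈ Iᶜ from h2),
        Set.indicator_of_mem (show T₃ x ∈ Iᶜ from h3),
        Set.indicator_of_notMem (show x ∉ Iᶜ from fun h => h h1)]
      rw [← h4, ← h4', add_zero, add_zero, zero_add, enorm_parallelogram]
    · have hd : δ x = ‖w x - w (T₃ x)‖ₑ ^ 2 := by simp [hδ, h1, h2]
      rw [hd]
      simp only [hfI, hfO, Set.indicator_of_mem h1, Set.indicator_of_notMem h2,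
        Set.indicator_of_notMem h3, Set.indicator_of_mem (show x ∈ Iᶜ from h2),
        Set.indicator_of_mem (show T₃ x ∈ Iᶜ from h3),
        Set.indicator_of_notMem (show T₂ x ∉ Iᶜ from fun h => h h1)]
      rw [← h4, ← h4', add_zero, zero_add, add_zero, enorm_parallelogram]
    · have hd : δ x = ‖w x - w (T₂ x)‖ₑ ^ 2 := by simp [hδ, h1, h2, h3]
      rw [hd]
      simp only [hfI, hfO, Set.indicator_of_mem h1, Set.indicator_of_notMem h2,
        Set.indicator_of_notMem h3, Set.indicator_of_mem (show x ∈ Iᶜ from h2),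
        Set.indicator_of_mem (show T₂ x ∈ Iᶜ from h3),
        Set.indicator_of_notMem (show T₃ x ∉ Iᶜ from fun h => h h1)]
      rw [← h4, ← h4', zero_add, zero_add, add_zero, enorm_parallelogram]
  -- integrate
  have hmapI₂ : ∫⁻ x, fI (T₂ x) ∂μ = ∫⁻ x, fI x ∂μ := by
    rw [← lintegral_map hfIm hT₂, hT₂μ]
  have hmapI₃ : ∫⁻ x, fI (T₃ x) ∂μ = ∫⁻ x, fI x ∂μ := by
    rw [← lintegral_map hfIm hT₃, hT₃μ]
  have hmapO₂ : ∫⁻ x, fO (T₂ x) ∂μ = ∫⁻ x, fO x ∂μ := by
    rw [← lintegral_map hfOm hT₂, hT₂μ]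
  have hmapO₃ : ∫⁻ x, fO (T₃ x) ∂μ = ∫⁻ x, fO x ∂μ := by
    rw [← lintegral_map hfOm hT₃, hT₃μ]
  have hmI₂ : Measurable (fun x => fI (T₂ x)) := hfIm.comp hT₂
  have hmI₃ : Measurable (fun x => fI (T₃ x)) := hfIm.comp hT₃
  have hmO₂ : Measurable (fun x => fO (T₂ x)) := hfOm.comp hT₂
  have hmO₃ : Measurable (fun x => fO (T₃ x)) := hfOm.comp hT₃
  have hL : ∫⁻ x, (fI x + fI (T₂ x) + fI (T₃ x) + δ x) ∂μ
      = 4 * J + 4 * J + 4 * J + ∫⁻ x, δ x ∂μ := by
    rw [lintegral_add_right (fun x => fI x + fI (T₂ x) + fI (T₃ x)) hδm,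
      lintegral_add_right (fun x => fI x + fI (T₂ x)) hmI₃,
      lintegral_add_right (fun x => fI x) hmI₂, hmapI₂, hmapI₃, hIint]
  have hR : ∫⁻ x, 2 * (fO x + fO (T₂ x) + fO (T₃ x)) ∂μ = 2 * (2 * J + 2 * J + 2 * J) := by
    rw [lintegral_const_mul' _ _ (by norm_num),
      lintegral_add_right (fun x => fO x + fO (T₂ x)) hmO₃,
      lintegral_add_right (fun x => fO x) hmO₂, hmapO₂, hmapO₃, hO]
  have hint : 4 * J + 4 * J + 4 * J + ∫⁻ x, δ x ∂μ = 2 * (2 * J + 2 * J + 2 * J) := by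
    rw [← hL, ← hR]
    exact lintegral_congr_ae hpt
  have hδ0 : ∫⁻ x, δ x ∂μ = 0 := by
    have hfin : 4 * J + 4 * J + 4 * J ≠ ⊤ := by
      simp [ENNReal.mul_eq_top, hJfin]
    have h' : 4 * J + 4 * J + 4 * J + ∫⁻ x, δ x ∂μ ≤ 4 * J + 4 * J + 4 * J + 0 := by
      rw [hint, add_zero]
      apply le_of_eq
      ring
    exact le_antisymm ((ENNReal.add_le_add_iff_left hfin).mp h') zero_le
  have hδae : ∀ᵐ x ∂μ, δ x = 0 := (lintegral_eq_zero_iff hδm).mp hδ0
  filter_upwards [hδae, hcontact] with x hx hc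
  rcases hc with ⟨h1, h2, h3, -⟩ | ⟨h1, h2, h3, -⟩ | ⟨h1, h2, h3, -⟩
  · refine ⟨fun _ => ?_, fun h => absurd h h2, fun h => absurd h h3⟩
    have hd : δ x = ‖w (T₂ x) - w (T₃ x)‖ₑ ^ 2 := by simp [hδ, h1]
    rw [hd] at hx
    have := (pow_eq_zero_iff (two_ne_zero)).mp hx
    exact sub_eq_zero.mp (enorm_eq_zero.mp this)
  · refine ⟨fun h => absurd h h2, fun _ => ?_, fun h => absurd h h3⟩
    have hd : δ x = ‖w x - w (T₃ x)‖ₑ ^ 2 := by simp [hδ, h1, h2]
    rw [hd] at hx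
    have := (pow_eq_zero_iff (two_ne_zero)).mp hx
    exact sub_eq_zero.mp (enorm_eq_zero.mp this)
  · refine ⟨fun h => absurd h h2, fun h => absurd h h3, fun _ => ?_⟩
    have hd : δ x = ‖w x - w (T₂ x)‖ₑ ^ 2 := by simp [hδ, h1, h2, h3]
    rw [hd] at hx
    have := (pow_eq_zero_iff (two_ne_zero)).mp hx
    exact sub_eq_zero.mp (enorm_eq_zero.mp this)

/-! ### Geometry of twins in the plane spanned by two orthonormal vectors -/

section Twins

variable {V : Type*} [NormedAddCommGroup V] [InnerProductSpace ℝ V]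

/-- Planar projection onto the span of `e0`, `e1`. -/
noncomputable def planeP (e0 e1 : V) (x : V) : V := inner ℝ e0 x • e0 + inner ℝ e1 x • e1

/-- Quarter turn in the plane spanned by `e0`, `e1` (zero on the orthogonal complement). -/
noncomputable def planeJ (e0 e1 : V) (x : V) : V := -(inner ℝ e1 x) • e0 + inner ℝ e0 x • e1

theorem planeJ_norm_sq (e0 e1 : V) (h0 : ‖e0‖ = 1) (h1 : ‖e1‖ = 1) (h01 : inner ℝ e0 e1 = 0)
    (x : V) : ‖planeJ e0 e1 x‖ ^ 2 = inner ℝ e0 x ^ 2 + inner ℝ e1 x ^ 2 := by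
  have e00 : inner ℝ e0 e0 = 1 := by rw [real_inner_self_eq_norm_sq, h0]; norm_num
  have e11 : inner ℝ e1 e1 = 1 := by rw [real_inner_self_eq_norm_sq, h1]; norm_num
  have e10 : inner ℝ e1 e0 = 0 := by rw [real_inner_comm]; exact h01
  rw [← real_inner_self_eq_norm_sq]
  simp only [planeJ, inner_add_left, inner_add_right, inner_smul_left, inner_smul_right,
    e00, e11, e10, h01]
  simp
  ring

theorem planeP_norm_sq (e0 e1 : V) (h0 : ‖e0‖ = 1) (h1 : ‖e1‖ = 1) (h01 : inner ℝ e0 e1 = 0)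
    (x : V) : ‖planeP e0 e1 x‖ ^ 2 = inner ℝ e0 x ^ 2 + inner ℝ e1 x ^ 2 := by
  have e00 : inner ℝ e0 e0 = 1 := by rw [real_inner_self_eq_norm_sq, h0]; norm_num
  have e11 : inner ℝ e1 e1 = 1 := by rw [real_inner_self_eq_norm_sq, h1]; norm_num
  have e10 : inner ℝ e1 e0 = 0 := by rw [real_inner_comm]; exact h01
  rw [← real_inner_self_eq_norm_sq]
  simp only [planeP, inner_add_left, inner_add_right, inner_smul_left, inner_smul_right,
    e00, e11, e10, h01]
  simp
  ring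

/-- **Twins lemma.** If `q + r = (2κ) • p`, `‖q - r‖ = t`, `⟪q - r, p⟫ = 0` and the transverse
parts of `q`, `r` agree (`q - P q = r - P r`), and `P p ≠ 0`, then
`q = κ • p ± (t/2) • (‖P p‖⁻¹ • J p)` (and `r` is the other one). -/
theorem twins_in_plane (e0 e1 : V) (h0 : ‖e0‖ = 1) (h1 : ‖e1‖ = 1) (h01 : inner ℝ e0 e1 = 0)
    (p q r : V) (κ t : ℝ) (hsum : q + r = (2 * κ) • p) (hnorm : ‖q - r‖ = t)
    (horth : inner ℝ (q - r) p = 0) (hw : q - planeP e0 e1 q = r - planeP e0 e1 r)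
    (hp : planeP e0 e1 p ≠ 0) :
    (q = κ • p + (t / 2) • (‖planeP e0 e1 p‖⁻¹ • planeJ e0 e1 p) ∧
      r = κ • p - (t / 2) • (‖planeP e0 e1 p‖⁻¹ • planeJ e0 e1 p)) ∨
    (q = κ • p - (t / 2) • (‖planeP e0 e1 p‖⁻¹ • planeJ e0 e1 p) ∧
      r = κ • p + (t / 2) • (‖planeP e0 e1 p‖⁻¹ • planeJ e0 e1 p)) := by
  have e00 : inner ℝ e0 e0 = 1 := by rw [real_inner_self_eq_norm_sq, h0]; norm_num
  have e11 : inner ℝ e1 e1 = 1 := by rw [real_inner_self_eq_norm_sq, h1]; norm_num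
  have e10 : inner ℝ e1 e0 = 0 := by rw [real_inner_comm]; exact h01
  set del : V := q - r with hdel
  set α : ℝ := inner ℝ e0 del with hα
  set β : ℝ := inner ℝ e1 del with hβ
  set p0 : ℝ := inner ℝ e0 p with hp0
  set p1 : ℝ := inner ℝ e1 p with hp1
  -- `del` lies in the plane
  have hdelP : del = α • e0 + β • e1 := by
    have : del = planeP e0 e1 q - planeP e0 e1 r := by
      calc del = (q - planeP e0 e1 q) - (r - planeP e0 e1 r)
            + (planeP e0 e1 q - planeP e0 e1 r) := by rw [hdel]; abel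
        _ = planeP e0 e1 q - planeP e0 e1 r := by rw [hw]; abel
    rw [this, hα, hβ, hdel]
    simp only [planeP, inner_sub_right, sub_smul]
    abel
  -- orthogonality to `p`
  have horth' : α * p0 + β * p1 = 0 := by
    have := horth
    rw [hdelP, inner_add_left, inner_smul_left, inner_smul_left] at this
    simpa using this
  have hN : ‖planeP e0 e1 p‖ ^ 2 = p0 ^ 2 + p1 ^ 2 := planeP_norm_sq e0 e1 h0 h1 h01 p
  have hNpos : 0 < ‖planeP e0 e1 p‖ := norm_pos_iff.mpr hp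
  set N : ℝ := ‖planeP e0 e1 p‖ with hNdef
  have hsq : α ^ 2 + β ^ 2 = t ^ 2 := by
    rw [← hnorm, ← real_inner_self_eq_norm_sq]
    conv_lhs => rw [hα, hβ]
    conv_rhs => rw [hdelP]
    simp only [inner_add_left, inner_add_right, inner_smul_left, inner_smul_right,
      e00, e11, e10, h01]
    simp
    ring
  have ht : 0 ≤ t := by rw [← hnorm]; exact norm_nonneg _
  -- `(α, β) = c (-p1, p0)` with `c = (β p0 - α p1)/N²`
  set c : ℝ := (β * p0 - α * p1) / N ^ 2 with hc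
  have hN2 : N ^ 2 ≠ 0 := by positivity
  have hαc : α = c * (-p1) := by
    rw [hc]; field_simp; rw [hN]; linear_combination p0 * horth'
  have hβc : β = c * p0 := by
    rw [hc]; field_simp; rw [hN]; linear_combination p1 * horth'
  have hc2 : (c * N) ^ 2 = t ^ 2 := by
    rw [← hsq, hαc, hβc, mul_pow, hN]; ring
  have hJ : planeJ e0 e1 p = -p1 • e0 + p0 • e1 := rfl
  have hdelJ : del = c • planeJ e0 e1 p := by
    rw [hdelP, hJ, hαc, hβc, smul_add, smul_smul, smul_smul]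
  have hq : q = κ • p + (1 / 2 : ℝ) • del := by
    have : (2 : ℝ) • q = (2 * κ) • p + del := by
      rw [← hsum, hdel, two_smul]; abel
    have h2 : q = (1 / 2 : ℝ) • ((2 : ℝ) • q) := by rw [smul_smul]; norm_num
    rw [h2, this, smul_add, smul_smul]
    congr 2; ring
  have hr : r = κ • p - (1 / 2 : ℝ) • del := by
    have : (2 : ℝ) • r = (2 * κ) • p - del := by
      rw [← hsum, hdel, two_smul]; abel
    have h2 : r = (1 / 2 : ℝ) • ((2 : ℝ) • r) := by rw [smul_smul]; norm_num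
    rw [h2, this, smul_sub, smul_smul]
    congr 2; ring
  have hcases : c * N = t ∨ c * N = -t := by
    have : (c * N - t) * (c * N + t) = 0 := by linear_combination hc2
    rcases mul_eq_zero.mp this with h | h
    · left; linarith
    · right; linarith
  rcases hcases with h | h
  · left
    have hcv : c = t * N⁻¹ := by field_simp; linarith
    refine ⟨?_, ?_⟩
    · rw [hq, hdelJ, hcv, smul_smul, smul_smul]; congr 2; ring
    · rw [hr, hdelJ, hcv, smul_smul, smul_smul]; congr 2; ring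
  · right
    have hcv : c = -(t * N⁻¹) := by field_simp; linarith
    refine ⟨?_, ?_⟩
    · rw [hq, hdelJ, hcv, smul_smul, smul_smul, sub_eq_add_neg, ← neg_smul]; congr 2; ring
    · rw [hr, hdelJ, hcv, smul_smul, smul_smul, sub_eq_add_neg, ← neg_smul]; congr 2; ring

end Twins

end Crest.Agent.S0175lib
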