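import Mathlib
import Crest.Agent.S0175.Rigidity

/-!
# Row 130 (S0175): the rigidity hypothesis `hrig` of `abstract_main` from a design

`rigid_of_design`: for twin maps of the form
`a p = κ p • p + (t p / 2) • (‖P p‖⁻¹ • J p)`, `b p = κ p • p - (t p / 2) • (‖P p‖⁻¹ • J p)`
(`P`, `J` = `planeP`, `planeJ` of two orthonormal vectors) and a contact characterisation
`hchar` (equality in the dual inequality forces a twin configuration), every pair of measure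
preserving maps whose plan is a.e. in contact satisfies the a.e. rigidity statement used by the
parity obstruction.
-/

set_option autoImplicit false
open MeasureTheory
open scoped ENNReal

namespace Crest.Agent.S0175lib

section

variable {V : Type*} [NormedAddCommGroup V] [InnerProductSpace ℝ V]

theorem planeP_add (e0 e1 x y : V) : planeP e0 e1 (x + y) = planeP e0 e1 x + planeP e0 e1 y := by
  simp only [planeP, inner_add_right, add_smul]; abel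

theorem planeP_smul (e0 e1 : V) (c : ℝ) (x : V) : planeP e0 e1 (c • x) = c • planeP e0 e1 x := by
  simp only [planeP, inner_smul_right, smul_add, smul_smul]

theorem planeP_sub (e0 e1 x y : V) : planeP e0 e1 (x - y) = planeP e0 e1 x - planeP e0 e1 y := by
  simp only [planeP, inner_sub_right, sub_smul]; abel

theorem planeP_planeJ (e0 e1 : V) (h0 : ‖e0‖ = 1) (h1 : ‖e1‖ = 1) (h01 : inner ℝ e0 e1 = 0)
    (x : V) : planeP e0 e1 (planeJ e0 e1 x) = planeJ e0 e1 x := by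
  have e00 : inner ℝ e0 e0 = 1 := by rw [real_inner_self_eq_norm_sq, h0]; norm_num
  have e11 : inner ℝ e1 e1 = 1 := by rw [real_inner_self_eq_norm_sq, h1]; norm_num
  have e10 : inner ℝ e1 e0 = 0 := by rw [real_inner_comm]; exact h01
  simp only [planeP, planeJ, inner_add_right, inner_smul_right, e00, e11, e10, h01]
  simp

theorem continuous_planeP (e0 e1 : V) : Continuous (planeP e0 e1) := by
  unfold planeP
  fun_prop

/-- `‖x - P x‖ ≤ ‖x‖`. -/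
theorem norm_sub_planeP_le (e0 e1 : V) (h0 : ‖e0‖ = 1) (h1 : ‖e1‖ = 1)
    (h01 : inner ℝ e0 e1 = 0) (x : V) : ‖x - planeP e0 e1 x‖ ≤ ‖x‖ := by
  have e00 : inner ℝ e0 e0 = 1 := by rw [real_inner_self_eq_norm_sq, h0]; norm_num
  have e11 : inner ℝ e1 e1 = 1 := by rw [real_inner_self_eq_norm_sq, h1]; norm_num
  have e10 : inner ℝ e1 e0 = 0 := by rw [real_inner_comm]; exact h01
  have hsq : ‖x - planeP e0 e1 x‖ ^ 2 = ‖x‖ ^ 2 - (inner ℝ e0 x ^ 2 + inner ℝ e1 x ^ 2) := by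
    rw [← real_inner_self_eq_norm_sq, ← real_inner_self_eq_norm_sq]
    simp only [planeP, inner_sub_left, inner_sub_right, inner_add_left, inner_add_right,
      inner_smul_left, inner_smul_right, e00, e11, e10, h01]
    simp only [real_inner_comm x e0, real_inner_comm x e1]
    simp
    ring
  have hle : ‖x - planeP e0 e1 x‖ ^ 2 ≤ ‖x‖ ^ 2 := by
    rw [hsq]; nlinarith [sq_nonneg (inner ℝ e0 x), sq_nonneg (inner ℝ e1 x)]
  exact le_of_sq_le_sq hle (norm_nonneg _)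

end

theorem rigid_of_design {V : Type*} [NormedAddCommGroup V] [InnerProductSpace ℝ V]
    [MeasurableSpace V] [BorelSpace V] [SecondCountableTopology V]
    (μ : Measure V) [IsFiniteMeasure μ] (I S : Set V) (hI : MeasurableSet I)
    (hS : MeasurableSet S) (hSμ : μ Sᶜ = 0)
    (e0 e1 : V) (h0 : ‖e0‖ = 1) (h1 : ‖e1‖ = 1) (h01 : inner ℝ e0 e1 = 0)
    (κ t : V → ℝ) (hκ : Measurable κ)
    (a b : V → V) (ha : Measurable a) (hb : Measurable b)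
    (hadef : ∀ p ∈ I, a p = κ p • p + (t p / 2) • (‖planeP e0 e1 p‖⁻¹ • planeJ e0 e1 p))
    (hbdef : ∀ p ∈ I, b p = κ p • p - (t p / 2) • (‖planeP e0 e1 p‖⁻¹ • planeJ e0 e1 p))
    (hP : ∀ p ∈ I, planeP e0 e1 p ≠ 0)
    (hμ : μ = μ.restrict I + (μ.restrict I).map a + (μ.restrict I).map b)
    (hmom : ∫⁻ x, ‖x‖ₑ ^ 2 ∂μ ≠ ⊤)
    (c : V × V × V → ℝ≥0∞) (u : V → ℝ)
    (hchar : ∀ x ∈ S, ∀ y ∈ S, ∀ z ∈ S, c (x, y, z) = ENNReal.ofReal (u x + u y + u z) →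
      (x ∈ I ∧ y ∉ I ∧ z ∉ I ∧ y + z = (2 * κ x) • x ∧ ‖y - z‖ = t x ∧ inner ℝ (y - z) x = 0) ∨
      (y ∈ I ∧ x ∉ I ∧ z ∉ I ∧ x + z = (2 * κ y) • y ∧ ‖x - z‖ = t y ∧ inner ℝ (x - z) y = 0) ∨
      (z ∈ I ∧ x ∉ I ∧ y ∉ I ∧ x + y = (2 * κ z) • z ∧ ‖x - y‖ = t z ∧ inner ℝ (x - y) z = 0))
    (T₂ T₃ : V → V) (hT₂ : Measurable T₂) (hT₃ : Measurable T₃)
    (hT₂μ : μ.map T₂ = μ) (hT₃μ : μ.map T₃ = μ)
    (hcon : ∀ᵐ x ∂μ, c (x, T₂ x, T₃ x) = ENNReal.ofReal (u x + u (T₂ x) + u (T₃ x))) :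
    ∀ᵐ x ∂μ, (x ∈ I → T₂ x ∉ I) ∧ (x ∉ I → T₂ x ∈ I → (x = a (T₂ x) ∨ x = b (T₂ x))) := by
  set w : V → V := fun x => x - planeP e0 e1 x with hw
  have hwm : Measurable w := measurable_id.sub (continuous_planeP e0 e1).measurable
  have hwadd : ∀ x y, w (x + y) = w x + w y := by
    intro x y; simp only [hw, planeP_add]; abel
  have hwsmul : ∀ (k : ℝ) x, w (k • x) = k • w x := by
    intro k x; simp only [hw, planeP_smul, smul_sub]
  have hwJ : ∀ x, w (planeJ e0 e1 x) = 0 := by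
    intro x; simp only [hw, planeP_planeJ e0 e1 h0 h1 h01, sub_self]
  have hwa : ∀ x ∈ I, w (a x) = κ x • w x := by
    intro x hx
    rw [hadef x hx, hwadd, hwsmul, hwsmul, hwsmul, hwJ, smul_zero, smul_zero, add_zero]
  have hwb : ∀ x ∈ I, w (b x) = κ x • w x := by
    intro x hx
    rw [hbdef x hx, sub_eq_add_neg, ← neg_smul, hwadd, hwsmul, hwsmul, hwsmul, hwJ, smul_zero,
      smul_zero, add_zero]
  have hwint : ∫⁻ x, ‖w x‖ₑ ^ 2 ∂μ ≠ ⊤ := by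
    refine ne_top_of_le_ne_top hmom (lintegral_mono fun x => ?_)
    have : ‖w x‖ₑ ≤ ‖x‖ₑ := by
      rw [← ofReal_norm, ← ofReal_norm]
      exact ENNReal.ofReal_le_ofReal (norm_sub_planeP_le e0 e1 h0 h1 h01 x)
    exact pow_le_pow_left' this 2
  -- a.e. the three points are in `S`
  have hS1 : ∀ᵐ x ∂μ, x ∈ S := by rw [ae_iff]; exact hSμ
  have hS2 : ∀ᵐ x ∂μ, T₂ x ∈ S := by
    have h0' : μ (T₂ ⁻¹' Sᶜ) = 0 := by
      rw [← Measure.map_apply hT₂ hS.compl, hT₂μ]; exact hSμ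
    rw [ae_iff]; exact h0'
  have hS3 : ∀ᵐ x ∂μ, T₃ x ∈ S := by
    have h0' : μ (T₃ ⁻¹' Sᶜ) = 0 := by
      rw [← Measure.map_apply hT₃ hS.compl, hT₃μ]; exact hSμ
    rw [ae_iff]; exact h0'
  -- the three alternatives, a.e.
  have halt : ∀ᵐ x ∂μ,
      (x ∈ I ∧ T₂ x ∉ I ∧ T₃ x ∉ I ∧ T₂ x + T₃ x = (2 * κ x) • x ∧ ‖T₂ x - T₃ x‖ = t x ∧
        inner ℝ (T₂ x - T₃ x) x = 0) ∨
      (T₂ x ∈ I ∧ x ∉ I ∧ T₃ x ∉ I ∧ x + T₃ x = (2 * κ (T₂ x)) • T₂ x ∧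
        ‖x - T₃ x‖ = t (T₂ x) ∧ inner ℝ (x - T₃ x) (T₂ x) = 0) ∨
      (T₃ x ∈ I ∧ x ∉ I ∧ T₂ x ∉ I ∧ x + T₂ x = (2 * κ (T₃ x)) • T₃ x ∧
        ‖x - T₂ x‖ = t (T₃ x) ∧ inner ℝ (x - T₂ x) (T₃ x) = 0) := by
    filter_upwards [hS1, hS2, hS3, hcon] with x q1 q2 q3 hx
    exact hchar x q1 _ q2 _ q3 hx
  have hcontact : ∀ᵐ x ∂μ,
      (x ∈ I ∧ T₂ x ∉ I ∧ T₃ x ∉ I ∧ w (T₂ x) + w (T₃ x) = (2 * κ x) • w x) ∨
      (T₂ x ∈ I ∧ x ∉ I ∧ T₃ x ∉ I ∧ w x + w (T₃ x) = (2 * κ (T₂ x)) • w (T₂ x)) ∨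
      (T₃ x ∈ I ∧ x ∉ I ∧ T₂ x ∉ I ∧ w x + w (T₂ x) = (2 * κ (T₃ x)) • w (T₃ x)) := by
    filter_upwards [halt] with x hx
    rcases hx with ⟨g1, g2, g3, g4, -, -⟩ | ⟨g1, g2, g3, g4, -, -⟩ | ⟨g1, g2, g3, g4, -, -⟩
    · exact Or.inl ⟨g1, g2, g3, by rw [← hwadd, g4, hwsmul]⟩
    · exact Or.inr (Or.inl ⟨g1, g2, g3, by rw [← hwadd, g4, hwsmul]⟩)
    · exact Or.inr (Or.inr ⟨g1, g2, g3, by rw [← hwadd, g4, hwsmul]⟩)
  have hrig := transverse_rigidity μ I hI a b T₂ T₃ ha hb hT₂ hT₃ hμ hT₂μ hT₃μ w κ hwm hκ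
    hwint hwa hwb hcontact
  filter_upwards [halt, hrig] with x hx hr
  refine ⟨fun hxI => ?_, fun hxI hT₂I => ?_⟩
  · rcases hx with ⟨-, g2, -⟩ | ⟨-, g2, -⟩ | ⟨-, g2, -⟩
    · exact g2
    · exact absurd hxI g2
    · exact absurd hxI g2
  · rcases hx with ⟨g1, -⟩ | ⟨g1, g2, g3, g4, g5, g6⟩ | ⟨-, -, g3, -⟩
    · exact absurd g1 hxI
    · have hweq : w x = w (T₃ x) := hr.2.1 g1
      have hweq' : x - planeP e0 e1 x = T₃ x - planeP e0 e1 (T₃ x) := hweq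
      rcases twins_in_plane e0 e1 h0 h1 h01 (T₂ x) x (T₃ x) (κ (T₂ x)) (t (T₂ x)) g4 g5 g6 hweq'
        (hP _ g1) with ⟨hq, -⟩ | ⟨hq, -⟩
      · left; rw [hadef _ g1]; exact hq
      · right; rw [hbdef _ g1]; exact hq
    · exact absurd hT₂I g3

end Crest.Agent.S0175lib
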