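import Mathlib
import Crest.Agent.S0175.Rigidity
import Crest.Agent.S0175.NoMonge
import Crest.Agent.S0175.CircleAvg

/-!
# Row 130 (S0175): the concrete plane rotation (helper59)

For orthonormal `e0 e1` in a real inner product space `V`:

* `planeRot e0 e1 θ x = x + (cos θ - 1) • planeP e0 e1 x + sin θ • planeJ e0 e1 x` — rotation by
  the angle `θ` in the plane spanned by `e0`, `e1`, identity on the orthogonal complement;
* `planeZ e0 e1 x = ⟪e0,x⟫ + i ⟪e1,x⟫` — the complex coordinate of the planar part;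
* `planeMirror e1 x = x - 2 ⟪e1,x⟫ e1` — the mirror fixing `e0`.

Main facts: group law, linear isometry, equivariance of `planeP`, `planeJ`, `planeZ`,
`IsCircleAction (planeRot e0 e1)`, invariance of the volume, displacement bound.
-/

set_option autoImplicit false

open MeasureTheory
open scoped ENNReal

namespace Crest.Agent.S0175lib

section Alg

variable {V : Type*} [NormedAddCommGroup V] [InnerProductSpace ℝ V]

/-- Rotation by the angle `θ` in the plane spanned by `e0`, `e1`. -/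
noncomputable def planeRot (e0 e1 : V) (θ : ℝ) (x : V) : V :=
  x + (Real.cos θ - 1) • planeP e0 e1 x + Real.sin θ • planeJ e0 e1 x

/-- Complex coordinate of the planar part. -/
noncomputable def planeZ (e0 e1 : V) (x : V) : ℂ := ⟨inner ℝ e0 x, inner ℝ e1 x⟩

/-- Mirror fixing the hyperplane orthogonal to `e1`. -/
noncomputable def planeMirror (e1 : V) (x : V) : V := x - (2 * inner ℝ e1 x) • e1

theorem h59_planeJ_add (e0 e1 x y : V) :
    planeJ e0 e1 (x + y) = planeJ e0 e1 x + planeJ e0 e1 y := by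
  simp only [planeJ, inner_add_right, add_smul, neg_add, neg_smul]; abel

theorem h59_planeJ_smul (e0 e1 : V) (c : ℝ) (x : V) :
    planeJ e0 e1 (c • x) = c • planeJ e0 e1 x := by
  simp only [planeJ, inner_smul_right, smul_add, smul_smul, neg_smul, smul_neg]

theorem h59_inner_e0_planeP (e0 e1 : V) (h0 : ‖e0‖ = 1) (h01 : inner ℝ e0 e1 = 0) (x : V) :
    inner ℝ e0 (planeP e0 e1 x) = inner ℝ e0 x := by
  have e00 : inner ℝ e0 e0 = (1 : ℝ) := by rw [real_inner_self_eq_norm_sq, h0]; norm_num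
  simp only [planeP, inner_add_right, inner_smul_right, e00, h01]
  ring

theorem h59_inner_e1_planeP (e0 e1 : V) (h1 : ‖e1‖ = 1) (h01 : inner ℝ e0 e1 = 0) (x : V) :
    inner ℝ e1 (planeP e0 e1 x) = inner ℝ e1 x := by
  have e11 : inner ℝ e1 e1 = (1 : ℝ) := by rw [real_inner_self_eq_norm_sq, h1]; norm_num
  have e10 : inner ℝ e1 e0 = (0 : ℝ) := by rw [real_inner_comm]; exact h01
  simp only [planeP, inner_add_right, inner_smul_right, e11, e10]
  ring

theorem h59_inner_e0_planeJ (e0 e1 : V) (h0 : ‖e0‖ = 1) (h01 : inner ℝ e0 e1 = 0) (x : V) :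
    inner ℝ e0 (planeJ e0 e1 x) = -inner ℝ e1 x := by
  have e00 : inner ℝ e0 e0 = (1 : ℝ) := by rw [real_inner_self_eq_norm_sq, h0]; norm_num
  simp only [planeJ, inner_add_right, inner_smul_right, e00, h01]
  ring

theorem h59_inner_e1_planeJ (e0 e1 : V) (h1 : ‖e1‖ = 1) (h01 : inner ℝ e0 e1 = 0) (x : V) :
    inner ℝ e1 (planeJ e0 e1 x) = inner ℝ e0 x := by
  have e11 : inner ℝ e1 e1 = (1 : ℝ) := by rw [real_inner_self_eq_norm_sq, h1]; norm_num
  have e10 : inner ℝ e1 e0 = (0 : ℝ) := by rw [real_inner_comm]; exact h01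
  simp only [planeJ, inner_add_right, inner_smul_right, e11, e10]
  ring

theorem h59_planeP_planeP (e0 e1 : V) (h0 : ‖e0‖ = 1) (h1 : ‖e1‖ = 1) (h01 : inner ℝ e0 e1 = 0)
    (x : V) : planeP e0 e1 (planeP e0 e1 x) = planeP e0 e1 x := by
  conv_lhs => rw [planeP, h59_inner_e0_planeP e0 e1 h0 h01, h59_inner_e1_planeP e0 e1 h1 h01]
  rfl

theorem h59_planeJ_planeP (e0 e1 : V) (h0 : ‖e0‖ = 1) (h1 : ‖e1‖ = 1) (h01 : inner ℝ e0 e1 = 0)
    (x : V) : planeJ e0 e1 (planeP e0 e1 x) = planeJ e0 e1 x := by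
  conv_lhs => rw [planeJ, h59_inner_e0_planeP e0 e1 h0 h01, h59_inner_e1_planeP e0 e1 h1 h01]
  rfl

theorem h59_planeJ_planeJ (e0 e1 : V) (h0 : ‖e0‖ = 1) (h1 : ‖e1‖ = 1) (h01 : inner ℝ e0 e1 = 0)
    (x : V) : planeJ e0 e1 (planeJ e0 e1 x) = -planeP e0 e1 x := by
  conv_lhs => rw [planeJ, h59_inner_e0_planeJ e0 e1 h0 h01, h59_inner_e1_planeJ e0 e1 h1 h01]
  simp only [planeP, neg_smul, neg_add]

/-! ### Coordinates of a rotated vector -/

theorem inner_e0_planeRot (e0 e1 : V) (h0 : ‖e0‖ = 1) (h01 : inner ℝ e0 e1 = 0)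
    (θ : ℝ) (x : V) :
    inner ℝ e0 (planeRot e0 e1 θ x)
      = Real.cos θ * inner ℝ e0 x - Real.sin θ * inner ℝ e1 x := by
  simp only [planeRot, inner_add_right, inner_smul_right, h59_inner_e0_planeP e0 e1 h0 h01,
    h59_inner_e0_planeJ e0 e1 h0 h01]
  ring

theorem inner_e1_planeRot (e0 e1 : V) (h1 : ‖e1‖ = 1) (h01 : inner ℝ e0 e1 = 0)
    (θ : ℝ) (x : V) :
    inner ℝ e1 (planeRot e0 e1 θ x)
      = Real.sin θ * inner ℝ e0 x + Real.cos θ * inner ℝ e1 x := by
  simp only [planeRot, inner_add_right, inner_smul_right, h59_inner_e1_planeP e0 e1 h1 h01,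
    h59_inner_e1_planeJ e0 e1 h1 h01]
  ring

/-- `P (rot θ x) = cos θ • P x + sin θ • J x`. -/
theorem planeP_planeRot_eq (e0 e1 : V) (h0 : ‖e0‖ = 1) (h1 : ‖e1‖ = 1)
    (h01 : inner ℝ e0 e1 = 0) (θ : ℝ) (x : V) :
    planeP e0 e1 (planeRot e0 e1 θ x)
      = Real.cos θ • planeP e0 e1 x + Real.sin θ • planeJ e0 e1 x := by
  conv_lhs => rw [planeP, inner_e0_planeRot e0 e1 h0 h01, inner_e1_planeRot e0 e1 h1 h01]
  simp only [planeP, planeJ]
  module

/-- `J (rot θ x) = cos θ • J x - sin θ • P x`. -/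
theorem planeJ_planeRot_eq (e0 e1 : V) (h0 : ‖e0‖ = 1) (h1 : ‖e1‖ = 1)
    (h01 : inner ℝ e0 e1 = 0) (θ : ℝ) (x : V) :
    planeJ e0 e1 (planeRot e0 e1 θ x)
      = Real.cos θ • planeJ e0 e1 x - Real.sin θ • planeP e0 e1 x := by
  conv_lhs => rw [planeJ, inner_e0_planeRot e0 e1 h0 h01, inner_e1_planeRot e0 e1 h1 h01]
  simp only [planeP, planeJ]
  module

/-- `rot θ (P x) = cos θ • P x + sin θ • J x`. -/
theorem planeRot_planeP_eq (e0 e1 : V) (h0 : ‖e0‖ = 1) (h1 : ‖e1‖ = 1)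
    (h01 : inner ℝ e0 e1 = 0) (θ : ℝ) (x : V) :
    planeRot e0 e1 θ (planeP e0 e1 x)
      = Real.cos θ • planeP e0 e1 x + Real.sin θ • planeJ e0 e1 x := by
  rw [planeRot, h59_planeP_planeP e0 e1 h0 h1 h01, h59_planeJ_planeP e0 e1 h0 h1 h01]
  module

/-- `rot θ (J x) = cos θ • J x - sin θ • P x`. -/
theorem planeRot_planeJ_eq (e0 e1 : V) (h0 : ‖e0‖ = 1) (h1 : ‖e1‖ = 1)
    (h01 : inner ℝ e0 e1 = 0) (θ : ℝ) (x : V) :
    planeRot e0 e1 θ (planeJ e0 e1 x)
      = Real.cos θ • planeJ e0 e1 x - Real.sin θ • planeP e0 e1 x := by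
  rw [planeRot, planeP_planeJ e0 e1 h0 h1 h01, h59_planeJ_planeJ e0 e1 h0 h1 h01]
  module

/-- `planeP` commutes with the rotation. -/
theorem planeP_planeRot (e0 e1 : V) (h0 : ‖e0‖ = 1) (h1 : ‖e1‖ = 1)
    (h01 : inner ℝ e0 e1 = 0) (θ : ℝ) (x : V) :
    planeP e0 e1 (planeRot e0 e1 θ x) = planeRot e0 e1 θ (planeP e0 e1 x) := by
  rw [planeP_planeRot_eq e0 e1 h0 h1 h01, planeRot_planeP_eq e0 e1 h0 h1 h01]

/-- `planeJ` commutes with the rotation. -/
theorem planeJ_planeRot (e0 e1 : V) (h0 : ‖e0‖ = 1) (h1 : ‖e1‖ = 1)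
    (h01 : inner ℝ e0 e1 = 0) (θ : ℝ) (x : V) :
    planeJ e0 e1 (planeRot e0 e1 θ x) = planeRot e0 e1 θ (planeJ e0 e1 x) := by
  rw [planeJ_planeRot_eq e0 e1 h0 h1 h01, planeRot_planeJ_eq e0 e1 h0 h1 h01]

/-! ### Group law and linearity -/

@[simp] theorem planeRot_zero (e0 e1 : V) (x : V) : planeRot e0 e1 0 x = x := by
  simp [planeRot]

theorem planeRot_add (e0 e1 : V) (h0 : ‖e0‖ = 1) (h1 : ‖e1‖ = 1) (h01 : inner ℝ e0 e1 = 0)
    (θ φ : ℝ) (x : V) :
    planeRot e0 e1 (θ + φ) x = planeRot e0 e1 θ (planeRot e0 e1 φ x) := by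
  conv_rhs => rw [planeRot, planeP_planeRot_eq e0 e1 h0 h1 h01, planeJ_planeRot_eq e0 e1 h0 h1 h01]
  rw [planeRot, planeRot, Real.cos_add, Real.sin_add]
  module

theorem planeRot_two_pi (e0 e1 : V) (x : V) : planeRot e0 e1 (2 * Real.pi) x = x := by
  simp [planeRot]

theorem planeRot_neg_planeRot (e0 e1 : V) (h0 : ‖e0‖ = 1) (h1 : ‖e1‖ = 1)
    (h01 : inner ℝ e0 e1 = 0) (θ : ℝ) (x : V) :
    planeRot e0 e1 (-θ) (planeRot e0 e1 θ x) = x := by
  rw [← planeRot_add e0 e1 h0 h1 h01, neg_add_cancel, planeRot_zero]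

theorem planeRot_planeRot_neg (e0 e1 : V) (h0 : ‖e0‖ = 1) (h1 : ‖e1‖ = 1)
    (h01 : inner ℝ e0 e1 = 0) (θ : ℝ) (x : V) :
    planeRot e0 e1 θ (planeRot e0 e1 (-θ) x) = x := by
  rw [← planeRot_add e0 e1 h0 h1 h01, add_neg_cancel, planeRot_zero]

theorem planeRot_vadd (e0 e1 : V) (θ : ℝ) (x y : V) :
    planeRot e0 e1 θ (x + y) = planeRot e0 e1 θ x + planeRot e0 e1 θ y := by
  simp only [planeRot, planeP_add, h59_planeJ_add]
  module

theorem planeRot_smul (e0 e1 : V) (θ : ℝ) (c : ℝ) (x : V) :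
    planeRot e0 e1 θ (c • x) = c • planeRot e0 e1 θ x := by
  simp only [planeRot, planeP_smul, h59_planeJ_smul]
  module

theorem planeRot_sub (e0 e1 : V) (θ : ℝ) (x y : V) :
    planeRot e0 e1 θ (x - y) = planeRot e0 e1 θ x - planeRot e0 e1 θ y := by
  have h := planeRot_vadd e0 e1 θ (x - y) y
  rw [sub_add_cancel] at h
  rw [h, add_sub_cancel_right]

/-- The rotation preserves inner products. -/
theorem inner_planeRot (e0 e1 : V) (h0 : ‖e0‖ = 1) (h1 : ‖e1‖ = 1) (h01 : inner ℝ e0 e1 = 0)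
    (θ : ℝ) (x y : V) :
    inner ℝ (planeRot e0 e1 θ x) (planeRot e0 e1 θ y) = inner ℝ x y := by
  have e00 : inner ℝ e0 e0 = (1 : ℝ) := by rw [real_inner_self_eq_norm_sq, h0]; norm_num
  have e11 : inner ℝ e1 e1 = (1 : ℝ) := by rw [real_inner_self_eq_norm_sq, h1]; norm_num
  have e10 : inner ℝ e1 e0 = (0 : ℝ) := by rw [real_inner_comm]; exact h01
  simp only [planeRot, planeP, planeJ, inner_add_left, inner_add_right, inner_smul_left,
    inner_smul_right, inner_neg_left, inner_neg_right, e00, e11, e10, h01,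
    real_inner_comm e0 x, real_inner_comm e1 x, neg_smul]
  simp only [RCLike.conj_to_real]
  linear_combination (inner ℝ e0 x * inner ℝ e0 y + inner ℝ e1 x * inner ℝ e1 y)
    * Real.sin_sq_add_cos_sq θ

theorem norm_planeRot (e0 e1 : V) (h0 : ‖e0‖ = 1) (h1 : ‖e1‖ = 1) (h01 : inner ℝ e0 e1 = 0)
    (θ : ℝ) (x : V) : ‖planeRot e0 e1 θ x‖ = ‖x‖ := by
  have h := inner_planeRot e0 e1 h0 h1 h01 θ x x
  rw [real_inner_self_eq_norm_sq, real_inner_self_eq_norm_sq] at h
  exact (sq_eq_sq₀ (norm_nonneg _) (norm_nonneg _)).mp h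

theorem norm_planeP_planeRot (e0 e1 : V) (h0 : ‖e0‖ = 1) (h1 : ‖e1‖ = 1)
    (h01 : inner ℝ e0 e1 = 0) (θ : ℝ) (x : V) :
    ‖planeP e0 e1 (planeRot e0 e1 θ x)‖ = ‖planeP e0 e1 x‖ := by
  rw [planeP_planeRot e0 e1 h0 h1 h01, norm_planeRot e0 e1 h0 h1 h01]

/-- The transverse part is fixed by the rotation. -/
theorem sub_planeP_planeRot (e0 e1 : V) (h0 : ‖e0‖ = 1) (h1 : ‖e1‖ = 1)
    (h01 : inner ℝ e0 e1 = 0) (θ : ℝ) (x : V) :
    planeRot e0 e1 θ x - planeP e0 e1 (planeRot e0 e1 θ x) = x - planeP e0 e1 x := by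
  rw [planeP_planeRot_eq e0 e1 h0 h1 h01, planeRot]
  module

/-- The rotation as a linear isometry equivalence. -/
noncomputable def planeRotLIE (e0 e1 : V) (h0 : ‖e0‖ = 1) (h1 : ‖e1‖ = 1)
    (h01 : inner ℝ e0 e1 = 0) (θ : ℝ) : V ≃ₗᵢ[ℝ] V where
  toFun := planeRot e0 e1 θ
  map_add' := planeRot_vadd e0 e1 θ
  map_smul' := planeRot_smul e0 e1 θ
  invFun := planeRot e0 e1 (-θ)
  left_inv := planeRot_neg_planeRot e0 e1 h0 h1 h01 θ
  right_inv := planeRot_planeRot_neg e0 e1 h0 h1 h01 θ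
  norm_map' := norm_planeRot e0 e1 h0 h1 h01 θ

@[simp] theorem planeRotLIE_apply (e0 e1 : V) (h0 : ‖e0‖ = 1) (h1 : ‖e1‖ = 1)
    (h01 : inner ℝ e0 e1 = 0) (θ : ℝ) (x : V) :
    planeRotLIE e0 e1 h0 h1 h01 θ x = planeRot e0 e1 θ x := rfl

theorem coe_planeRotLIE (e0 e1 : V) (h0 : ‖e0‖ = 1) (h1 : ‖e1‖ = 1)
    (h01 : inner ℝ e0 e1 = 0) (θ : ℝ) :
    ⇑(planeRotLIE e0 e1 h0 h1 h01 θ) = planeRot e0 e1 θ := rfl

theorem continuous_planeRot (e0 e1 : V) :
    Continuous (fun p : ℝ × V => planeRot e0 e1 p.1 p.2) := by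
  unfold planeRot planeP planeJ
  fun_prop

theorem continuous_planeRot_apply (e0 e1 : V) (θ : ℝ) : Continuous (planeRot e0 e1 θ) :=
  (continuous_planeRot e0 e1).comp (Continuous.prodMk_right θ)

theorem planeRot_injective (e0 e1 : V) (h0 : ‖e0‖ = 1) (h1 : ‖e1‖ = 1)
    (h01 : inner ℝ e0 e1 = 0) (θ : ℝ) : Function.Injective (planeRot e0 e1 θ) :=
  (planeRotLIE e0 e1 h0 h1 h01 θ).injective

/-- The rotation moves a point by at most `|θ| ‖P x‖`. -/
theorem norm_planeRot_sub_le (e0 e1 : V) (h0 : ‖e0‖ = 1) (h1 : ‖e1‖ = 1)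
    (h01 : inner ℝ e0 e1 = 0) (θ : ℝ) (x : V) :
    ‖planeRot e0 e1 θ x - x‖ ≤ |θ| * ‖planeP e0 e1 x‖ := by
  have e00 : inner ℝ e0 e0 = (1 : ℝ) := by rw [real_inner_self_eq_norm_sq, h0]; norm_num
  have e11 : inner ℝ e1 e1 = (1 : ℝ) := by rw [real_inner_self_eq_norm_sq, h1]; norm_num
  have e10 : inner ℝ e1 e0 = (0 : ℝ) := by rw [real_inner_comm]; exact h01
  have hP := planeP_norm_sq e0 e1 h0 h1 h01 x
  have hsq : ‖planeRot e0 e1 θ x - x‖ ^ 2 = (2 - 2 * Real.cos θ) * ‖planeP e0 e1 x‖ ^ 2 := by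
    rw [hP, ← real_inner_self_eq_norm_sq]
    have : planeRot e0 e1 θ x - x
        = (Real.cos θ - 1) • planeP e0 e1 x + Real.sin θ • planeJ e0 e1 x := by
      rw [planeRot]; module
    rw [this]
    simp only [planeP, planeJ, inner_add_left, inner_add_right, inner_smul_left,
      inner_smul_right, inner_neg_left, inner_neg_right, e00, e11, e10, h01, neg_smul]
    simp only [RCLike.conj_to_real]
    linear_combination (inner ℝ e0 x ^ 2 + inner ℝ e1 x ^ 2) * Real.sin_sq_add_cos_sq θ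
  have hcos : 2 - 2 * Real.cos θ ≤ θ ^ 2 := by
    have := Real.one_sub_sq_div_two_le_cos (x := θ)
    linarith
  have hle : ‖planeRot e0 e1 θ x - x‖ ^ 2 ≤ (|θ| * ‖planeP e0 e1 x‖) ^ 2 := by
    rw [hsq, mul_pow, sq_abs]
    exact mul_le_mul_of_nonneg_right hcos (sq_nonneg _)
  exact le_of_sq_le_sq hle (mul_nonneg (abs_nonneg _) (norm_nonneg _))

theorem norm_planeP_le (e0 e1 : V) (h0 : ‖e0‖ = 1) (h1 : ‖e1‖ = 1)
    (h01 : inner ℝ e0 e1 = 0) (x : V) : ‖planeP e0 e1 x‖ ≤ ‖x‖ := by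
  have e00 : inner ℝ e0 e0 = (1 : ℝ) := by rw [real_inner_self_eq_norm_sq, h0]; norm_num
  have e11 : inner ℝ e1 e1 = (1 : ℝ) := by rw [real_inner_self_eq_norm_sq, h1]; norm_num
  have e10 : inner ℝ e1 e0 = (0 : ℝ) := by rw [real_inner_comm]; exact h01
  have hP := planeP_norm_sq e0 e1 h0 h1 h01 x
  have hsq : ‖x - planeP e0 e1 x‖ ^ 2 = ‖x‖ ^ 2 - (inner ℝ e0 x ^ 2 + inner ℝ e1 x ^ 2) := by
    rw [← real_inner_self_eq_norm_sq, ← real_inner_self_eq_norm_sq]
    simp only [planeP, inner_sub_left, inner_sub_right, inner_add_left, inner_add_right,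
      inner_smul_left, inner_smul_right, e00, e11, e10, h01]
    simp only [real_inner_comm x e0, real_inner_comm x e1]
    simp
    ring
  have hle : ‖planeP e0 e1 x‖ ^ 2 ≤ ‖x‖ ^ 2 := by
    rw [hP]; nlinarith [sq_nonneg ‖x - planeP e0 e1 x‖]
  exact le_of_sq_le_sq hle (norm_nonneg _)

theorem norm_planeRot_sub_le' (e0 e1 : V) (h0 : ‖e0‖ = 1) (h1 : ‖e1‖ = 1)
    (h01 : inner ℝ e0 e1 = 0) (θ : ℝ) (x : V) :
    ‖planeRot e0 e1 θ x - x‖ ≤ |θ| * ‖x‖ :=
  (norm_planeRot_sub_le e0 e1 h0 h1 h01 θ x).trans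
    (mul_le_mul_of_nonneg_left (norm_planeP_le e0 e1 h0 h1 h01 x) (abs_nonneg _))

/-! ### The complex coordinate -/

theorem planeZ_planeRot (e0 e1 : V) (h0 : ‖e0‖ = 1) (h1 : ‖e1‖ = 1) (h01 : inner ℝ e0 e1 = 0)
    (θ : ℝ) (x : V) :
    planeZ e0 e1 (planeRot e0 e1 θ x) = Complex.exp (θ * Complex.I) * planeZ e0 e1 x := by
  rw [Complex.exp_mul_I]
  apply Complex.ext
  · simp only [planeZ, inner_e0_planeRot e0 e1 h0 h01, Complex.mul_re, Complex.add_re,
      Complex.add_im, Complex.mul_im, Complex.I_re, Complex.I_im, ← Complex.ofReal_cos,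
      ← Complex.ofReal_sin, Complex.ofReal_re, Complex.ofReal_im]
    ring
  · simp only [planeZ, inner_e1_planeRot e0 e1 h1 h01, Complex.mul_re, Complex.add_re,
      Complex.add_im, Complex.mul_im, Complex.I_re, Complex.I_im, ← Complex.ofReal_cos,
      ← Complex.ofReal_sin, Complex.ofReal_re, Complex.ofReal_im]
    ring

theorem continuous_planeZ (e0 e1 : V) : Continuous (planeZ e0 e1) := by
  have : planeZ e0 e1 = fun x => ((inner ℝ e0 x : ℝ) : ℂ) + ((inner ℝ e1 x : ℝ) : ℂ) * Complex.I := by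
    funext x
    apply Complex.ext <;> simp [planeZ]
  rw [this]
  fun_prop

theorem normSq_planeZ (e0 e1 : V) (h0 : ‖e0‖ = 1) (h1 : ‖e1‖ = 1) (h01 : inner ℝ e0 e1 = 0)
    (x : V) : Complex.normSq (planeZ e0 e1 x) = ‖planeP e0 e1 x‖ ^ 2 := by
  rw [planeP_norm_sq e0 e1 h0 h1 h01, Complex.normSq_apply]
  simp only [planeZ]
  ring

theorem norm_planeZ (e0 e1 : V) (h0 : ‖e0‖ = 1) (h1 : ‖e1‖ = 1) (h01 : inner ℝ e0 e1 = 0)
    (x : V) : ‖planeZ e0 e1 x‖ = ‖planeP e0 e1 x‖ := by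
  have h := normSq_planeZ e0 e1 h0 h1 h01 x
  rw [Complex.normSq_eq_norm_sq] at h
  exact (sq_eq_sq₀ (norm_nonneg _) (norm_nonneg _)).mp h

theorem planeZ_eq_zero_iff (e0 e1 : V) (h0 : ‖e0‖ = 1) (h1 : ‖e1‖ = 1)
    (h01 : inner ℝ e0 e1 = 0) (x : V) : planeZ e0 e1 x = 0 ↔ planeP e0 e1 x = 0 := by
  rw [← norm_eq_zero, norm_planeZ e0 e1 h0 h1 h01, norm_eq_zero]

end Alg

/-! ### The mirror -/

section Mirror

variable {V : Type*} [NormedAddCommGroup V] [InnerProductSpace ℝ V]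

theorem h59_inner_e1_planeMirror (e1 : V) (h1 : ‖e1‖ = 1) (x : V) :
    inner ℝ e1 (planeMirror e1 x) = -inner ℝ e1 x := by
  have e11 : inner ℝ e1 e1 = (1 : ℝ) := by rw [real_inner_self_eq_norm_sq, h1]; norm_num
  simp only [planeMirror, inner_sub_right, inner_smul_right, e11]
  ring

theorem h59_inner_e0_planeMirror (e0 e1 : V) (h01 : inner ℝ e0 e1 = 0) (x : V) :
    inner ℝ e0 (planeMirror e1 x) = inner ℝ e0 x := by
  simp only [planeMirror, inner_sub_right, inner_smul_right, h01]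
  ring

theorem planeMirror_planeMirror (e1 : V) (h1 : ‖e1‖ = 1) (x : V) :
    planeMirror e1 (planeMirror e1 x) = x := by
  conv_lhs => rw [planeMirror, h59_inner_e1_planeMirror e1 h1]
  rw [planeMirror]
  module

theorem planeMirror_vadd (e1 x y : V) :
    planeMirror e1 (x + y) = planeMirror e1 x + planeMirror e1 y := by
  simp only [planeMirror, inner_add_right]
  module

theorem planeMirror_smul (e1 : V) (c : ℝ) (x : V) :
    planeMirror e1 (c • x) = c • planeMirror e1 x := by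
  simp only [planeMirror, inner_smul_right]
  module

theorem inner_planeMirror (e1 : V) (h1 : ‖e1‖ = 1) (x y : V) :
    inner ℝ (planeMirror e1 x) (planeMirror e1 y) = inner ℝ x y := by
  have e11 : inner ℝ e1 e1 = (1 : ℝ) := by rw [real_inner_self_eq_norm_sq, h1]; norm_num
  simp only [planeMirror, inner_sub_left, inner_sub_right, inner_smul_left, inner_smul_right,
    e11, real_inner_comm e1 x]
  simp only [RCLike.conj_to_real]
  ring

theorem norm_planeMirror (e1 : V) (h1 : ‖e1‖ = 1) (x : V) : ‖planeMirror e1 x‖ = ‖x‖ := by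
  have h := inner_planeMirror e1 h1 x x
  rw [real_inner_self_eq_norm_sq, real_inner_self_eq_norm_sq] at h
  exact (sq_eq_sq₀ (norm_nonneg _) (norm_nonneg _)).mp h

/-- The mirror as a linear isometry equivalence. -/
noncomputable def planeMirrorLIE (e1 : V) (h1 : ‖e1‖ = 1) : V ≃ₗᵢ[ℝ] V where
  toFun := planeMirror e1
  map_add' := planeMirror_vadd e1
  map_smul' := planeMirror_smul e1
  invFun := planeMirror e1
  left_inv := planeMirror_planeMirror e1 h1
  right_inv := planeMirror_planeMirror e1 h1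
  norm_map' := norm_planeMirror e1 h1

theorem coe_planeMirrorLIE (e1 : V) (h1 : ‖e1‖ = 1) :
    ⇑(planeMirrorLIE e1 h1) = planeMirror e1 := rfl

theorem continuous_planeMirror (e1 : V) : Continuous (planeMirror e1) := by
  unfold planeMirror
  fun_prop

/-- The mirror commutes with `planeP`. -/
theorem planeP_planeMirror (e0 e1 : V) (h1 : ‖e1‖ = 1) (h01 : inner ℝ e0 e1 = 0) (x : V) :
    planeP e0 e1 (planeMirror e1 x) = planeMirror e1 (planeP e0 e1 x) := by
  conv_lhs => rw [planeP, h59_inner_e0_planeMirror e0 e1 h01, h59_inner_e1_planeMirror e1 h1]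
  rw [planeMirror, h59_inner_e1_planeP e0 e1 h1 h01, planeP]
  module

/-- The mirror anticommutes with `planeJ`. -/
theorem planeJ_planeMirror (e0 e1 : V) (h1 : ‖e1‖ = 1) (h01 : inner ℝ e0 e1 = 0) (x : V) :
    planeJ e0 e1 (planeMirror e1 x) = -planeMirror e1 (planeJ e0 e1 x) := by
  conv_lhs => rw [planeJ, h59_inner_e0_planeMirror e0 e1 h01, h59_inner_e1_planeMirror e1 h1]
  rw [planeMirror, h59_inner_e1_planeJ e0 e1 h1 h01, planeJ]
  module

theorem norm_planeP_planeMirror (e0 e1 : V) (h1 : ‖e1‖ = 1) (h01 : inner ℝ e0 e1 = 0) (x : V) :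
    ‖planeP e0 e1 (planeMirror e1 x)‖ = ‖planeP e0 e1 x‖ := by
  rw [planeP_planeMirror e0 e1 h1 h01, norm_planeMirror e1 h1]

/-- The transverse part is fixed by the mirror. -/
theorem sub_planeP_planeMirror (e0 e1 : V) (h1 : ‖e1‖ = 1) (h01 : inner ℝ e0 e1 = 0) (x : V) :
    planeMirror e1 x - planeP e0 e1 (planeMirror e1 x) = x - planeP e0 e1 x := by
  conv_lhs => rw [planeP, h59_inner_e0_planeMirror e0 e1 h01, h59_inner_e1_planeMirror e1 h1]
  rw [planeMirror, planeP]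
  module

/-- The mirror conjugates the rotation by `θ` into the rotation by `-θ`. -/
theorem planeMirror_planeRot (e0 e1 : V) (h1 : ‖e1‖ = 1) (h01 : inner ℝ e0 e1 = 0)
    (θ : ℝ) (x : V) :
    planeMirror e1 (planeRot e0 e1 θ x) = planeRot e0 e1 (-θ) (planeMirror e1 x) := by
  rw [planeRot, planeRot, planeMirror_vadd, planeMirror_vadd, planeMirror_smul, planeMirror_smul,
    planeP_planeMirror e0 e1 h1 h01, planeJ_planeMirror e0 e1 h1 h01, Real.cos_neg, Real.sin_neg]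
  module

theorem planeZ_planeMirror (e0 e1 : V) (h1 : ‖e1‖ = 1) (h01 : inner ℝ e0 e1 = 0) (x : V) :
    planeZ e0 e1 (planeMirror e1 x) = (starRingEnd ℂ) (planeZ e0 e1 x) := by
  apply Complex.ext
  · simp [planeZ, h59_inner_e0_planeMirror e0 e1 h01]
  · simp [planeZ, h59_inner_e1_planeMirror e1 h1]

end Mirror

/-! ### Measure-theoretic facts -/

section Meas

variable {V : Type*} [NormedAddCommGroup V] [InnerProductSpace ℝ V] [MeasurableSpace V]
  [BorelSpace V]

theorem measurable_planeRot (e0 e1 : V) :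
    Measurable (fun p : ℝ × V => planeRot e0 e1 p.1 p.2) :=
  (continuous_planeRot e0 e1).measurable

theorem measurable_planeRot_apply (e0 e1 : V) (θ : ℝ) : Measurable (planeRot e0 e1 θ) :=
  (continuous_planeRot_apply e0 e1 θ).measurable

theorem measurable_planeMirror (e1 : V) : Measurable (planeMirror e1) :=
  (continuous_planeMirror e1).measurable

theorem measurable_planeZ (e0 e1 : V) : Measurable (planeZ e0 e1) :=
  (continuous_planeZ e0 e1).measurable

/-- The plane rotation is a circle action in the sense of `CircleAvg`. -/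
theorem isCircleAction_planeRot (e0 e1 : V) (h0 : ‖e0‖ = 1) (h1 : ‖e1‖ = 1)
    (h01 : inner ℝ e0 e1 = 0) : IsCircleAction (planeRot e0 e1) where
  meas := measurable_planeRot e0 e1
  zero := planeRot_zero e0 e1
  add := planeRot_add e0 e1 h0 h1 h01
  per := planeRot_two_pi e0 e1

/-- Invariance passes to restrictions to invariant sets. -/
theorem h59_map_restrict_of_preimage {X : Type*} [MeasurableSpace X] (μ : Measure X)
    (f : X → X) (hf : Measurable f) (hμ : μ.map f = μ) (S : Set X) (hS : MeasurableSet S)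
    (hpre : f ⁻¹' S = S) : (μ.restrict S).map f = μ.restrict S := by
  have h := Measure.restrict_map hf hS (μ := μ)
  rw [hpre, hμ] at h
  exact h.symm

/-- A measure-preserving map preserves `withDensity` of an invariant density. -/
theorem h59_map_withDensity_of_invariant {X : Type*} [MeasurableSpace X] (μ : Measure X)
    (f : X → X) (hf : Measurable f) (hμ : μ.map f = μ) (g : X → ℝ≥0∞) (hg : Measurable g)
    (hinv : ∀ x, g (f x) = g x) : (μ.withDensity g).map f = μ.withDensity g := by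
  ext S hS
  rw [Measure.map_apply hf hS, withDensity_apply _ (hf hS), withDensity_apply _ hS,
    ← lintegral_indicator (hf hS), ← lintegral_indicator hS]
  conv_rhs => rw [← hμ]
  rw [lintegral_map (hg.indicator hS) hf]
  refine lintegral_congr (fun x => ?_)
  by_cases hx : f x ∈ S
  · rw [Set.indicator_of_mem (show x ∈ f ⁻¹' S from hx), Set.indicator_of_mem hx, hinv]
  · rw [Set.indicator_of_notMem (show x ∉ f ⁻¹' S from hx), Set.indicator_of_notMem hx]

variable [FiniteDimensional ℝ V]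

/-- The volume is invariant under the plane rotation. -/
theorem map_planeRot_volume (e0 e1 : V) (h0 : ‖e0‖ = 1) (h1 : ‖e1‖ = 1)
    (h01 : inner ℝ e0 e1 = 0) (θ : ℝ) :
    (volume : Measure V).map (planeRot e0 e1 θ) = volume :=
  (planeRotLIE e0 e1 h0 h1 h01 θ).measurePreserving.map_eq

/-- The volume is invariant under the mirror. -/
theorem map_planeMirror_volume (e1 : V) (h1 : ‖e1‖ = 1) :
    (volume : Measure V).map (planeMirror e1) = volume :=
  (planeMirrorLIE e1 h1).measurePreserving.map_eq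

/-- A measure with rotation-invariant density is rotation-invariant. -/
theorem map_planeRot_withDensity (e0 e1 : V) (h0 : ‖e0‖ = 1) (h1 : ‖e1‖ = 1)
    (h01 : inner ℝ e0 e1 = 0) (θ : ℝ) (g : V → ℝ≥0∞) (hg : Measurable g)
    (hinv : ∀ x, g (planeRot e0 e1 θ x) = g x) :
    ((volume : Measure V).withDensity g).map (planeRot e0 e1 θ) = volume.withDensity g :=
  h59_map_withDensity_of_invariant volume _ (measurable_planeRot_apply e0 e1 θ)
    (map_planeRot_volume e0 e1 h0 h1 h01 θ) g hg hinv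

/-- A measure with mirror-invariant density is mirror-invariant. -/
theorem map_planeMirror_withDensity (e1 : V) (h1 : ‖e1‖ = 1) (g : V → ℝ≥0∞) (hg : Measurable g)
    (hinv : ∀ x, g (planeMirror e1 x) = g x) :
    ((volume : Measure V).withDensity g).map (planeMirror e1) = volume.withDensity g :=
  h59_map_withDensity_of_invariant volume _ (measurable_planeMirror e1)
    (map_planeMirror_volume e1 h1) g hg hinv

/-- Real-density version: `η` depending only on `‖P x‖` and `‖x - P x‖` (as the tube bump of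
`Bump.lean`) gives a rotation-invariant measure `η² dx`. -/
theorem map_planeRot_withDensity_sq (e0 e1 : V) (h0 : ‖e0‖ = 1) (h1 : ‖e1‖ = 1)
    (h01 : inner ℝ e0 e1 = 0) (η : V → ℝ) (hη : Measurable η)
    (hinv : ∀ x y, ‖planeP e0 e1 x‖ = ‖planeP e0 e1 y‖ →
      ‖x - planeP e0 e1 x‖ = ‖y - planeP e0 e1 y‖ → η x = η y) (θ : ℝ) :
    ((volume : Measure V).withDensity fun x => ENNReal.ofReal (η x ^ 2)).map (planeRot e0 e1 θ)
      = volume.withDensity fun x => ENNReal.ofReal (η x ^ 2) := by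
  refine map_planeRot_withDensity e0 e1 h0 h1 h01 θ _ (by fun_prop) (fun x => ?_)
  rw [hinv (planeRot e0 e1 θ x) x (norm_planeP_planeRot e0 e1 h0 h1 h01 θ x)
    (by rw [sub_planeP_planeRot e0 e1 h0 h1 h01])]

/-- Mirror version of `map_planeRot_withDensity_sq`. -/
theorem map_planeMirror_withDensity_sq (e0 e1 : V) (h1 : ‖e1‖ = 1)
    (h01 : inner ℝ e0 e1 = 0) (η : V → ℝ) (hη : Measurable η)
    (hinv : ∀ x y, ‖planeP e0 e1 x‖ = ‖planeP e0 e1 y‖ →
      ‖x - planeP e0 e1 x‖ = ‖y - planeP e0 e1 y‖ → η x = η y) :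
    ((volume : Measure V).withDensity fun x => ENNReal.ofReal (η x ^ 2)).map (planeMirror e1)
      = volume.withDensity fun x => ENNReal.ofReal (η x ^ 2) := by
  refine map_planeMirror_withDensity e1 h1 _ (by fun_prop) (fun x => ?_)
  rw [hinv (planeMirror e1 x) x (norm_planeP_planeMirror e0 e1 h1 h01 x)
    (by rw [sub_planeP_planeMirror e0 e1 h1 h01])]

end Meas

/-! ### The standard orthonormal pair of `EuclideanSpace ℝ (Fin d)`, `2 ≤ d` -/

section Std

/-- first standard basis vector -/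
noncomputable def stdE0 (d : ℕ) (hd : 2 ≤ d) : EuclideanSpace ℝ (Fin d) :=
  EuclideanSpace.single ⟨0, by omega⟩ (1 : ℝ)

/-- second standard basis vector -/
noncomputable def stdE1 (d : ℕ) (hd : 2 ≤ d) : EuclideanSpace ℝ (Fin d) :=
  EuclideanSpace.single ⟨1, by omega⟩ (1 : ℝ)

theorem norm_stdE0 (d : ℕ) (hd : 2 ≤ d) : ‖stdE0 d hd‖ = 1 := by
  simp [stdE0]

theorem norm_stdE1 (d : ℕ) (hd : 2 ≤ d) : ‖stdE1 d hd‖ = 1 := by
  simp [stdE1]

theorem inner_stdE0_stdE1 (d : ℕ) (hd : 2 ≤ d) : inner ℝ (stdE0 d hd) (stdE1 d hd) = 0 := by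
  simp [stdE0, stdE1, EuclideanSpace.inner_single_left]

theorem exists_orthonormal_pair (d : ℕ) (hd : 2 ≤ d) :
    ∃ e0 e1 : EuclideanSpace ℝ (Fin d), ‖e0‖ = 1 ∧ ‖e1‖ = 1 ∧ inner ℝ e0 e1 = 0 :=
  ⟨stdE0 d hd, stdE1 d hd, norm_stdE0 d hd, norm_stdE1 d hd, inner_stdE0_stdE1 d hd⟩

end Std

end Crest.Agent.S0175lib
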