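import Crest.Agent.S0175.ApproxGen
import Crest.Agent.S0175.PlaneRot

/-!
# Row 130 (S0175): `happrox` of `abstract_main` for the plane rotation

`happrox_planeRot` specialises `happrox_of_circle` to `R = planeRot e0 e1`, `z = planeZ e0 e1`:
the only design inputs are rotation-invariance of the twin measure `a # μ|I`, non-vanishing planar
parts of the twins, a norm gap between `I` and the twins, and lower bounds on the three distances.
-/

set_option autoImplicit false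
open MeasureTheory Set
open scoped ENNReal

namespace Crest.Agent.S0175lib

open Crest.AnalysisR.OT Crest.Agent.S0175 Real

theorem happrox_planeRot {V : Type*} [NormedAddCommGroup V] [InnerProductSpace ℝ V]
    [MeasurableSpace V] [BorelSpace V]
    (e0 e1 : V) (h0 : ‖e0‖ = 1) (h1 : ‖e1‖ = 1) (h01 : inner ℝ e0 e1 = 0)
    (μ : Measure V) [IsFiniteMeasure μ] (I : Set V) (a b : V → V)
    (ha : Measurable a) (hb : Measurable b) (hainj : InjOn a I) (hbinj : InjOn b I)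
    (hab : (μ.restrict I).map a = (μ.restrict I).map b)
    (hμ : μ = μ.restrict I + (μ.restrict I).map a + (μ.restrict I).map b)
    (hνR : ∀ θ, ((μ.restrict I).map a).map (planeRot e0 e1 θ) = (μ.restrict I).map a)
    (hPa : ∀ x ∈ I, planeP e0 e1 (a x) ≠ 0) (hPb : ∀ x ∈ I, planeP e0 e1 (b x) ≠ 0)
    (ρ₀ : ℝ) (hfar : ∀ x ∈ I, ρ₀ < ‖x‖) (hna : ∀ x ∈ I, ‖a x‖ ≤ ρ₀) (hnb : ∀ x ∈ I, ‖b x‖ ≤ ρ₀)
    (r s : ℝ) (hs : 0 < s) (hr : 0 < r)
    (hd1 : ∀ x ∈ I, r ≤ ‖x - a x‖) (hd2 : ∀ x ∈ I, r ≤ ‖x - b x‖)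
    (hd3 : ∀ x ∈ I, r ≤ ‖a x - b x‖) :
    ∀ ε : ℝ, 0 < ε → ∃ τ₁ τ₂ : V → V, Measurable τ₁ ∧ Measurable τ₂ ∧
      Set.InjOn τ₁ I ∧ Set.InjOn τ₂ I ∧ (∀ x ∈ I, τ₁ x ∉ I) ∧ (∀ x ∈ I, τ₂ x ∉ I) ∧
      (∀ x ∈ I, ∀ y ∈ I, τ₁ x ≠ τ₂ y) ∧
      μ = μ.restrict I + (μ.restrict I).map τ₁ + (μ.restrict I).map τ₂ ∧
      ∀ x ∈ I, tripleCost s (x, τ₁ x, τ₂ x)
        ≤ tripleCost s (x, a x, b x) + ENNReal.ofReal ε := by
  refine happrox_of_circle μ I a b ha hb hainj hbinj hab hμ (planeRot e0 e1)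
    (isCircleAction_planeRot e0 e1 h0 h1 h01) hνR (planeZ e0 e1) (measurable_planeZ e0 e1)
    (planeZ_planeRot e0 e1 h0 h1 h01) ?_ ?_ ?_ ?_ (norm_planeRot_sub_le' e0 e1 h0 h1 h01)
    ρ₀ r s hs hr hna hnb hd1 hd2 hd3
  · intro x hx h
    exact hPa x hx ((planeZ_eq_zero_iff e0 e1 h0 h1 h01 _).mp h)
  · intro x hx h
    exact hPb x hx ((planeZ_eq_zero_iff e0 e1 h0 h1 h01 _).mp h)
  · intro x hx θ hmem
    have := hfar _ hmem
    rw [norm_planeRot e0 e1 h0 h1 h01] at this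
    linarith [hna x hx]
  · intro x hx θ hmem
    have := hfar _ hmem
    rw [norm_planeRot e0 e1 h0 h1 h01] at this
    linarith [hnb x hx]

end Crest.Agent.S0175lib
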