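import Mathlib
import Crest.Agent.S0175.Rigidity

/-!
# Row 130 (S0175): a smooth "tube" bump around a plane circle (helper88)

`exists_tube_bump`: for orthonormal `e0 e1` in a finite-dimensional real inner product space `E`
and `0 < α₁ < α₂`, `0 < β`, `0 < m` there is a smooth nonnegative compactly supported `η` with
`tsupport η ⊆ {x | α₁ ≤ ‖P x‖² ≤ α₂ ∧ ‖x - P x‖² ≤ β}` (`P = planeP e0 e1`), depending only on
`‖P x‖` and `‖x - P x‖` (hence invariant under plane rotations and the mirror), and with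
`∫ η² = m`.
-/

set_option autoImplicit false
set_option linter.unusedSectionVars false

open MeasureTheory Set Filter Topology
open scoped ENNReal ContDiff

namespace Crest.Agent.S0175lib

variable {E : Type*} [NormedAddCommGroup E] [InnerProductSpace ℝ E]

/-- `planeP e0 e1` is smooth (it is linear). -/
theorem h88_contDiff_planeP (e0 e1 : E) : ContDiff ℝ ∞ (planeP e0 e1) := by
  unfold planeP
  exact ((contDiff_const.inner ℝ contDiff_id).smul contDiff_const).add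
    ((contDiff_const.inner ℝ contDiff_id).smul contDiff_const)

/-- `planeP e0 e1` fixes `e0`-multiples. -/
theorem h88_planeP_smul_e0 (e0 e1 : E) (h0 : ‖e0‖ = 1) (h01 : inner ℝ e0 e1 = 0) (r : ℝ) :
    planeP e0 e1 (r • e0) = r • e0 := by
  have h10 : inner ℝ e1 e0 = (0 : ℝ) := by rw [real_inner_comm]; exact h01
  simp [planeP, inner_smul_right, h10, h0]

/-- Pythagoras for the plane projection. -/
theorem h88_planeP_pythag (e0 e1 : E) (h0 : ‖e0‖ = 1) (h1 : ‖e1‖ = 1)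
    (h01 : inner ℝ e0 e1 = 0) (x : E) :
    ‖x‖ ^ 2 = ‖planeP e0 e1 x‖ ^ 2 + ‖x - planeP e0 e1 x‖ ^ 2 := by
  have h00 : inner ℝ e0 e0 = (1 : ℝ) := by
    rw [real_inner_self_eq_norm_sq, h0]; norm_num
  have h11 : inner ℝ e1 e1 = (1 : ℝ) := by
    rw [real_inner_self_eq_norm_sq, h1]; norm_num
  have h10 : inner ℝ e1 e0 = (0 : ℝ) := by rw [real_inner_comm]; exact h01
  have horth : inner ℝ (planeP e0 e1 x) (x - planeP e0 e1 x) = (0 : ℝ) := by
    simp only [planeP, inner_add_left, inner_add_right, inner_sub_right, inner_smul_left,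
      inner_smul_right, h00, h11, h01, h10, RCLike.conj_to_real]
    have hc0 : inner ℝ x e0 = inner ℝ e0 x := real_inner_comm _ _
    have hc1 : inner ℝ x e1 = inner ℝ e1 x := real_inner_comm _ _
    ring
  have hx : x = planeP e0 e1 x + (x - planeP e0 e1 x) := by abel
  have := norm_add_sq_eq_norm_sq_add_norm_sq_of_inner_eq_zero _ _ horth
  rw [← hx] at this
  nlinarith [this]

variable [FiniteDimensional ℝ E] [MeasurableSpace E] [BorelSpace E]

/-- The closed tube `{α₁ ≤ ‖P x‖² ≤ α₂, ‖x - P x‖² ≤ β}` is compact. -/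
theorem h88_isCompact_tube (e0 e1 : E) (α₁ α₂ β : ℝ) :
    IsCompact {x : E | α₁ ≤ ‖planeP e0 e1 x‖ ^ 2 ∧ ‖planeP e0 e1 x‖ ^ 2 ≤ α₂ ∧
      ‖x - planeP e0 e1 x‖ ^ 2 ≤ β} := by
  have hP : Continuous (planeP e0 e1 : E → E) := (h88_contDiff_planeP e0 e1).continuous
  have hcl : IsClosed {x : E | α₁ ≤ ‖planeP e0 e1 x‖ ^ 2 ∧ ‖planeP e0 e1 x‖ ^ 2 ≤ α₂ ∧
      ‖x - planeP e0 e1 x‖ ^ 2 ≤ β} := by
    have c1 : Continuous fun x : E => ‖planeP e0 e1 x‖ ^ 2 := (hP.norm).pow 2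
    have c2 : Continuous fun x : E => ‖x - planeP e0 e1 x‖ ^ 2 :=
      ((continuous_id.sub hP).norm).pow 2
    exact (isClosed_le continuous_const c1).inter
      ((isClosed_le c1 continuous_const).inter (isClosed_le c2 continuous_const))
  refine (isCompact_closedBall (0 : E) (Real.sqrt (|α₂|) + Real.sqrt (|β|))).of_isClosed_subset
    hcl ?_
  rintro x ⟨-, h2, h3⟩
  rw [mem_closedBall_zero_iff]
  have hx : x = planeP e0 e1 x + (x - planeP e0 e1 x) := by abel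
  have n1 : ‖planeP e0 e1 x‖ ≤ Real.sqrt |α₂| := by
    apply Real.le_sqrt_of_sq_le
    exact h2.trans (le_abs_self _)
  have n2 : ‖x - planeP e0 e1 x‖ ≤ Real.sqrt |β| := by
    apply Real.le_sqrt_of_sq_le
    exact h3.trans (le_abs_self _)
  calc ‖x‖ = ‖planeP e0 e1 x + (x - planeP e0 e1 x)‖ := by rw [← hx]
    _ ≤ ‖planeP e0 e1 x‖ + ‖x - planeP e0 e1 x‖ := norm_add_le _ _
    _ ≤ _ := add_le_add n1 n2

/-- A smooth tube bump around the circle `‖P x‖² ∈ [α₁, α₂]`, `x - P x` small, invariant under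
everything that preserves `‖P x‖` and `‖x - P x‖`, with prescribed `L²` mass `m`. -/
theorem exists_tube_bump (e0 e1 : E) (h0 : ‖e0‖ = 1) (_h1 : ‖e1‖ = 1)
    (h01 : inner ℝ e0 e1 = 0) (α₁ α₂ β m : ℝ) (hα₁ : 0 < α₁) (hα : α₁ < α₂) (hβ : 0 < β)
    (hm : 0 < m) :
    ∃ η : E → ℝ, ContDiff ℝ ∞ η ∧ (∀ x, 0 ≤ η x) ∧ HasCompactSupport η ∧
      tsupport η ⊆ {x | α₁ ≤ ‖planeP e0 e1 x‖ ^ 2 ∧ ‖planeP e0 e1 x‖ ^ 2 ≤ α₂ ∧
        ‖x - planeP e0 e1 x‖ ^ 2 ≤ β} ∧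
      (∀ x y, ‖planeP e0 e1 x‖ = ‖planeP e0 e1 y‖ →
        ‖x - planeP e0 e1 x‖ = ‖y - planeP e0 e1 y‖ → η x = η y) ∧
      ∫ x, η x ^ 2 = m := by
  classical
  -- one-dimensional bumps
  set c : ℝ := (α₁ + α₂) / 2 with hc
  set ρ : ℝ := (α₂ - α₁) / 2 with hρ
  have hρpos : 0 < ρ := by rw [hρ]; linarith
  let φ : ContDiffBump (c : ℝ) := ⟨ρ / 2, ρ, by linarith, by linarith⟩
  let ψ : ContDiffBump (0 : ℝ) := ⟨β / 2, β, by linarith, by linarith⟩
  have hP : ContDiff ℝ ∞ (planeP e0 e1 : E → E) := h88_contDiff_planeP e0 e1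
  have hf1 : ContDiff ℝ ∞ fun x : E => ‖planeP e0 e1 x‖ ^ 2 := hP.norm_sq ℝ
  have hf2 : ContDiff ℝ ∞ fun x : E => ‖x - planeP e0 e1 x‖ ^ 2 := (contDiff_id.sub hP).norm_sq ℝ
  set η₀ : E → ℝ := fun x => φ (‖planeP e0 e1 x‖ ^ 2) * ψ (‖x - planeP e0 e1 x‖ ^ 2) with hη₀
  have hη₀smooth : ContDiff ℝ ∞ η₀ :=
    (φ.contDiff.comp hf1).mul (ψ.contDiff.comp hf2)
  have hη₀nonneg : ∀ x, 0 ≤ η₀ x := fun x => mul_nonneg φ.nonneg ψ.nonneg
  set K : Set E := {x | α₁ ≤ ‖planeP e0 e1 x‖ ^ 2 ∧ ‖planeP e0 e1 x‖ ^ 2 ≤ α₂ ∧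
        ‖x - planeP e0 e1 x‖ ^ 2 ≤ β} with hK
  have hKc : IsCompact K := h88_isCompact_tube e0 e1 α₁ α₂ β
  have hsupp : Function.support η₀ ⊆ K := by
    intro x hx
    rw [Function.mem_support] at hx
    have hφ : φ (‖planeP e0 e1 x‖ ^ 2) ≠ 0 := fun h => hx (by simp [hη₀, h])
    have hψ : ψ (‖x - planeP e0 e1 x‖ ^ 2) ≠ 0 := fun h => hx (by simp [hη₀, h])
    have h1' : ‖planeP e0 e1 x‖ ^ 2 ∈ Metric.ball c ρ := by
      have := φ.support_eq
      rw [← this]; exact hφ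
    have h2' : ‖x - planeP e0 e1 x‖ ^ 2 ∈ Metric.ball (0 : ℝ) β := by
      have := ψ.support_eq
      rw [← this]; exact hψ
    rw [Metric.mem_ball, Real.dist_eq, abs_lt] at h1' h2'
    refine ⟨?_, ?_, ?_⟩
    · rw [hc, hρ] at h1'; linarith [h1'.1]
    · rw [hc, hρ] at h1'; linarith [h1'.2]
    · linarith [h2'.2]
  have htsupp : tsupport η₀ ⊆ K := closure_minimal hsupp hKc.isClosed
  have hη₀comp : HasCompactSupport η₀ := hKc.of_isClosed_subset (isClosed_tsupport _) htsupp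
  -- positivity of the mass
  have hx0 : η₀ (Real.sqrt c • e0) = 1 := by
    have hcpos : 0 < c := by rw [hc]; linarith
    have hPx : planeP e0 e1 (Real.sqrt c • e0) = Real.sqrt c • e0 :=
      h88_planeP_smul_e0 e0 e1 h0 h01 _
    have hn : ‖Real.sqrt c • e0‖ ^ 2 = c := by
      rw [norm_smul, h0, mul_one, Real.norm_eq_abs, sq_abs, Real.sq_sqrt hcpos.le]
    have e1' : φ (‖planeP e0 e1 (Real.sqrt c • e0)‖ ^ 2) = 1 := by
      rw [hPx, hn]
      exact φ.one_of_mem_closedBall (Metric.mem_closedBall_self (by positivity))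
    have e2' : ψ (‖Real.sqrt c • e0 - planeP e0 e1 (Real.sqrt c • e0)‖ ^ 2) = 1 := by
      rw [hPx, sub_self, norm_zero]
      exact ψ.one_of_mem_closedBall (by simp; positivity)
    simp only [hη₀, e1', e2', mul_one]
  have hsqcont : Continuous fun x => η₀ x ^ 2 := (hη₀smooth.continuous).pow 2
  have hsqcomp : HasCompactSupport fun x => η₀ x ^ 2 := by
    have : (fun x => η₀ x ^ 2) = fun x => η₀ x * η₀ x := by funext x; ring
    rw [this]; exact hη₀comp.mul_left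
  have hI0 : 0 < ∫ x, η₀ x ^ 2 :=
    hsqcont.integral_pos_of_hasCompactSupport_nonneg_nonzero hsqcomp (fun x => sq_nonneg _)
      (x := Real.sqrt c • e0) (by simp [hx0])
  set I0 : ℝ := ∫ x, η₀ x ^ 2 with hI0def
  set k : ℝ := Real.sqrt (m / I0) with hk
  have hkpos : 0 < k := Real.sqrt_pos.mpr (div_pos hm hI0)
  have hk2 : k ^ 2 = m / I0 := Real.sq_sqrt (div_pos hm hI0).le
  refine ⟨fun x => k * η₀ x, contDiff_const.mul hη₀smooth,
    fun x => mul_nonneg hkpos.le (hη₀nonneg x), ?_, ?_, ?_, ?_⟩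
  · exact hη₀comp.mul_left
  · refine (closure_mono ?_).trans htsupp
    intro x hx
    rw [Function.mem_support] at hx ⊢
    exact fun h => hx (by simp [h])
  · intro x y hxy hxy'
    simp only [hη₀, hxy, hxy']
  · have : (fun x => (k * η₀ x) ^ 2) = fun x => k ^ 2 * η₀ x ^ 2 := by funext x; ring
    rw [this, integral_const_mul, hk2, ← hI0def]
    field_simp

/-- On the tube: `‖x‖² ∈ [α₁, α₂ + β]`. -/
theorem h88_tube_norm_sq (e0 e1 : E) (h0 : ‖e0‖ = 1) (h1 : ‖e1‖ = 1)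
    (h01 : inner ℝ e0 e1 = 0) {α₁ α₂ β : ℝ} {x : E}
    (hx : α₁ ≤ ‖planeP e0 e1 x‖ ^ 2 ∧ ‖planeP e0 e1 x‖ ^ 2 ≤ α₂ ∧
      ‖x - planeP e0 e1 x‖ ^ 2 ≤ β) :
    α₁ ≤ ‖x‖ ^ 2 ∧ ‖x‖ ^ 2 ≤ α₂ + β := by
  have := h88_planeP_pythag e0 e1 h0 h1 h01 x
  constructor
  · nlinarith [sq_nonneg ‖x - planeP e0 e1 x‖]
  · linarith [hx.2.1, hx.2.2]

/-- On the tube the planar part does not vanish. -/
theorem h88_tube_planeP_ne_zero (e0 e1 : E) {α₁ α₂ β : ℝ} (hα₁ : 0 < α₁) {x : E}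
    (hx : α₁ ≤ ‖planeP e0 e1 x‖ ^ 2 ∧ ‖planeP e0 e1 x‖ ^ 2 ≤ α₂ ∧
      ‖x - planeP e0 e1 x‖ ^ 2 ≤ β) :
    planeP e0 e1 x ≠ 0 := by
  intro h
  rw [h, norm_zero] at hx
  have := hx.1
  norm_num at this
  linarith

end Crest.Agent.S0175lib
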