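import Mathlib
import Crest.Prelude.Def_MultiMarginal

/-!
# Basic facts on `pairCost` / `tripleCost` for S0175

* symmetry, cyclic symmetry, measurability;
* value at distinct points (`ofReal` of the real cost), value `⊤` at coincidences, positivity;
* a stability bound: moving two of the three points by `≤ δ` changes the cost by
  `≤ 4 s (r/2)^(-s-1) δ` when all pair distances are `≥ r ≥ 4 δ`.
-/

set_option autoImplicit false
open MeasureTheory
open scoped ENNReal

namespace Crest.Agent.S0175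

open Crest.AnalysisR.OT

section basic

variable {E : Type*} [NormedAddCommGroup E]

theorem pairCost_comm (s : ℝ) (x y : E) : pairCost s x y = pairCost s y x := by
  unfold pairCost; rw [norm_sub_rev]

theorem tripleCost_apply (s : ℝ) (x y z : E) :
    tripleCost s (x, y, z) = pairCost s x y + pairCost s x z + pairCost s y z := rfl

theorem tripleCost_cyclic (s : ℝ) (x y z : E) :
    tripleCost s (x, y, z) = tripleCost s (z, x, y) := by
  rw [tripleCost_apply, tripleCost_apply, pairCost_comm s z x, pairCost_comm s z y]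
  ring

theorem tripleCost_swap₂₃ (s : ℝ) (x y z : E) :
    tripleCost s (x, y, z) = tripleCost s (x, z, y) := by
  rw [tripleCost_apply, tripleCost_apply, pairCost_comm s z y]
  ring

theorem tripleCost_swap₁₂ (s : ℝ) (x y z : E) :
    tripleCost s (x, y, z) = tripleCost s (y, x, z) := by
  rw [tripleCost_apply, tripleCost_apply, pairCost_comm s y x]
  ring

theorem pairCost_of_ne (s : ℝ) {x y : E} (h : x ≠ y) :
    pairCost s x y = ENNReal.ofReal (‖x - y‖ ^ (-s)) := by
  unfold pairCost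
  exact ENNReal.ofReal_rpow_of_pos (norm_pos_iff.mpr (sub_ne_zero.mpr h))

theorem pairCost_self {s : ℝ} (hs : 0 < s) (x : E) : pairCost s x x = ⊤ := by
  unfold pairCost
  rw [sub_self, norm_zero, ENNReal.ofReal_zero]
  exact ENNReal.zero_rpow_of_neg (by linarith)

theorem pairCost_pos {s : ℝ} (hs : 0 < s) (x y : E) : 0 < pairCost s x y := by
  by_cases h : x = y
  · rw [h, pairCost_self hs]; exact ENNReal.zero_lt_top
  · rw [pairCost_of_ne s h]
    exact ENNReal.ofReal_pos.mpr (Real.rpow_pos_of_pos (norm_pos_iff.mpr (sub_ne_zero.mpr h)) _)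

theorem tripleCost_pos {s : ℝ} (hs : 0 < s) (p : E × E × E) : 0 < tripleCost s p := by
  obtain ⟨x, y, z⟩ := p
  rw [tripleCost_apply]
  exact lt_of_lt_of_le (pairCost_pos hs x y) (le_trans le_self_add le_self_add)

/-- At pairwise distinct points the cost is the `ofReal` of the real three-body cost. -/
theorem tripleCost_of_ne (s : ℝ) {x y z : E} (hxy : x ≠ y) (hxz : x ≠ z) (hyz : y ≠ z) :
    tripleCost s (x, y, z)
      = ENNReal.ofReal (‖x - y‖ ^ (-s) + ‖x - z‖ ^ (-s) + ‖y - z‖ ^ (-s)) := by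
  have p1 : 0 ≤ ‖x - y‖ ^ (-s) := Real.rpow_nonneg (norm_nonneg _) _
  have p2 : 0 ≤ ‖x - z‖ ^ (-s) := Real.rpow_nonneg (norm_nonneg _) _
  have p3 : 0 ≤ ‖y - z‖ ^ (-s) := Real.rpow_nonneg (norm_nonneg _) _
  rw [tripleCost_apply, pairCost_of_ne s hxy, pairCost_of_ne s hxz, pairCost_of_ne s hyz,
    ENNReal.ofReal_add (add_nonneg p1 p2) p3, ENNReal.ofReal_add p1 p2]

/-- With a coincidence among the three points the cost is `⊤` (for `s > 0`). -/
theorem tripleCost_eq_top_of_eq {s : ℝ} (hs : 0 < s) {x y z : E}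
    (h : x = y ∨ x = z ∨ y = z) : tripleCost s (x, y, z) = ⊤ := by
  rw [tripleCost_apply]
  rcases h with h | h | h
  · rw [h, pairCost_self hs]; simp
  · rw [h, pairCost_self hs]; simp
  · rw [h, pairCost_self hs]; simp

/-- Dual inequality in `ENNReal` form from its real form (usable also at coincidences). -/
theorem ofReal_le_tripleCost {s : ℝ} (hs : 0 < s) {x y z : E} {v : ℝ}
    (h : x ≠ y → x ≠ z → y ≠ z → v ≤ ‖x - y‖ ^ (-s) + ‖x - z‖ ^ (-s) + ‖y - z‖ ^ (-s)) :
    ENNReal.ofReal v ≤ tripleCost s (x, y, z) := by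
  by_cases hxy : x = y
  · rw [tripleCost_eq_top_of_eq hs (Or.inl hxy)]; exact le_top
  by_cases hxz : x = z
  · rw [tripleCost_eq_top_of_eq hs (Or.inr (Or.inl hxz))]; exact le_top
  by_cases hyz : y = z
  · rw [tripleCost_eq_top_of_eq hs (Or.inr (Or.inr hyz))]; exact le_top
  rw [tripleCost_of_ne s hxy hxz hyz]
  exact ENNReal.ofReal_le_ofReal (h hxy hxz hyz)

/-- If the cost equals `ofReal v` then the points are pairwise distinct and the real cost is
`max v 0`; in particular when the real cost is known to be `≥ v` it equals `v`. -/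
theorem tripleCost_eq_ofReal_iff {s : ℝ} (hs : 0 < s) {x y z : E} {v : ℝ}
    (h : tripleCost s (x, y, z) = ENNReal.ofReal v) :
    x ≠ y ∧ x ≠ z ∧ y ≠ z ∧ ‖x - y‖ ^ (-s) + ‖x - z‖ ^ (-s) + ‖y - z‖ ^ (-s) = v ∧ 0 < v := by
  have hxy : x ≠ y := by
    intro e
    rw [tripleCost_eq_top_of_eq hs (Or.inl e)] at h
    exact ENNReal.ofReal_ne_top h.symm
  have hxz : x ≠ z := by
    intro e
    rw [tripleCost_eq_top_of_eq hs (Or.inr (Or.inl e))] at h
    exact ENNReal.ofReal_ne_top h.symm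
  have hyz : y ≠ z := by
    intro e
    rw [tripleCost_eq_top_of_eq hs (Or.inr (Or.inr e))] at h
    exact ENNReal.ofReal_ne_top h.symm
  have hpos : 0 < ENNReal.ofReal v := by rw [← h]; exact tripleCost_pos hs _
  have hv : 0 < v := ENNReal.ofReal_pos.mp hpos
  refine ⟨hxy, hxz, hyz, ?_, hv⟩
  rw [tripleCost_of_ne s hxy hxz hyz] at h
  have p1 : 0 ≤ ‖x - y‖ ^ (-s) := Real.rpow_nonneg (norm_nonneg _) _
  have p2 : 0 ≤ ‖x - z‖ ^ (-s) := Real.rpow_nonneg (norm_nonneg _) _
  have p3 : 0 ≤ ‖y - z‖ ^ (-s) := Real.rpow_nonneg (norm_nonneg _) _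
  exact (ENNReal.ofReal_eq_ofReal_iff (by positivity) hv.le).mp h

end basic

section measurable

variable {E : Type*} [NormedAddCommGroup E] [MeasurableSpace E] [BorelSpace E]
  [SecondCountableTopology E]

theorem measurable_pairCost (s : ℝ) : Measurable (fun p : E × E => pairCost s p.1 p.2) := by
  unfold pairCost
  exact ((measurable_fst.sub measurable_snd).norm.ennreal_ofReal).pow_const _

theorem measurable_tripleCost (s : ℝ) : Measurable (tripleCost s : E × E × E → ℝ≥0∞) := by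
  have h12 : Measurable (fun p : E × E × E => pairCost s p.1 p.2.1) :=
    (measurable_pairCost s).comp (measurable_fst.prodMk measurable_snd.fst)
  have h13 : Measurable (fun p : E × E × E => pairCost s p.1 p.2.2) :=
    (measurable_pairCost s).comp (measurable_fst.prodMk measurable_snd.snd)
  have h23 : Measurable (fun p : E × E × E => pairCost s p.2.1 p.2.2) :=
    (measurable_pairCost s).comp (measurable_snd.fst.prodMk measurable_snd.snd)
  exact (h12.add h13).add h23

end measurable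

section stability

/-- Tangent-line (Bernoulli) inequality for `r ↦ r ^ p` with `p ≤ 0` on the positive reals. -/
theorem cb_rpow_tangent_le {p w w₀ : ℝ} (hp : p ≤ 0) (hw : 0 < w) (hw₀ : 0 < w₀) :
    w₀ ^ p + p * w₀ ^ (p - 1) * (w - w₀) ≤ w ^ p := by
  have hr : 0 < w / w₀ := div_pos hw hw₀
  have h1 : 1 + p * (w / w₀ - 1) ≤ (w / w₀) ^ p := by
    have hlog : Real.log (w / w₀) ≤ w / w₀ - 1 := Real.log_le_sub_one_of_pos hr
    have hexp : p * Real.log (w / w₀) + 1 ≤ Real.exp (p * Real.log (w / w₀)) :=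
      Real.add_one_le_exp _
    have h : (w / w₀) ^ p = Real.exp (p * Real.log (w / w₀)) := by
      rw [Real.rpow_def_of_pos hr, mul_comm]
    rw [h]
    nlinarith [mul_le_mul_of_nonpos_left hlog hp]
  have h2 : w ^ p = w₀ ^ p * (w / w₀) ^ p := by
    rw [← Real.mul_rpow hw₀.le hr.le]; congr 1; field_simp
  have h3 : w₀ ^ (p - 1) = w₀ ^ p / w₀ := Real.rpow_sub_one hw₀.ne' p
  rw [h2, h3]
  have hpos : 0 < w₀ ^ p := Real.rpow_pos_of_pos hw₀ p
  have h4 : w₀ ^ p + p * (w₀ ^ p / w₀) * (w - w₀) = w₀ ^ p * (1 + p * (w / w₀ - 1)) := by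
    field_simp
  rw [h4]
  exact mul_le_mul_of_nonneg_left h1 hpos.le

/-- One-variable stability: if `d' ≥ d - η ≥ r/2 > 0` then
`d' ^ (-s) ≤ d ^ (-s) + s (r/2)^(-s-1) η`. -/
theorem rpow_neg_le_add {s r d d' η : ℝ} (hs : 0 < s) (hr : 0 < r) (hη : 0 ≤ η)
    (hdη : r / 2 ≤ d - η) (hdd : d - η ≤ d') :
    d' ^ (-s) ≤ d ^ (-s) + s * (r / 2) ^ (-s - 1) * η := by
  have hw₀ : 0 < d - η := lt_of_lt_of_le (by positivity) hdη
  have hd : 0 < d := by linarith
  have h1 : d' ^ (-s) ≤ (d - η) ^ (-s) :=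
    Real.rpow_le_rpow_of_nonpos hw₀ hdd (by linarith)
  have h2 := cb_rpow_tangent_le (p := -s) (w := d) (w₀ := d - η) (by linarith) hd hw₀
  have h3 : (d - η) ^ (-s - 1) ≤ (r / 2) ^ (-s - 1) :=
    Real.rpow_le_rpow_of_nonpos (by positivity) hdη (by linarith)
  have h4 : d - (d - η) = η := by ring
  rw [h4] at h2
  have h5 : s * (d - η) ^ (-s - 1) * η ≤ s * (r / 2) ^ (-s - 1) * η := by
    have := mul_le_mul_of_nonneg_left h3 hs.le
    exact mul_le_mul_of_nonneg_right this hη
  linarith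

variable {E : Type*} [NormedAddCommGroup E]

/-- Stability of the three-body cost: with all pair distances of `(x, y, z)` at least `r`,
moving `y` and `z` by at most `δ ≤ r/4` increases the cost by at most `4 s (r/2)^(-s-1) δ`. -/
theorem tripleCost_le_add_of_close {s r δ : ℝ} (hs : 0 < s) (hr : 0 < r) (hδ0 : 0 ≤ δ)
    (hδ : 4 * δ ≤ r) {x y z y' z' : E} (hxy : r ≤ ‖x - y‖) (hxz : r ≤ ‖x - z‖)
    (hyz : r ≤ ‖y - z‖) (hy : ‖y' - y‖ ≤ δ) (hz : ‖z' - z‖ ≤ δ) :
    tripleCost s (x, y', z')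
      ≤ tripleCost s (x, y, z) + ENNReal.ofReal (4 * s * (r / 2) ^ (-s - 1) * δ) := by
  -- lower bounds on the new distances
  have d1 : ‖x - y‖ - δ ≤ ‖x - y'‖ := by
    have h := norm_sub_le_norm_sub_add_norm_sub x y' y
    rw [norm_sub_rev y' y] at hy
    have : ‖x - y‖ ≤ ‖x - y'‖ + ‖y' - y‖ := h
    rw [norm_sub_rev y' y] at this
    linarith
  have d2 : ‖x - z‖ - δ ≤ ‖x - z'‖ := by
    have h := norm_sub_le_norm_sub_add_norm_sub x z' z
    rw [norm_sub_rev z' z] at hz
    have : ‖x - z‖ ≤ ‖x - z'‖ + ‖z' - z‖ := h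
    rw [norm_sub_rev z' z] at this
    linarith
  have d3 : ‖y - z‖ - 2 * δ ≤ ‖y' - z'‖ := by
    have e : y - z = (y - y') + (y' - z') + (z' - z) := by abel
    have h : ‖y - z‖ ≤ ‖y - y'‖ + ‖y' - z'‖ + ‖z' - z‖ := by
      rw [e]
      exact (norm_add_le _ _).trans (add_le_add_left (norm_add_le _ _) _)
    rw [norm_sub_rev y y'] at h
    linarith
  have n1 : 0 < ‖x - y'‖ := by linarith
  have n2 : 0 < ‖x - z'‖ := by linarith
  have n3 : 0 < ‖y' - z'‖ := by linarith
  have hxy' : x ≠ y' := fun e => by rw [e, sub_self, norm_zero] at n1; exact lt_irrefl _ n1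
  have hxz' : x ≠ z' := fun e => by rw [e, sub_self, norm_zero] at n2; exact lt_irrefl _ n2
  have hyz' : y' ≠ z' := fun e => by rw [e, sub_self, norm_zero] at n3; exact lt_irrefl _ n3
  have hxy0 : x ≠ y := fun e => by
    rw [e, sub_self, norm_zero] at hxy; linarith
  have hxz0 : x ≠ z := fun e => by
    rw [e, sub_self, norm_zero] at hxz; linarith
  have hyz0 : y ≠ z := fun e => by
    rw [e, sub_self, norm_zero] at hyz; linarith
  have b1 := rpow_neg_le_add (s := s) (r := r) (d := ‖x - y‖) (d' := ‖x - y'‖) (η := δ)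
    hs hr hδ0 (by linarith) d1
  have b2 := rpow_neg_le_add (s := s) (r := r) (d := ‖x - z‖) (d' := ‖x - z'‖) (η := δ)
    hs hr hδ0 (by linarith) d2
  have b3 := rpow_neg_le_add (s := s) (r := r) (d := ‖y - z‖) (d' := ‖y' - z'‖) (η := 2 * δ)
    hs hr (by linarith) (by linarith) d3
  have hK : 0 ≤ s * (r / 2) ^ (-s - 1) := by positivity
  have p1 : 0 ≤ ‖x - y‖ ^ (-s) := Real.rpow_nonneg (norm_nonneg _) _
  have p2 : 0 ≤ ‖x - z‖ ^ (-s) := Real.rpow_nonneg (norm_nonneg _) _
  have p3 : 0 ≤ ‖y - z‖ ^ (-s) := Real.rpow_nonneg (norm_nonneg _) _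
  rw [tripleCost_of_ne s hxy' hxz' hyz', tripleCost_of_ne s hxy0 hxz0 hyz0,
    ← ENNReal.ofReal_add (by positivity) (by positivity)]
  apply ENNReal.ofReal_le_ofReal
  nlinarith [b1, b2, b3]

end stability

end Crest.Agent.S0175
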