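import Mathlib

/-!
# Generic density push-forward under a smooth diffeomorphism (helper94, row 130 / S0175)

`pushDensity Z V η y = η (Z y) ^ 2 * |det (D Z y)|` on `V`, `0` elsewhere: the density of the
push-forward of `η² dx` under a diffeomorphism `A : U → V` with inverse `Z : V → U`.

Main results (all for a finite-dimensional real inner product space `E` with its volume):
* `h94_contDiff_pushDensity`, `h94_contDiff_sqrt_pushDensity`, `h94_pushDensity_nonneg`,
  `h94_hasCompactSupport_pushDensity`, `h94_pushDensity_support_subset`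
* `h94_map_withDensity` : `map A (η² dx) = pushDensity dx`
* `h94_integral_pushDensity` : `∫ pushDensity = ∫ η²`
* `DiffeoData.exists_sqrt_density` : packaged form with `σ = √pushDensity`
-/

set_option linter.unusedSectionVars false

open MeasureTheory Set Filter Topology
open scoped ENNReal ContDiff

namespace Crest.Agent.S0175lib

variable {E : Type*} [NormedAddCommGroup E] [InnerProductSpace ℝ E] [FiniteDimensional ℝ E]

/-- The determinant is a smooth function of a continuous linear endomorphism (finite dimension). -/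
theorem h94_contDiff_det : ContDiff ℝ ∞ (fun A : E →L[ℝ] E => A.det) := by
  classical
  let b := Module.finBasis ℝ E
  have hcoord : ∀ i j : Fin (Module.finrank ℝ E),
      ContDiff ℝ ∞ (fun A : E →L[ℝ] E => b.repr (A (b j)) i) := by
    intro i j
    have h1 : ContDiff ℝ ∞ (fun A : E →L[ℝ] E => A (b j)) :=
      (ContinuousLinearMap.apply ℝ E (b j)).contDiff
    have h2 : ContDiff ℝ ∞ (fun v : E => b.repr v i) := by
      have : IsBoundedLinearMap ℝ (fun v : E => b.repr v i) := by
        have hl : IsLinearMap ℝ (fun v : E => b.repr v i) :=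
          ⟨fun x y => by simp, fun c x => by simp⟩
        exact (hl.mk' _).toContinuousLinearMap.isBoundedLinearMap
      exact this.contDiff
    exact h2.comp h1
  have hdet : ∀ A : E →L[ℝ] E, A.det
      = ∑ σ : Equiv.Perm (Fin (Module.finrank ℝ E)),
          (Equiv.Perm.sign σ : ℤ) • ∏ i, b.repr (A (b i)) (σ i) := by
    intro A
    rw [ContinuousLinearMap.det, ← LinearMap.det_toMatrix b, Matrix.det_apply]
    refine Finset.sum_congr rfl fun σ _ => ?_
    congr 1
    refine Finset.prod_congr rfl fun i _ => ?_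
    simp [LinearMap.toMatrix_apply]
  simp_rw [hdet]
  refine ContDiff.sum fun σ _ => ?_
  refine ContDiff.const_smul _ ?_
  exact contDiff_prod fun i _ => hcoord (σ i) i

/-- A pair of mutually inverse smooth maps between two open sets. -/
structure DiffeoData (U V : Set E) (A Z : E → E) : Prop where
  isOpen_U : IsOpen U
  isOpen_V : IsOpen V
  contDiffOn_A : ContDiffOn ℝ ∞ A U
  contDiffOn_Z : ContDiffOn ℝ ∞ Z V
  mapsTo_A : MapsTo A U V
  mapsTo_Z : MapsTo Z V U
  left_inv : ∀ x ∈ U, Z (A x) = x
  right_inv : ∀ y ∈ V, A (Z y) = y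

/-- The push-forward density. -/
noncomputable def pushDensity (Z : E → E) (V : Set E) (η : E → ℝ) : E → ℝ :=
  V.indicator fun y => η (Z y) ^ 2 * |(fderiv ℝ Z y).det|

variable {U V : Set E} {A Z : E → E} {η : E → ℝ}

theorem h94_pushDensity_of_mem {y : E} (hy : y ∈ V) :
    pushDensity Z V η y = η (Z y) ^ 2 * |(fderiv ℝ Z y).det| := by
  simp [pushDensity, hy]

theorem h94_pushDensity_of_notMem {y : E} (hy : y ∉ V) : pushDensity Z V η y = 0 := by
  simp [pushDensity, hy]

theorem h94_pushDensity_nonneg (y : E) : 0 ≤ pushDensity Z V η y := by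
  unfold pushDensity
  exact Set.indicator_nonneg (fun y _ => mul_nonneg (sq_nonneg _) (abs_nonneg _)) y

namespace DiffeoData

variable (D : DiffeoData U V A Z)
include D

theorem det_ne_zero {y : E} (hy : y ∈ V) : (fderiv ℝ Z y).det ≠ 0 := by
  have hZd : DifferentiableAt ℝ Z y :=
    (D.contDiffOn_Z.contDiffAt (D.isOpen_V.mem_nhds hy)).differentiableAt (by simp)
  have hAd : DifferentiableAt ℝ A (Z y) :=
    (D.contDiffOn_A.contDiffAt (D.isOpen_U.mem_nhds (D.mapsTo_Z hy))).differentiableAt (by simp)
  have hcomp : fderiv ℝ (A ∘ Z) y = (fderiv ℝ A (Z y)).comp (fderiv ℝ Z y) :=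
    fderiv_comp y hAd hZd
  have hid : fderiv ℝ (A ∘ Z) y = ContinuousLinearMap.id ℝ E := by
    have : (A ∘ Z) =ᶠ[𝓝 y] id := by
      filter_upwards [D.isOpen_V.mem_nhds hy] with z hz
      simp [D.right_inv z hz]
    rw [this.fderiv_eq, fderiv_id]
  have hdet : (fderiv ℝ A (Z y)).det * (fderiv ℝ Z y).det = 1 := by
    have h := congrArg ContinuousLinearMap.det (hcomp.symm.trans hid)
    simpa [ContinuousLinearMap.det, ContinuousLinearMap.coe_comp, LinearMap.det_comp] using h
  exact right_ne_zero_of_mul_eq_one hdet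

theorem contDiffOn_det : ContDiffOn ℝ ∞ (fun y => (fderiv ℝ Z y).det) V :=
  h94_contDiff_det.comp_contDiffOn
    (D.contDiffOn_Z.fderiv_of_isOpen D.isOpen_V (by simp))

theorem injOn_Z : InjOn Z V := by
  intro y hy y' hy' h
  rw [← D.right_inv y hy, ← D.right_inv y' hy', h]

theorem image_Z : Z '' V = U := by
  apply Subset.antisymm
  · rintro _ ⟨y, hy, rfl⟩
    exact D.mapsTo_Z hy
  · intro x hx
    exact ⟨A x, D.mapsTo_A hx, D.left_inv x hx⟩

/-- Outside the image of the support of `η`, the push-forward density vanishes. -/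
theorem pushDensity_eq_zero {y : E} (hy : y ∉ A '' tsupport η) : pushDensity Z V η y = 0 := by
  by_cases hyV : y ∈ V
  · rw [h94_pushDensity_of_mem hyV]
    have : η (Z y) = 0 := by
      by_contra hne
      apply hy
      refine ⟨Z y, subset_tsupport _ hne, D.right_inv y hyV⟩
    simp [this]
  · exact h94_pushDensity_of_notMem hyV

theorem support_pushDensity_subset :
    Function.support (pushDensity Z V η) ⊆ A '' tsupport η := by
  intro y hy
  by_contra h
  exact hy (D.pushDensity_eq_zero h)

theorem isCompact_image (hηc : HasCompactSupport η) (hηU : tsupport η ⊆ U) :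
    IsCompact (A '' tsupport η) :=
  hηc.isCompact.image_of_continuousOn (D.contDiffOn_A.continuousOn.mono hηU)

theorem image_subset (hηU : tsupport η ⊆ U) : A '' tsupport η ⊆ V := by
  rintro _ ⟨x, hx, rfl⟩
  exact D.mapsTo_A (hηU hx)

theorem hasCompactSupport_pushDensity (hηc : HasCompactSupport η) (hηU : tsupport η ⊆ U) :
    HasCompactSupport (pushDensity Z V η) :=
  HasCompactSupport.intro (D.isCompact_image hηc hηU) fun _ hy => D.pushDensity_eq_zero hy

theorem contDiff_pushDensity (hη : ContDiff ℝ ∞ η) (hηc : HasCompactSupport η)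
    (hηU : tsupport η ⊆ U) : ContDiff ℝ ∞ (pushDensity Z V η) := by
  rw [contDiff_iff_contDiffAt]
  intro y
  by_cases hy : y ∈ V
  · have hZ : ContDiffAt ℝ ∞ Z y := D.contDiffOn_Z.contDiffAt (D.isOpen_V.mem_nhds hy)
    have hdet : ContDiffAt ℝ ∞ (fun y => (fderiv ℝ Z y).det) y :=
      D.contDiffOn_det.contDiffAt (D.isOpen_V.mem_nhds hy)
    have h1 : ContDiffAt ℝ ∞ (fun y => η (Z y) ^ 2 * |(fderiv ℝ Z y).det|) y :=
      ((hη.contDiffAt.comp y hZ).pow 2).mul (hdet.abs (D.det_ne_zero hy))
    refine h1.congr_of_eventuallyEq ?_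
    filter_upwards [D.isOpen_V.mem_nhds hy] with z hz
    exact h94_pushDensity_of_mem hz
  · have hK : IsClosed (A '' tsupport η) := (D.isCompact_image hηc hηU).isClosed
    have hyK : y ∉ A '' tsupport η := fun h => hy (D.image_subset hηU h)
    refine (contDiffAt_const (c := (0 : ℝ))).congr_of_eventuallyEq ?_
    filter_upwards [hK.isOpen_compl.mem_nhds hyK] with z hz
    exact D.pushDensity_eq_zero hz

theorem sqrt_pushDensity_of_mem (hη0 : ∀ x, 0 ≤ η x) {y : E} (hy : y ∈ V) :
    Real.sqrt (pushDensity Z V η y) = η (Z y) * Real.sqrt |(fderiv ℝ Z y).det| := by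
  rw [h94_pushDensity_of_mem hy, Real.sqrt_mul (sq_nonneg _), Real.sqrt_sq (hη0 _)]

theorem contDiff_sqrt_pushDensity (hη : ContDiff ℝ ∞ η) (hη0 : ∀ x, 0 ≤ η x)
    (hηc : HasCompactSupport η) (hηU : tsupport η ⊆ U) :
    ContDiff ℝ ∞ (fun y => Real.sqrt (pushDensity Z V η y)) := by
  rw [contDiff_iff_contDiffAt]
  intro y
  by_cases hy : y ∈ V
  · have hZ : ContDiffAt ℝ ∞ Z y := D.contDiffOn_Z.contDiffAt (D.isOpen_V.mem_nhds hy)
    have hdet : ContDiffAt ℝ ∞ (fun y => (fderiv ℝ Z y).det) y :=
      D.contDiffOn_det.contDiffAt (D.isOpen_V.mem_nhds hy)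
    have habs : ContDiffAt ℝ ∞ (fun y => |(fderiv ℝ Z y).det|) y :=
      hdet.abs (D.det_ne_zero hy)
    have h1 : ContDiffAt ℝ ∞ (fun y => η (Z y) * Real.sqrt |(fderiv ℝ Z y).det|) y :=
      (hη.contDiffAt.comp y hZ).mul (habs.sqrt (abs_pos.2 (D.det_ne_zero hy)).ne')
    refine h1.congr_of_eventuallyEq ?_
    filter_upwards [D.isOpen_V.mem_nhds hy] with z hz
    exact D.sqrt_pushDensity_of_mem hη0 hz
  · have hK : IsClosed (A '' tsupport η) := (D.isCompact_image hηc hηU).isClosed
    have hyK : y ∉ A '' tsupport η := fun h => hy (D.image_subset hηU h)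
    refine (contDiffAt_const (c := (0 : ℝ))).congr_of_eventuallyEq ?_
    filter_upwards [hK.isOpen_compl.mem_nhds hyK] with z hz
    simp [D.pushDensity_eq_zero hz]

section Measure

variable [MeasurableSpace E] [BorelSpace E]

/-- Change of variables: the push-forward of `η² dx` under `A` is `pushDensity dx`. -/
theorem map_withDensity (hAm : Measurable A) (hηU : tsupport η ⊆ U) :
    Measure.map A (volume.withDensity fun x => ENNReal.ofReal (η x ^ 2))
      = volume.withDensity fun y => ENNReal.ofReal (pushDensity Z V η y) := by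
  refine Measure.ext fun S hS => ?_
  rw [Measure.map_apply hAm hS, withDensity_apply _ (hAm hS), withDensity_apply _ hS]
  set g : E → ℝ≥0∞ := (A ⁻¹' S).indicator fun x => ENNReal.ofReal (η x ^ 2) with hg
  have h1 : ∫⁻ x in A ⁻¹' S, ENNReal.ofReal (η x ^ 2) = ∫⁻ x in Z '' V, g x := by
    rw [D.image_Z, ← lintegral_indicator (hAm hS), ← lintegral_indicator D.isOpen_U.measurableSet]
    congr 1 with x
    by_cases hx : x ∈ U
    · simp [hx, hg]
    · have h0 : η x = 0 := image_eq_zero_of_notMem_tsupport (fun h => hx (hηU h))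
      simp [hx, h0, Set.indicator]
  have h2 : ∫⁻ x in Z '' V, g x
      = ∫⁻ y in V, ENNReal.ofReal |(fderiv ℝ Z y).det| * g (Z y) :=
    lintegral_image_eq_lintegral_abs_det_fderiv_mul volume D.isOpen_V.measurableSet
      (fun y hy => ((D.contDiffOn_Z.contDiffAt (D.isOpen_V.mem_nhds hy)).differentiableAt
        (by simp)).hasFDerivAt.hasFDerivWithinAt) D.injOn_Z g
  have h3 : ∫⁻ y in V, ENNReal.ofReal |(fderiv ℝ Z y).det| * g (Z y)
      = ∫⁻ y in V, S.indicator (fun y => ENNReal.ofReal (pushDensity Z V η y)) y := by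
    refine setLIntegral_congr_fun D.isOpen_V.measurableSet fun y hy => ?_
    by_cases hyS : y ∈ S
    · have hmem : Z y ∈ A ⁻¹' S := by simp [D.right_inv y hy, hyS]
      simp only [hg, Set.indicator_of_mem hmem, Set.indicator_of_mem hyS,
        h94_pushDensity_of_mem hy]
      rw [mul_comm, ENNReal.ofReal_mul (sq_nonneg _)]
    · have hmem : Z y ∉ A ⁻¹' S := by simp [D.right_inv y hy, hyS]
      simp [hg, Set.indicator_of_notMem hmem, Set.indicator_of_notMem hyS]
  have h4 : ∫⁻ y in V, S.indicator (fun y => ENNReal.ofReal (pushDensity Z V η y)) y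
      = ∫⁻ y in S, ENNReal.ofReal (pushDensity Z V η y) := by
    rw [← lintegral_indicator D.isOpen_V.measurableSet, ← lintegral_indicator hS]
    congr 1 with y
    by_cases hy : y ∈ V
    · simp [hy]
    · simp [hy, h94_pushDensity_of_notMem hy, Set.indicator]
  rw [h1, h2, h3, h4]

/-- The push-forward density has the same total mass. -/
theorem integral_pushDensity (hAm : Measurable A) (hη : ContDiff ℝ ∞ η)
    (hηc : HasCompactSupport η) (hηU : tsupport η ⊆ U) :
    ∫ y, pushDensity Z V η y = ∫ x, η x ^ 2 := by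
  have hm := congrArg (fun m : Measure E => m univ) (D.map_withDensity (η := η) hAm hηU)
  simp only [Measure.map_apply hAm MeasurableSet.univ, preimage_univ,
    withDensity_apply _ MeasurableSet.univ, Measure.restrict_univ] at hm
  rw [integral_eq_lintegral_of_nonneg_ae (Eventually.of_forall h94_pushDensity_nonneg)
      (D.contDiff_pushDensity hη hηc hηU).continuous.aestronglyMeasurable,
    integral_eq_lintegral_of_nonneg_ae (Eventually.of_forall fun x => sq_nonneg (η x))
      (hη.continuous.pow 2).aestronglyMeasurable, hm]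

/-- Packaged form: the push-forward of `η² dx` under `A` is `σ² dy` for a smooth nonnegative
compactly supported `σ` with `tsupport σ ⊆ V` (namely `σ = √(pushDensity Z V η)`). -/
theorem exists_sqrt_density (hAm : Measurable A) (hη : ContDiff ℝ ∞ η) (hη0 : ∀ x, 0 ≤ η x)
    (hηc : HasCompactSupport η) (hηU : tsupport η ⊆ U) :
    ∃ σ : E → ℝ, (∀ y, 0 ≤ σ y) ∧ ContDiff ℝ ∞ σ ∧ HasCompactSupport σ ∧ tsupport σ ⊆ V ∧
      tsupport σ ⊆ A '' tsupport η ∧
      (∀ y, σ y ^ 2 = pushDensity Z V η y) ∧
      (∀ y ∈ V, σ y = η (Z y) * Real.sqrt |(fderiv ℝ Z y).det|) ∧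
      Measure.map A (volume.withDensity fun x => ENNReal.ofReal (η x ^ 2))
        = volume.withDensity fun y => ENNReal.ofReal (σ y ^ 2) := by
  have hsupp : Function.support (fun y => Real.sqrt (pushDensity Z V η y)) ⊆ A '' tsupport η := by
    intro y hy
    by_contra h
    exact hy (by simp [D.pushDensity_eq_zero h])
  have hts : tsupport (fun y => Real.sqrt (pushDensity Z V η y)) ⊆ A '' tsupport η :=
    closure_minimal hsupp (D.isCompact_image hηc hηU).isClosed
  refine ⟨fun y => Real.sqrt (pushDensity Z V η y), fun y => Real.sqrt_nonneg _,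
    D.contDiff_sqrt_pushDensity hη hη0 hηc hηU, ?_, hts.trans (D.image_subset hηU), hts,
    fun y => Real.sq_sqrt (h94_pushDensity_nonneg y),
    fun y hy => D.sqrt_pushDensity_of_mem hη0 hy, ?_⟩
  · exact HasCompactSupport.intro (D.isCompact_image hηc hηU) fun y hy => by
      simp [D.pushDensity_eq_zero hy]
  · rw [D.map_withDensity hAm hηU]
    congr 1
    funext y
    rw [Real.sq_sqrt (h94_pushDensity_nonneg y)]

end Measure

end DiffeoData

end Crest.Agent.S0175lib
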