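import Mathlib

/-!
# Row 130 (S0175): the core three-body inequality

Pure real/inner-product-space lemma, independent of the measure theory:
for the explicit parameters `(E, D, L, ξ, R)` of the design,
`‖y-z‖^(-s) + ‖x-y‖^(-s) + ‖x-z‖^(-s) + s‖y‖² + s‖z‖² ≥ gst` whenever `‖x‖ = R`,
with a quantitative remainder, and the equality case.
-/

set_option autoImplicit false

namespace Crest.Agent.S0175lib

open Real

/-- Tangent-line (Bernoulli) inequality for `r ↦ r ^ p` with `p ≤ 0` on the positive reals. -/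
theorem rpow_tangent_le {p w w₀ : ℝ} (hp : p ≤ 0) (hw : 0 < w) (hw₀ : 0 < w₀) :
    w₀ ^ p + p * w₀ ^ (p - 1) * (w - w₀) ≤ w ^ p := by
  have hr : 0 < w / w₀ := div_pos hw hw₀
  have h1 : 1 + p * (w / w₀ - 1) ≤ (w / w₀) ^ p := by
    have hlog : Real.log (w / w₀) ≤ w / w₀ - 1 := Real.log_le_sub_one_of_pos hr
    have hexp : p * Real.log (w / w₀) + 1 ≤ Real.exp (p * Real.log (w / w₀)) :=
      Real.add_one_le_exp _
    have h : (w / w₀) ^ p = Real.exp (p * Real.log (w / w₀)) := by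
      rw [Real.rpow_def_of_pos hr, mul_comm]
    rw [h]
    nlinarith [mul_le_mul_of_nonpos_left hlog hp]
  have h2 : w ^ p = w₀ ^ p * (w / w₀) ^ p := by
    rw [← Real.mul_rpow hw₀.le hr.le]; congr 1; field_simp
  have h3 : w₀ ^ (p - 1) = w₀ ^ p / w₀ := Real.rpow_sub_one hw₀.ne' p
  rw [h2, h3]
  have hpos : 0 < w₀ ^ p := Real.rpow_pos_of_pos hw₀ p
  have h4 : w₀ ^ p + p * (w₀ ^ p / w₀) * (w - w₀) = w₀ ^ p * (1 + p * (w / w₀ - 1)) := by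
    field_simp
  rw [h4]
  exact mul_le_mul_of_nonneg_left h1 hpos.le

/-- Strict tangent-line inequality for `r ↦ r ^ p` with `p < 0` away from the tangency point. -/
theorem rpow_tangent_lt {p w w₀ : ℝ} (hp : p < 0) (hw : 0 < w) (hw₀ : 0 < w₀) (hne : w ≠ w₀) :
    w₀ ^ p + p * w₀ ^ (p - 1) * (w - w₀) < w ^ p := by
  have hr : 0 < w / w₀ := div_pos hw hw₀
  have hr1 : w / w₀ ≠ 1 := by
    intro h
    exact hne (by field_simp at h; exact h)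
  have h1 : 1 + p * (w / w₀ - 1) < (w / w₀) ^ p := by
    have hlog : Real.log (w / w₀) < w / w₀ - 1 := Real.log_lt_sub_one_of_pos hr hr1
    have hexp : p * Real.log (w / w₀) + 1 ≤ Real.exp (p * Real.log (w / w₀)) :=
      Real.add_one_le_exp _
    have h : (w / w₀) ^ p = Real.exp (p * Real.log (w / w₀)) := by
      rw [Real.rpow_def_of_pos hr, mul_comm]
    rw [h]
    nlinarith [mul_lt_mul_of_neg_left hlog hp]
  have h2 : w ^ p = w₀ ^ p * (w / w₀) ^ p := by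
    rw [← Real.mul_rpow hw₀.le hr.le]; congr 1; field_simp
  have h3 : w₀ ^ (p - 1) = w₀ ^ p / w₀ := Real.rpow_sub_one hw₀.ne' p
  rw [h2, h3]
  have hpos : 0 < w₀ ^ p := Real.rpow_pos_of_pos hw₀ p
  have h4 : w₀ ^ p + p * (w₀ ^ p / w₀) * (w - w₀) = w₀ ^ p * (1 + p * (w / w₀ - 1)) := by
    field_simp
  rw [h4]
  exact mul_lt_mul_of_pos_left h1 hpos

/-- `r ^ (-s) = (r ^ 2) ^ (-s / 2)` for `r ≥ 0`. -/
theorem rpow_neg_eq_sq_rpow {r : ℝ} (hr : 0 ≤ r) (s : ℝ) : r ^ (-s) = (r ^ 2) ^ (-s / 2) := by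
  rw [← Real.rpow_natCast r 2, ← Real.rpow_mul hr]
  congr 1
  push_cast
  ring

variable {V : Type*} [NormedAddCommGroup V] [InnerProductSpace ℝ V]

/-- The algebraic identity behind the core inequality. -/
theorem core_identity (s t E D L ξ R c₁ c₂ : ℝ) (hu : 1 - E / 2 ≠ 0)
    (hL : L ^ 2 = D - t ^ 2 / 4) (hξ : ξ = -E * L / 2) (hR : R = L * (1 - E / 2))
    (x y z : V) (hx : ‖x‖ = R) :
    c₁ - s * ((1 - E / 2) * t) * (‖y - z‖ - t) + 2 * c₂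
        - s * E * ((‖x - y‖ ^ 2 + ‖x - z‖ ^ 2) / 2 - D) + s * ‖y‖ ^ 2 + s * ‖z‖ ^ 2
      = c₁ + s * t ^ 2 / 2 + 2 * s * ξ ^ 2 + 2 * c₂
        + s * ((1 - E / 2) / 2 * (‖y - z‖ - t) ^ 2
            + ‖(1 - E / 2) • (y + z) + E • x‖ ^ 2 / (2 * (1 - E / 2))) := by
  have hτ2 : ‖y - z‖ ^ 2 = ‖y‖ ^ 2 - 2 * inner ℝ y z + ‖z‖ ^ 2 := norm_sub_sq_real y z
  have ha : ‖x - y‖ ^ 2 = ‖x‖ ^ 2 - 2 * inner ℝ x y + ‖y‖ ^ 2 := norm_sub_sq_real x y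
  have hb : ‖x - z‖ ^ 2 = ‖x‖ ^ 2 - 2 * inner ℝ x z + ‖z‖ ^ 2 := norm_sub_sq_real x z
  have hW : ‖(1 - E / 2) • (y + z) + E • x‖ ^ 2
      = (1 - E / 2) ^ 2 * (‖y‖ ^ 2 + 2 * inner ℝ y z + ‖z‖ ^ 2)
        + 2 * ((1 - E / 2) * E) * (inner ℝ x y + inner ℝ x z) + E ^ 2 * ‖x‖ ^ 2 := by
    have h1 : ‖(1 - E / 2) • (y + z)‖ ^ 2 = (1 - E / 2) ^ 2 * ‖y + z‖ ^ 2 := by
      rw [norm_smul, mul_pow, Real.norm_eq_abs, sq_abs]
    have h2 : ‖E • x‖ ^ 2 = E ^ 2 * ‖x‖ ^ 2 := by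
      rw [norm_smul, mul_pow, Real.norm_eq_abs, sq_abs]
    have h3 : inner ℝ ((1 - E / 2) • (y + z)) (E • x)
        = (1 - E / 2) * E * (inner ℝ x y + inner ℝ x z) := by
      rw [real_inner_smul_left, real_inner_smul_right, inner_add_left, real_inner_comm x y,
        real_inner_comm x z]
      ring
    rw [norm_add_sq_real, h1, h2, h3, norm_add_sq_real y z]
    ring
  have key : (c₁ - s * ((1 - E / 2) * t) * (‖y - z‖ - t) + 2 * c₂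
        - s * E * ((‖x - y‖ ^ 2 + ‖x - z‖ ^ 2) / 2 - D) + s * ‖y‖ ^ 2 + s * ‖z‖ ^ 2
        - (c₁ + s * t ^ 2 / 2 + 2 * s * ξ ^ 2 + 2 * c₂)) * (2 * (1 - E / 2))
      = s * ((1 - E / 2) ^ 2 * (‖y - z‖ - t) ^ 2 + ‖(1 - E / 2) • (y + z) + E • x‖ ^ 2) := by
    rw [ha, hb, hW, hx, hR, hξ]
    linear_combination (-(s * (1 - E / 2) ^ 2)) * hτ2 - (2 * s * (1 - E / 2) * E) * hL
  have h2u : (2 * (1 - E / 2)) ≠ 0 := mul_ne_zero two_ne_zero hu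
  have key2 : c₁ - s * ((1 - E / 2) * t) * (‖y - z‖ - t) + 2 * c₂
        - s * E * ((‖x - y‖ ^ 2 + ‖x - z‖ ^ 2) / 2 - D) + s * ‖y‖ ^ 2 + s * ‖z‖ ^ 2
        - (c₁ + s * t ^ 2 / 2 + 2 * s * ξ ^ 2 + 2 * c₂)
      = s * ((1 - E / 2) ^ 2 * (‖y - z‖ - t) ^ 2 + ‖(1 - E / 2) • (y + z) + E • x‖ ^ 2)
          / (2 * (1 - E / 2)) := by
    rw [eq_div_iff h2u]; exact key
  have key3 : s * ((1 - E / 2) ^ 2 * (‖y - z‖ - t) ^ 2 + ‖(1 - E / 2) • (y + z) + E • x‖ ^ 2)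
          / (2 * (1 - E / 2))
      = s * ((1 - E / 2) / 2 * (‖y - z‖ - t) ^ 2
            + ‖(1 - E / 2) • (y + z) + E • x‖ ^ 2 / (2 * (1 - E / 2))) := by
    field_simp
  linarith [key2, key3]

/-- Exact splitting of the three-body expression: `gst`, plus a sum of squares, plus three
tangent-line gaps (each nonnegative, vanishing only at the tangency point). -/
theorem core_split (s t E D L ξ R : ℝ) (ht : 0 < t)
    (hE : E = 2 * (1 - t ^ (-s - 2))) (hE1 : E ≤ 1)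
    (hED : E = D ^ (-s / 2 - 1)) (hL : L ^ 2 = D - t ^ 2 / 4)
    (hξ : ξ = -E * L / 2) (hR : R = L * (1 - E / 2))
    (x y z : V) (hx : ‖x‖ = R) :
    ‖y - z‖ ^ (-s) + ‖x - y‖ ^ (-s) + ‖x - z‖ ^ (-s) + s * ‖y‖ ^ 2 + s * ‖z‖ ^ 2
      = t ^ (-s) + s * t ^ 2 / 2 + 2 * s * ξ ^ 2 + 2 * D ^ (-s / 2)
        + s * ((1 - E / 2) / 2 * (‖y - z‖ - t) ^ 2
            + ‖(1 - E / 2) • (y + z) + E • x‖ ^ 2 / (2 * (1 - E / 2)))
        + (‖y - z‖ ^ (-s) - (t ^ (-s) + -s * t ^ (-s - 1) * (‖y - z‖ - t)))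
        + ((‖x - y‖ ^ 2) ^ (-s / 2)
            - (D ^ (-s / 2) + -s / 2 * D ^ (-s / 2 - 1) * (‖x - y‖ ^ 2 - D)))
        + ((‖x - z‖ ^ 2) ^ (-s / 2)
            - (D ^ (-s / 2) + -s / 2 * D ^ (-s / 2 - 1) * (‖x - z‖ ^ 2 - D))) := by
  have hu : 0 < 1 - E / 2 := by linarith
  have hut : t ^ (-s - 1) = (1 - E / 2) * t := by
    have h : t ^ (-s - 1) = t ^ (-s - 2) * t := by
      rw [show (-s - 1 : ℝ) = (-s - 2) + 1 by ring, Real.rpow_add ht, Real.rpow_one]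
    rw [h, hE]; ring
  have ea := rpow_neg_eq_sq_rpow (norm_nonneg (x - y)) s
  have eb := rpow_neg_eq_sq_rpow (norm_nonneg (x - z)) s
  have hid := core_identity s t E D L ξ R (t ^ (-s)) (D ^ (-s / 2)) hu.ne' hL hξ hR x y z hx
  rw [ea, eb, hut, ← hED]
  linarith [hid]

/-- **Core inequality, quantitative form.** For the design parameters (`E = 2 (1 - t^(-s-2)) ≤ 1`,
`E = D^(-s/2-1)`, `L² = D - t²/4`, `ξ = -E L / 2`, `R = L (1 - E/2)`) and `‖x‖ = R`, the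
three-body expression is at least `gst = t^(-s) + s t²/2 + 2 s ξ² + 2 D^(-s/2)` plus an explicit
sum of squares. -/
theorem core_lower (s t E D L ξ R : ℝ) (hs : 0 < s) (ht : 0 < t)
    (hE : E = 2 * (1 - t ^ (-s - 2))) (hE1 : E ≤ 1) (hD : 0 < D)
    (hED : E = D ^ (-s / 2 - 1)) (hL : L ^ 2 = D - t ^ 2 / 4)
    (hξ : ξ = -E * L / 2) (hR : R = L * (1 - E / 2))
    (x y z : V) (hx : ‖x‖ = R) (hyz : y ≠ z) (hxy : x ≠ y) (hxz : x ≠ z) :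
    t ^ (-s) + s * t ^ 2 / 2 + 2 * s * ξ ^ 2 + 2 * D ^ (-s / 2)
        + s * ((1 - E / 2) / 2 * (‖y - z‖ - t) ^ 2
            + ‖(1 - E / 2) • (y + z) + E • x‖ ^ 2 / (2 * (1 - E / 2)))
      ≤ ‖y - z‖ ^ (-s) + ‖x - y‖ ^ (-s) + ‖x - z‖ ^ (-s) + s * ‖y‖ ^ 2 + s * ‖z‖ ^ 2 := by
  have hτ : 0 < ‖y - z‖ := norm_pos_iff.mpr (sub_ne_zero.mpr hyz)
  have ha : 0 < ‖x - y‖ := norm_pos_iff.mpr (sub_ne_zero.mpr hxy)
  have hb : 0 < ‖x - z‖ := norm_pos_iff.mpr (sub_ne_zero.mpr hxz)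
  have T2 := rpow_tangent_le (p := -s) (by linarith) hτ ht
  have Ta := rpow_tangent_le (p := -s / 2) (by linarith) (pow_pos ha 2) hD
  have Tb := rpow_tangent_le (p := -s / 2) (by linarith) (pow_pos hb 2) hD
  have hsplit := core_split s t E D L ξ R ht hE hE1 hED hL hξ hR x y z hx
  linarith

/-- **Core inequality.** -/
theorem core_ineq (s t E D L ξ R : ℝ) (hs : 0 < s) (ht : 0 < t)
    (hE : E = 2 * (1 - t ^ (-s - 2))) (hE1 : E ≤ 1) (hD : 0 < D)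
    (hED : E = D ^ (-s / 2 - 1)) (hL : L ^ 2 = D - t ^ 2 / 4)
    (hξ : ξ = -E * L / 2) (hR : R = L * (1 - E / 2))
    (x y z : V) (hx : ‖x‖ = R) (hyz : y ≠ z) (hxy : x ≠ y) (hxz : x ≠ z) :
    t ^ (-s) + s * t ^ 2 / 2 + 2 * s * ξ ^ 2 + 2 * D ^ (-s / 2)
      ≤ ‖y - z‖ ^ (-s) + ‖x - y‖ ^ (-s) + ‖x - z‖ ^ (-s) + s * ‖y‖ ^ 2 + s * ‖z‖ ^ 2 := by
  have h := core_lower s t E D L ξ R hs ht hE hE1 hD hED hL hξ hR x y z hx hyz hxy hxz
  have hu : 0 < 1 - E / 2 := by linarith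
  have hq : 0 ≤ s * ((1 - E / 2) / 2 * (‖y - z‖ - t) ^ 2
            + ‖(1 - E / 2) • (y + z) + E • x‖ ^ 2 / (2 * (1 - E / 2))) := by positivity
  linarith

/-- **Equality case of the core inequality**: if the three-body expression does not exceed
`gst`, then `‖y - z‖ = t`, `(1 - E/2) (y + z) + E x = 0` (i.e. `y + z = 2 (ξ/R) x`), and
`‖x - y‖² = ‖x - z‖² = D`. -/
theorem core_eq (s t E D L ξ R : ℝ) (hs : 0 < s) (ht : 0 < t)
    (hE : E = 2 * (1 - t ^ (-s - 2))) (hE1 : E ≤ 1) (hD : 0 < D)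
    (hED : E = D ^ (-s / 2 - 1)) (hL : L ^ 2 = D - t ^ 2 / 4)
    (hξ : ξ = -E * L / 2) (hR : R = L * (1 - E / 2))
    (x y z : V) (hx : ‖x‖ = R) (hyz : y ≠ z) (hxy : x ≠ y) (hxz : x ≠ z)
    (h : ‖y - z‖ ^ (-s) + ‖x - y‖ ^ (-s) + ‖x - z‖ ^ (-s) + s * ‖y‖ ^ 2 + s * ‖z‖ ^ 2
      ≤ t ^ (-s) + s * t ^ 2 / 2 + 2 * s * ξ ^ 2 + 2 * D ^ (-s / 2)) :
    ‖y - z‖ = t ∧ (1 - E / 2) • (y + z) + E • x = 0 ∧ ‖x - y‖ ^ 2 = D ∧ ‖x - z‖ ^ 2 = D := by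
  have hu : 0 < 1 - E / 2 := by linarith
  have hτ : 0 < ‖y - z‖ := norm_pos_iff.mpr (sub_ne_zero.mpr hyz)
  have ha : 0 < ‖x - y‖ := norm_pos_iff.mpr (sub_ne_zero.mpr hxy)
  have hb : 0 < ‖x - z‖ := norm_pos_iff.mpr (sub_ne_zero.mpr hxz)
  have T2 := rpow_tangent_le (p := -s) (by linarith) hτ ht
  have Ta := rpow_tangent_le (p := -s / 2) (by linarith) (pow_pos ha 2) hD
  have Tb := rpow_tangent_le (p := -s / 2) (by linarith) (pow_pos hb 2) hD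
  have hsplit := core_split s t E D L ξ R ht hE hE1 hED hL hξ hR x y z hx
  have hq1 : 0 ≤ (1 - E / 2) / 2 * (‖y - z‖ - t) ^ 2 := by positivity
  have hq2 : 0 ≤ ‖(1 - E / 2) • (y + z) + E • x‖ ^ 2 / (2 * (1 - E / 2)) := by positivity
  have hsQ : 0 ≤ s * ((1 - E / 2) / 2 * (‖y - z‖ - t) ^ 2
            + ‖(1 - E / 2) • (y + z) + E • x‖ ^ 2 / (2 * (1 - E / 2))) :=
    mul_nonneg hs.le (add_nonneg hq1 hq2)
  have hsq : s * ((1 - E / 2) / 2 * (‖y - z‖ - t) ^ 2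
            + ‖(1 - E / 2) • (y + z) + E • x‖ ^ 2 / (2 * (1 - E / 2))) ≤ 0 := by linarith
  have hsum : (1 - E / 2) / 2 * (‖y - z‖ - t) ^ 2
            + ‖(1 - E / 2) • (y + z) + E • x‖ ^ 2 / (2 * (1 - E / 2)) ≤ 0 := by
    by_contra hcon
    have hcon' := lt_of_not_ge hcon
    have := mul_pos hs hcon'
    linarith
  have h1 : (1 - E / 2) / 2 * (‖y - z‖ - t) ^ 2 = 0 := by linarith
  have h2 : ‖(1 - E / 2) • (y + z) + E • x‖ ^ 2 / (2 * (1 - E / 2)) = 0 := by linarith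
  refine ⟨?_, ?_, ?_, ?_⟩
  · have h3 : (‖y - z‖ - t) ^ 2 = 0 := by
      rcases mul_eq_zero.mp h1 with h4 | h4
      · linarith
      · exact h4
    have h5 : ‖y - z‖ - t = 0 := by simpa using h3
    linarith
  · have h3 : ‖(1 - E / 2) • (y + z) + E • x‖ ^ 2 = 0 := by
      rcases div_eq_zero_iff.mp h2 with h4 | h4
      · exact h4
      · linarith
    have h5 : ‖(1 - E / 2) • (y + z) + E • x‖ = 0 := by simpa using h3
    exact norm_eq_zero.mp h5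
  · by_contra hne
    have Ta' := rpow_tangent_lt (p := -s / 2) (by linarith) (pow_pos ha 2) hD hne
    linarith
  · by_contra hne
    have Tb' := rpow_tangent_lt (p := -s / 2) (by linarith) (pow_pos hb 2) hD hne
    linarith

end Crest.Agent.S0175lib
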