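import Mathlib
import Crest.Agent.S0175.Core

/-!
# Row 130 (S0175): the scalar design parameters

For a fixed exponent `s > 0` the design is a one-parameter family, parameter `t` in the window
`1 < t`, `t ^ (s + 2) ≤ 2`:

* `pE s t = 2 (1 - t^(-s-2))`, `pD s t = E^(-2/(s+2))`, `pL s t = √(D - t²/4)`,
* `pXi s t = -E L / 2`, `pR s t = L (1 - E/2)` (radius of the far point),
* `pGst s t = t^(-s) + s t²/2 + 2 s ξ² + 2 D^(-s/2)` (value of the three-body expression on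
  contact triples), `pM2 s t = ξ² + t²/4` (squared radius of the twins),
* `pKap s t = 1 - t^(s+2) = ξ / R` (the twins are `pKap • x ± (t/2) e`, `e ⟂ x` a unit vector).
-/

set_option autoImplicit false

namespace Crest.Agent.S0175lib

open Real Filter Topology

/-- `E(t) = 2 (1 - t^(-s-2))`. -/
noncomputable def pE (s t : ℝ) : ℝ := 2 * (1 - t ^ (-s - 2))

/-- `D(t) = E(t)^(-2/(s+2))`. -/
noncomputable def pD (s t : ℝ) : ℝ := pE s t ^ (-2 / (s + 2))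

/-- `L(t) = √(D(t) - t²/4)`. -/
noncomputable def pL (s t : ℝ) : ℝ := Real.sqrt (pD s t - t ^ 2 / 4)

/-- `ξ(t) = -E L / 2`. -/
noncomputable def pXi (s t : ℝ) : ℝ := -(pE s t) * pL s t / 2

/-- `R(t) = L (1 - E/2)`: the radius of the far point. -/
noncomputable def pR (s t : ℝ) : ℝ := pL s t * (1 - pE s t / 2)

/-- `gst(t)`: the value of the three-body expression on the contact set. -/
noncomputable def pGst (s t : ℝ) : ℝ :=
  t ^ (-s) + s * t ^ 2 / 2 + 2 * s * pXi s t ^ 2 + 2 * pD s t ^ (-s / 2)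

/-- `m²(t) = ξ² + t²/4`: the squared radius of the twin points. -/
noncomputable def pM2 (s t : ℝ) : ℝ := pXi s t ^ 2 + t ^ 2 / 4

/-- `κ(t) = 1 - t^(s+2) = ξ/R`. -/
noncomputable def pKap (s t : ℝ) : ℝ := 1 - t ^ (s + 2)

section Basic

variable {s t : ℝ}

theorem rpow_neg_window (hs : 0 < s) (ht : 1 < t) :
    0 < t ^ (-s - 2) ∧ t ^ (-s - 2) < 1 ∧ t ^ (-s - 2) = (t ^ (s + 2))⁻¹ := by
  have ht0 : 0 < t := by linarith
  refine ⟨Real.rpow_pos_of_pos ht0 _, Real.rpow_lt_one_of_one_lt_of_neg ht (by linarith), ?_⟩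
  rw [show (-s - 2 : ℝ) = -(s + 2) by ring, Real.rpow_neg ht0.le]

theorem half_le_rpow_neg (hs : 0 < s) (ht : 1 < t) (ht2 : t ^ (s + 2) ≤ 2) :
    1 / 2 ≤ t ^ (-s - 2) := by
  have ht0 : 0 < t := by linarith
  have hpos : 0 < t ^ (s + 2) := Real.rpow_pos_of_pos ht0 _
  rw [(rpow_neg_window hs ht).2.2, one_div]
  exact inv_anti₀ hpos ht2

theorem rpow_mul_rpow_neg (ht : 0 < t) (s : ℝ) : t ^ (s + 2) * t ^ (-s - 2) = 1 := by
  rw [← Real.rpow_add ht]; simp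

theorem window_lt_two (hs : 0 < s) (ht : 1 < t) (ht2 : t ^ (s + 2) ≤ 2) : t < 2 := by
  have h : t ^ (1 : ℝ) < t ^ (s + 2) := Real.rpow_lt_rpow_of_exponent_lt ht (by linarith)
  rw [Real.rpow_one] at h
  linarith

theorem pE_pos (hs : 0 < s) (ht : 1 < t) : 0 < pE s t := by
  have := (rpow_neg_window hs ht).2.1
  unfold pE; linarith

theorem pE_le_one (hs : 0 < s) (ht : 1 < t) (ht2 : t ^ (s + 2) ≤ 2) : pE s t ≤ 1 := by
  have := half_le_rpow_neg hs ht ht2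
  unfold pE; linarith

theorem one_sub_pE_half (s t : ℝ) : 1 - pE s t / 2 = t ^ (-s - 2) := by
  unfold pE; ring

theorem pD_pos (hs : 0 < s) (ht : 1 < t) : 0 < pD s t :=
  Real.rpow_pos_of_pos (pE_pos hs ht) _

theorem one_le_pD (hs : 0 < s) (ht : 1 < t) (ht2 : t ^ (s + 2) ≤ 2) : 1 ≤ pD s t := by
  unfold pD
  apply Real.one_le_rpow_of_pos_of_le_one_of_nonpos (pE_pos hs ht) (pE_le_one hs ht ht2)
  have : 0 < s + 2 := by linarith
  exact (div_neg_of_neg_of_pos (by norm_num) this).le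

theorem pE_eq_pD_rpow (hs : 0 < s) (ht : 1 < t) : pE s t = pD s t ^ (-s / 2 - 1) := by
  unfold pD
  rw [← Real.rpow_mul (pE_pos hs ht).le]
  have h : -2 / (s + 2) * (-s / 2 - 1) = 1 := by
    have : s + 2 ≠ 0 := by linarith
    field_simp
    ring
  rw [h, Real.rpow_one]

theorem pL_arg_pos (hs : 0 < s) (ht : 1 < t) (ht2 : t ^ (s + 2) ≤ 2) :
    0 < pD s t - t ^ 2 / 4 := by
  have h1 := one_le_pD hs ht ht2
  have h2 := window_lt_two hs ht ht2
  nlinarith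

theorem pL_sq (hs : 0 < s) (ht : 1 < t) (ht2 : t ^ (s + 2) ≤ 2) :
    pL s t ^ 2 = pD s t - t ^ 2 / 4 := by
  unfold pL
  exact Real.sq_sqrt (pL_arg_pos hs ht ht2).le

theorem pL_pos (hs : 0 < s) (ht : 1 < t) (ht2 : t ^ (s + 2) ≤ 2) : 0 < pL s t := by
  unfold pL
  exact Real.sqrt_pos.mpr (pL_arg_pos hs ht ht2)

theorem pR_eq (s t : ℝ) : pR s t = pL s t * t ^ (-s - 2) := by
  unfold pR; rw [one_sub_pE_half]

theorem pR_pos (hs : 0 < s) (ht : 1 < t) (ht2 : t ^ (s + 2) ≤ 2) : 0 < pR s t := by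
  rw [pR_eq]
  exact mul_pos (pL_pos hs ht ht2) (rpow_neg_window hs ht).1

theorem pXi_eq (ht : 0 < t) (s : ℝ) : pXi s t = pKap s t * pR s t := by
  have h := rpow_mul_rpow_neg ht s
  rw [pR_eq]
  unfold pXi pKap pE
  linear_combination (pL s t) * h

theorem pXi_neg (hs : 0 < s) (ht : 1 < t) (ht2 : t ^ (s + 2) ≤ 2) : pXi s t < 0 := by
  have h1 := pE_pos hs ht
  have h2 := pL_pos hs ht ht2
  unfold pXi
  nlinarith [mul_pos h1 h2]

theorem pKap_neg (hs : 0 < s) (ht : 1 < t) : pKap s t < 0 := by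
  have : 1 < t ^ (s + 2) := Real.one_lt_rpow ht (by linarith)
  unfold pKap; linarith

theorem quarter_lt_pM2 (ht : 1 < t) (s : ℝ) : 1 / 4 < pM2 s t := by
  unfold pM2
  nlinarith [sq_nonneg (pXi s t)]

end Basic

section CoreParam

variable {V : Type*} [NormedAddCommGroup V] [InnerProductSpace ℝ V] {s t : ℝ}

/-- The core inequality for the design parameters. -/
theorem core_ineq_param (hs : 0 < s) (ht : 1 < t) (ht2 : t ^ (s + 2) ≤ 2)
    (x y z : V) (hx : ‖x‖ = pR s t) (hyz : y ≠ z) (hxy : x ≠ y) (hxz : x ≠ z) :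
    pGst s t ≤ ‖y - z‖ ^ (-s) + ‖x - y‖ ^ (-s) + ‖x - z‖ ^ (-s) + s * ‖y‖ ^ 2 + s * ‖z‖ ^ 2 :=
  core_ineq s t (pE s t) (pD s t) (pL s t) (pXi s t) (pR s t) hs (by linarith) rfl
    (pE_le_one hs ht ht2) (pD_pos hs ht) (pE_eq_pD_rpow hs ht) (pL_sq hs ht ht2) rfl rfl
    x y z hx hyz hxy hxz

/-- Equality case of the core inequality for the design parameters: the contact triples are
exactly `y + z = 2κ x`, `‖y - z‖ = t`, `y - z ⟂ x`. -/
theorem core_eq_param (hs : 0 < s) (ht : 1 < t) (ht2 : t ^ (s + 2) ≤ 2)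
    (x y z : V) (hx : ‖x‖ = pR s t) (hyz : y ≠ z) (hxy : x ≠ y) (hxz : x ≠ z)
    (h : ‖y - z‖ ^ (-s) + ‖x - y‖ ^ (-s) + ‖x - z‖ ^ (-s) + s * ‖y‖ ^ 2 + s * ‖z‖ ^ 2
      ≤ pGst s t) :
    ‖y - z‖ = t ∧ y + z = (2 * pKap s t) • x ∧ inner ℝ x (y - z) = 0 := by
  have ht0 : 0 < t := by linarith
  obtain ⟨h1, h2, h3, h4⟩ :=
    core_eq s t (pE s t) (pD s t) (pL s t) (pXi s t) (pR s t) hs ht0 rfl
      (pE_le_one hs ht ht2) (pD_pos hs ht) (pE_eq_pD_rpow hs ht) (pL_sq hs ht ht2) rfl rfl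
      x y z hx hyz hxy hxz h
  have hu := one_sub_pE_half s t
  have hupos := (rpow_neg_window hs ht).1
  have hmul := rpow_mul_rpow_neg ht0 s
  have hsum : y + z = (2 * pKap s t) • x := by
    rw [hu] at h2
    have h5 : (t ^ (s + 2)) • (t ^ (-s - 2) • (y + z) + pE s t • x) = 0 := by rw [h2, smul_zero]
    rw [smul_add, smul_smul, smul_smul, hmul, one_smul] at h5
    have h6 : t ^ (s + 2) * pE s t = -(2 * pKap s t) := by
      unfold pE pKap
      linear_combination (-2) * hmul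
    rw [h6, neg_smul] at h5
    exact eq_of_sub_eq_zero (by rw [sub_eq_add_neg]; exact h5)
  refine ⟨h1, hsum, ?_⟩
  have ha : ‖x - y‖ ^ 2 = ‖x‖ ^ 2 - 2 * inner ℝ x y + ‖y‖ ^ 2 := norm_sub_sq_real x y
  have hb : ‖x - z‖ ^ 2 = ‖x‖ ^ 2 - 2 * inner ℝ x z + ‖z‖ ^ 2 := norm_sub_sq_real x z
  have hyz2 : ‖y‖ ^ 2 - ‖z‖ ^ 2 = inner ℝ (y + z) (y - z) := by
    rw [inner_add_left, inner_sub_right, inner_sub_right, real_inner_self_eq_norm_sq,
      real_inner_self_eq_norm_sq, real_inner_comm y z]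
    ring
  rw [hsum, real_inner_smul_left] at hyz2
  have hxyz : inner ℝ x (y - z) = inner ℝ x y - inner ℝ x z := inner_sub_right x y z
  have hk : 1 - pKap s t = t ^ (s + 2) := by unfold pKap; ring
  have hkpos : 0 < t ^ (s + 2) := Real.rpow_pos_of_pos ht0 _
  have h7 : (1 - pKap s t) * inner ℝ x (y - z) = 0 := by
    rw [hxyz] at hyz2 ⊢
    linarith
  rcases mul_eq_zero.mp h7 with h8 | h8
  · rw [hk] at h8; linarith
  · exact h8

end CoreParam

section Limits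

variable {s : ℝ}

theorem tendsto_rpow_const_one (p : ℝ) : Tendsto (fun t : ℝ => t ^ p) (𝓝[>] 1) (𝓝 1) := by
  have h : ContinuousAt (fun t : ℝ => t ^ p) 1 :=
    Real.continuousAt_rpow_const 1 p (Or.inl one_ne_zero)
  have h2 := h.tendsto
  rw [Real.one_rpow] at h2
  exact h2.mono_left nhdsWithin_le_nhds

/-- Near `1⁺` the parameter lies in the (open) window. -/
theorem ev_window (s : ℝ) : ∀ᶠ t in 𝓝[>] (1 : ℝ), 1 < t ∧ t ^ (s + 2) < 2 := by
  have h2 : ∀ᶠ t in 𝓝[>] (1 : ℝ), t ^ (s + 2) < 2 :=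
    (tendsto_rpow_const_one (s + 2)).eventually (gt_mem_nhds (by norm_num))
  filter_upwards [self_mem_nhdsWithin, h2] with t ht ht2
  exact ⟨ht, ht2⟩

theorem tendsto_pE (hs : 0 < s) : Tendsto (pE s) (𝓝[>] 1) (𝓝[>] 0) := by
  rw [tendsto_nhdsWithin_iff]
  constructor
  · have h2 : Tendsto (fun t : ℝ => 2 * (1 - t ^ (-s - 2))) (𝓝[>] 1) (𝓝 (2 * (1 - 1))) :=
      (tendsto_const_nhds.sub (tendsto_rpow_const_one (-s - 2))).const_mul 2
    have h3 : (2 : ℝ) * (1 - 1) = 0 := by norm_num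
    rw [h3] at h2
    exact h2
  · filter_upwards [self_mem_nhdsWithin] with t ht
    exact pE_pos hs ht

theorem tendsto_pE_rpow (hs : 0 < s) {β : ℝ} (hβ : 0 < β) :
    Tendsto (fun t => pE s t ^ β) (𝓝[>] 1) (𝓝 0) := by
  have h : ContinuousAt (fun x : ℝ => x ^ β) 0 :=
    Real.continuousAt_rpow_const 0 β (Or.inr hβ.le)
  have h2 := h.tendsto
  rw [Real.zero_rpow hβ.ne'] at h2
  exact h2.comp ((tendsto_pE hs).mono_right nhdsWithin_le_nhds)

theorem tendsto_pD (hs : 0 < s) : Tendsto (pD s) (𝓝[>] 1) atTop := by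
  have hneg : (-2 / (s + 2) : ℝ) < 0 := div_neg_of_neg_of_pos (by norm_num) (by linarith)
  exact (tendsto_rpow_neg_nhdsGT_zero hneg).comp (tendsto_pE hs)

theorem tendsto_sq_quarter : Tendsto (fun t : ℝ => t ^ 2 / 4) (𝓝[>] 1) (𝓝 (1 / 4)) := by
  have h : Tendsto (fun t : ℝ => t ^ 2 / 4) (𝓝 1) (𝓝 (1 ^ 2 / 4)) :=
    ((continuous_pow 2).tendsto 1).div_const 4
  simpa using h.mono_left nhdsWithin_le_nhds

theorem tendsto_pL (hs : 0 < s) : Tendsto (pL s) (𝓝[>] 1) atTop := by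
  have h2 : Tendsto (fun t : ℝ => pD s t - t ^ 2 / 4) (𝓝[>] 1) atTop := by
    have h3 := (tendsto_pD hs).atTop_add tendsto_sq_quarter.neg
    simpa [sub_eq_add_neg] using h3
  exact Real.tendsto_sqrt_atTop.comp h2

/-- The far radius blows up as `t → 1⁺`. -/
theorem tendsto_pR (hs : 0 < s) : Tendsto (pR s) (𝓝[>] 1) atTop := by
  have h := (tendsto_pL hs).atTop_mul_pos one_pos (tendsto_rpow_const_one (-s - 2))
  exact h.congr (fun t => (pR_eq s t).symm)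

theorem pXi_sq_eq {t : ℝ} (hs : 0 < s) (ht : 1 < t) (ht2 : t ^ (s + 2) ≤ 2) :
    pXi s t ^ 2 = pE s t ^ (2 * (s + 1) / (s + 2)) / 4 - pE s t ^ 2 * t ^ 2 / 16 := by
  have hE := pE_pos hs ht
  have hL := pL_sq hs ht ht2
  have h1 : pE s t ^ 2 * pD s t = pE s t ^ (2 * (s + 1) / (s + 2)) := by
    unfold pD
    rw [← Real.rpow_natCast (pE s t) 2, ← Real.rpow_add hE]
    congr 1
    have : s + 2 ≠ 0 := by linarith
    push_cast
    field_simp
    ring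
  unfold pXi
  linear_combination (pE s t ^ 2 / 4) * hL + (1 / 4) * h1

theorem tendsto_pXi_sq (hs : 0 < s) : Tendsto (fun t => pXi s t ^ 2) (𝓝[>] 1) (𝓝 0) := by
  have hβ : 0 < 2 * (s + 1) / (s + 2) := by positivity
  have h1 : Tendsto (fun t => pE s t ^ (2 * (s + 1) / (s + 2)) / 4) (𝓝[>] 1) (𝓝 0) := by
    simpa using (tendsto_pE_rpow hs hβ).div_const 4
  refine tendsto_of_tendsto_of_tendsto_of_le_of_le' tendsto_const_nhds h1 ?_ ?_
  · exact Eventually.of_forall fun t => sq_nonneg _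
  · filter_upwards [ev_window s] with t ht
    rw [pXi_sq_eq hs ht.1 ht.2.le]
    have : 0 ≤ pE s t ^ 2 * t ^ 2 / 16 := by positivity
    linarith

theorem tendsto_pXi (hs : 0 < s) : Tendsto (pXi s) (𝓝[>] 1) (𝓝 0) := by
  have h := (tendsto_pXi_sq hs).sqrt
  rw [Real.sqrt_zero] at h
  have h2 : Tendsto (fun t => |pXi s t|) (𝓝[>] 1) (𝓝 0) :=
    h.congr (fun t => Real.sqrt_sq_eq_abs _)
  exact (tendsto_zero_iff_abs_tendsto_zero _).mpr h2

theorem pD_rpow_eq {t : ℝ} (hs : 0 < s) (ht : 1 < t) :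
    pD s t ^ (-s / 2) = pE s t ^ (s / (s + 2)) := by
  unfold pD
  rw [← Real.rpow_mul (pE_pos hs ht).le]
  congr 1
  have : s + 2 ≠ 0 := by linarith
  field_simp

theorem tendsto_pD_rpow (hs : 0 < s) : Tendsto (fun t => pD s t ^ (-s / 2)) (𝓝[>] 1) (𝓝 0) := by
  have hβ : 0 < s / (s + 2) := by positivity
  refine (tendsto_pE_rpow hs hβ).congr' ?_
  filter_upwards [self_mem_nhdsWithin] with t ht
  exact (pD_rpow_eq hs ht).symm

/-- `gst(t) → 1 + s/2` as `t → 1⁺`. -/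
theorem tendsto_pGst (hs : 0 < s) : Tendsto (pGst s) (𝓝[>] 1) (𝓝 (1 + s / 2)) := by
  have h1 := tendsto_rpow_const_one (-s)
  have h2 : Tendsto (fun t : ℝ => s * t ^ 2 / 2) (𝓝[>] 1) (𝓝 (s / 2)) := by
    have h : Tendsto (fun t : ℝ => s * t ^ 2 / 2) (𝓝 1) (𝓝 (s * 1 ^ 2 / 2)) :=
      (((continuous_pow 2).tendsto 1).const_mul s).div_const 2
    simpa using h.mono_left nhdsWithin_le_nhds
  have h3 : Tendsto (fun t => 2 * s * pXi s t ^ 2) (𝓝[>] 1) (𝓝 0) := by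
    simpa using (tendsto_pXi_sq hs).const_mul (2 * s)
  have h4 : Tendsto (fun t => 2 * pD s t ^ (-s / 2)) (𝓝[>] 1) (𝓝 0) := by
    simpa using (tendsto_pD_rpow hs).const_mul 2
  have h := ((h1.add h2).add h3).add h4
  have h5 : (1 : ℝ) + s / 2 + 0 + 0 = 1 + s / 2 := by ring
  rw [h5] at h
  exact h

/-- `m²(t) → 1/4` as `t → 1⁺`. -/
theorem tendsto_pM2 (hs : 0 < s) : Tendsto (pM2 s) (𝓝[>] 1) (𝓝 (1 / 4)) := by
  have h := (tendsto_pXi_sq hs).add tendsto_sq_quarter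
  rw [zero_add] at h
  exact h

theorem ev_pR_ge (hs : 0 < s) (C : ℝ) : ∀ᶠ t in 𝓝[>] (1 : ℝ), C ≤ pR s t :=
  (tendsto_pR hs).eventually_ge_atTop C

theorem ev_pGst_lt (hs : 0 < s) {c : ℝ} (hc : 1 + s / 2 < c) :
    ∀ᶠ t in 𝓝[>] (1 : ℝ), pGst s t < c :=
  (tendsto_pGst hs).eventually (gt_mem_nhds hc)

theorem ev_pM2_lt (hs : 0 < s) {c : ℝ} (hc : 1 / 4 < c) :
    ∀ᶠ t in 𝓝[>] (1 : ℝ), pM2 s t < c :=
  (tendsto_pM2 hs).eventually (gt_mem_nhds hc)

theorem ev_pE_lt (hs : 0 < s) {c : ℝ} (hc : 0 < c) : ∀ᶠ t in 𝓝[>] (1 : ℝ), pE s t < c :=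
  ((tendsto_pE hs).mono_right nhdsWithin_le_nhds).eventually (gt_mem_nhds hc)

end Limits

section Deriv

/-- `E'(t) = 2 (s+2) t^(-s-3)`. -/
noncomputable def pE' (s t : ℝ) : ℝ := 2 * (s + 2) * t ^ (-s - 3)

/-- `D'(t) = -(2/(s+2)) (D/E) E'`. -/
noncomputable def pD' (s t : ℝ) : ℝ := -(2 / (s + 2)) * (pD s t / pE s t) * pE' s t

/-- `L'(t) = (D' - t/2) / (2 L)`. -/
noncomputable def pL' (s t : ℝ) : ℝ := (pD' s t - t / 2) / (2 * pL s t)

/-- `R'(t) = L' (1 - E/2) - L E'/2`. -/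
noncomputable def pR' (s t : ℝ) : ℝ :=
  pL' s t * (1 - pE s t / 2) + pL s t * (-(pE' s t) / 2)

/-- `ξ'(t) = -(E' L + E L')/2`. -/
noncomputable def pXi' (s t : ℝ) : ℝ := -(pE' s t * pL s t + pE s t * pL' s t) / 2

/-- `(m²)'(t) = 2 ξ ξ' + t/2`. -/
noncomputable def pM2' (s t : ℝ) : ℝ := 2 * pXi s t * pXi' s t + t / 2

variable {s t : ℝ}

theorem hasDerivAt_pE (ht : 0 < t) (s : ℝ) : HasDerivAt (pE s) (pE' s t) t := by
  have h1 : HasDerivAt (fun x : ℝ => x ^ (-s - 2)) ((-s - 2) * t ^ (-s - 2 - 1)) t :=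
    Real.hasDerivAt_rpow_const (Or.inl ht.ne')
  have h2 := ((hasDerivAt_const t (1 : ℝ)).sub h1).const_mul 2
  have h3 : (2 : ℝ) * (0 - (-s - 2) * t ^ (-s - 2 - 1)) = pE' s t := by
    unfold pE'
    rw [show (-s - 2 - 1 : ℝ) = -s - 3 by ring]; ring
  rw [h3] at h2
  exact h2

theorem hasDerivAt_pD (hs : 0 < s) (ht : 1 < t) : HasDerivAt (pD s) (pD' s t) t := by
  have hE := pE_pos hs ht
  have h1 := (hasDerivAt_pE (show (0 : ℝ) < t by linarith) s).rpow_const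
    (p := -2 / (s + 2)) (Or.inl hE.ne')
  have h2 : pE' s t * (-2 / (s + 2)) * pE s t ^ (-2 / (s + 2) - 1) = pD' s t := by
    unfold pD' pD
    rw [Real.rpow_sub_one hE.ne']
    ring
  rw [h2] at h1
  exact h1

theorem hasDerivAt_pL (hs : 0 < s) (ht : 1 < t) (ht2 : t ^ (s + 2) ≤ 2) :
    HasDerivAt (pL s) (pL' s t) t := by
  have h1 : HasDerivAt (fun x : ℝ => x ^ 2 / 4) (t / 2) t := by
    have h := (hasDerivAt_pow 2 t).div_const 4
    have h' : ((2 : ℕ) : ℝ) * t ^ (2 - 1) / 4 = t / 2 := by norm_num; ring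
    rw [h'] at h
    exact h
  have h2 := ((hasDerivAt_pD hs ht).sub h1).sqrt (pL_arg_pos hs ht ht2).ne'
  exact h2

theorem hasDerivAt_pR (hs : 0 < s) (ht : 1 < t) (ht2 : t ^ (s + 2) ≤ 2) :
    HasDerivAt (pR s) (pR' s t) t := by
  have hE := hasDerivAt_pE (show (0 : ℝ) < t by linarith) s
  have h1 : HasDerivAt (fun x => 1 - pE s x / 2) (-(pE' s t) / 2) t := by
    have h := (hasDerivAt_const t (1 : ℝ)).sub (hE.div_const 2)
    have h' : (0 : ℝ) - pE' s t / 2 = -(pE' s t) / 2 := by ring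
    rw [h'] at h
    exact h
  exact (hasDerivAt_pL hs ht ht2).mul h1

theorem hasDerivAt_pXi (hs : 0 < s) (ht : 1 < t) (ht2 : t ^ (s + 2) ≤ 2) :
    HasDerivAt (pXi s) (pXi' s t) t := by
  have hE := hasDerivAt_pE (show (0 : ℝ) < t by linarith) s
  have h := ((hE.neg.mul (hasDerivAt_pL hs ht ht2)).div_const 2)
  have h' : HasDerivAt (pXi s) ((-pE' s t * pL s t + (-pE s) t * pL' s t) / 2) t := h
  exact h'.congr_deriv (by unfold pXi'; simp only [Pi.neg_apply]; ring)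

theorem hasDerivAt_pM2 (hs : 0 < s) (ht : 1 < t) (ht2 : t ^ (s + 2) ≤ 2) :
    HasDerivAt (pM2 s) (pM2' s t) t := by
  have h1 : HasDerivAt (fun x : ℝ => x ^ 2 / 4) (t / 2) t := by
    have h := (hasDerivAt_pow 2 t).div_const 4
    have h' : ((2 : ℕ) : ℝ) * t ^ (2 - 1) / 4 = t / 2 := by norm_num; ring
    rw [h'] at h
    exact h
  have h2 := ((hasDerivAt_pXi hs ht ht2).pow 2).add h1
  have h' : ((2 : ℕ) : ℝ) * pXi s t ^ (2 - 1) * pXi' s t + t / 2 = pM2' s t := by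
    unfold pM2'; norm_num
  rw [h'] at h2
  exact h2

theorem pE'_pos (ht : 0 < t) (hs : 0 < s) : 0 < pE' s t := by
  unfold pE'
  have := Real.rpow_pos_of_pos ht (-s - 3)
  positivity

theorem pD'_neg (hs : 0 < s) (ht : 1 < t) : pD' s t < 0 := by
  have h1 := pE'_pos (show (0 : ℝ) < t by linarith) hs
  have h2 := pD_pos hs ht
  have h3 := pE_pos hs ht
  unfold pD'
  have h4 : 0 < 2 / (s + 2) * (pD s t / pE s t) * pE' s t := by positivity
  linarith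

theorem pL'_neg (hs : 0 < s) (ht : 1 < t) (ht2 : t ^ (s + 2) ≤ 2) : pL' s t < 0 := by
  have h1 := pD'_neg hs ht
  have h2 := pL_pos hs ht ht2
  unfold pL'
  apply div_neg_of_neg_of_pos
  · linarith
  · positivity

/-- The far radius has negative derivative on the whole window. -/
theorem pR'_neg (hs : 0 < s) (ht : 1 < t) (ht2 : t ^ (s + 2) ≤ 2) : pR' s t < 0 := by
  have h1 := pL'_neg hs ht ht2
  have h2 := pL_pos hs ht ht2
  have h3 := pE'_pos (show (0 : ℝ) < t by linarith) hs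
  have h4 : 0 < 1 - pE s t / 2 := by
    rw [one_sub_pE_half]; exact (rpow_neg_window hs ht).1
  unfold pR'
  nlinarith [mul_pos h2 h3, mul_pos_of_neg_of_neg h1 (show -(1 - pE s t / 2) < 0 by linarith)]

/-- Closed form of `(m²)'`: `t^(-s-3) ((s+1) E L² + t²/2)`. -/
theorem pM2'_eq (hs : 0 < s) (ht : 1 < t) (ht2 : t ^ (s + 2) ≤ 2) :
    pM2' s t = t ^ (-s - 3) * ((s + 1) * pE s t * pL s t ^ 2 + t ^ 2 / 2) := by
  have ht0 : (0 : ℝ) < t := by linarith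
  have hE := pE_pos hs ht
  have hLpos := pL_pos hs ht ht2
  have hL := pL_sq hs ht ht2
  have hn : s + 2 ≠ 0 := by linarith
  have hwt : t ^ (-s - 3) * t = 1 - pE s t / 2 := by
    rw [one_sub_pE_half]
    have h : t ^ (-s - 2) = t ^ (-s - 3) * t ^ (1 : ℝ) := by
      rw [← Real.rpow_add ht0]; congr 1; ring
    rw [h, Real.rpow_one]
  have hLL' : pL s t * pL' s t = (pD' s t - t / 2) / 2 := by
    unfold pL'
    field_simp
  have hD' : pD' s t * pE s t = -4 * t ^ (-s - 3) * pD s t := by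
    unfold pD' pE'
    field_simp
    ring
  unfold pM2' pXi pXi'
  unfold pE' at *
  linear_combination (pE s t ^ 2 / 2) * hLL' + (pE s t / 4) * hD'
    + (t ^ (-s - 3) * pE s t) * hL - (pE s t * t / 4 + t / 2) * hwt

/-- The squared twin radius has positive derivative on the whole window. -/
theorem pM2'_pos (hs : 0 < s) (ht : 1 < t) (ht2 : t ^ (s + 2) ≤ 2) : 0 < pM2' s t := by
  rw [pM2'_eq hs ht ht2]
  have ht0 : (0 : ℝ) < t := by linarith
  have h1 := Real.rpow_pos_of_pos ht0 (-s - 3)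
  have h2 := pE_pos hs ht
  have h3 := pL_pos hs ht ht2
  positivity

end Deriv

section Smooth

variable {s t : ℝ} {n : WithTop ℕ∞}

theorem contDiffAt_pE (ht : 0 < t) (s : ℝ) : ContDiffAt ℝ n (pE s) t := by
  have h1 : ContDiffAt ℝ n (fun x : ℝ => x ^ (-s - 2)) t :=
    Real.contDiffAt_rpow_const_of_ne ht.ne'
  exact contDiffAt_const.mul (contDiffAt_const.sub h1)

theorem contDiffAt_pD (hs : 0 < s) (ht : 1 < t) : ContDiffAt ℝ n (pD s) t :=
  (contDiffAt_pE (show (0 : ℝ) < t by linarith) s).rpow_const_of_ne (pE_pos hs ht).ne'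

theorem contDiffAt_pL (hs : 0 < s) (ht : 1 < t) (ht2 : t ^ (s + 2) ≤ 2) :
    ContDiffAt ℝ n (pL s) t :=
  ((contDiffAt_pD hs ht).sub ((contDiffAt_id.pow 2).div_const 4)).sqrt
    (pL_arg_pos hs ht ht2).ne'

theorem contDiffAt_pXi (hs : 0 < s) (ht : 1 < t) (ht2 : t ^ (s + 2) ≤ 2) :
    ContDiffAt ℝ n (pXi s) t :=
  ((contDiffAt_pE (show (0 : ℝ) < t by linarith) s).neg.mul
    (contDiffAt_pL hs ht ht2)).div_const 2

theorem contDiffAt_pR (hs : 0 < s) (ht : 1 < t) (ht2 : t ^ (s + 2) ≤ 2) :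
    ContDiffAt ℝ n (pR s) t :=
  (contDiffAt_pL hs ht ht2).mul
    (contDiffAt_const.sub ((contDiffAt_pE (show (0 : ℝ) < t by linarith) s).div_const 2))

theorem contDiffAt_pM2 (hs : 0 < s) (ht : 1 < t) (ht2 : t ^ (s + 2) ≤ 2) :
    ContDiffAt ℝ n (pM2 s) t :=
  ((contDiffAt_pXi hs ht ht2).pow 2).add ((contDiffAt_id.pow 2).div_const 4)

theorem contDiffAt_pKap (ht : 0 < t) (s : ℝ) : ContDiffAt ℝ n (pKap s) t :=
  contDiffAt_const.sub (Real.contDiffAt_rpow_const_of_ne ht.ne')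

theorem contDiffAt_pGst (hs : 0 < s) (ht : 1 < t) (ht2 : t ^ (s + 2) ≤ 2) :
    ContDiffAt ℝ n (pGst s) t := by
  have ht0 : (0 : ℝ) < t := by linarith
  have h1 : ContDiffAt ℝ n (fun x : ℝ => x ^ (-s)) t := Real.contDiffAt_rpow_const_of_ne ht0.ne'
  have h2 : ContDiffAt ℝ n (fun x : ℝ => s * x ^ 2 / 2) t :=
    (contDiffAt_const.mul (contDiffAt_id.pow 2)).div_const 2
  have h3 : ContDiffAt ℝ n (fun x : ℝ => 2 * s * pXi s x ^ 2) t :=
    contDiffAt_const.mul ((contDiffAt_pXi hs ht ht2).pow 2)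
  have h4 : ContDiffAt ℝ n (fun x : ℝ => 2 * pD s x ^ (-s / 2)) t :=
    contDiffAt_const.mul ((contDiffAt_pD hs ht).rpow_const_of_ne (pD_pos hs ht).ne')
  exact ((h1.add h2).add h3).add h4

theorem deriv_pR (hs : 0 < s) (ht : 1 < t) (ht2 : t ^ (s + 2) ≤ 2) :
    deriv (pR s) t = pR' s t := (hasDerivAt_pR hs ht ht2).deriv

theorem deriv_pM2 (hs : 0 < s) (ht : 1 < t) (ht2 : t ^ (s + 2) ≤ 2) :
    deriv (pM2 s) t = pM2' s t := (hasDerivAt_pM2 hs ht ht2).deriv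

theorem deriv_pR_neg (hs : 0 < s) (ht : 1 < t) (ht2 : t ^ (s + 2) ≤ 2) :
    deriv (pR s) t < 0 := by
  rw [deriv_pR hs ht ht2]; exact pR'_neg hs ht ht2

theorem deriv_pM2_pos (hs : 0 < s) (ht : 1 < t) (ht2 : t ^ (s + 2) ≤ 2) :
    0 < deriv (pM2 s) t := by
  rw [deriv_pM2 hs ht ht2]; exact pM2'_pos hs ht ht2

end Smooth

section Window

variable {s t : ℝ}

/-- Right end of the parameter window: `2^(1/(s+2))`. -/
noncomputable def pTmax (s : ℝ) : ℝ := 2 ^ (1 / (s + 2))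

theorem one_lt_pTmax (hs : 0 < s) : 1 < pTmax s := by
  unfold pTmax
  exact Real.one_lt_rpow (by norm_num) (by positivity)

theorem pTmax_rpow (hs : 0 < s) : pTmax s ^ (s + 2) = 2 := by
  unfold pTmax
  rw [← Real.rpow_mul (by norm_num)]
  have : 1 / (s + 2) * (s + 2) = 1 := by
    have : s + 2 ≠ 0 := by linarith
    field_simp
  rw [this, Real.rpow_one]

theorem rpow_le_two_iff (hs : 0 < s) (ht : 0 < t) : t ^ (s + 2) ≤ 2 ↔ t ≤ pTmax s := by
  have hn : 0 < s + 2 := by linarith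
  have hT : 0 ≤ pTmax s := by unfold pTmax; positivity
  have h := Real.rpow_le_rpow_iff (x := t) (y := pTmax s) (z := s + 2) ht.le hT hn
  rw [pTmax_rpow hs] at h
  exact h

/-- The parameter window is the interval `(1, 2^(1/(s+2))]`. -/
theorem window_iff (hs : 0 < s) : (1 < t ∧ t ^ (s + 2) ≤ 2) ↔ t ∈ Set.Ioc 1 (pTmax s) := by
  constructor
  · rintro ⟨h1, h2⟩
    exact ⟨h1, (rpow_le_two_iff hs (by linarith)).mp h2⟩
  · rintro ⟨h1, h2⟩
    exact ⟨h1, (rpow_le_two_iff hs (by linarith)).mpr h2⟩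

theorem strictAntiOn_pR (hs : 0 < s) : StrictAntiOn (pR s) (Set.Ioc 1 (pTmax s)) := by
  apply strictAntiOn_of_deriv_neg (convex_Ioc 1 (pTmax s))
  · intro t ht
    obtain ⟨h1, h2⟩ := (window_iff hs).mpr ht
    exact (contDiffAt_pR (n := 0) hs h1 h2).continuousAt.continuousWithinAt
  · intro t ht
    rw [interior_Ioc] at ht
    obtain ⟨h1, h2⟩ := (window_iff hs).mpr ⟨ht.1, ht.2.le⟩
    exact deriv_pR_neg hs h1 h2

theorem strictMonoOn_pM2 (hs : 0 < s) : StrictMonoOn (pM2 s) (Set.Ioc 1 (pTmax s)) := by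
  apply strictMonoOn_of_deriv_pos (convex_Ioc 1 (pTmax s))
  · intro t ht
    obtain ⟨h1, h2⟩ := (window_iff hs).mpr ht
    exact (contDiffAt_pM2 (n := 0) hs h1 h2).continuousAt.continuousWithinAt
  · intro t ht
    rw [interior_Ioc] at ht
    obtain ⟨h1, h2⟩ := (window_iff hs).mpr ⟨ht.1, ht.2.le⟩
    exact deriv_pM2_pos hs h1 h2

end Window

end Crest.Agent.S0175lib
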