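import Mathlib
import Crest.Prelude.Def_MultiMarginal
import Crest.Agent.S0175.Params
import Crest.Agent.S0175.CostBasics

/-!
# Row 130 (S0175): the dual potential and its contact set

`I` = far points (`‖x‖ = pR s (tt x)` for a window parameter `tt x`), `O` = near points
(`1/4 < ‖y‖² ≤ 1/3`), potential `u = pGst s (tt ·) - 2 κ₀` on `I`, `u = κ₀ - s ‖·‖²` on `O`,
`κ₀ = 5/6 + s/4`.  We prove, for `c = tripleCost s` and `S = I ∪ O`:

* `dual_le`   : `ofReal (u x + u y + u z) ≤ c (x, y, z)` on `S³`;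
* `dual_char` : equality forces a contact triple (exactly one far point `p`, the other two
  `q, r` with `q + r = 2 κ p`, `‖q - r‖ = t`, `q - r ⟂ p`);
* `contact_eq`: on contact triples equality holds (and the sum of potentials is `≥ 0`).
-/

set_option autoImplicit false
set_option linter.unusedSectionVars false

namespace Crest.Agent.S0175lib

open Real MeasureTheory Crest.AnalysisR.OT Crest.Agent.S0175
open scoped ENNReal

variable {V : Type*} [NormedAddCommGroup V] [InnerProductSpace ℝ V]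

section Real

variable {s t : ℝ}

/-- Norms of the twins: on a contact triple `‖y‖² = ‖z‖² = κ² ‖x‖² + t²/4` and
`⟪x, y⟫ = ⟪x, z⟫ = κ ‖x‖²`. -/
theorem twin_aux (κ t : ℝ) (x y z : V) (hsum : y + z = (2 * κ) • x) (hnorm : ‖y - z‖ = t)
    (horth : inner ℝ x (y - z) = 0) :
    ‖y‖ ^ 2 = κ ^ 2 * ‖x‖ ^ 2 + t ^ 2 / 4 ∧ ‖z‖ ^ 2 = κ ^ 2 * ‖x‖ ^ 2 + t ^ 2 / 4 ∧
      inner ℝ x y = κ * ‖x‖ ^ 2 ∧ inner ℝ x z = κ * ‖x‖ ^ 2 := by
  have h1 : inner ℝ x (y + z) = 2 * κ * ‖x‖ ^ 2 := by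
    rw [hsum, real_inner_smul_right, real_inner_self_eq_norm_sq]
  have h2 : inner ℝ x (y + z) = inner ℝ x y + inner ℝ x z := inner_add_right x y z
  have h3 : inner ℝ x (y - z) = inner ℝ x y - inner ℝ x z := inner_sub_right x y z
  have h4 : ‖y + z‖ ^ 2 = 4 * κ ^ 2 * ‖x‖ ^ 2 := by
    rw [hsum, norm_smul, mul_pow, Real.norm_eq_abs, sq_abs]; ring
  have h5 : ‖y + z‖ ^ 2 = ‖y‖ ^ 2 + 2 * inner ℝ y z + ‖z‖ ^ 2 := norm_add_sq_real y z
  have h6 : ‖y - z‖ ^ 2 = ‖y‖ ^ 2 - 2 * inner ℝ y z + ‖z‖ ^ 2 := norm_sub_sq_real y z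
  have h7 : ‖y‖ ^ 2 - ‖z‖ ^ 2 = inner ℝ (y + z) (y - z) := by
    rw [inner_add_left, inner_sub_right, inner_sub_right, real_inner_self_eq_norm_sq,
      real_inner_self_eq_norm_sq, real_inner_comm y z]
    ring
  rw [hsum, real_inner_smul_left, horth, mul_zero] at h7
  rw [hnorm] at h6
  refine ⟨by linarith, by linarith, by linarith, by linarith⟩

/-- On a contact triple the twins have squared norm `pM2 s t`. -/
theorem twin_norm_sq (ht : 0 < t) (x y z : V) (hx : ‖x‖ = pR s t)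
    (hsum : y + z = (2 * pKap s t) • x) (hnorm : ‖y - z‖ = t) (horth : inner ℝ x (y - z) = 0) :
    ‖y‖ ^ 2 = pM2 s t ∧ ‖z‖ ^ 2 = pM2 s t := by
  obtain ⟨h1, h2, -, -⟩ := twin_aux (pKap s t) t x y z hsum hnorm horth
  have h3 : pM2 s t = pKap s t ^ 2 * ‖x‖ ^ 2 + t ^ 2 / 4 := by
    unfold pM2
    rw [pXi_eq ht s, hx]; ring
  exact ⟨by rw [h1, h3], by rw [h2, h3]⟩

/-- On contact triples the three-body expression equals `pGst s t`. -/
theorem core_contact_param (hs : 0 < s) (ht : 1 < t) (ht2 : t ^ (s + 2) ≤ 2)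
    (x y z : V) (hx : ‖x‖ = pR s t) (hsum : y + z = (2 * pKap s t) • x) (hnorm : ‖y - z‖ = t)
    (horth : inner ℝ x (y - z) = 0) :
    ‖y - z‖ ^ (-s) + ‖x - y‖ ^ (-s) + ‖x - z‖ ^ (-s) + s * ‖y‖ ^ 2 + s * ‖z‖ ^ 2 = pGst s t := by
  have ht0 : (0 : ℝ) < t := by linarith
  have hsplit := core_split s t (pE s t) (pD s t) (pL s t) (pXi s t) (pR s t) ht0 rfl
    (pE_le_one hs ht ht2) (pE_eq_pD_rpow hs ht) (pL_sq hs ht ht2) rfl rfl x y z hx
  have hu := one_sub_pE_half s t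
  have hmul := rpow_mul_rpow_neg ht0 s
  obtain ⟨hy2, hz2, hxy, hxz⟩ := twin_aux (pKap s t) t x y z hsum hnorm horth
  have hL := pL_sq hs ht ht2
  -- the vector term vanishes
  have hvec : (1 - pE s t / 2) • (y + z) + pE s t • x = 0 := by
    rw [hsum, smul_smul, ← add_smul]
    have h0 : (1 - pE s t / 2) * (2 * pKap s t) + pE s t = 0 := by
      rw [hu]
      unfold pE pKap
      linear_combination (-2) * hmul
    rw [h0, zero_smul]
  -- the far distances equal `D`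
  have hκR : (1 - pKap s t) * pR s t = pL s t := by
    rw [pR_eq]
    unfold pKap
    linear_combination (pL s t) * hmul
  have hD : pD s t = (1 - pKap s t) ^ 2 * ‖x‖ ^ 2 + t ^ 2 / 4 := by
    rw [hx]
    have : (1 - pKap s t) ^ 2 * pR s t ^ 2 = pL s t ^ 2 := by rw [← hκR]; ring
    linarith
  have ha : ‖x - y‖ ^ 2 = pD s t := by
    rw [norm_sub_sq_real, hxy, hy2, hD]; ring
  have hb : ‖x - z‖ ^ 2 = pD s t := by
    rw [norm_sub_sq_real, hxz, hz2, hD]; ring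
  rw [hsplit, hvec, ha, hb, hnorm]
  unfold pGst
  simp

/-- Three distinct points of the ball of radius `1/√3`: the three-body cost is at least `3`. -/
theorem near3 (hs : 0 < s) (x y z : V) (hx : ‖x‖ ^ 2 ≤ 1 / 3) (hy : ‖y‖ ^ 2 ≤ 1 / 3)
    (hz : ‖z‖ ^ 2 ≤ 1 / 3) (hxy : x ≠ y) (hxz : x ≠ z) (hyz : y ≠ z) :
    3 ≤ ‖x - y‖ ^ (-s) + ‖x - z‖ ^ (-s) + ‖y - z‖ ^ (-s) := by
  have pxy : 0 < ‖x - y‖ := norm_pos_iff.mpr (sub_ne_zero.mpr hxy)
  have pxz : 0 < ‖x - z‖ := norm_pos_iff.mpr (sub_ne_zero.mpr hxz)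
  have pyz : 0 < ‖y - z‖ := norm_pos_iff.mpr (sub_ne_zero.mpr hyz)
  have T1 := rpow_tangent_le (p := -s / 2) (by linarith) (pow_pos pxy 2) one_pos
  have T2 := rpow_tangent_le (p := -s / 2) (by linarith) (pow_pos pxz 2) one_pos
  have T3 := rpow_tangent_le (p := -s / 2) (by linarith) (pow_pos pyz 2) one_pos
  rw [Real.one_rpow, Real.one_rpow] at T1 T2 T3
  rw [rpow_neg_eq_sq_rpow pxy.le, rpow_neg_eq_sq_rpow pxz.le, rpow_neg_eq_sq_rpow pyz.le]
  have e1 : ‖x - y‖ ^ 2 = ‖x‖ ^ 2 - 2 * inner ℝ x y + ‖y‖ ^ 2 := norm_sub_sq_real x y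
  have e2 : ‖x - z‖ ^ 2 = ‖x‖ ^ 2 - 2 * inner ℝ x z + ‖z‖ ^ 2 := norm_sub_sq_real x z
  have e3 : ‖y - z‖ ^ 2 = ‖y‖ ^ 2 - 2 * inner ℝ y z + ‖z‖ ^ 2 := norm_sub_sq_real y z
  have e4 : ‖x + y + z‖ ^ 2 = ‖x‖ ^ 2 + ‖y‖ ^ 2 + ‖z‖ ^ 2 + 2 * inner ℝ x y + 2 * inner ℝ x z
      + 2 * inner ℝ y z := by
    rw [norm_add_sq_real, norm_add_sq_real, inner_add_left]; ring
  have e5 : 0 ≤ ‖x + y + z‖ ^ 2 := sq_nonneg _
  have hsum : ‖x - y‖ ^ 2 + ‖x - z‖ ^ 2 + ‖y - z‖ ^ 2 ≤ 3 := by linarith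
  nlinarith [mul_nonneg hs.le (sub_nonneg.mpr hsum)]

end Real

section Potential

/-- Hypotheses on the far region `I`, the near region `O`, the parameter function `tt` and the
potential `u` (`κ₀ = 5/6 + s/4`). -/
structure PotData (s : ℝ) (I O : Set V) (tt u : V → ℝ) : Prop where
  hs : 0 < s
  far : ∀ x ∈ I, 1 < tt x ∧ tt x ^ (s + 2) ≤ 2 ∧ ‖x‖ = pR s (tt x) ∧
    pGst s (tt x) ≤ 5 / 4 + s / 2 ∧ 1 ≤ ‖x‖
  near : ∀ y ∈ O, 1 / 4 < ‖y‖ ^ 2 ∧ ‖y‖ ^ 2 ≤ 1 / 3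
  uI : ∀ x ∈ I, u x = pGst s (tt x) - 2 * (5 / 6 + s / 4)
  uO : ∀ y ∈ O, u y = 5 / 6 + s / 4 - s * ‖y‖ ^ 2

namespace PotData

variable {s : ℝ} {I O : Set V} {tt u : V → ℝ} (P : PotData s I O tt u)
include P

theorem not_mem_O {x : V} (hx : x ∈ I) : x ∉ O := by
  intro h
  have h1 := (P.far x hx).2.2.2.2
  have h2 := (P.near x h).2
  nlinarith

theorem not_mem_I {y : V} (hy : y ∈ O) : y ∉ I := fun h => P.not_mem_O h hy

theorem ne_of_mem {x y : V} (hx : x ∈ I) (hy : y ∈ O) : x ≠ y := by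
  rintro rfl; exact P.not_mem_O hx hy

theorem disjoint : Disjoint I O :=
  Set.disjoint_left.mpr fun _ hx => P.not_mem_O hx

theorem uI_le {x : V} (hx : x ∈ I) : u x ≤ -(5 / 12) := by
  rw [P.uI x hx]
  have := (P.far x hx).2.2.2.1
  linarith

theorem uO_lt {y : V} (hy : y ∈ O) : u y < 5 / 6 := by
  rw [P.uO y hy]
  have h1 := (P.near y hy).1
  have h2 := P.hs
  nlinarith

theorem uS_lt {x : V} (hx : x ∈ I ∪ O) : u x < 5 / 6 := by
  rcases hx with h | h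
  · have := P.uI_le h; linarith
  · exact P.uO_lt h

/-- Real dual inequality, one far point. -/
theorem real_IOO {x y z : V} (hx : x ∈ I) (hy : y ∈ O) (hz : z ∈ O) (hyz : y ≠ z) :
    u x + u y + u z ≤ ‖x - y‖ ^ (-s) + ‖x - z‖ ^ (-s) + ‖y - z‖ ^ (-s) := by
  obtain ⟨h1, h2, h3, -, -⟩ := P.far x hx
  have h := core_ineq_param P.hs h1 h2 x y z h3 hyz (P.ne_of_mem hx hy) (P.ne_of_mem hx hz)
  rw [P.uI x hx, P.uO y hy, P.uO z hz]
  linarith

/-- Real dual inequality, three near points: strict. -/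
theorem real_OOO {x y z : V} (hx : x ∈ O) (hy : y ∈ O) (hz : z ∈ O)
    (hxy : x ≠ y) (hxz : x ≠ z) (hyz : y ≠ z) :
    u x + u y + u z < ‖x - y‖ ^ (-s) + ‖x - z‖ ^ (-s) + ‖y - z‖ ^ (-s) := by
  have h := near3 P.hs x y z (P.near x hx).2 (P.near y hy).2 (P.near z hz).2 hxy hxz hyz
  have := P.uO_lt hx
  have := P.uO_lt hy
  have := P.uO_lt hz
  linarith

/-- With two far points the sum of the potentials is negative. -/
theorem sum_neg_of_two {x y z : V} (hx : x ∈ I) (hy : y ∈ I) (hz : z ∈ I ∪ O) :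
    u x + u y + u z < 0 := by
  have := P.uI_le hx
  have := P.uI_le hy
  have := P.uS_lt hz
  linarith

/-- **Dual inequality** on `S³`, `S = I ∪ O` (the hypothesis `hdual` of `abstract_main`). -/
theorem dual_le {x y z : V} (hx : x ∈ I ∪ O) (hy : y ∈ I ∪ O) (hz : z ∈ I ∪ O) :
    ENNReal.ofReal (u x + u y + u z) ≤ tripleCost s (x, y, z) := by
  apply ofReal_le_tripleCost P.hs
  intro hxy hxz hyz
  have nn : 0 ≤ ‖x - y‖ ^ (-s) + ‖x - z‖ ^ (-s) + ‖y - z‖ ^ (-s) := by positivity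
  rcases hx with hx | hx <;> rcases hy with hy | hy <;> rcases hz with hz | hz
  · have := P.sum_neg_of_two hx hy (Or.inl hz); linarith
  · have := P.sum_neg_of_two hx hy (Or.inr hz); linarith
  · have := P.sum_neg_of_two hx hz (Or.inr hy); linarith
  · exact P.real_IOO hx hy hz hyz
  · have := P.sum_neg_of_two hy hz (Or.inr hx); linarith
  · have h := P.real_IOO hy hx hz hxz
    rw [norm_sub_rev y x] at h; linarith
  · have h := P.real_IOO hz hx hy hxy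
    rw [norm_sub_rev z x, norm_sub_rev z y] at h; linarith
  · exact (P.real_OOO hx hy hz hxy hxz hyz).le

/-- **Contact characterisation** (the hypothesis `hchar` of `rigid_of_design`, with
`κ = fun x => pKap s (tt x)` and `t = tt`): equality in the dual inequality forces exactly one
far point `p`, and the other two points `q, r` satisfy `q + r = 2 κ p`, `‖q - r‖ = t`,
`q - r ⟂ p`. -/
theorem dual_char {x y z : V} (hx : x ∈ I ∪ O) (hy : y ∈ I ∪ O) (hz : z ∈ I ∪ O)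
    (h : tripleCost s (x, y, z) = ENNReal.ofReal (u x + u y + u z)) :
    (x ∈ I ∧ y ∉ I ∧ z ∉ I ∧ y + z = (2 * pKap s (tt x)) • x ∧ ‖y - z‖ = tt x ∧
        inner ℝ (y - z) x = 0) ∨
      (y ∈ I ∧ x ∉ I ∧ z ∉ I ∧ x + z = (2 * pKap s (tt y)) • y ∧ ‖x - z‖ = tt y ∧
        inner ℝ (x - z) y = 0) ∨
      (z ∈ I ∧ x ∉ I ∧ y ∉ I ∧ x + y = (2 * pKap s (tt z)) • z ∧ ‖x - y‖ = tt z ∧
        inner ℝ (x - y) z = 0) := by
  obtain ⟨hxy, hxz, hyz, hval, hpos⟩ := tripleCost_eq_ofReal_iff P.hs h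
  rcases hx with hx | hx <;> rcases hy with hy | hy <;> rcases hz with hz | hz
  · exfalso; have := P.sum_neg_of_two hx hy (Or.inl hz); linarith
  · exfalso; have := P.sum_neg_of_two hx hy (Or.inr hz); linarith
  · exfalso; have := P.sum_neg_of_two hx hz (Or.inr hy); linarith
  · left
    obtain ⟨h1, h2, h3, -, -⟩ := P.far x hx
    have hF : ‖y - z‖ ^ (-s) + ‖x - y‖ ^ (-s) + ‖x - z‖ ^ (-s) + s * ‖y‖ ^ 2 + s * ‖z‖ ^ 2
        ≤ pGst s (tt x) := by
      have := P.uI x hx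
      have := P.uO y hy
      have := P.uO z hz
      linarith
    obtain ⟨e1, e2, e3⟩ := core_eq_param P.hs h1 h2 x y z h3 hyz hxy hxz hF
    exact ⟨hx, P.not_mem_I hy, P.not_mem_I hz, e2, e1, by rw [real_inner_comm]; exact e3⟩
  · exfalso; have := P.sum_neg_of_two hy hz (Or.inr hx); linarith
  · right; left
    obtain ⟨h1, h2, h3, -, -⟩ := P.far y hy
    have hF : ‖x - z‖ ^ (-s) + ‖y - x‖ ^ (-s) + ‖y - z‖ ^ (-s) + s * ‖x‖ ^ 2 + s * ‖z‖ ^ 2
        ≤ pGst s (tt y) := by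
      have := P.uI y hy
      have := P.uO x hx
      have := P.uO z hz
      rw [norm_sub_rev y x]; linarith
    obtain ⟨e1, e2, e3⟩ := core_eq_param P.hs h1 h2 y x z h3 hxz hxy.symm hyz hF
    exact ⟨hy, P.not_mem_I hx, P.not_mem_I hz, e2, e1, by rw [real_inner_comm]; exact e3⟩
  · right; right
    obtain ⟨h1, h2, h3, -, -⟩ := P.far z hz
    have hF : ‖x - y‖ ^ (-s) + ‖z - x‖ ^ (-s) + ‖z - y‖ ^ (-s) + s * ‖x‖ ^ 2 + s * ‖y‖ ^ 2
        ≤ pGst s (tt z) := by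
      have := P.uI z hz
      have := P.uO x hx
      have := P.uO y hy
      rw [norm_sub_rev z x, norm_sub_rev z y]; linarith
    obtain ⟨e1, e2, e3⟩ := core_eq_param P.hs h1 h2 z x y h3 hxy hxz.symm hyz.symm hF
    exact ⟨hz, P.not_mem_I hx, P.not_mem_I hy, e2, e1, by rw [real_inner_comm]; exact e3⟩
  · exfalso
    have := P.real_OOO hx hy hz hxy hxz hyz
    linarith

/-- **Equality on contact triples** (the hypotheses `heq` and `hnn` of `abstract_main` once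
`y = a x`, `z = b x`). -/
theorem contact_eq {x y z : V} (hx : x ∈ I) (hy : y ∈ O) (hz : z ∈ O)
    (hsum : y + z = (2 * pKap s (tt x)) • x) (hnorm : ‖y - z‖ = tt x)
    (horth : inner ℝ (y - z) x = 0) :
    tripleCost s (x, y, z) = ENNReal.ofReal (u x + u y + u z) ∧ 0 ≤ u x + u y + u z := by
  obtain ⟨h1, h2, h3, -, -⟩ := P.far x hx
  have hyz : y ≠ z := by
    intro e
    rw [e, sub_self, norm_zero] at hnorm
    linarith
  have hF := core_contact_param P.hs h1 h2 x y z h3 hsum hnorm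
    (by rw [real_inner_comm]; exact horth)
  have hval : ‖x - y‖ ^ (-s) + ‖x - z‖ ^ (-s) + ‖y - z‖ ^ (-s) = u x + u y + u z := by
    rw [P.uI x hx, P.uO y hy, P.uO z hz]; linarith
  constructor
  · rw [tripleCost_of_ne s (P.ne_of_mem hx hy) (P.ne_of_mem hx hz) hyz, hval]
  · rw [← hval]; positivity

/-- The twins of a far point have squared norm `pM2 s (tt x)`. -/
theorem twin_norm_sq' {x y z : V} (hx : x ∈ I)
    (hsum : y + z = (2 * pKap s (tt x)) • x) (hnorm : ‖y - z‖ = tt x)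
    (horth : inner ℝ (y - z) x = 0) :
    ‖y‖ ^ 2 = pM2 s (tt x) ∧ ‖z‖ ^ 2 = pM2 s (tt x) := by
  obtain ⟨h1, -, h3, -, -⟩ := P.far x hx
  exact twin_norm_sq (by linarith) x y z h3 hsum hnorm (by rw [real_inner_comm]; exact horth)

end PotData

end Potential

end Crest.Agent.S0175lib
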