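import Mathlib
import Crest.Prelude.Def_MultiMarginal

/-!
# Assembling the density `ρ = η² + 2 σ²` for S0175 (generic, no design inside)

Inputs: `η σ : E → ℝ` smooth, nonnegative, compactly supported, with disjoint topological
supports, `∫ η² = 1/3`, and measurable maps `a b` pushing `η² dx` to `σ² dx`.
Outputs (for `ρ = rhoOf η σ`, `μ = measOfDensity ρ`, `I = {η ≠ 0}`): the analytic properties of
`ρ` required by S0175 and all measure-theoretic hypotheses of `abstract_main`.
-/

set_option autoImplicit false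
set_option linter.unusedSectionVars false
open MeasureTheory
open scoped ENNReal ContDiff

namespace Crest.Agent.S0175

open Crest.AnalysisR.OT

section RhoPack

variable {E : Type*} [NormedAddCommGroup E] [InnerProductSpace ℝ E] [FiniteDimensional ℝ E]
  [MeasurableSpace E] [BorelSpace E]

/-- The density `η² + 2 σ²`. -/
def rhoOf (η σ : E → ℝ) : E → ℝ := fun x => η x ^ 2 + 2 * σ x ^ 2

/-- The measure `η² dx`. -/
noncomputable def sqMeas (η : E → ℝ) : Measure E :=
  volume.withDensity fun x => ENNReal.ofReal (η x ^ 2)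

theorem rhoOf_nonneg (η σ : E → ℝ) (x : E) : 0 ≤ rhoOf η σ x := by
  unfold rhoOf; positivity

theorem contDiff_rhoOf {η σ : E → ℝ} (hη : ContDiff ℝ ∞ η) (hσ : ContDiff ℝ ∞ σ) :
    ContDiff ℝ ∞ (rhoOf η σ) :=
  (hη.pow 2).add (contDiff_const.mul (hσ.pow 2))

theorem hasCompactSupport_rhoOf {η σ : E → ℝ} (hηc : HasCompactSupport η)
    (hσc : HasCompactSupport σ) : HasCompactSupport (rhoOf η σ) := by
  have hcl : IsClosed (tsupport η ∪ tsupport σ) :=
    (isClosed_tsupport η).union (isClosed_tsupport σ)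
  have hsub : Function.support (rhoOf η σ) ⊆ tsupport η ∪ tsupport σ := by
    intro x hx
    by_contra hnot
    rw [Set.mem_union, not_or] at hnot
    have h1 : η x = 0 := image_eq_zero_of_notMem_tsupport hnot.1
    have h2 : σ x = 0 := image_eq_zero_of_notMem_tsupport hnot.2
    apply hx
    unfold rhoOf
    rw [h1, h2]; norm_num
  exact IsCompact.of_isClosed_subset (hηc.isCompact.union hσc.isCompact) (isClosed_tsupport _)
    (closure_minimal hsub hcl)

theorem zero_or_zero_of_disjoint {η σ : E → ℝ} (hdisj : Disjoint (tsupport η) (tsupport σ))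
    (x : E) : η x = 0 ∨ σ x = 0 := by
  by_cases h : x ∈ tsupport η
  · right
    exact image_eq_zero_of_notMem_tsupport (fun h' => Set.disjoint_left.mp hdisj h h')
  · left; exact image_eq_zero_of_notMem_tsupport h

theorem sqrt_rhoOf {η σ : E → ℝ} (hη0 : ∀ x, 0 ≤ η x) (hσ0 : ∀ x, 0 ≤ σ x)
    (hdisj : Disjoint (tsupport η) (tsupport σ)) (x : E) :
    Real.sqrt (rhoOf η σ x) = η x + Real.sqrt 2 * σ x := by
  unfold rhoOf
  rcases zero_or_zero_of_disjoint hdisj x with h | h
  · rw [h]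
    have : (0:ℝ) ^ 2 + 2 * σ x ^ 2 = 2 * σ x ^ 2 := by ring
    rw [this, Real.sqrt_mul (by norm_num), Real.sqrt_sq (hσ0 x), zero_add]
  · rw [h]
    have : η x ^ 2 + 2 * (0:ℝ) ^ 2 = η x ^ 2 := by ring
    rw [this, Real.sqrt_sq (hη0 x), mul_zero, add_zero]

theorem contDiff_sqrt_rhoOf {η σ : E → ℝ} (hη : ContDiff ℝ ∞ η) (hσ : ContDiff ℝ ∞ σ)
    (hη0 : ∀ x, 0 ≤ η x) (hσ0 : ∀ x, 0 ≤ σ x) (hdisj : Disjoint (tsupport η) (tsupport σ)) :
    ContDiff ℝ ∞ (fun x => Real.sqrt (rhoOf η σ x)) := by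
  have e : (fun x => Real.sqrt (rhoOf η σ x)) = fun x => η x + Real.sqrt 2 * σ x :=
    funext (sqrt_rhoOf hη0 hσ0 hdisj)
  rw [e]
  exact hη.add (contDiff_const.mul hσ)

theorem measOfDensity_rhoOf {η σ : E → ℝ} (hσm : Measurable σ) :
    measOfDensity (rhoOf η σ) = sqMeas η + sqMeas σ + sqMeas σ := by
  unfold measOfDensity sqMeas rhoOf
  have e : (fun x => ENNReal.ofReal (η x ^ 2 + 2 * σ x ^ 2))
      = ((fun x => ENNReal.ofReal (η x ^ 2)) + fun x => ENNReal.ofReal (σ x ^ 2))
        + fun x => ENNReal.ofReal (σ x ^ 2) := by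
    funext x
    simp only [Pi.add_apply]
    rw [← ENNReal.ofReal_add (by positivity) (by positivity),
      ← ENNReal.ofReal_add (by positivity) (by positivity)]
    congr 1; ring
  rw [e, withDensity_add_right _ (hσm.pow_const 2).ennreal_ofReal,
    withDensity_add_right _ (hσm.pow_const 2).ennreal_ofReal]

theorem measurableSet_ne_zero {η : E → ℝ} (hηm : Measurable η) :
    MeasurableSet {x | η x ≠ 0} :=
  (measurableSet_singleton (0:ℝ)).compl.preimage hηm

theorem sqMeas_restrict_self {η : E → ℝ} (hηm : Measurable η) :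
    (sqMeas η).restrict {x | η x ≠ 0} = sqMeas η := by
  have hI := measurableSet_ne_zero hηm
  unfold sqMeas
  rw [restrict_withDensity hI, ← withDensity_indicator hI]
  congr 1
  funext x
  by_cases hx : η x ≠ 0
  · exact Set.indicator_of_mem hx _
  · rw [Set.indicator_of_notMem hx]
    rw [not_not.mp hx]; simp

theorem sqMeas_restrict_zero {η σ : E → ℝ} (hηm : Measurable η)
    (hdisj : Disjoint (tsupport η) (tsupport σ)) :
    (sqMeas σ).restrict {x | η x ≠ 0} = 0 := by
  have hI := measurableSet_ne_zero hηm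
  unfold sqMeas
  rw [restrict_withDensity hI, ← withDensity_indicator hI]
  have e : ({x | η x ≠ 0}.indicator fun x => ENNReal.ofReal (σ x ^ 2)) = 0 := by
    funext x
    by_cases hx : η x ≠ 0
    · rw [Set.indicator_of_mem hx]
      rcases zero_or_zero_of_disjoint hdisj x with h | h
      · exact absurd h hx
      · rw [h]; simp
    · rw [Set.indicator_of_notMem hx]; rfl
  rw [e, withDensity_zero]

theorem restrict_measOfDensity_rhoOf {η σ : E → ℝ} (hηm : Measurable η) (hσm : Measurable σ)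
    (hdisj : Disjoint (tsupport η) (tsupport σ)) :
    (measOfDensity (rhoOf η σ)).restrict {x | η x ≠ 0} = sqMeas η := by
  rw [measOfDensity_rhoOf hσm, Measure.restrict_add, Measure.restrict_add,
    sqMeas_restrict_self hηm, sqMeas_restrict_zero hηm hdisj, add_zero, add_zero]

theorem integrable_sq {η : E → ℝ} (hη : Continuous η) (hηc : HasCompactSupport η) :
    Integrable (fun x => η x ^ 2) := by
  have hc : HasCompactSupport (fun x => η x ^ 2) :=
    hηc.comp_left (g := fun r : ℝ => r ^ 2) (by norm_num)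
  exact (hη.pow 2).integrable_of_hasCompactSupport hc

theorem sqMeas_univ {η : E → ℝ} (hη : Continuous η) (hηc : HasCompactSupport η) :
    sqMeas η Set.univ = ENNReal.ofReal (∫ x, η x ^ 2) := by
  unfold sqMeas
  rw [withDensity_apply _ MeasurableSet.univ, Measure.restrict_univ,
    ofReal_integral_eq_lintegral_ofReal (integrable_sq hη hηc)
      (ae_of_all _ fun x => by positivity)]

/-- Mass of `σ²` from the push-forward identity. -/
theorem integral_sq_eq_of_map {η σ : E → ℝ} (hη : Continuous η) (hηc : HasCompactSupport η)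
    (hσ : Continuous σ) (hσc : HasCompactSupport σ) (a : E → E) (ha : Measurable a)
    (hpa : (sqMeas η).map a = sqMeas σ) : ∫ x, σ x ^ 2 = ∫ x, η x ^ 2 := by
  have h1 : sqMeas σ Set.univ = sqMeas η Set.univ := by
    rw [← hpa, Measure.map_apply ha MeasurableSet.univ, Set.preimage_univ]
  rw [sqMeas_univ hη hηc, sqMeas_univ hσ hσc] at h1
  exact (ENNReal.ofReal_eq_ofReal_iff (integral_nonneg fun x => by positivity)
    (integral_nonneg fun x => by positivity)).mp h1

theorem integral_rhoOf {η σ : E → ℝ} (hη : Continuous η) (hηc : HasCompactSupport η)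
    (hσ : Continuous σ) (hσc : HasCompactSupport σ) :
    ∫ x, rhoOf η σ x = (∫ x, η x ^ 2) + 2 * ∫ x, σ x ^ 2 := by
  unfold rhoOf
  have i1 := integrable_sq hη hηc
  have i2 := integrable_sq hσ hσc
  have h12 : ∫ x, (η x ^ 2 + 2 * σ x ^ 2) = (∫ x, η x ^ 2) + ∫ x, 2 * σ x ^ 2 :=
    integral_add i1 (i2.const_mul 2)
  rw [h12, integral_const_mul]

theorem measOfDensity_null_zero {ρ : E → ℝ} (hρm : Measurable ρ) :
    measOfDensity ρ {x | ρ x = 0} = 0 := by
  have hA : MeasurableSet {x | ρ x = 0} := (measurableSet_singleton (0:ℝ)).preimage hρm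
  unfold measOfDensity
  rw [withDensity_apply _ hA]
  have : ∫⁻ x in {x | ρ x = 0}, ENNReal.ofReal (ρ x) = ∫⁻ x in {x | ρ x = 0}, 0 :=
    setLIntegral_congr_fun hA (fun x hx => by
      have hx' : ρ x = 0 := hx
      rw [hx']; simp)
  rw [this, lintegral_zero]

theorem lintegral_enorm_sq_ne_top {ρ : E → ℝ} (hρ : Continuous ρ) (hρc : HasCompactSupport ρ)
    (hρ0 : ∀ x, 0 ≤ ρ x) : ∫⁻ x, ‖x‖ₑ ^ 2 ∂(measOfDensity ρ) ≠ ⊤ := by
  unfold measOfDensity
  have hm : Measurable (fun x : E => ‖x‖ₑ ^ 2) := (measurable_enorm).pow_const 2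
  rw [lintegral_withDensity_eq_lintegral_mul _ hρ.measurable.ennreal_ofReal hm]
  have e : ∀ x : E, ((fun x => ENNReal.ofReal (ρ x)) * fun x : E => ‖x‖ₑ ^ 2) x
      = ENNReal.ofReal (ρ x * ‖x‖ ^ 2) := by
    intro x
    simp only [Pi.mul_apply]
    rw [ENNReal.ofReal_mul (hρ0 x), ENNReal.ofReal_pow (norm_nonneg x), ofReal_norm]
  simp only [e]
  have hint : Integrable (fun x : E => ρ x * ‖x‖ ^ 2) :=
    (hρ.mul (continuous_norm.pow 2)).integrable_of_hasCompactSupport hρc.mul_right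
  exact hint.lintegral_lt_top.ne

theorem integrable_of_bounded_on_support {ρ : E → ℝ} (hρm : Measurable ρ)
    [IsFiniteMeasure (measOfDensity ρ)] (u : E → ℝ) (hu : Measurable u) (C : ℝ)
    (hC : ∀ x, ρ x ≠ 0 → |u x| ≤ C) : Integrable u (measOfDensity ρ) := by
  refine Integrable.of_bound hu.aestronglyMeasurable C ?_
  have h0 : measOfDensity ρ {x | ρ x = 0} = 0 := measOfDensity_null_zero hρm
  rw [ae_iff]
  refine measure_mono_null ?_ h0
  intro x hx
  by_contra h
  exact hx (hC x h)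

/-- **The package.** -/
theorem rho_package (η σ : E → ℝ) (hη : ContDiff ℝ ∞ η) (hσ : ContDiff ℝ ∞ σ)
    (hη0 : ∀ x, 0 ≤ η x) (hσ0 : ∀ x, 0 ≤ σ x)
    (hηc : HasCompactSupport η) (hσc : HasCompactSupport σ)
    (hdisj : Disjoint (tsupport η) (tsupport σ)) (hmass : ∫ x, η x ^ 2 = 1 / 3)
    (a b : E → E) (ha : Measurable a)
    (hpa : (sqMeas η).map a = sqMeas σ) (hpb : (sqMeas η).map b = sqMeas σ) :
    (∀ x, 0 ≤ rhoOf η σ x) ∧ ContDiff ℝ ∞ (rhoOf η σ) ∧ HasCompactSupport (rhoOf η σ) ∧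
    ContDiff ℝ ∞ (fun x => Real.sqrt (rhoOf η σ x)) ∧ ∫ x, rhoOf η σ x = 1 ∧
    IsFiniteMeasure (measOfDensity (rhoOf η σ)) ∧ MeasurableSet {x | η x ≠ 0} ∧
    measOfDensity (rhoOf η σ) {x | η x ≠ 0} ≠ 0 ∧
    (measOfDensity (rhoOf η σ)).restrict {x | η x ≠ 0} = sqMeas η ∧
    ((measOfDensity (rhoOf η σ)).restrict {x | η x ≠ 0}).map a
      = ((measOfDensity (rhoOf η σ)).restrict {x | η x ≠ 0}).map b ∧
    measOfDensity (rhoOf η σ) = (measOfDensity (rhoOf η σ)).restrict {x | η x ≠ 0}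
      + ((measOfDensity (rhoOf η σ)).restrict {x | η x ≠ 0}).map a
      + ((measOfDensity (rhoOf η σ)).restrict {x | η x ≠ 0}).map b ∧
    measOfDensity (rhoOf η σ) {x | rhoOf η σ x ≠ 0}ᶜ = 0 ∧
    ∫⁻ x, ‖x‖ₑ ^ 2 ∂(measOfDensity (rhoOf η σ)) ≠ ⊤ := by
  have hηm : Measurable η := hη.continuous.measurable
  have hσm : Measurable σ := hσ.continuous.measurable
  have hρ : ContDiff ℝ ∞ (rhoOf η σ) := contDiff_rhoOf hη hσ
  have hρc : HasCompactSupport (rhoOf η σ) := hasCompactSupport_rhoOf hηc hσc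
  have hres := restrict_measOfDensity_rhoOf hηm hσm hdisj
  have hmassσ : ∫ x, σ x ^ 2 = 1 / 3 := by
    rw [integral_sq_eq_of_map hη.continuous hηc hσ.continuous hσc a ha hpa, hmass]
  have hint : ∫ x, rhoOf η σ x = 1 := by
    rw [integral_rhoOf hη.continuous hηc hσ.continuous hσc, hmass, hmassσ]; norm_num
  have hdecomp : measOfDensity (rhoOf η σ) = sqMeas η + sqMeas σ + sqMeas σ :=
    measOfDensity_rhoOf hσm
  have hfin : IsFiniteMeasure (measOfDensity (rhoOf η σ)) := by
    constructor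
    rw [hdecomp, Measure.add_apply, Measure.add_apply, sqMeas_univ hη.continuous hηc,
      sqMeas_univ hσ.continuous hσc]
    exact ENNReal.add_lt_top.mpr ⟨ENNReal.add_lt_top.mpr
      ⟨ENNReal.ofReal_lt_top, ENNReal.ofReal_lt_top⟩, ENNReal.ofReal_lt_top⟩
  have hI : MeasurableSet {x | η x ≠ 0} := measurableSet_ne_zero hηm
  have hI0 : measOfDensity (rhoOf η σ) {x | η x ≠ 0} ≠ 0 := by
    have h1 : measOfDensity (rhoOf η σ) {x | η x ≠ 0}
        = ((measOfDensity (rhoOf η σ)).restrict {x | η x ≠ 0}) Set.univ := by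
      rw [Measure.restrict_apply MeasurableSet.univ, Set.univ_inter]
    rw [h1, hres, sqMeas_univ hη.continuous hηc, hmass]
    intro h0
    rw [ENNReal.ofReal_eq_zero] at h0
    norm_num at h0
  refine ⟨rhoOf_nonneg η σ, hρ, hρc, contDiff_sqrt_rhoOf hη hσ hη0 hσ0 hdisj, hint, hfin, hI,
    hI0, hres, ?_, ?_, ?_, ?_⟩
  · rw [hres, hpa, hpb]
  · rw [hres, hpa, hpb]
    exact hdecomp
  · have : {x | rhoOf η σ x ≠ 0}ᶜ = {x | rhoOf η σ x = 0} := by
      ext x; simp
    rw [this]
    exact measOfDensity_null_zero hρ.continuous.measurable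
  · exact lintegral_enorm_sq_ne_top hρ.continuous hρc (rhoOf_nonneg η σ)

end RhoPack

end Crest.Agent.S0175
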