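import Mathlib
import Crest.Agent.S0175.Rigidity
import Crest.Agent.S0175.DensityPush
import Crest.Agent.S0175.CircleAvg

/-!
# Row 130 (S0175): generic twin-map geometry (helper94)

`V` a real inner product space, `e0 e1` orthonormal, `P = planeP e0 e1`, `J = planeJ e0 e1`.
For abstract scalar functions `kap hb : ℝ → ℝ` and a sign `ε`:

  `twinMap e0 e1 kap hb ε x = kap ‖x‖ • x + (ε * hb ‖x‖) • (‖P x‖⁻¹ • J x)`

and its explicit inverse `twinInv`.  Main result: `twin_diffeoData`.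
-/

set_option autoImplicit false
set_option linter.unusedSectionVars false
set_option linter.unusedVariables false

open Set Filter Topology
open scoped ContDiff

namespace Crest.Agent.S0175lib

section Frame

variable {V : Type*} [NormedAddCommGroup V] [InnerProductSpace ℝ V]
variable (e0 e1 : V)

/-- An orthonormal pair. -/
structure OrthoPair (e0 e1 : V) : Prop where
  n0 : ‖e0‖ = 1
  n1 : ‖e1‖ = 1
  orth : inner ℝ e0 e1 = 0

variable {e0 e1}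

namespace OrthoPair

variable (h : OrthoPair e0 e1)
include h

theorem e00 : inner ℝ e0 e0 = 1 := by rw [real_inner_self_eq_norm_sq, h.n0]; norm_num
theorem e11 : inner ℝ e1 e1 = 1 := by rw [real_inner_self_eq_norm_sq, h.n1]; norm_num
theorem e10 : inner ℝ e1 e0 = 0 := by rw [real_inner_comm]; exact h.orth

theorem inner_e0_P (x : V) : inner ℝ e0 (planeP e0 e1 x) = inner ℝ e0 x := by
  simp [planeP, inner_add_right, inner_smul_right, h.n0, h.orth]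

theorem inner_e1_P (x : V) : inner ℝ e1 (planeP e0 e1 x) = inner ℝ e1 x := by
  simp [planeP, inner_add_right, inner_smul_right, h.n1, h.e10]

theorem inner_e0_J (x : V) : inner ℝ e0 (planeJ e0 e1 x) = -inner ℝ e1 x := by
  simp [planeJ, inner_add_right, inner_smul_right, h.n0, h.orth]

theorem inner_e1_J (x : V) : inner ℝ e1 (planeJ e0 e1 x) = inner ℝ e0 x := by
  simp [planeJ, inner_add_right, inner_smul_right, h.n1, h.e10]

theorem P_P (x : V) : planeP e0 e1 (planeP e0 e1 x) = planeP e0 e1 x := by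
  conv_lhs => rw [planeP, h.inner_e0_P, h.inner_e1_P]
  rfl

theorem P_J (x : V) : planeP e0 e1 (planeJ e0 e1 x) = planeJ e0 e1 x := by
  conv_lhs => rw [planeP, h.inner_e0_J, h.inner_e1_J]
  rfl

theorem J_P (x : V) : planeJ e0 e1 (planeP e0 e1 x) = planeJ e0 e1 x := by
  conv_lhs => rw [planeJ, h.inner_e0_P, h.inner_e1_P]
  rfl

theorem J_J (x : V) : planeJ e0 e1 (planeJ e0 e1 x) = -planeP e0 e1 x := by
  conv_lhs => rw [planeJ, h.inner_e0_J, h.inner_e1_J]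
  simp only [planeP, neg_neg, neg_smul]
  abel

theorem norm_J (x : V) : ‖planeJ e0 e1 x‖ = ‖planeP e0 e1 x‖ := by
  have h1 := planeJ_norm_sq e0 e1 h.n0 h.n1 h.orth x
  have h2 := planeP_norm_sq e0 e1 h.n0 h.n1 h.orth x
  have : ‖planeJ e0 e1 x‖ ^ 2 = ‖planeP e0 e1 x‖ ^ 2 := by rw [h1, h2]
  exact (sq_eq_sq₀ (norm_nonneg _) (norm_nonneg _)).1 this

theorem inner_x_J (x : V) : inner ℝ x (planeJ e0 e1 x) = 0 := by
  simp only [planeJ, inner_add_right, inner_smul_right]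
  rw [real_inner_comm e0 x, real_inner_comm e1 x]
  ring

theorem inner_x_P (x : V) : inner ℝ x (planeP e0 e1 x) = ‖planeP e0 e1 x‖ ^ 2 := by
  rw [planeP_norm_sq e0 e1 h.n0 h.n1 h.orth x]
  simp only [planeP, inner_add_right, inner_smul_right]
  rw [real_inner_comm e0 x, real_inner_comm e1 x]
  ring

theorem inner_P_J (x : V) : inner ℝ (planeP e0 e1 x) (planeJ e0 e1 x) = 0 := by
  simp only [planeP, planeJ, inner_add_left, inner_add_right, inner_smul_left, inner_smul_right,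
    h.e00, h.e11, h.e10, h.orth]
  simp
  ring

/-- Pythagoras: `‖x‖² = ‖P x‖² + ‖x - P x‖²`. -/
theorem norm_sq_decomp (x : V) :
    ‖x‖ ^ 2 = ‖planeP e0 e1 x‖ ^ 2 + ‖x - planeP e0 e1 x‖ ^ 2 := by
  have hPP : inner ℝ (planeP e0 e1 x) (planeP e0 e1 x) = ‖planeP e0 e1 x‖ ^ 2 :=
    real_inner_self_eq_norm_sq _
  have hxP := h.inner_x_P x
  have hPx : inner ℝ (planeP e0 e1 x) x = ‖planeP e0 e1 x‖ ^ 2 := by
    rw [real_inner_comm]; exact hxP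
  rw [← real_inner_self_eq_norm_sq (x - planeP e0 e1 x), inner_sub_left, inner_sub_right,
    inner_sub_right, hxP, hPx, hPP, real_inner_self_eq_norm_sq]
  ring

end OrthoPair

theorem h94_planeP_add (x y : V) : planeP e0 e1 (x + y) = planeP e0 e1 x + planeP e0 e1 y := by
  simp only [planeP, inner_add_right, add_smul]; abel

theorem h94_planeP_smul (c : ℝ) (x : V) : planeP e0 e1 (c • x) = c • planeP e0 e1 x := by
  simp only [planeP, inner_smul_right, smul_add, smul_smul]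

theorem h94_planeJ_add (x y : V) : planeJ e0 e1 (x + y) = planeJ e0 e1 x + planeJ e0 e1 y := by
  simp only [planeJ, inner_add_right, add_smul, neg_add, neg_smul]; abel

theorem h94_planeJ_smul (c : ℝ) (x : V) : planeJ e0 e1 (c • x) = c • planeJ e0 e1 x := by
  simp only [planeJ, inner_smul_right, smul_add, smul_smul, neg_smul, smul_neg, mul_neg, neg_mul]

theorem h94_planeP_sub (x y : V) : planeP e0 e1 (x - y) = planeP e0 e1 x - planeP e0 e1 y := by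
  simp only [planeP, inner_sub_right, sub_smul]; abel

theorem h94_planeJ_sub (x y : V) : planeJ e0 e1 (x - y) = planeJ e0 e1 x - planeJ e0 e1 y := by
  simp only [planeJ, inner_sub_right, sub_smul, neg_sub, neg_smul]; abel

end Frame

section TS

variable {V : Type*} [NormedAddCommGroup V] [InnerProductSpace ℝ V]

/-- `k • x + c • J x`. -/
noncomputable def twT (e0 e1 : V) (k c : ℝ) (x : V) : V := k • x + c • planeJ e0 e1 x

/-- `κ⁻¹ • (y - P y) + α • P y + β • J y`. -/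
noncomputable def twS (e0 e1 : V) (κ α β : ℝ) (y : V) : V :=
  κ⁻¹ • (y - planeP e0 e1 y) + α • planeP e0 e1 y + β • planeJ e0 e1 y

namespace OrthoPair

variable {e0 e1 : V} (h : OrthoPair e0 e1)
include h

theorem P_twT (k c : ℝ) (x : V) :
    planeP e0 e1 (twT e0 e1 k c x) = k • planeP e0 e1 x + c • planeJ e0 e1 x := by
  rw [twT, h94_planeP_add, h94_planeP_smul, h94_planeP_smul, h.P_J]

theorem J_twT (k c : ℝ) (x : V) :
    planeJ e0 e1 (twT e0 e1 k c x) = k • planeJ e0 e1 x - c • planeP e0 e1 x := by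
  rw [twT, h94_planeJ_add, h94_planeJ_smul, h94_planeJ_smul, h.J_J, smul_neg, sub_eq_add_neg]

theorem W_twT (k c : ℝ) (x : V) :
    twT e0 e1 k c x - planeP e0 e1 (twT e0 e1 k c x) = k • (x - planeP e0 e1 x) := by
  rw [h.P_twT, twT, smul_sub]; abel

theorem norm_sq_twT (k c : ℝ) (x : V) :
    ‖twT e0 e1 k c x‖ ^ 2 = k ^ 2 * ‖x‖ ^ 2 + c ^ 2 * ‖planeP e0 e1 x‖ ^ 2 := by
  rw [← real_inner_self_eq_norm_sq, twT]
  simp only [inner_add_left, inner_add_right, inner_smul_left, inner_smul_right]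
  have h1 : inner ℝ (planeJ e0 e1 x) x = 0 := by rw [real_inner_comm]; exact h.inner_x_J x
  have h2 : inner ℝ (planeJ e0 e1 x) (planeJ e0 e1 x) = ‖planeP e0 e1 x‖ ^ 2 := by
    rw [real_inner_self_eq_norm_sq, h.norm_J]
  rw [h.inner_x_J, h1, h2, real_inner_self_eq_norm_sq]
  simp
  ring

theorem norm_sq_P_twT (k c : ℝ) (x : V) :
    ‖planeP e0 e1 (twT e0 e1 k c x)‖ ^ 2 = (k ^ 2 + c ^ 2) * ‖planeP e0 e1 x‖ ^ 2 := by
  rw [h.P_twT, ← real_inner_self_eq_norm_sq]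
  simp only [inner_add_left, inner_add_right, inner_smul_left, inner_smul_right]
  have h1 : inner ℝ (planeJ e0 e1 x) (planeP e0 e1 x) = 0 := by
    rw [real_inner_comm]; exact h.inner_P_J x
  have h2 : inner ℝ (planeJ e0 e1 x) (planeJ e0 e1 x) = ‖planeP e0 e1 x‖ ^ 2 := by
    rw [real_inner_self_eq_norm_sq, h.norm_J]
  rw [h.inner_P_J, h1, h2, real_inner_self_eq_norm_sq]
  simp
  ring

theorem P_W (y : V) : planeP e0 e1 (y - planeP e0 e1 y) = 0 := by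
  rw [h94_planeP_sub, h.P_P, sub_self]

theorem J_W (y : V) : planeJ e0 e1 (y - planeP e0 e1 y) = 0 := by
  rw [h94_planeJ_sub, h.J_P, sub_self]

theorem P_twS (κ α β : ℝ) (y : V) :
    planeP e0 e1 (twS e0 e1 κ α β y) = α • planeP e0 e1 y + β • planeJ e0 e1 y := by
  rw [twS, h94_planeP_add, h94_planeP_add, h94_planeP_smul, h94_planeP_smul, h94_planeP_smul, h.P_W, h.P_P, h.P_J,
    smul_zero, zero_add]

theorem J_twS (κ α β : ℝ) (y : V) :
    planeJ e0 e1 (twS e0 e1 κ α β y) = α • planeJ e0 e1 y - β • planeP e0 e1 y := by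
  rw [twS, h94_planeJ_add, h94_planeJ_add, h94_planeJ_smul, h94_planeJ_smul, h94_planeJ_smul, h.J_W, h.J_P, h.J_J,
    smul_zero, zero_add, smul_neg, sub_eq_add_neg]

theorem W_twS (κ α β : ℝ) (y : V) :
    twS e0 e1 κ α β y - planeP e0 e1 (twS e0 e1 κ α β y) = κ⁻¹ • (y - planeP e0 e1 y) := by
  rw [h.P_twS, twS]; abel

theorem norm_sq_P_twS (κ α β : ℝ) (y : V) :
    ‖planeP e0 e1 (twS e0 e1 κ α β y)‖ ^ 2 = (α ^ 2 + β ^ 2) * ‖planeP e0 e1 y‖ ^ 2 := by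
  rw [h.P_twS, ← real_inner_self_eq_norm_sq]
  simp only [inner_add_left, inner_add_right, inner_smul_left, inner_smul_right]
  have h1 : inner ℝ (planeJ e0 e1 y) (planeP e0 e1 y) = 0 := by
    rw [real_inner_comm]; exact h.inner_P_J y
  have h2 : inner ℝ (planeJ e0 e1 y) (planeJ e0 e1 y) = ‖planeP e0 e1 y‖ ^ 2 := by
    rw [real_inner_self_eq_norm_sq, h.norm_J]
  rw [h.inner_P_J, h1, h2, real_inner_self_eq_norm_sq]
  simp
  ring

theorem norm_sq_twS (κ α β : ℝ) (y : V) :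
    ‖twS e0 e1 κ α β y‖ ^ 2
      = (κ⁻¹) ^ 2 * ‖y - planeP e0 e1 y‖ ^ 2 + (α ^ 2 + β ^ 2) * ‖planeP e0 e1 y‖ ^ 2 := by
  rw [h.norm_sq_decomp (twS e0 e1 κ α β y), h.norm_sq_P_twS, h.W_twS, norm_smul, mul_pow,
    Real.norm_eq_abs, sq_abs]
  ring

theorem twS_twT {k c α β : ℝ} (hk : k ≠ 0) (hα : α * k - β * c = 1) (hβ : α * c + β * k = 0)
    (x : V) : twS e0 e1 k α β (twT e0 e1 k c x) = x := by
  rw [twS, h.W_twT, h.P_twT, h.J_twT, smul_smul, inv_mul_cancel₀ hk, one_smul]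
  have e : x - planeP e0 e1 x + α • (k • planeP e0 e1 x + c • planeJ e0 e1 x)
      + β • (k • planeJ e0 e1 x - c • planeP e0 e1 x)
      = x + (α * k - β * c - 1) • planeP e0 e1 x + (α * c + β * k) • planeJ e0 e1 x := by
    module
  rw [e, hα, hβ]
  simp

theorem twT_twS_gen (k c α β : ℝ) (y : V) :
    twT e0 e1 k c (twS e0 e1 k α β y)
      = (k * k⁻¹) • (y - planeP e0 e1 y) + (k * α - c * β) • planeP e0 e1 y
        + (k * β + c * α) • planeJ e0 e1 y := by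
  rw [twT, h.J_twS, twS]
  module

theorem twT_twS {k c α β : ℝ} (hk : k ≠ 0) (hα : k * α - c * β = 1) (hβ : k * β + c * α = 0)
    (y : V) : twT e0 e1 k c (twS e0 e1 k α β y) = y := by
  rw [twT, h.J_twS, twS]
  have e : k • (k⁻¹ • (y - planeP e0 e1 y) + α • planeP e0 e1 y + β • planeJ e0 e1 y)
      + c • (α • planeJ e0 e1 y - β • planeP e0 e1 y)
      = (k * k⁻¹) • (y - planeP e0 e1 y) + (k * α - c * β) • planeP e0 e1 y
        + (k * β + c * α) • planeJ e0 e1 y := by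
    module
  rw [e, hα, hβ, mul_inv_cancel₀ hk]
  simp

end OrthoPair

end TS

section Twin

variable {V : Type*} [NormedAddCommGroup V] [InnerProductSpace ℝ V]

/-- The twin map `x ↦ kap ‖x‖ • x + (ε * hb ‖x‖) • (‖P x‖⁻¹ • J x)`. -/
noncomputable def twinMap (e0 e1 : V) (kap hb : ℝ → ℝ) (ε : ℝ) (x : V) : V :=
  kap ‖x‖ • x + (ε * hb ‖x‖) • (‖planeP e0 e1 x‖⁻¹ • planeJ e0 e1 x)

/-- The explicit inverse of the twin map. -/
noncomputable def twinInv (e0 e1 : V) (kap hb rinv : ℝ → ℝ) (ε : ℝ) (y : V) : V :=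
  (kap (rinv ‖y‖))⁻¹ • (y - planeP e0 e1 y)
    + (Real.sqrt (‖planeP e0 e1 y‖ ^ 2 - hb (rinv ‖y‖) ^ 2) / ‖planeP e0 e1 y‖ ^ 2) •
      ((Real.sqrt (‖planeP e0 e1 y‖ ^ 2 - hb (rinv ‖y‖) ^ 2) / kap (rinv ‖y‖)) • planeP e0 e1 y
        - (ε * hb (rinv ‖y‖) / |kap (rinv ‖y‖)|) • planeJ e0 e1 y)

/-- Domain of the twin map. -/
def twinU (e0 e1 : V) (r₁ r₂ : ℝ) : Set V := {x | ‖x‖ ∈ Ioo r₁ r₂ ∧ planeP e0 e1 x ≠ 0}

/-- Image of the twin map. -/
def twinV (e0 e1 : V) (hb rinv : ℝ → ℝ) (m₁ m₂ : ℝ) : Set V :=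
  {y | ‖y‖ ∈ Ioo m₁ m₂ ∧ hb (rinv ‖y‖) ^ 2 < ‖planeP e0 e1 y‖ ^ 2}

/-- Scalar data of a twin design: `kap` (centre ratio), `hb` (half base) as functions of `‖x‖`,
and `rinv`, the inverse of `r ↦ √(kap r² r² + hb r²)`. -/
structure TwinData (r₁ r₂ m₁ m₂ : ℝ) (kap hb rinv : ℝ → ℝ) : Prop where
  r₁_pos : 0 < r₁
  m₁_pos : 0 < m₁
  kap_smooth : ContDiffOn ℝ ∞ kap (Ioo r₁ r₂)
  hb_smooth : ContDiffOn ℝ ∞ hb (Ioo r₁ r₂)
  rinv_smooth : ContDiffOn ℝ ∞ rinv (Ioo m₁ m₂)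
  kap_ne : ∀ r ∈ Ioo r₁ r₂, kap r ≠ 0
  hb_pos : ∀ r ∈ Ioo r₁ r₂, 0 < hb r
  rinv_mem : ∀ m ∈ Ioo m₁ m₂, rinv m ∈ Ioo r₁ r₂
  M_mem : ∀ r ∈ Ioo r₁ r₂, Real.sqrt (kap r ^ 2 * r ^ 2 + hb r ^ 2) ∈ Ioo m₁ m₂
  rinv_M : ∀ r ∈ Ioo r₁ r₂, rinv (Real.sqrt (kap r ^ 2 * r ^ 2 + hb r ^ 2)) = r
  M_rinv : ∀ m ∈ Ioo m₁ m₂, kap (rinv m) ^ 2 * rinv m ^ 2 + hb (rinv m) ^ 2 = m ^ 2

variable {e0 e1 : V} {kap hb rinv : ℝ → ℝ} {ε : ℝ} {r₁ r₂ m₁ m₂ : ℝ}

theorem twinMap_eq_twT (x : V) :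
    twinMap e0 e1 kap hb ε x
      = twT e0 e1 (kap ‖x‖) (ε * hb ‖x‖ * ‖planeP e0 e1 x‖⁻¹) x := by
  rw [twinMap, twT, smul_smul]

theorem twinInv_eq_twS (y : V) :
    twinInv e0 e1 kap hb rinv ε y
      = twS e0 e1 (kap (rinv ‖y‖))
          (Real.sqrt (‖planeP e0 e1 y‖ ^ 2 - hb (rinv ‖y‖) ^ 2) / ‖planeP e0 e1 y‖ ^ 2
            * (Real.sqrt (‖planeP e0 e1 y‖ ^ 2 - hb (rinv ‖y‖) ^ 2) / kap (rinv ‖y‖)))
          (-(Real.sqrt (‖planeP e0 e1 y‖ ^ 2 - hb (rinv ‖y‖) ^ 2) / ‖planeP e0 e1 y‖ ^ 2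
            * (ε * hb (rinv ‖y‖) / |kap (rinv ‖y‖)|))) y := by
  simp only [twinInv, twS]; module

/-- Twins sum to `(2 kap) • x`. -/
theorem twinMap_add_neg (x : V) :
    twinMap e0 e1 kap hb ε x + twinMap e0 e1 kap hb (-ε) x = (2 * kap ‖x‖) • x := by
  simp only [twinMap]; module

/-- Difference of twins. -/
theorem twinMap_sub_neg (x : V) :
    twinMap e0 e1 kap hb ε x - twinMap e0 e1 kap hb (-ε) x
      = (2 * ε * hb ‖x‖) • (‖planeP e0 e1 x‖⁻¹ • planeJ e0 e1 x) := by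
  simp only [twinMap]; module

namespace OrthoPair

variable (h : OrthoPair e0 e1)
include h

/-- Transverse part of the twin map. -/
theorem W_twinMap (x : V) :
    twinMap e0 e1 kap hb ε x - planeP e0 e1 (twinMap e0 e1 kap hb ε x)
      = kap ‖x‖ • (x - planeP e0 e1 x) := by
  rw [twinMap_eq_twT, h.W_twT]

theorem norm_sq_twinMap (hε : ε ^ 2 = 1) {x : V} (hx : planeP e0 e1 x ≠ 0) :
    ‖twinMap e0 e1 kap hb ε x‖ ^ 2 = kap ‖x‖ ^ 2 * ‖x‖ ^ 2 + hb ‖x‖ ^ 2 := by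
  have hpos : ‖planeP e0 e1 x‖ ≠ 0 := norm_ne_zero_iff.2 hx
  rw [twinMap_eq_twT, h.norm_sq_twT]
  have : (ε * hb ‖x‖ * ‖planeP e0 e1 x‖⁻¹) ^ 2 * ‖planeP e0 e1 x‖ ^ 2 = hb ‖x‖ ^ 2 := by
    field_simp
    rw [hε]; ring
  rw [this]

theorem norm_sq_P_twinMap (hε : ε ^ 2 = 1) {x : V} (hx : planeP e0 e1 x ≠ 0) :
    ‖planeP e0 e1 (twinMap e0 e1 kap hb ε x)‖ ^ 2
      = kap ‖x‖ ^ 2 * ‖planeP e0 e1 x‖ ^ 2 + hb ‖x‖ ^ 2 := by
  have hpos : ‖planeP e0 e1 x‖ ≠ 0 := norm_ne_zero_iff.2 hx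
  rw [twinMap_eq_twT, h.norm_sq_P_twT]
  have : (ε * hb ‖x‖ * ‖planeP e0 e1 x‖⁻¹) ^ 2 * ‖planeP e0 e1 x‖ ^ 2 = hb ‖x‖ ^ 2 := by
    field_simp
    rw [hε]; ring
  rw [add_mul, this]

/-- The difference of twins is orthogonal to `x`. -/
theorem inner_twinMap_sub_neg (x : V) :
    inner ℝ (twinMap e0 e1 kap hb ε x - twinMap e0 e1 kap hb (-ε) x) x = 0 := by
  rw [twinMap_sub_neg, inner_smul_left, inner_smul_left, real_inner_comm, h.inner_x_J]
  simp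

/-- The distance of twins is `2 hb`. -/
theorem norm_twinMap_sub_neg (hε : ε ^ 2 = 1) {x : V} (hhb : 0 ≤ hb ‖x‖)
    (hx : planeP e0 e1 x ≠ 0) :
    ‖twinMap e0 e1 kap hb ε x - twinMap e0 e1 kap hb (-ε) x‖ = 2 * hb ‖x‖ := by
  have hpos : ‖planeP e0 e1 x‖ ≠ 0 := norm_ne_zero_iff.2 hx
  have hε' : |ε| = 1 := by
    have : |ε| ^ 2 = 1 ^ 2 := by rw [sq_abs, hε]; norm_num
    exact (sq_eq_sq₀ (abs_nonneg _) zero_le_one).1 this
  rw [twinMap_sub_neg, norm_smul, norm_smul, h.norm_J, Real.norm_eq_abs, Real.norm_eq_abs,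
    abs_mul, abs_mul, hε', abs_inv, abs_norm, abs_of_nonneg hhb, inv_mul_cancel₀ hpos, abs_two]
  ring

end OrthoPair

namespace TwinData

variable (T : TwinData r₁ r₂ m₁ m₂ kap hb rinv) (h : OrthoPair e0 e1)
include T h

/-- Norm of the image point. -/
theorem norm_twinMap (hε : ε ^ 2 = 1) {x : V} (hx : x ∈ twinU e0 e1 r₁ r₂) :
    ‖twinMap e0 e1 kap hb ε x‖ = Real.sqrt (kap ‖x‖ ^ 2 * ‖x‖ ^ 2 + hb ‖x‖ ^ 2) := by
  rw [← h.norm_sq_twinMap hε hx.2, Real.sqrt_sq (norm_nonneg _)]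

theorem rinv_norm_twinMap (hε : ε ^ 2 = 1) {x : V} (hx : x ∈ twinU e0 e1 r₁ r₂) :
    rinv ‖twinMap e0 e1 kap hb ε x‖ = ‖x‖ := by
  rw [T.norm_twinMap h hε hx, T.rinv_M _ hx.1]

/-- (B) the twin map sends `U` into `V`. -/
theorem mapsTo_twinMap (hε : ε ^ 2 = 1) :
    MapsTo (twinMap e0 e1 kap hb ε) (twinU e0 e1 r₁ r₂) (twinV e0 e1 hb rinv m₁ m₂) := by
  intro x hx
  refine ⟨?_, ?_⟩
  · rw [T.norm_twinMap h hε hx]; exact T.M_mem _ hx.1
  · rw [T.rinv_norm_twinMap h hε hx, h.norm_sq_P_twinMap hε hx.2]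
    have hk := T.kap_ne _ hx.1
    have hP : 0 < ‖planeP e0 e1 x‖ := norm_pos_iff.2 hx.2
    have : 0 < kap ‖x‖ ^ 2 * ‖planeP e0 e1 x‖ ^ 2 := by positivity
    linarith

/-- (C) `twinInv` is a left inverse of `twinMap` on `U`. -/
theorem twinInv_twinMap (hε : ε ^ 2 = 1) {x : V} (hx : x ∈ twinU e0 e1 r₁ r₂) :
    twinInv e0 e1 kap hb rinv ε (twinMap e0 e1 kap hb ε x) = x := by
  have hk := T.kap_ne _ hx.1
  have hP : 0 < ‖planeP e0 e1 x‖ := norm_pos_iff.2 hx.2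
  have hh := T.hb_pos _ hx.1
  have hN : ‖planeP e0 e1 (twinMap e0 e1 kap hb ε x)‖ ^ 2
      = kap ‖x‖ ^ 2 * ‖planeP e0 e1 x‖ ^ 2 + hb ‖x‖ ^ 2 := h.norm_sq_P_twinMap hε hx.2
  have hNpos : 0 < kap ‖x‖ ^ 2 * ‖planeP e0 e1 x‖ ^ 2 + hb ‖x‖ ^ 2 := by positivity
  have hη : Real.sqrt (kap ‖x‖ ^ 2 * ‖planeP e0 e1 x‖ ^ 2 + hb ‖x‖ ^ 2 - hb ‖x‖ ^ 2)
      = |kap ‖x‖| * ‖planeP e0 e1 x‖ := by
    rw [add_sub_cancel_right, ← mul_pow, Real.sqrt_sq_eq_abs, abs_mul, abs_norm]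
  rw [twinInv_eq_twS, T.rinv_norm_twinMap h hε hx, hN, hη]
  conv_lhs => rw [twinMap_eq_twT]
  have hak : |kap ‖x‖| ≠ 0 := abs_ne_zero.2 hk
  have hak2 : |kap ‖x‖| * |kap ‖x‖| = kap ‖x‖ * kap ‖x‖ := abs_mul_abs_self _
  apply h.twS_twT hk
  · field_simp
    have : |kap ‖x‖| ^ 2 = kap ‖x‖ ^ 2 := sq_abs _
    rw [this]
    nlinarith [hε]
  · field_simp
    rw [sq_abs]; ring

/-- Norm of the plane part of the preimage point. -/
theorem norm_sq_P_twinInv (hε : ε ^ 2 = 1) {y : V} (hy : y ∈ twinV e0 e1 hb rinv m₁ m₂) :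
    ‖planeP e0 e1 (twinInv e0 e1 kap hb rinv ε y)‖ ^ 2
      = (‖planeP e0 e1 y‖ ^ 2 - hb (rinv ‖y‖) ^ 2) / kap (rinv ‖y‖) ^ 2 := by
  have hr := T.rinv_mem _ hy.1
  have hk := T.kap_ne _ hr
  have hd : 0 < ‖planeP e0 e1 y‖ ^ 2 - hb (rinv ‖y‖) ^ 2 := sub_pos.2 hy.2
  have hN : 0 < ‖planeP e0 e1 y‖ ^ 2 := lt_of_le_of_lt (sq_nonneg _) hy.2
  have hs : Real.sqrt (‖planeP e0 e1 y‖ ^ 2 - hb (rinv ‖y‖) ^ 2) ^ 2
      = ‖planeP e0 e1 y‖ ^ 2 - hb (rinv ‖y‖) ^ 2 := Real.sq_sqrt hd.le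
  have hak : |kap (rinv ‖y‖)| ≠ 0 := abs_ne_zero.2 hk
  have hak2 : |kap (rinv ‖y‖)| ^ 2 = kap (rinv ‖y‖) ^ 2 := sq_abs _
  rw [twinInv_eq_twS, h.norm_sq_P_twS]
  generalize Real.sqrt (‖planeP e0 e1 y‖ ^ 2 - hb (rinv ‖y‖) ^ 2) = η at hs
  generalize |kap (rinv ‖y‖)| = ak at hak hak2
  have hN' : ‖planeP e0 e1 y‖ ^ 2 ≠ 0 := hN.ne'
  have hη2 : η ^ 2 + hb (rinv ‖y‖) ^ 2 = ‖planeP e0 e1 y‖ ^ 2 := by rw [hs]; ring
  generalize ‖planeP e0 e1 y‖ ^ 2 = N at hN' hη2 hs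
  generalize kap (rinv ‖y‖) = k at hk hak2
  generalize hb (rinv ‖y‖) = hh at hη2 hs
  have e1' : (η / N * (η / k)) ^ 2 + (-(η / N * (ε * hh / ak))) ^ 2
      = η ^ 2 * (η ^ 2 + ε ^ 2 * hh ^ 2) / (N ^ 2 * k ^ 2) := by
    have : ak ^ 2 ≠ 0 := pow_ne_zero 2 hak
    field_simp
    rw [hak2]
    ring
  rw [e1', hε, one_mul, hη2, ← hs]
  field_simp

theorem norm_sq_twinInv (hε : ε ^ 2 = 1) {y : V} (hy : y ∈ twinV e0 e1 hb rinv m₁ m₂) :
    ‖twinInv e0 e1 kap hb rinv ε y‖ ^ 2 = rinv ‖y‖ ^ 2 := by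
  have hr := T.rinv_mem _ hy.1
  have hk := T.kap_ne _ hr
  have hM := T.M_rinv _ hy.1
  have hdec := h.norm_sq_decomp y
  rw [h.norm_sq_decomp (twinInv e0 e1 kap hb rinv ε y), T.norm_sq_P_twinInv h hε hy]
  conv_lhs => rw [twinInv_eq_twS, h.W_twS, norm_smul, mul_pow, Real.norm_eq_abs, sq_abs]
  field_simp
  nlinarith [hM, hdec]

theorem norm_twinInv (hε : ε ^ 2 = 1) {y : V} (hy : y ∈ twinV e0 e1 hb rinv m₁ m₂) :
    ‖twinInv e0 e1 kap hb rinv ε y‖ = rinv ‖y‖ := by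
  have hr := T.rinv_mem _ hy.1
  have hr0 : 0 ≤ rinv ‖y‖ := (T.r₁_pos.trans hr.1).le
  exact (sq_eq_sq₀ (norm_nonneg _) hr0).1 (T.norm_sq_twinInv h hε hy)

/-- (D1) `twinInv` sends `V` into `U`. -/
theorem mapsTo_twinInv (hε : ε ^ 2 = 1) :
    MapsTo (twinInv e0 e1 kap hb rinv ε) (twinV e0 e1 hb rinv m₁ m₂) (twinU e0 e1 r₁ r₂) := by
  intro y hy
  have hr := T.rinv_mem _ hy.1
  have hk := T.kap_ne _ hr
  refine ⟨?_, ?_⟩
  · rw [T.norm_twinInv h hε hy]; exact hr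
  · intro h0
    have h1 := T.norm_sq_P_twinInv h hε hy
    rw [h0, norm_zero] at h1
    have hd : 0 < ‖planeP e0 e1 y‖ ^ 2 - hb (rinv ‖y‖) ^ 2 := sub_pos.2 hy.2
    have : 0 < (‖planeP e0 e1 y‖ ^ 2 - hb (rinv ‖y‖) ^ 2) / kap (rinv ‖y‖) ^ 2 := by positivity
    rw [← h1] at this
    norm_num at this

/-- (D2) `twinInv` is a right inverse of `twinMap` on `V`. -/
theorem twinMap_twinInv (hε : ε ^ 2 = 1) {y : V} (hy : y ∈ twinV e0 e1 hb rinv m₁ m₂) :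
    twinMap e0 e1 kap hb ε (twinInv e0 e1 kap hb rinv ε y) = y := by
  have hr := T.rinv_mem _ hy.1
  have hk := T.kap_ne _ hr
  have hd : 0 < ‖planeP e0 e1 y‖ ^ 2 - hb (rinv ‖y‖) ^ 2 := sub_pos.2 hy.2
  have hN : 0 < ‖planeP e0 e1 y‖ ^ 2 := lt_of_le_of_lt (sq_nonneg _) hy.2
  have hs : Real.sqrt (‖planeP e0 e1 y‖ ^ 2 - hb (rinv ‖y‖) ^ 2) ^ 2
      = ‖planeP e0 e1 y‖ ^ 2 - hb (rinv ‖y‖) ^ 2 := Real.sq_sqrt hd.le
  have hspos : 0 < Real.sqrt (‖planeP e0 e1 y‖ ^ 2 - hb (rinv ‖y‖) ^ 2) := Real.sqrt_pos.2 hd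
  have hak : 0 < |kap (rinv ‖y‖)| := abs_pos.2 hk
  have hak2 : |kap (rinv ‖y‖)| ^ 2 = kap (rinv ‖y‖) ^ 2 := sq_abs _
  have hPn : ‖planeP e0 e1 (twinInv e0 e1 kap hb rinv ε y)‖
      = Real.sqrt (‖planeP e0 e1 y‖ ^ 2 - hb (rinv ‖y‖) ^ 2) / |kap (rinv ‖y‖)| := by
    have h1 := T.norm_sq_P_twinInv h hε hy
    have h2 : (Real.sqrt (‖planeP e0 e1 y‖ ^ 2 - hb (rinv ‖y‖) ^ 2) / |kap (rinv ‖y‖)|) ^ 2
        = (‖planeP e0 e1 y‖ ^ 2 - hb (rinv ‖y‖) ^ 2) / kap (rinv ‖y‖) ^ 2 := by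
      rw [div_pow, hs, hak2]
    exact (sq_eq_sq₀ (norm_nonneg _) (by positivity)).1 (h1.trans h2.symm)
  rw [twinMap_eq_twT, T.norm_twinInv h hε hy, hPn]
  conv_lhs => rw [twinInv_eq_twS]
  generalize Real.sqrt (‖planeP e0 e1 y‖ ^ 2 - hb (rinv ‖y‖) ^ 2) = η at hs hspos
  have hη2 : η ^ 2 + hb (rinv ‖y‖) ^ 2 = ‖planeP e0 e1 y‖ ^ 2 := by rw [hs]; ring
  generalize |kap (rinv ‖y‖)| = ak at hak hak2
  have hN' : ‖planeP e0 e1 y‖ ^ 2 ≠ 0 := hN.ne'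
  generalize ‖planeP e0 e1 y‖ ^ 2 = N at hN' hη2 hs
  generalize kap (rinv ‖y‖) = k at hk hak2
  generalize hb (rinv ‖y‖) = hh at hη2 hs
  have hη0 : η ≠ 0 := hspos.ne'
  have hak0 : ak ≠ 0 := hak.ne'
  apply h.twT_twS hk
  · field_simp
    nlinarith [hη2, hε]
  · field_simp
    rw [hak2]; ring

end TwinData

/-! ### Smoothness, openness, `DiffeoData` -/

theorem h94_contDiff_planeP (e0 e1 : V) : ContDiff ℝ ∞ (planeP e0 e1) := by
  have : planeP e0 e1 = fun x => inner ℝ e0 x • e0 + inner ℝ e1 x • e1 := rfl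
  rw [this]
  exact ((contDiff_const.inner ℝ contDiff_id).smul contDiff_const).add
    ((contDiff_const.inner ℝ contDiff_id).smul contDiff_const)

theorem h94_contDiff_planeJ (e0 e1 : V) : ContDiff ℝ ∞ (planeJ e0 e1) := by
  have : planeJ e0 e1 = fun x => -(inner ℝ e1 x) • e0 + inner ℝ e0 x • e1 := rfl
  rw [this]
  exact ((contDiff_const.inner ℝ contDiff_id).neg.smul contDiff_const).add
    ((contDiff_const.inner ℝ contDiff_id).smul contDiff_const)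

theorem isOpen_twinU (e0 e1 : V) (r₁ r₂ : ℝ) : IsOpen (twinU e0 e1 r₁ r₂) :=
  (isOpen_Ioo.preimage continuous_norm).inter
    (isOpen_compl_singleton.preimage (h94_contDiff_planeP e0 e1).continuous)

namespace TwinData

variable (T : TwinData r₁ r₂ m₁ m₂ kap hb rinv)
include T

theorem contDiffAt_kap {r : ℝ} (hr : r ∈ Ioo r₁ r₂) : ContDiffAt ℝ ∞ kap r :=
  T.kap_smooth.contDiffAt (Ioo_mem_nhds hr.1 hr.2)

theorem contDiffAt_hb {r : ℝ} (hr : r ∈ Ioo r₁ r₂) : ContDiffAt ℝ ∞ hb r :=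
  T.hb_smooth.contDiffAt (Ioo_mem_nhds hr.1 hr.2)

theorem contDiffAt_rinv {m : ℝ} (hm : m ∈ Ioo m₁ m₂) : ContDiffAt ℝ ∞ rinv m :=
  T.rinv_smooth.contDiffAt (Ioo_mem_nhds hm.1 hm.2)

theorem isOpen_twinV (e0 e1 : V) : IsOpen (twinV e0 e1 hb rinv m₁ m₂) := by
  rw [isOpen_iff_mem_nhds]
  intro y hy
  have hy0 : y ≠ 0 := by
    intro h0
    have h1 : m₁ < ‖y‖ := hy.1.1
    rw [h0, norm_zero] at h1; exact absurd h1 (not_lt.2 T.m₁_pos.le)
  have hn : ContinuousAt (fun y : V => ‖y‖) y := continuous_norm.continuousAt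
  have hr : ContinuousAt (fun y : V => rinv ‖y‖) y :=
    ContinuousAt.comp (f := fun y : V => ‖y‖) (g := rinv) (T.contDiffAt_rinv hy.1).continuousAt hn
  have hh : ContinuousAt (fun y : V => hb (rinv ‖y‖)) y :=
    ContinuousAt.comp (f := fun y : V => rinv ‖y‖) (g := hb)
      (T.contDiffAt_hb (T.rinv_mem _ hy.1)).continuousAt hr
  have hP : ContinuousAt (fun y : V => ‖planeP e0 e1 y‖ ^ 2) y :=
    (((h94_contDiff_planeP e0 e1).continuous.norm).pow 2).continuousAt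
  have h1 : ∀ᶠ z in 𝓝 y, hb (rinv ‖z‖) ^ 2 < ‖planeP e0 e1 z‖ ^ 2 :=
    (hh.pow 2).eventually_lt hP hy.2
  have h2 : ∀ᶠ z in 𝓝 y, ‖z‖ ∈ Ioo m₁ m₂ := hn.eventually (Ioo_mem_nhds hy.1.1 hy.1.2)
  filter_upwards [h1, h2] with z hz1 hz2
  exact ⟨hz2, hz1⟩

/-- (E1) the twin map is smooth on `U`. -/
theorem contDiffOn_twinMap (e0 e1 : V) (ε : ℝ) :
    ContDiffOn ℝ ∞ (twinMap e0 e1 kap hb ε) (twinU e0 e1 r₁ r₂) := by
  intro x hx
  apply ContDiffAt.contDiffWithinAt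
  have hx0 : x ≠ 0 := by
    intro h0
    have h1 : r₁ < ‖x‖ := hx.1.1
    rw [h0, norm_zero] at h1; exact absurd h1 (not_lt.2 T.r₁_pos.le)
  have hn : ContDiffAt ℝ ∞ (fun x : V => ‖x‖) x := contDiffAt_norm ℝ hx0
  have hk : ContDiffAt ℝ ∞ (fun x : V => kap ‖x‖) x :=
    ContDiffAt.comp (f := fun x : V => ‖x‖) (g := kap) x (T.contDiffAt_kap hx.1) hn
  have hh : ContDiffAt ℝ ∞ (fun x : V => hb ‖x‖) x :=
    ContDiffAt.comp (f := fun x : V => ‖x‖) (g := hb) x (T.contDiffAt_hb hx.1) hn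
  have hP : ContDiffAt ℝ ∞ (planeP e0 e1) x := (h94_contDiff_planeP e0 e1).contDiffAt
  have hJ : ContDiffAt ℝ ∞ (planeJ e0 e1) x := (h94_contDiff_planeJ e0 e1).contDiffAt
  have hPn : ContDiffAt ℝ ∞ (fun x : V => ‖planeP e0 e1 x‖) x :=
    ContDiffAt.comp (f := planeP e0 e1) (g := fun v : V => ‖v‖) x (contDiffAt_norm ℝ hx.2) hP
  have hPi : ContDiffAt ℝ ∞ (fun x : V => ‖planeP e0 e1 x‖⁻¹) x :=
    hPn.inv (norm_ne_zero_iff.2 hx.2)
  exact (hk.smul contDiffAt_id).add ((contDiffAt_const.mul hh).smul (hPi.smul hJ))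

/-- (E2) the inverse is smooth on `V`. -/
theorem contDiffOn_twinInv (e0 e1 : V) (ε : ℝ) :
    ContDiffOn ℝ ∞ (twinInv e0 e1 kap hb rinv ε) (twinV e0 e1 hb rinv m₁ m₂) := by
  intro y hy
  apply ContDiffAt.contDiffWithinAt
  have hy0 : y ≠ 0 := by
    intro h0
    have h1 : m₁ < ‖y‖ := hy.1.1
    rw [h0, norm_zero] at h1; exact absurd h1 (not_lt.2 T.m₁_pos.le)
  have hrm := T.rinv_mem _ hy.1
  have hkne := T.kap_ne _ hrm
  have hd : 0 < ‖planeP e0 e1 y‖ ^ 2 - hb (rinv ‖y‖) ^ 2 := sub_pos.2 hy.2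
  have hN : 0 < ‖planeP e0 e1 y‖ ^ 2 := lt_of_le_of_lt (sq_nonneg _) hy.2
  have hn : ContDiffAt ℝ ∞ (fun y : V => ‖y‖) y := contDiffAt_norm ℝ hy0
  have hr : ContDiffAt ℝ ∞ (fun y : V => rinv ‖y‖) y :=
    ContDiffAt.comp (f := fun y : V => ‖y‖) (g := rinv) y (T.contDiffAt_rinv hy.1) hn
  have hk : ContDiffAt ℝ ∞ (fun y : V => kap (rinv ‖y‖)) y :=
    ContDiffAt.comp (f := fun y : V => rinv ‖y‖) (g := kap) y (T.contDiffAt_kap hrm) hr
  have hh : ContDiffAt ℝ ∞ (fun y : V => hb (rinv ‖y‖)) y :=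
    ContDiffAt.comp (f := fun y : V => rinv ‖y‖) (g := hb) y (T.contDiffAt_hb hrm) hr
  have hP : ContDiffAt ℝ ∞ (planeP e0 e1) y := (h94_contDiff_planeP e0 e1).contDiffAt
  have hJ : ContDiffAt ℝ ∞ (planeJ e0 e1) y := (h94_contDiff_planeJ e0 e1).contDiffAt
  have hN2 : ContDiffAt ℝ ∞ (fun y : V => ‖planeP e0 e1 y‖ ^ 2) y :=
    ContDiffAt.comp (f := planeP e0 e1) (g := fun v : V => ‖v‖ ^ 2) y
      (contDiff_norm_sq ℝ).contDiffAt hP
  have hη : ContDiffAt ℝ ∞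
      (fun y : V => Real.sqrt (‖planeP e0 e1 y‖ ^ 2 - hb (rinv ‖y‖) ^ 2)) y :=
    (hN2.sub (hh.pow 2)).sqrt hd.ne'
  have habs : ContDiffAt ℝ ∞ (fun y : V => |kap (rinv ‖y‖)|) y :=
    ContDiffAt.comp (f := fun y : V => kap (rinv ‖y‖)) (g := fun v : ℝ => |v|) y
      (contDiffAt_abs hkne) hk
  exact ((hk.inv hkne).smul (contDiffAt_id.sub hP)).add
    ((hη.div hN2 hN.ne').smul
      (((hη.div hk hkne).smul hP).sub
        (((contDiffAt_const.mul hh).div habs (abs_ne_zero.2 hkne)).smul hJ)))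

end TwinData

end Twin

section Diffeo

variable {V : Type*} [NormedAddCommGroup V] [InnerProductSpace ℝ V] [FiniteDimensional ℝ V]
  [MeasurableSpace V] [BorelSpace V]
variable {e0 e1 : V} {kap hb rinv : ℝ → ℝ} {ε : ℝ} {r₁ r₂ m₁ m₂ : ℝ}

/-- **Main theorem**: the twin map `twinMap .. ε` (`ε = ±1`) is a smooth diffeomorphism of
`twinU` onto `twinV`, with explicit inverse `twinInv .. ε`. -/
theorem TwinData.diffeoData (T : TwinData r₁ r₂ m₁ m₂ kap hb rinv) (h : OrthoPair e0 e1)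
    (hε : ε ^ 2 = 1) :
    DiffeoData (twinU e0 e1 r₁ r₂) (twinV e0 e1 hb rinv m₁ m₂)
      (twinMap e0 e1 kap hb ε) (twinInv e0 e1 kap hb rinv ε) where
  isOpen_U := isOpen_twinU e0 e1 r₁ r₂
  isOpen_V := T.isOpen_twinV e0 e1
  contDiffOn_A := T.contDiffOn_twinMap e0 e1 ε
  contDiffOn_Z := T.contDiffOn_twinInv e0 e1 ε
  mapsTo_A := T.mapsTo_twinMap h hε
  mapsTo_Z := T.mapsTo_twinInv h hε
  left_inv := fun x hx => T.twinInv_twinMap h hε hx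
  right_inv := fun y hy => T.twinMap_twinInv h hε hy

end Diffeo

/-! ### Measurable versions of the scalar data -/

section Meas

variable {kap hb rinv kap' hb' rinv' : ℝ → ℝ} {r₁ r₂ m₁ m₂ : ℝ}

/-- `TwinData` only depends on the values of the scalar functions on the intervals. -/
theorem TwinData.congr (T : TwinData r₁ r₂ m₁ m₂ kap hb rinv)
    (hk : EqOn kap' kap (Ioo r₁ r₂)) (hh : EqOn hb' hb (Ioo r₁ r₂))
    (hr : EqOn rinv' rinv (Ioo m₁ m₂)) : TwinData r₁ r₂ m₁ m₂ kap' hb' rinv' where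
  r₁_pos := T.r₁_pos
  m₁_pos := T.m₁_pos
  kap_smooth := T.kap_smooth.congr hk
  hb_smooth := T.hb_smooth.congr hh
  rinv_smooth := T.rinv_smooth.congr hr
  kap_ne := fun r hr' => by rw [hk hr']; exact T.kap_ne r hr'
  hb_pos := fun r hr' => by rw [hh hr']; exact T.hb_pos r hr'
  rinv_mem := fun m hm => by rw [hr hm]; exact T.rinv_mem m hm
  M_mem := fun r hr' => by rw [hk hr', hh hr']; exact T.M_mem r hr'
  rinv_M := fun r hr' => by
    rw [hk hr', hh hr', hr (T.M_mem r hr')]; exact T.rinv_M r hr'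
  M_rinv := fun m hm => by
    rw [hr hm, hk (T.rinv_mem m hm), hh (T.rinv_mem m hm)]; exact T.M_rinv m hm

theorem h94_measurable_piecewise_Ioo {f : ℝ → ℝ} {a b : ℝ} (c : ℝ)
    (hf : ContinuousOn f (Ioo a b)) : Measurable ((Ioo a b).piecewise f (fun _ => c)) :=
  ContinuousOn.measurable_piecewise hf continuousOn_const measurableSet_Ioo

/-- The scalar data can be replaced by **measurable** functions with the same values on the
intervals (so that `twinMap`, `twinInv`, `twinAngle` become globally measurable). -/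
theorem TwinData.exists_measurable (T : TwinData r₁ r₂ m₁ m₂ kap hb rinv) :
    ∃ kap' hb' rinv' : ℝ → ℝ, Measurable kap' ∧ Measurable hb' ∧ Measurable rinv' ∧
      EqOn kap' kap (Ioo r₁ r₂) ∧ EqOn hb' hb (Ioo r₁ r₂) ∧ EqOn rinv' rinv (Ioo m₁ m₂) ∧
      TwinData r₁ r₂ m₁ m₂ kap' hb' rinv' := by
  classical
  have hk : EqOn ((Ioo r₁ r₂).piecewise kap (fun _ => (1 : ℝ))) kap (Ioo r₁ r₂) :=
    fun r hr => Set.piecewise_eq_of_mem _ _ _ hr
  have hh : EqOn ((Ioo r₁ r₂).piecewise hb (fun _ => (1 : ℝ))) hb (Ioo r₁ r₂) :=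
    fun r hr => Set.piecewise_eq_of_mem _ _ _ hr
  have hr : EqOn ((Ioo m₁ m₂).piecewise rinv (fun _ => (0 : ℝ))) rinv (Ioo m₁ m₂) :=
    fun r hr => Set.piecewise_eq_of_mem _ _ _ hr
  exact ⟨_, _, _, h94_measurable_piecewise_Ioo 1 T.kap_smooth.continuousOn,
    h94_measurable_piecewise_Ioo 1 T.hb_smooth.continuousOn,
    h94_measurable_piecewise_Ioo 0 T.rinv_smooth.continuousOn, hk, hh, hr, T.congr hk hh hr⟩

end Meas

section MeasMaps

variable {V : Type*} [NormedAddCommGroup V] [InnerProductSpace ℝ V]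
  [MeasurableSpace V] [BorelSpace V] [SecondCountableTopology V]
variable {e0 e1 : V} {kap hb rinv : ℝ → ℝ} {ε : ℝ}

theorem h94_measurable_planeP (e0 e1 : V) : Measurable (planeP e0 e1) :=
  (h94_contDiff_planeP e0 e1).continuous.measurable

theorem h94_measurable_planeJ (e0 e1 : V) : Measurable (planeJ e0 e1) :=
  (h94_contDiff_planeJ e0 e1).continuous.measurable

theorem measurable_twinMap (e0 e1 : V) (hkap : Measurable kap) (hhb : Measurable hb) (ε : ℝ) :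
    Measurable (twinMap e0 e1 kap hb ε) := by
  have h1 : Measurable (fun x : V => kap ‖x‖) := hkap.comp measurable_norm
  have h2 : Measurable (fun x : V => hb ‖x‖) := hhb.comp measurable_norm
  have h3 : Measurable (fun x : V => ‖planeP e0 e1 x‖⁻¹) :=
    (h94_measurable_planeP e0 e1).norm.inv
  exact (h1.smul measurable_id).add
    ((measurable_const.mul h2).smul (h3.smul (h94_measurable_planeJ e0 e1)))

theorem measurable_twinInv (e0 e1 : V) (hkap : Measurable kap) (hhb : Measurable hb)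
    (hrinv : Measurable rinv) (ε : ℝ) : Measurable (twinInv e0 e1 kap hb rinv ε) := by
  have hr : Measurable (fun y : V => rinv ‖y‖) := hrinv.comp measurable_norm
  have hk : Measurable (fun y : V => kap (rinv ‖y‖)) := hkap.comp hr
  have hh : Measurable (fun y : V => hb (rinv ‖y‖)) := hhb.comp hr
  have hP := h94_measurable_planeP e0 e1
  have hJ := h94_measurable_planeJ e0 e1
  have hN : Measurable (fun y : V => ‖planeP e0 e1 y‖ ^ 2) := hP.norm.pow_const 2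
  have hη : Measurable (fun y : V => Real.sqrt (‖planeP e0 e1 y‖ ^ 2 - hb (rinv ‖y‖) ^ 2)) :=
    (hN.sub (hh.pow_const 2)).sqrt
  have habs : Measurable (fun y : V => |kap (rinv ‖y‖)|) := continuous_abs.measurable.comp hk
  exact (hk.inv.smul (measurable_id.sub hP)).add
    ((hη.div hN).smul (((hη.div hk).smul hP).sub (((measurable_const.mul hh).div habs).smul hJ)))

end MeasMaps

/-! ### Equivariance and mirror symmetry -/

section Equivariance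

variable {V : Type*} [NormedAddCommGroup V] [InnerProductSpace ℝ V]
variable {e0 e1 : V} {kap hb rinv : ℝ → ℝ} {ε : ℝ} {r₁ r₂ m₁ m₂ : ℝ}

/-- The twin map commutes with every additive, homogeneous, norm-preserving map commuting with
`planeP` and `planeJ` (e.g. the plane rotations). -/
theorem twinMap_equivariant (Φ : V → V) (hadd : ∀ x y, Φ (x + y) = Φ x + Φ y)
    (hsmul : ∀ (c : ℝ) x, Φ (c • x) = c • Φ x) (hn : ∀ x, ‖Φ x‖ = ‖x‖)
    (hP : ∀ x, planeP e0 e1 (Φ x) = Φ (planeP e0 e1 x))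
    (hJ : ∀ x, planeJ e0 e1 (Φ x) = Φ (planeJ e0 e1 x)) (x : V) :
    twinMap e0 e1 kap hb ε (Φ x) = Φ (twinMap e0 e1 kap hb ε x) := by
  simp only [twinMap]
  rw [hn, hP, hn, hJ, hadd, hsmul, hsmul, hsmul]

/-- Mirror symmetry: if `S` commutes with `planeP` and anticommutes with `planeJ`, then
`twinMap ε ∘ S = S ∘ twinMap (-ε)`. -/
theorem twinMap_mirror (S : V → V) (hadd : ∀ x y, S (x + y) = S x + S y)
    (hsmul : ∀ (c : ℝ) x, S (c • x) = c • S x) (hn : ∀ x, ‖S x‖ = ‖x‖)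
    (hP : ∀ x, planeP e0 e1 (S x) = S (planeP e0 e1 x))
    (hJ : ∀ x, planeJ e0 e1 (S x) = -S (planeJ e0 e1 x)) (x : V) :
    twinMap e0 e1 kap hb ε (S x) = S (twinMap e0 e1 kap hb (-ε) x) := by
  simp only [twinMap]
  rw [hn, hP, hn, hJ, hadd, hsmul, hsmul, hsmul]
  simp only [smul_neg, neg_mul, neg_smul]

theorem twinInv_equivariant (Φ : V → V) (hadd : ∀ x y, Φ (x + y) = Φ x + Φ y)
    (hsmul : ∀ (c : ℝ) x, Φ (c • x) = c • Φ x) (hn : ∀ x, ‖Φ x‖ = ‖x‖)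
    (hP : ∀ x, planeP e0 e1 (Φ x) = Φ (planeP e0 e1 x))
    (hJ : ∀ x, planeJ e0 e1 (Φ x) = Φ (planeJ e0 e1 x)) (y : V) :
    twinInv e0 e1 kap hb rinv ε (Φ y) = Φ (twinInv e0 e1 kap hb rinv ε y) := by
  have hsub : ∀ x y, Φ (x - y) = Φ x - Φ y := by
    intro x y
    have : x - y = x + (-1 : ℝ) • y := by simp [sub_eq_add_neg]
    rw [this, hadd, hsmul]; simp [sub_eq_add_neg]
  simp only [twinInv]
  rw [hn, hP, hn, hJ, hadd, hsmul, hsmul, hsub, hsub, hsmul, hsmul]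

theorem mem_twinU_equivariant (Φ : V → V) (hn : ∀ x, ‖Φ x‖ = ‖x‖)
    (hP : ∀ x, planeP e0 e1 (Φ x) = Φ (planeP e0 e1 x)) (x : V) :
    Φ x ∈ twinU e0 e1 r₁ r₂ ↔ x ∈ twinU e0 e1 r₁ r₂ := by
  have h0 : planeP e0 e1 (Φ x) = 0 ↔ planeP e0 e1 x = 0 := by
    rw [hP, ← norm_eq_zero, hn, norm_eq_zero]
  simp only [twinU, mem_setOf_eq, hn, ne_eq, h0]

theorem mem_twinV_equivariant (Φ : V → V) (hn : ∀ x, ‖Φ x‖ = ‖x‖)
    (hP : ∀ x, planeP e0 e1 (Φ x) = Φ (planeP e0 e1 x)) (y : V) :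
    Φ y ∈ twinV e0 e1 hb rinv m₁ m₂ ↔ y ∈ twinV e0 e1 hb rinv m₁ m₂ := by
  simp only [twinV, mem_setOf_eq, hn, hP]

end Equivariance

/-! ### The twist: `twinMap (-ε) x` is a plane rotation of `twinMap ε x` by an invariant angle -/

section Twist

variable {V : Type*} [NormedAddCommGroup V] [InnerProductSpace ℝ V]
variable {e0 e1 : V} {kap hb rinv : ℝ → ℝ} {ε : ℝ} {r₁ r₂ m₁ m₂ : ℝ}

/-- The rotation angle taking `y = twinMap ε x` to `twinMap (-ε) x`, as a function of `y`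
(it depends on `y` only through `‖y‖` and `‖planeP y‖`). -/
noncomputable def twinAngle (e0 e1 : V) (kap hb rinv : ℝ → ℝ) (ε : ℝ) (y : V) : ℝ :=
  Complex.arg ⟨‖planeP e0 e1 y‖ ^ 2 - 2 * hb (rinv ‖y‖) ^ 2,
    -(2 * ε * (kap (rinv ‖y‖) / |kap (rinv ‖y‖)|) * hb (rinv ‖y‖)
      * Real.sqrt (‖planeP e0 e1 y‖ ^ 2 - hb (rinv ‖y‖) ^ 2))⟩

theorem twinAngle_congr {y y' : V} (h1 : ‖y‖ = ‖y'‖)
    (h2 : ‖planeP e0 e1 y‖ = ‖planeP e0 e1 y'‖) :
    twinAngle e0 e1 kap hb rinv ε y = twinAngle e0 e1 kap hb rinv ε y' := by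
  simp only [twinAngle, h1, h2]

theorem measurable_twinAngle [MeasurableSpace V] [BorelSpace V] (e0 e1 : V)
    (hkap : Measurable kap) (hhb : Measurable hb) (hrinv : Measurable rinv) (ε : ℝ) :
    Measurable (twinAngle e0 e1 kap hb rinv ε) := by
  have hr : Measurable (fun y : V => rinv ‖y‖) := hrinv.comp measurable_norm
  have hk : Measurable (fun y : V => kap (rinv ‖y‖)) := hkap.comp hr
  have hh : Measurable (fun y : V => hb (rinv ‖y‖)) := hhb.comp hr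
  have hP : Measurable (planeP e0 e1) := (h94_contDiff_planeP e0 e1).continuous.measurable
  have hN : Measurable (fun y : V => ‖planeP e0 e1 y‖ ^ 2) := hP.norm.pow_const 2
  have hη : Measurable (fun y : V => Real.sqrt (‖planeP e0 e1 y‖ ^ 2 - hb (rinv ‖y‖) ^ 2)) :=
    (hN.sub (hh.pow_const 2)).sqrt
  have habs : Measurable (fun y : V => |kap (rinv ‖y‖)|) := continuous_abs.measurable.comp hk
  apply Complex.measurable_arg.comp
  apply measurable_of_re_im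
  · exact hN.sub (measurable_const.mul (hh.pow_const 2))
  · exact ((((measurable_const.mul (hk.div habs)).mul hh).mul hη).neg)

namespace TwinData

variable (T : TwinData r₁ r₂ m₁ m₂ kap hb rinv)
include T

theorem cos_sin_twinAngle (e0 e1 : V) (hε : ε ^ 2 = 1) {y : V}
    (hy : y ∈ twinV e0 e1 hb rinv m₁ m₂) :
    Real.cos (twinAngle e0 e1 kap hb rinv ε y)
        = (‖planeP e0 e1 y‖ ^ 2 - 2 * hb (rinv ‖y‖) ^ 2) / ‖planeP e0 e1 y‖ ^ 2 ∧
      Real.sin (twinAngle e0 e1 kap hb rinv ε y)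
        = -(2 * ε * (kap (rinv ‖y‖) / |kap (rinv ‖y‖)|) * hb (rinv ‖y‖)
            * Real.sqrt (‖planeP e0 e1 y‖ ^ 2 - hb (rinv ‖y‖) ^ 2)) / ‖planeP e0 e1 y‖ ^ 2 := by
  have hr := T.rinv_mem _ hy.1
  have hk := T.kap_ne _ hr
  have hd : 0 < ‖planeP e0 e1 y‖ ^ 2 - hb (rinv ‖y‖) ^ 2 := sub_pos.2 hy.2
  have hN : 0 < ‖planeP e0 e1 y‖ ^ 2 := lt_of_le_of_lt (sq_nonneg _) hy.2
  have hs : Real.sqrt (‖planeP e0 e1 y‖ ^ 2 - hb (rinv ‖y‖) ^ 2) ^ 2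
      = ‖planeP e0 e1 y‖ ^ 2 - hb (rinv ‖y‖) ^ 2 := Real.sq_sqrt hd.le
  have hak : |kap (rinv ‖y‖)| ≠ 0 := abs_ne_zero.2 hk
  have hsg : (kap (rinv ‖y‖) / |kap (rinv ‖y‖)|) ^ 2 = 1 := by
    rw [div_pow, sq_abs]; exact div_self (pow_ne_zero 2 hk)
  set z : ℂ := ⟨‖planeP e0 e1 y‖ ^ 2 - 2 * hb (rinv ‖y‖) ^ 2,
    -(2 * ε * (kap (rinv ‖y‖) / |kap (rinv ‖y‖)|) * hb (rinv ‖y‖)
      * Real.sqrt (‖planeP e0 e1 y‖ ^ 2 - hb (rinv ‖y‖) ^ 2))⟩ with hz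
  have hnorm : ‖z‖ = ‖planeP e0 e1 y‖ ^ 2 := by
    rw [Complex.norm_eq_sqrt_sq_add_sq]
    have : z.re ^ 2 + z.im ^ 2 = (‖planeP e0 e1 y‖ ^ 2) ^ 2 := by
      show (‖planeP e0 e1 y‖ ^ 2 - 2 * hb (rinv ‖y‖) ^ 2) ^ 2
        + (-(2 * ε * (kap (rinv ‖y‖) / |kap (rinv ‖y‖)|) * hb (rinv ‖y‖)
          * Real.sqrt (‖planeP e0 e1 y‖ ^ 2 - hb (rinv ‖y‖) ^ 2))) ^ 2 = _
      have e : (-(2 * ε * (kap (rinv ‖y‖) / |kap (rinv ‖y‖)|) * hb (rinv ‖y‖)
          * Real.sqrt (‖planeP e0 e1 y‖ ^ 2 - hb (rinv ‖y‖) ^ 2))) ^ 2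
          = 4 * ε ^ 2 * (kap (rinv ‖y‖) / |kap (rinv ‖y‖)|) ^ 2 * hb (rinv ‖y‖) ^ 2
            * Real.sqrt (‖planeP e0 e1 y‖ ^ 2 - hb (rinv ‖y‖) ^ 2) ^ 2 := by ring
      rw [e, hε, hsg, hs]; ring
    rw [this, Real.sqrt_sq hN.le]
  have hz0 : z ≠ 0 := by
    intro h0; rw [h0, norm_zero] at hnorm; exact hN.ne hnorm
  refine ⟨?_, ?_⟩
  · show Real.cos (Complex.arg z) = _
    rw [Complex.cos_arg hz0, hnorm]
  · show Real.sin (Complex.arg z) = _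
    rw [Complex.sin_arg, hnorm]

/-- On `V`: `twinMap (-ε) ∘ twinInv ε` is the plane rotation by `twinAngle`. -/
theorem twinMap_neg_twinInv (h : OrthoPair e0 e1) (hε : ε ^ 2 = 1) {y : V}
    (hy : y ∈ twinV e0 e1 hb rinv m₁ m₂) :
    twinMap e0 e1 kap hb (-ε) (twinInv e0 e1 kap hb rinv ε y)
      = y + (Real.cos (twinAngle e0 e1 kap hb rinv ε y) - 1) • planeP e0 e1 y
          + Real.sin (twinAngle e0 e1 kap hb rinv ε y) • planeJ e0 e1 y := by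
  obtain ⟨hcos, hsin⟩ := T.cos_sin_twinAngle e0 e1 hε hy
  have hr := T.rinv_mem _ hy.1
  have hk := T.kap_ne _ hr
  have hd : 0 < ‖planeP e0 e1 y‖ ^ 2 - hb (rinv ‖y‖) ^ 2 := sub_pos.2 hy.2
  have hN : 0 < ‖planeP e0 e1 y‖ ^ 2 := lt_of_le_of_lt (sq_nonneg _) hy.2
  have hs : Real.sqrt (‖planeP e0 e1 y‖ ^ 2 - hb (rinv ‖y‖) ^ 2) ^ 2
      = ‖planeP e0 e1 y‖ ^ 2 - hb (rinv ‖y‖) ^ 2 := Real.sq_sqrt hd.le
  have hspos : 0 < Real.sqrt (‖planeP e0 e1 y‖ ^ 2 - hb (rinv ‖y‖) ^ 2) := Real.sqrt_pos.2 hd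
  have hak : 0 < |kap (rinv ‖y‖)| := abs_pos.2 hk
  have hak2 : |kap (rinv ‖y‖)| ^ 2 = kap (rinv ‖y‖) ^ 2 := sq_abs _
  have hPn : ‖planeP e0 e1 (twinInv e0 e1 kap hb rinv ε y)‖
      = Real.sqrt (‖planeP e0 e1 y‖ ^ 2 - hb (rinv ‖y‖) ^ 2) / |kap (rinv ‖y‖)| := by
    have h1 := T.norm_sq_P_twinInv h hε hy
    have h2 : (Real.sqrt (‖planeP e0 e1 y‖ ^ 2 - hb (rinv ‖y‖) ^ 2) / |kap (rinv ‖y‖)|) ^ 2
        = (‖planeP e0 e1 y‖ ^ 2 - hb (rinv ‖y‖) ^ 2) / kap (rinv ‖y‖) ^ 2 := by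
      rw [div_pow, hs, hak2]
    exact (sq_eq_sq₀ (norm_nonneg _) (by positivity)).1 (h1.trans h2.symm)
  rw [twinMap_eq_twT, T.norm_twinInv h hε hy, hPn, hcos, hsin]
  conv_lhs => rw [twinInv_eq_twS, h.twT_twS_gen, mul_inv_cancel₀ hk, one_smul]
  generalize Real.sqrt (‖planeP e0 e1 y‖ ^ 2 - hb (rinv ‖y‖) ^ 2) = η at hs hspos
  have hη2 : η ^ 2 + hb (rinv ‖y‖) ^ 2 = ‖planeP e0 e1 y‖ ^ 2 := by rw [hs]; ring
  generalize |kap (rinv ‖y‖)| = ak at hak hak2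
  have hN' : ‖planeP e0 e1 y‖ ^ 2 ≠ 0 := hN.ne'
  generalize ‖planeP e0 e1 y‖ ^ 2 = N at hN' hη2 hs
  generalize kap (rinv ‖y‖) = k at hk hak2
  generalize hb (rinv ‖y‖) = hh at hη2 hs
  have hη0 : η ≠ 0 := hspos.ne'
  have hak0 : ak ≠ 0 := hak.ne'
  have c1 : k * (η / N * (η / k)) - -ε * hh * (η / ak)⁻¹ * -(η / N * (ε * hh / ak))
      = (N - 2 * hh ^ 2) / N := by
    field_simp
    nlinarith [hη2, hε]
  have c2 : k * -(η / N * (ε * hh / ak)) + -ε * hh * (η / ak)⁻¹ * (η / N * (η / k))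
      = -(2 * ε * (k / ak) * hh * η) / N := by
    field_simp
    rw [hak2]; ring
  rw [c1, c2]
  module

/-- On `U`: `twinMap (-ε) x` is the plane rotation of `y = twinMap ε x` by `twinAngle y`. -/
theorem twinMap_neg_eq_rot (h : OrthoPair e0 e1) (hε : ε ^ 2 = 1) {x : V}
    (hx : x ∈ twinU e0 e1 r₁ r₂) :
    twinMap e0 e1 kap hb (-ε) x
      = twinMap e0 e1 kap hb ε x
        + (Real.cos (twinAngle e0 e1 kap hb rinv ε (twinMap e0 e1 kap hb ε x)) - 1) •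
            planeP e0 e1 (twinMap e0 e1 kap hb ε x)
        + Real.sin (twinAngle e0 e1 kap hb rinv ε (twinMap e0 e1 kap hb ε x)) •
            planeJ e0 e1 (twinMap e0 e1 kap hb ε x) := by
  have := T.twinMap_neg_twinInv h hε (T.mapsTo_twinMap h hε hx)
  rwa [T.twinInv_twinMap h hε hx] at this

end TwinData

end Twist

/-! ### Plane rotations in the explicit form, and `hab` -/

section Rot

variable {V : Type*} [NormedAddCommGroup V] [InnerProductSpace ℝ V]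
variable {e0 e1 : V} {kap hb rinv : ℝ → ℝ} {ε : ℝ} {r₁ r₂ m₁ m₂ : ℝ}

/-- The plane rotation in explicit form (definitionally helper59's `planeRot`). -/
noncomputable def h94_rot (e0 e1 : V) (θ : ℝ) (y : V) : V :=
  y + (Real.cos θ - 1) • planeP e0 e1 y + Real.sin θ • planeJ e0 e1 y

theorem h94_rot_add (θ : ℝ) (x y : V) :
    h94_rot e0 e1 θ (x + y) = h94_rot e0 e1 θ x + h94_rot e0 e1 θ y := by
  simp only [h94_rot, h94_planeP_add, h94_planeJ_add]; module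

theorem h94_rot_smul (θ c : ℝ) (x : V) :
    h94_rot e0 e1 θ (c • x) = c • h94_rot e0 e1 θ x := by
  simp only [h94_rot, h94_planeP_smul, h94_planeJ_smul]; module

namespace OrthoPair

variable (h : OrthoPair e0 e1)
include h

theorem P_rot (θ : ℝ) (y : V) :
    planeP e0 e1 (h94_rot e0 e1 θ y) = h94_rot e0 e1 θ (planeP e0 e1 y) := by
  simp only [h94_rot, h94_planeP_add, h94_planeP_smul, h.P_P, h.P_J, h.J_P]

theorem J_rot (θ : ℝ) (y : V) :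
    planeJ e0 e1 (h94_rot e0 e1 θ y) = h94_rot e0 e1 θ (planeJ e0 e1 y) := by
  simp only [h94_rot, h94_planeJ_add, h94_planeJ_smul, h.J_P, h.J_J, h.P_J]

theorem rot_eq_twS (θ : ℝ) (y : V) :
    h94_rot e0 e1 θ y = twS e0 e1 1 (Real.cos θ) (Real.sin θ) y := by
  simp only [h94_rot, twS]; module

theorem norm_rot (θ : ℝ) (y : V) : ‖h94_rot e0 e1 θ y‖ = ‖y‖ := by
  have h1 : ‖h94_rot e0 e1 θ y‖ ^ 2 = ‖y‖ ^ 2 := by
    rw [h.rot_eq_twS, h.norm_sq_twS, h.norm_sq_decomp y]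
    have := Real.cos_sq_add_sin_sq θ
    rw [this]; ring
  exact (sq_eq_sq₀ (norm_nonneg _) (norm_nonneg _)).1 h1

theorem norm_P_rot (θ : ℝ) (y : V) :
    ‖planeP e0 e1 (h94_rot e0 e1 θ y)‖ = ‖planeP e0 e1 y‖ := by
  rw [h.P_rot, h.norm_rot]

/-- The twin map commutes with plane rotations. -/
theorem twinMap_rot (θ : ℝ) (x : V) :
    twinMap e0 e1 kap hb ε (h94_rot e0 e1 θ x) = h94_rot e0 e1 θ (twinMap e0 e1 kap hb ε x) :=
  twinMap_equivariant (h94_rot e0 e1 θ) (h94_rot_add θ) (fun c x => h94_rot_smul θ c x)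
    (h.norm_rot θ) (h.P_rot θ) (h.J_rot θ) x

theorem twinAngle_rot (θ : ℝ) (y : V) :
    twinAngle e0 e1 kap hb rinv ε (h94_rot e0 e1 θ y) = twinAngle e0 e1 kap hb rinv ε y :=
  twinAngle_congr (h.norm_rot θ y) (h.norm_P_rot θ y)

end OrthoPair

open MeasureTheory in
/-- **`hab`**: for a measure `μ` concentrated on `twinU` and invariant under the plane rotations,
the two twin maps push `μ` to the same measure. `R` is any circle action given by the explicit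
rotation formula (helper59's `planeRot`). -/
theorem TwinData.map_twinMap_neg [MeasurableSpace V] [BorelSpace V] [SecondCountableTopology V]
    (T : TwinData r₁ r₂ m₁ m₂ kap hb rinv) (h : OrthoPair e0 e1) (hε : ε ^ 2 = 1)
    (hkap : Measurable kap) (hhb : Measurable hb) (hrinv : Measurable rinv)
    (μ : Measure V) [SFinite μ] (hμU : ∀ᵐ x ∂μ, x ∈ twinU e0 e1 r₁ r₂)
    (R : ℝ → V → V) (hR : IsCircleAction R)
    (hRdef : ∀ θ y, R θ y
      = y + (Real.cos θ - 1) • planeP e0 e1 y + Real.sin θ • planeJ e0 e1 y)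
    (hμR : ∀ θ, μ.map (R θ) = μ) :
    μ.map (twinMap e0 e1 kap hb (-ε)) = μ.map (twinMap e0 e1 kap hb ε) := by
  have hRrot : ∀ θ, R θ = h94_rot e0 e1 θ := fun θ => funext fun y => hRdef θ y
  have ha : Measurable (twinMap e0 e1 kap hb ε) := measurable_twinMap e0 e1 hkap hhb ε
  have hφ : Measurable (twinAngle e0 e1 kap hb rinv ε) :=
    measurable_twinAngle e0 e1 hkap hhb hrinv ε
  -- the image measure is rotation invariant
  have hν : ∀ θ, (μ.map (twinMap e0 e1 kap hb ε)).map (R θ) = μ.map (twinMap e0 e1 kap hb ε) := by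
    intro θ
    rw [Measure.map_map (hR.measurable_apply θ) ha]
    have : R θ ∘ twinMap e0 e1 kap hb ε = twinMap e0 e1 kap hb ε ∘ R θ := by
      funext x
      simp only [Function.comp_apply, hRrot]
      exact (h.twinMap_rot θ x).symm
    rw [this, ← Measure.map_map ha (hR.measurable_apply θ), hμR]
  have hφR : ∀ θ x, twinAngle e0 e1 kap hb rinv ε (R θ x) = twinAngle e0 e1 kap hb rinv ε x := by
    intro θ x; rw [hRrot]; exact h.twinAngle_rot θ x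
  have htw := map_twist_eq_self hR (μ.map (twinMap e0 e1 kap hb ε)) hν
    (twinAngle e0 e1 kap hb rinv ε) hφ hφR
  have hTm : Measurable (fun y => R (twinAngle e0 e1 kap hb rinv ε y) y) :=
    hR.meas.comp (hφ.prodMk measurable_id)
  rw [Measure.map_map hTm ha] at htw
  rw [← htw]
  apply Measure.map_congr
  filter_upwards [hμU] with x hx
  simp only [Function.comp_apply]
  rw [hRdef]
  exact T.twinMap_neg_eq_rot h hε hx

end Rot

end Crest.Agent.S0175lib
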