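import Mathlib

/-!
# Generic smooth inverse of a real function with nonvanishing derivative (helper94, row 130)

* `h94_injOn_of_deriv_ne_zero` : `f` smooth on `Ioo a b` with `deriv f ≠ 0` there is injective.
* `h94_invFunOn_smooth`, `h94_exists_smooth_inverse` : such an `f` has open image and a smooth
  inverse (`Function.invFunOn f (Ioo a b)`) on the image.
* `h94_image_Ioo_of_strictAntiOn`, `h94_image_Ioo_of_strictMonoOn` : the image of `Ioo a b`.
-/

open Set Filter Topology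
open scoped ContDiff

namespace Crest.Agent.S0175lib

theorem h94_injOn_of_deriv_ne_zero (f : ℝ → ℝ) (a b : ℝ)
    (hf : ContinuousOn f (Ioo a b)) (hf' : ∀ t ∈ Ioo a b, deriv f t ≠ 0) :
    InjOn f (Ioo a b) := by
  have key : ∀ x ∈ Ioo a b, ∀ y ∈ Ioo a b, x < y → f x ≠ f y := by
    intro x hx y hy hxy heq
    have hsub : Icc x y ⊆ Ioo a b := fun z hz => ⟨lt_of_lt_of_le hx.1 hz.1, lt_of_le_of_lt hz.2 hy.2⟩
    obtain ⟨c, hc, hc0⟩ := exists_deriv_eq_zero hxy (hf.mono hsub) heq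
    exact hf' c (hsub (Ioo_subset_Icc_self hc)) hc0
  intro x hx y hy hxy
  rcases lt_trichotomy x y with h | h | h
  · exact absurd hxy (key x hx y hy h)
  · exact h
  · exact absurd hxy.symm (key y hy x hx h)

/-- Smooth inverse function on an open interval where the derivative does not vanish,
for the concrete inverse `Function.invFunOn f (Ioo a b)`. -/
theorem h94_invFunOn_smooth (f : ℝ → ℝ) (a b : ℝ)
    (hf : ContDiffOn ℝ ∞ f (Ioo a b)) (hf' : ∀ t ∈ Ioo a b, deriv f t ≠ 0) :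
    IsOpen (f '' Ioo a b) ∧ ContDiffOn ℝ ∞ (Function.invFunOn f (Ioo a b)) (f '' Ioo a b) ∧
      MapsTo (Function.invFunOn f (Ioo a b)) (f '' Ioo a b) (Ioo a b) ∧
      (∀ t ∈ Ioo a b, Function.invFunOn f (Ioo a b) (f t) = t) ∧
      (∀ y ∈ f '' Ioo a b, f (Function.invFunOn f (Ioo a b) y) = y) := by
  classical
  have hinj : InjOn f (Ioo a b) := h94_injOn_of_deriv_ne_zero f a b hf.continuousOn hf'
  set g : ℝ → ℝ := Function.invFunOn f (Ioo a b) with hg
  have hg_mem : ∀ y ∈ f '' Ioo a b, g y ∈ Ioo a b := fun y hy => (Function.invFunOn_pos hy).1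
  have hg_right : ∀ y ∈ f '' Ioo a b, f (g y) = y := fun y hy => (Function.invFunOn_pos hy).2
  have hg_left : ∀ t ∈ Ioo a b, g (f t) = t := fun t ht =>
    hinj (hg_mem _ (mem_image_of_mem f ht)) ht (hg_right _ (mem_image_of_mem f ht))
  -- local analysis at each point
  have hloc : ∀ t₀ ∈ Ioo a b, (f '' Ioo a b ∈ 𝓝 (f t₀)) ∧ ContDiffAt ℝ ∞ g (f t₀) := by
    intro t₀ ht₀
    have hcd : ContDiffAt ℝ ∞ f t₀ := hf.contDiffAt (isOpen_Ioo.mem_nhds ht₀)
    have hd : HasDerivAt f (deriv f t₀) t₀ := (hcd.differentiableAt (by simp)).hasDerivAt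
    let e : ℝ ≃L[ℝ] ℝ :=
      ContinuousLinearEquiv.unitsEquivAut ℝ (Units.mk0 (deriv f t₀) (hf' t₀ ht₀))
    have hfd : HasFDerivAt f (e : ℝ →L[ℝ] ℝ) t₀ := by
      have he : (e : ℝ →L[ℝ] ℝ) = ContinuousLinearMap.smulRight (1 : ℝ →L[ℝ] ℝ) (deriv f t₀) := by
        ext
        simp [e]
      rw [he]
      exact hd.hasFDerivAt
    have hn : (∞ : WithTop ℕ∞) ≠ 0 := by simp
    have hs : HasStrictFDerivAt f (e : ℝ →L[ℝ] ℝ) t₀ := hcd.hasStrictFDerivAt' hfd hn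
    have h1 : ∀ᶠ y in 𝓝 (f t₀), f (hs.localInverse f e t₀ y) = y := hs.eventually_right_inverse
    have h2 : ∀ᶠ y in 𝓝 (f t₀), hs.localInverse f e t₀ y ∈ Ioo a b := by
      have hc : ContinuousAt (hs.localInverse f e t₀) (f t₀) := hs.localInverse_continuousAt
      have hval : hs.localInverse f e t₀ (f t₀) = t₀ := hs.localInverse_apply_image
      exact hc (by rw [hval]; exact isOpen_Ioo.mem_nhds ht₀)
    have h3 : ∀ᶠ y in 𝓝 (f t₀), y ∈ f '' Ioo a b ∧ g y = hs.localInverse f e t₀ y := by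
      filter_upwards [h1, h2] with y hy1 hy2
      refine ⟨⟨_, hy2, hy1⟩, ?_⟩
      have := hg_left _ hy2
      rwa [hy1] at this
    refine ⟨?_, ?_⟩
    · filter_upwards [h3] with y hy using hy.1
    · have hcd' : ContDiffAt ℝ ∞ (hcd.localInverse hfd hn) (f t₀) := hcd.to_localInverse hfd hn
      refine hcd'.congr_of_eventuallyEq ?_
      filter_upwards [h3] with y hy using hy.2
  refine ⟨?_, ?_, hg_mem, hg_left, hg_right⟩
  · rw [isOpen_iff_mem_nhds]
    rintro _ ⟨t₀, ht₀, rfl⟩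
    exact (hloc t₀ ht₀).1
  · rintro _ ⟨t₀, ht₀, rfl⟩
    exact (hloc t₀ ht₀).2.contDiffWithinAt

/-- Existential form of `h94_invFunOn_smooth`. -/
theorem h94_exists_smooth_inverse (f : ℝ → ℝ) (a b : ℝ)
    (hf : ContDiffOn ℝ ∞ f (Ioo a b)) (hf' : ∀ t ∈ Ioo a b, deriv f t ≠ 0) :
    ∃ g : ℝ → ℝ, IsOpen (f '' Ioo a b) ∧ ContDiffOn ℝ ∞ g (f '' Ioo a b) ∧
      MapsTo g (f '' Ioo a b) (Ioo a b) ∧ (∀ t ∈ Ioo a b, g (f t) = t) ∧
      (∀ y ∈ f '' Ioo a b, f (g y) = y) :=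
  ⟨_, h94_invFunOn_smooth f a b hf hf'⟩

theorem h94_image_Ioo_of_strictAntiOn (f : ℝ → ℝ) {a b : ℝ} (hab : a ≤ b)
    (hc : ContinuousOn f (Icc a b)) (hanti : StrictAntiOn f (Icc a b)) :
    f '' Ioo a b = Ioo (f b) (f a) := by
  apply Subset.antisymm
  · rintro _ ⟨t, ht, rfl⟩
    exact ⟨hanti (Ioo_subset_Icc_self ht) (right_mem_Icc.2 hab) ht.2,
      hanti (left_mem_Icc.2 hab) (Ioo_subset_Icc_self ht) ht.1⟩
  · exact intermediate_value_Ioo' hab hc

theorem h94_image_Ioo_of_strictMonoOn (f : ℝ → ℝ) {a b : ℝ} (hab : a ≤ b)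
    (hc : ContinuousOn f (Icc a b)) (hmono : StrictMonoOn f (Icc a b)) :
    f '' Ioo a b = Ioo (f a) (f b) := by
  apply Subset.antisymm
  · rintro _ ⟨t, ht, rfl⟩
    exact ⟨hmono (left_mem_Icc.2 hab) (Ioo_subset_Icc_self ht) ht.1,
      hmono (Ioo_subset_Icc_self ht) (right_mem_Icc.2 hab) ht.2⟩
  · exact intermediate_value_Ioo hab hc

end Crest.Agent.S0175lib
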