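import Mathlib
import Crest.Agent.S0175.Params
import Crest.Agent.S0175.Inverse1D

/-!
# Row 130 (S0175): the scalar design (helper90)

Glue between `Params.lean` (the one-parameter family `pR, pKap, pM2, pGst`) and the smooth
inverse-function lemmas of `Inverse1D.lean`: a parameter sub-window `[t1, t2] ⊆ (1, 2^(1/(s+2))]`
on which all the inequalities needed by the dual potential hold, the smooth inverse `tau` of
`pR s` on `(t1, t2)`, the twin coefficients `kap r = pKap s (tau r)`, `hb r = tau r / 2`, and the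
smooth inverse `rinv` of `r ↦ sqrt (kap r ^ 2 * r ^ 2 + hb r ^ 2)` (the norm of the twins of a point
of norm `r`).

* `exists_window` : the sub-window.
* `ScalarDesign` : the packaged data; `exists_scalarDesign` : it exists for every `s > 0`.
-/

open Set Filter Topology
open scoped ContDiff

namespace Crest.Agent.S0175lib

section ScalarDesign

variable {s : ℝ}

/-- A parameter sub-window `[t1, t2] ⊆ (1, pTmax s]` on which the far radius is `≥ 2`, the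
contact value of the cost is `≤ 5/4 + s/2` and the squared twin norm is `≤ 1/3`. -/
theorem exists_window (hs : 0 < s) :
    ∃ t1 t2 : ℝ, 1 < t1 ∧ t1 < t2 ∧ t2 ≤ pTmax s ∧
      ∀ t ∈ Icc t1 t2, 2 ≤ pR s t ∧ pGst s t ≤ 5 / 4 + s / 2 ∧ pM2 s t ≤ 1 / 3 := by
  have h1 : ∀ᶠ t in 𝓝[>] (1 : ℝ), 2 ≤ pR s t := ev_pR_ge hs 2
  have h2 : ∀ᶠ t in 𝓝[>] (1 : ℝ), pGst s t < 5 / 4 + s / 2 := ev_pGst_lt hs (by linarith)
  have h3 : ∀ᶠ t in 𝓝[>] (1 : ℝ), pM2 s t < 1 / 3 := ev_pM2_lt hs (by norm_num)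
  have h4 := ev_window s
  have h := h1.and (h2.and (h3.and h4))
  obtain ⟨b, hb, hbs⟩ := mem_nhdsGT_iff_exists_Ioo_subset.mp h
  have hb1 : (1 : ℝ) < b := hb
  refine ⟨(1 + (1 + b) / 2) / 2, (1 + b) / 2, by linarith, by linarith, ?_, ?_⟩
  · have hmem : (1 + b) / 2 ∈ Ioo 1 b := ⟨by linarith, by linarith⟩
    have := hbs hmem
    exact (rpow_le_two_iff hs (by linarith)).mp this.2.2.2.2.le
  · intro t ht
    have hmem : t ∈ Ioo 1 b := ⟨by linarith [ht.1], by linarith [ht.2]⟩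
    have := hbs hmem
    exact ⟨this.1, this.2.1.le, this.2.2.1.le⟩

/-- The scalar data of the design. `tau` inverts `pR s` (far radius ↦ parameter), `kap`, `hb` are
the coefficients of the twins `kap r • x ± hb r • e(x)` of a point `x` of norm `r`, `rinv` recovers
`r` from the norm `m` of a twin. -/
structure ScalarDesign (s : ℝ) (r1 r2 m1 m2 : ℝ) (tau kap hb rinv : ℝ → ℝ) : Prop where
  hs : 0 < s
  r1_pos : 0 < r1
  r1_lt : r1 < r2
  m1_pos : 0 < m1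
  m1_lt : m1 < m2
  two_le_r1 : 2 ≤ r1
  quarter_lt : 1 / 4 < m1 ^ 2
  le_third : m2 ^ 2 ≤ 1 / 3
  /-- the parameter of a far radius -/
  param : ∀ r ∈ Ioo r1 r2, 1 < tau r ∧ tau r ^ (s + 2) ≤ 2 ∧ r = pR s (tau r) ∧
    pGst s (tau r) ≤ 5 / 4 + s / 2 ∧ pM2 s (tau r) ≤ 1 / 3
  kap_eq : ∀ r ∈ Ioo r1 r2, kap r = pKap s (tau r)
  hb_eq : ∀ r ∈ Ioo r1 r2, hb r = tau r / 2
  tau_smooth : ContDiffOn ℝ ∞ tau (Ioo r1 r2)
  kap_smooth : ContDiffOn ℝ ∞ kap (Ioo r1 r2)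
  hb_smooth : ContDiffOn ℝ ∞ hb (Ioo r1 r2)
  kap_ne : ∀ r ∈ Ioo r1 r2, kap r ≠ 0
  hb_pos : ∀ r ∈ Ioo r1 r2, 0 < hb r
  rinv_smooth : ContDiffOn ℝ ∞ rinv (Ioo m1 m2)
  rinv_maps : MapsTo rinv (Ioo m1 m2) (Ioo r1 r2)
  /-- squared norm of the twins -/
  twin_sq : ∀ r ∈ Ioo r1 r2, kap r ^ 2 * r ^ 2 + hb r ^ 2 = pM2 s (tau r)
  rinv_left : ∀ r ∈ Ioo r1 r2, Real.sqrt (kap r ^ 2 * r ^ 2 + hb r ^ 2) ∈ Ioo m1 m2 ∧
    rinv (Real.sqrt (kap r ^ 2 * r ^ 2 + hb r ^ 2)) = r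
  rinv_right : ∀ m ∈ Ioo m1 m2, kap (rinv m) ^ 2 * rinv m ^ 2 + hb (rinv m) ^ 2 = m ^ 2
  /-- global measurability (the functions are extended by constants off the intervals) -/
  tau_meas : Measurable tau
  kap_meas : Measurable kap
  hb_meas : Measurable hb
  rinv_meas : Measurable rinv

theorem exists_scalarDesign (hs : 0 < s) :
    ∃ (r1 r2 m1 m2 : ℝ) (tau kap hb rinv : ℝ → ℝ), ScalarDesign s r1 r2 m1 m2 tau kap hb rinv := by
  obtain ⟨t1, t2, ht1, ht12, ht2, hwin⟩ := exists_window hs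
  -- window facts on `Icc t1 t2`
  have hW : ∀ t ∈ Icc t1 t2, 1 < t ∧ t ^ (s + 2) ≤ 2 := fun t ht =>
    (window_iff hs).mpr ⟨lt_of_lt_of_le ht1 ht.1, ht.2.trans ht2⟩
  have hsubIoc : Icc t1 t2 ⊆ Ioc 1 (pTmax s) := fun t ht =>
    ⟨lt_of_lt_of_le ht1 ht.1, ht.2.trans ht2⟩
  have hIooIcc : Ioo t1 t2 ⊆ Icc t1 t2 := Ioo_subset_Icc_self
  -- `pR`
  have hRcd : ContDiffOn ℝ ∞ (pR s) (Ioo t1 t2) := fun t ht =>
    (contDiffAt_pR hs (hW t (hIooIcc ht)).1 (hW t (hIooIcc ht)).2).contDiffWithinAt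
  have hRd : ∀ t ∈ Ioo t1 t2, deriv (pR s) t ≠ 0 := fun t ht =>
    (deriv_pR_neg hs (hW t (hIooIcc ht)).1 (hW t (hIooIcc ht)).2).ne
  have hRc : ContinuousOn (pR s) (Icc t1 t2) := fun t ht =>
    (contDiffAt_pR (n := 0) hs (hW t ht).1 (hW t ht).2).continuousAt.continuousWithinAt
  have hRanti : StrictAntiOn (pR s) (Icc t1 t2) := (strictAntiOn_pR hs).mono hsubIoc
  have hRimg : pR s '' Ioo t1 t2 = Ioo (pR s t2) (pR s t1) :=
    h94_image_Ioo_of_strictAntiOn (pR s) ht12.le hRc hRanti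
  obtain ⟨-, htau_cd, htau_maps, htau_left, htau_right⟩ :=
    h94_invFunOn_smooth (pR s) t1 t2 hRcd hRd
  rw [hRimg] at htau_cd htau_maps htau_right
  -- `pM2`
  have hMcd : ContDiffOn ℝ ∞ (pM2 s) (Ioo t1 t2) := fun t ht =>
    (contDiffAt_pM2 hs (hW t (hIooIcc ht)).1 (hW t (hIooIcc ht)).2).contDiffWithinAt
  have hMd : ∀ t ∈ Ioo t1 t2, deriv (pM2 s) t ≠ 0 := fun t ht =>
    (deriv_pM2_pos hs (hW t (hIooIcc ht)).1 (hW t (hIooIcc ht)).2).ne'
  have hMc : ContinuousOn (pM2 s) (Icc t1 t2) := fun t ht =>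
    (contDiffAt_pM2 (n := 0) hs (hW t ht).1 (hW t ht).2).continuousAt.continuousWithinAt
  have hMmono : StrictMonoOn (pM2 s) (Icc t1 t2) := (strictMonoOn_pM2 hs).mono hsubIoc
  have hMimg : pM2 s '' Ioo t1 t2 = Ioo (pM2 s t1) (pM2 s t2) :=
    h94_image_Ioo_of_strictMonoOn (pM2 s) ht12.le hMc hMmono
  obtain ⟨-, hsig_cd, hsig_maps, hsig_left, hsig_right⟩ :=
    h94_invFunOn_smooth (pM2 s) t1 t2 hMcd hMd
  rw [hMimg] at hsig_cd hsig_maps hsig_right
  classical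
  set tau0 : ℝ → ℝ := Function.invFunOn (pR s) (Ioo t1 t2) with htau0_def
  set sig : ℝ → ℝ := Function.invFunOn (pM2 s) (Ioo t1 t2) with hsig_def
  -- end points
  have ht1mem : t1 ∈ Icc t1 t2 := left_mem_Icc.2 ht12.le
  have ht2mem : t2 ∈ Icc t1 t2 := right_mem_Icc.2 ht12.le
  have hr12 : pR s t2 < pR s t1 := hRanti ht1mem ht2mem ht12
  have hM12 : pM2 s t1 < pM2 s t2 := hMmono ht1mem ht2mem ht12
  have hM1q : 1 / 4 < pM2 s t1 := quarter_lt_pM2 ht1 s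
  have hM1pos : 0 < pM2 s t1 := by linarith
  have hM2pos : 0 < pM2 s t2 := by linarith
  have hm1sq : Real.sqrt (pM2 s t1) ^ 2 = pM2 s t1 := Real.sq_sqrt hM1pos.le
  have hm2sq : Real.sqrt (pM2 s t2) ^ 2 = pM2 s t2 := Real.sq_sqrt hM2pos.le
  have hm1pos : 0 < Real.sqrt (pM2 s t1) := Real.sqrt_pos.mpr hM1pos
  -- squares of `m ∈ Ioo m1 m2`
  have hsqmem : ∀ m ∈ Ioo (Real.sqrt (pM2 s t1)) (Real.sqrt (pM2 s t2)),
      m ^ 2 ∈ Ioo (pM2 s t1) (pM2 s t2) := by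
    intro m hm
    have hm0 : 0 < m := hm1pos.trans hm.1
    constructor
    · rw [← hm1sq]; exact pow_lt_pow_left₀ hm.1 hm1pos.le (by norm_num)
    · rw [← hm2sq]; exact pow_lt_pow_left₀ hm.2 hm0.le (by norm_num)
  -- the twin identity in the parameter
  have htwin : ∀ t : ℝ, 0 < t → pKap s t ^ 2 * pR s t ^ 2 + (t / 2) ^ 2 = pM2 s t := by
    intro t ht
    have h := pXi_eq ht s
    unfold pM2
    rw [h]; ring
  -- the globally measurable versions
  set tau : ℝ → ℝ := (Ioo (pR s t2) (pR s t1)).piecewise tau0 (fun _ => 1) with htau_def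
  have htau_eq : ∀ r ∈ Ioo (pR s t2) (pR s t1), tau r = tau0 r := fun r hr =>
    Set.piecewise_eq_of_mem _ _ _ hr
  have htau_meas : Measurable tau :=
    htau_cd.continuousOn.measurable_piecewise continuous_const.continuousOn measurableSet_Ioo
  have htau_cd' : ContDiffOn ℝ ∞ tau (Ioo (pR s t2) (pR s t1)) := htau_cd.congr htau_eq
  have htau_maps' : MapsTo tau (Ioo (pR s t2) (pR s t1)) (Ioo t1 t2) := fun r hr => by
    rw [htau_eq r hr]; exact htau_maps hr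
  set rinv0 : ℝ → ℝ := fun m => pR s (sig (m ^ 2)) with hrinv0_def
  have hrinv0_cd : ContDiffOn ℝ ∞ rinv0 (Ioo (Real.sqrt (pM2 s t1)) (Real.sqrt (pM2 s t2))) := by
    have hsq : ContDiffOn ℝ ∞ (fun m : ℝ => m ^ 2)
        (Ioo (Real.sqrt (pM2 s t1)) (Real.sqrt (pM2 s t2))) :=
      (contDiff_id.pow 2).contDiffOn
    have h1 : ContDiffOn ℝ ∞ (sig ∘ fun m : ℝ => m ^ 2)
        (Ioo (Real.sqrt (pM2 s t1)) (Real.sqrt (pM2 s t2))) :=
      hsig_cd.comp hsq hsqmem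
    have h2 : MapsTo (sig ∘ fun m : ℝ => m ^ 2)
        (Ioo (Real.sqrt (pM2 s t1)) (Real.sqrt (pM2 s t2))) (Ioo t1 t2) :=
      fun m hm => hsig_maps (hsqmem m hm)
    exact hRcd.comp h1 h2
  set rinv : ℝ → ℝ :=
    (Ioo (Real.sqrt (pM2 s t1)) (Real.sqrt (pM2 s t2))).piecewise rinv0 (fun _ => 0)
    with hrinv_def
  have hrinv_eq : ∀ m ∈ Ioo (Real.sqrt (pM2 s t1)) (Real.sqrt (pM2 s t2)),
      rinv m = pR s (sig (m ^ 2)) := fun m hm => Set.piecewise_eq_of_mem _ _ _ hm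
  have hrinv_meas : Measurable rinv :=
    hrinv0_cd.continuousOn.measurable_piecewise continuous_const.continuousOn measurableSet_Ioo
  have hpar : ∀ r ∈ Ioo (pR s t2) (pR s t1), tau r ∈ Ioo t1 t2 ∧ pR s (tau r) = r :=
    fun r hr => ⟨htau_maps' hr, by rw [htau_eq r hr]; exact htau_right r hr⟩
  have hrinv_mem : ∀ m ∈ Ioo (Real.sqrt (pM2 s t1)) (Real.sqrt (pM2 s t2)),
      rinv m ∈ Ioo (pR s t2) (pR s t1) := by
    intro m hm
    have hmem : sig (m ^ 2) ∈ Ioo t1 t2 := hsig_maps (hsqmem m hm)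
    have : pR s (sig (m ^ 2)) ∈ pR s '' Ioo t1 t2 := mem_image_of_mem _ hmem
    rw [hRimg] at this
    rw [hrinv_eq m hm]; exact this
  have hKm : Measurable (pKap s) := by
    unfold pKap
    exact measurable_const.sub (measurable_id.pow_const _)
  refine ⟨pR s t2, pR s t1, Real.sqrt (pM2 s t1), Real.sqrt (pM2 s t2), tau,
    fun r => pKap s (tau r), fun r => tau r / 2, rinv, ?_⟩
  refine
    { hs := hs
      r1_pos := by linarith [(hwin t2 ht2mem).1]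
      r1_lt := hr12
      m1_pos := hm1pos
      m1_lt := Real.sqrt_lt_sqrt hM1pos.le hM12
      two_le_r1 := (hwin t2 ht2mem).1
      quarter_lt := by rw [hm1sq]; exact hM1q
      le_third := by rw [hm2sq]; exact (hwin t2 ht2mem).2.2
      param := ?_
      kap_eq := fun r _ => rfl
      hb_eq := fun r _ => rfl
      tau_smooth := htau_cd'
      kap_smooth := ?_
      hb_smooth := htau_cd'.div_const 2
      kap_ne := ?_
      hb_pos := ?_
      rinv_smooth := hrinv0_cd.congr hrinv_eq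
      rinv_maps := hrinv_mem
      twin_sq := ?_
      rinv_left := ?_
      rinv_right := ?_
      tau_meas := htau_meas
      kap_meas := hKm.comp htau_meas
      hb_meas := htau_meas.div_const 2
      rinv_meas := hrinv_meas }
  · intro r hr
    obtain ⟨hmem, hval⟩ := hpar r hr
    have hI := hIooIcc hmem
    exact ⟨(hW _ hI).1, (hW _ hI).2, hval.symm, (hwin _ hI).2.1, (hwin _ hI).2.2⟩
  · have hK : ContDiffOn ℝ ∞ (pKap s) (Ioo t1 t2) := fun t ht =>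
      (contDiffAt_pKap (by linarith [ht.1]) s).contDiffWithinAt
    exact hK.comp htau_cd' htau_maps'
  · intro r hr
    exact (pKap_neg hs (hW _ (hIooIcc (hpar r hr).1)).1).ne
  · intro r hr
    have := (hW _ (hIooIcc (hpar r hr).1)).1
    show 0 < tau r / 2
    linarith
  · intro r hr
    obtain ⟨hmem, hval⟩ := hpar r hr
    have ht0 : 0 < tau r := by linarith [hmem.1]
    have h := htwin (tau r) ht0
    rw [hval] at h
    exact h
  · intro r hr
    obtain ⟨hmem, hval⟩ := hpar r hr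
    have ht0 : 0 < tau r := by linarith [hmem.1]
    have h := htwin (tau r) ht0
    rw [hval] at h
    have hI := hIooIcc hmem
    have hlo : pM2 s t1 < pM2 s (tau r) := hMmono ht1mem hI hmem.1
    have hhi : pM2 s (tau r) < pM2 s t2 := hMmono hI ht2mem hmem.2
    have hpos : 0 < pM2 s (tau r) := by linarith
    have hmm : Real.sqrt (pM2 s (tau r)) ∈ Ioo (Real.sqrt (pM2 s t1)) (Real.sqrt (pM2 s t2)) :=
      ⟨Real.sqrt_lt_sqrt hM1pos.le hlo, Real.sqrt_lt_sqrt hpos.le hhi⟩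
    show Real.sqrt (pKap s (tau r) ^ 2 * r ^ 2 + (tau r / 2) ^ 2) ∈ _ ∧
      rinv (Real.sqrt (pKap s (tau r) ^ 2 * r ^ 2 + (tau r / 2) ^ 2)) = r
    rw [h]
    refine ⟨hmm, ?_⟩
    rw [hrinv_eq _ hmm, Real.sq_sqrt hpos.le, hsig_left _ hmem, hval]
  · intro m hm
    have hm2 := hsqmem m hm
    have hmem : sig (m ^ 2) ∈ Ioo t1 t2 := hsig_maps hm2
    have hval : pM2 s (sig (m ^ 2)) = m ^ 2 := hsig_right _ hm2
    have ht0 : 0 < sig (m ^ 2) := by linarith [hmem.1]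
    have hrm := hrinv_mem m hm
    have htr : tau (rinv m) = sig (m ^ 2) := by
      rw [htau_eq _ hrm, hrinv_eq m hm]; exact htau_left _ hmem
    show pKap s (tau (rinv m)) ^ 2 * rinv m ^ 2 + (tau (rinv m) / 2) ^ 2 = m ^ 2
    rw [htr, hrinv_eq m hm, htwin _ ht0, hval]

end ScalarDesign

end Crest.Agent.S0175lib
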