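import Crest.Agent.S0175.Abstract
import Crest.Agent.S0175.ApproxPlane
import Crest.Agent.S0175.Bump
import Crest.Agent.S0175.CostBasics
import Crest.Agent.S0175.DensityPush
import Crest.Agent.S0175.NoMonge
import Crest.Agent.S0175.PlaneRot
import Crest.Agent.S0175.Potential
import Crest.Agent.S0175.RhoPack
import Crest.Agent.S0175.TwinGeom
import Crest.Agent.S0175.Window

/-!
# Row 130 (S0175): final assembly (helper9)

`design_main`: for a finite-dimensional real inner product space `V` (Borel) with an orthonormal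
pair `e0, e1`, and every `s > 0`, the full statement of S0175 holds on `V`.
It glues the scalar design (`exists_scalarDesign`), the twin maps (`TwinData.diffeoData`), the tube
bump (`exists_tube_bump`), the density push-forward (`DiffeoData.exists_sqrt_density`), the package
`rho_package`, the potential (`PotData`), rigidity (`rigid_of_design`), the Monge approximants
(`happrox_planeRot`) and the abstract transport layer (`abstract_main`).
-/

set_option autoImplicit false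
open MeasureTheory Set
open scoped ENNReal ContDiff
open Crest.AnalysisR.OT

namespace Crest.Agent.S0175

open Crest.Agent.S0175lib

section Assembly

variable {V : Type*} [NormedAddCommGroup V] [InnerProductSpace ℝ V] [FiniteDimensional ℝ V]
  [MeasurableSpace V] [BorelSpace V]

/-- The whole statement of S0175 on a finite-dimensional inner product space with an
orthonormal pair. -/
theorem design_main (s : ℝ) (hs : 0 < s) (e0 e1 : V) (h0 : ‖e0‖ = 1) (h1 : ‖e1‖ = 1)
    (h01 : inner ℝ e0 e1 = 0) :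
    ∃ ρ : V → ℝ, (∀ x, 0 ≤ ρ x) ∧ ContDiff ℝ ∞ ρ ∧ HasCompactSupport ρ ∧
      ContDiff ℝ ∞ (fun x => Real.sqrt (ρ x)) ∧ ∫ x, ρ x = 1 ∧
      ∃ π₀ : Measure (V × V × V),
        IsCoupling₃ (measOfDensity ρ) π₀ ∧ ∫⁻ p, tripleCost s p ∂π₀ < ⊤ ∧
        (∀ π : Measure (V × V × V), IsCoupling₃ (measOfDensity ρ) π →
          ∫⁻ p, tripleCost s p ∂π₀ ≤ ∫⁻ p, tripleCost s p ∂π) ∧
        (∀ T₂ T₃ : V → V, Measurable T₂ → Measurable T₃ →
          (measOfDensity ρ).map T₂ = measOfDensity ρ → (measOfDensity ρ).map T₃ = measOfDensity ρ →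
          ∫⁻ p, tripleCost s p ∂π₀ < ∫⁻ x, tripleCost s (x, T₂ x, T₃ x) ∂(measOfDensity ρ)) ∧
        (∀ ε : ℝ≥0∞, 0 < ε → ∃ T₂ T₃ : V → V, Measurable T₂ ∧ Measurable T₃ ∧
          (measOfDensity ρ).map T₂ = measOfDensity ρ ∧ (measOfDensity ρ).map T₃ = measOfDensity ρ ∧
          ∫⁻ x, tripleCost s (x, T₂ x, T₃ x) ∂(measOfDensity ρ)
            < ∫⁻ p, tripleCost s p ∂π₀ + ε) := by
  classical
  obtain ⟨r1, r2, m1, m2, tau, kap, hb, rinv, SD⟩ := exists_scalarDesign hs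
  have hOP : OrthoPair e0 e1 := ⟨h0, h1, h01⟩
  have T : TwinData r1 r2 m1 m2 kap hb rinv :=
    { r₁_pos := SD.r1_pos
      m₁_pos := SD.m1_pos
      kap_smooth := SD.kap_smooth
      hb_smooth := SD.hb_smooth
      rinv_smooth := SD.rinv_smooth
      kap_ne := SD.kap_ne
      hb_pos := SD.hb_pos
      rinv_mem := SD.rinv_maps
      M_mem := fun r hr => (SD.rinv_left r hr).1
      rinv_M := fun r hr => (SD.rinv_left r hr).2
      M_rinv := SD.rinv_right }
  have hr1 : 0 < r1 := SD.r1_pos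
  have hr12 : r1 < r2 := SD.r1_lt
  have h2r1 : 2 ≤ r1 := SD.two_le_r1
  -- the regions
  set U : Set V := twinU e0 e1 r1 r2 with hUdef
  set W : Set V := twinV e0 e1 hb rinv m1 m2 with hWdef
  have hUo : IsOpen U := isOpen_twinU e0 e1 r1 r2
  have hUm : MeasurableSet U := hUo.measurableSet
  have hUnorm : ∀ x ∈ U, ‖x‖ ∈ Ioo r1 r2 := fun x hx => hx.1
  have hPU : ∀ x ∈ U, planeP e0 e1 x ≠ 0 := fun x hx => hx.2
  -- the twin maps (globally measurable: the scalar functions of the design are measurable)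
  set a : V → V := twinMap e0 e1 kap hb 1 with hadef0
  set b : V → V := twinMap e0 e1 kap hb (-1) with hbdef0
  have ha_on : ∀ x ∈ U, a x = twinMap e0 e1 kap hb 1 x := fun x _ => rfl
  have hb_on : ∀ x ∈ U, b x = twinMap e0 e1 kap hb (-1) x := fun x _ => rfl
  have ham : Measurable a := measurable_twinMap e0 e1 SD.kap_meas SD.hb_meas 1
  have hbm : Measurable b := measurable_twinMap e0 e1 SD.kap_meas SD.hb_meas (-1)
  have Da : DiffeoData U W a (twinInv e0 e1 kap hb rinv 1) :=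
    T.diffeoData hOP (ε := 1) (by norm_num)
  have Db0 : DiffeoData U W b (twinInv e0 e1 kap hb rinv (-1)) :=
    T.diffeoData hOP (ε := -1) (by norm_num)
  -- explicit formulas on `U`
  have hadef : ∀ x ∈ U, a x = kap ‖x‖ • x + hb ‖x‖ • (‖planeP e0 e1 x‖⁻¹ • planeJ e0 e1 x) := by
    intro x hx
    rw [ha_on x hx, twinMap, one_mul]
  have hbdef : ∀ x ∈ U, b x = kap ‖x‖ • x - hb ‖x‖ • (‖planeP e0 e1 x‖⁻¹ • planeJ e0 e1 x) := by
    intro x hx
    rw [hb_on x hx, twinMap, neg_one_mul, neg_smul, sub_eq_add_neg]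
  -- twin relations on `U`
  have hsum : ∀ x ∈ U, a x + b x = (2 * kap ‖x‖) • x := by
    intro x hx
    rw [ha_on x hx, hb_on x hx]
    exact twinMap_add_neg x
  have hdiffn : ∀ x ∈ U, ‖a x - b x‖ = 2 * hb ‖x‖ := by
    intro x hx
    rw [ha_on x hx, hb_on x hx]
    exact hOP.norm_twinMap_sub_neg (by norm_num) (SD.hb_pos _ (hUnorm x hx)).le (hPU x hx)
  have horth : ∀ x ∈ U, inner ℝ (a x - b x) x = 0 := by
    intro x hx
    rw [ha_on x hx, hb_on x hx]
    exact hOP.inner_twinMap_sub_neg x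
  have hna2 : ∀ x ∈ U, ‖a x‖ ^ 2 = pM2 s (tau ‖x‖) := by
    intro x hx
    rw [ha_on x hx, hOP.norm_sq_twinMap (by norm_num) (hPU x hx), SD.twin_sq _ (hUnorm x hx)]
  have hnb2 : ∀ x ∈ U, ‖b x‖ ^ 2 = pM2 s (tau ‖x‖) := by
    intro x hx
    rw [hb_on x hx, hOP.norm_sq_twinMap (by norm_num) (hPU x hx), SD.twin_sq _ (hUnorm x hx)]
  have hPa : ∀ x ∈ U, planeP e0 e1 (a x) ≠ 0 := by
    intro x hx h
    have h2 := hOP.norm_sq_P_twinMap (kap := kap) (hb := hb) (ε := 1) (by norm_num) (hPU x hx)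
    rw [← ha_on x hx, h, norm_zero] at h2
    have := SD.hb_pos _ (hUnorm x hx)
    nlinarith [sq_nonneg (kap ‖x‖ * ‖planeP e0 e1 x‖)]
  have hPb : ∀ x ∈ U, planeP e0 e1 (b x) ≠ 0 := by
    intro x hx h
    have h2 := hOP.norm_sq_P_twinMap (kap := kap) (hb := hb) (ε := -1) (by norm_num) (hPU x hx)
    rw [← hb_on x hx, h, norm_zero] at h2
    have := SD.hb_pos _ (hUnorm x hx)
    nlinarith [sq_nonneg (kap ‖x‖ * ‖planeP e0 e1 x‖)]
  -- the near region
  set O : Set V := {y | 1 / 4 < ‖y‖ ^ 2 ∧ ‖y‖ ^ 2 ≤ 1 / 3} with hOdef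
  have hOm : MeasurableSet O :=
    (measurableSet_lt measurable_const (continuous_norm.pow 2).measurable).inter
      (measurableSet_le (continuous_norm.pow 2).measurable measurable_const)
  have hpar : ∀ x ∈ U, 1 < tau ‖x‖ ∧ tau ‖x‖ ^ (s + 2) ≤ 2 ∧ ‖x‖ = pR s (tau ‖x‖) ∧
      pGst s (tau ‖x‖) ≤ 5 / 4 + s / 2 ∧ pM2 s (tau ‖x‖) ≤ 1 / 3 :=
    fun x hx => SD.param _ (hUnorm x hx)
  have haO : ∀ x ∈ U, a x ∈ O := fun x hx =>
    ⟨by rw [hna2 x hx]; exact quarter_lt_pM2 (hpar x hx).1 s,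
      by rw [hna2 x hx]; exact (hpar x hx).2.2.2.2⟩
  have hbO : ∀ x ∈ U, b x ∈ O := fun x hx =>
    ⟨by rw [hnb2 x hx]; exact quarter_lt_pM2 (hpar x hx).1 s,
      by rw [hnb2 x hx]; exact (hpar x hx).2.2.2.2⟩
  have hOU : ∀ y ∈ O, y ∉ U := by
    intro y hy hyU
    have h1 : r1 < ‖y‖ := (hUnorm y hyU).1
    have h2 : ‖y‖ ^ 2 ≤ 1 / 3 := hy.2
    nlinarith
  have hWO : W ⊆ O := by
    intro y hy
    have h1 : m1 < ‖y‖ := hy.1.1
    have h2 : ‖y‖ < m2 := hy.1.2
    have hm1 := SD.m1_pos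
    have hq := SD.quarter_lt
    have ht := SD.le_third
    constructor
    · nlinarith
    · nlinarith [norm_nonneg y]
  -- the far half-density
  set δ : ℝ := (r2 ^ 2 - r1 ^ 2) / 4 with hδdef
  have hδpos : 0 < δ := by rw [hδdef]; nlinarith
  obtain ⟨η, hηs, hη0, hηc, hηsupp, hηinv, hηmass⟩ :=
    exists_tube_bump e0 e1 h0 h1 h01 (r1 ^ 2 + δ) (r1 ^ 2 + 2 * δ) δ (1 / 3) (by positivity)
      (by linarith) hδpos (by norm_num)
  have htube : {x | r1 ^ 2 + δ ≤ ‖planeP e0 e1 x‖ ^ 2 ∧ ‖planeP e0 e1 x‖ ^ 2 ≤ r1 ^ 2 + 2 * δ ∧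
      ‖x - planeP e0 e1 x‖ ^ 2 ≤ δ} ⊆ U := by
    intro x hx
    have hn := h88_tube_norm_sq e0 e1 h0 h1 h01 hx
    have hP := h88_tube_planeP_ne_zero e0 e1 (by positivity : 0 < r1 ^ 2 + δ) hx
    refine ⟨⟨?_, ?_⟩, hP⟩
    · by_contra hcon
      rw [not_lt] at hcon
      have : ‖x‖ ^ 2 ≤ r1 ^ 2 := by nlinarith [norm_nonneg x]
      linarith [hn.1]
    · by_contra hcon
      rw [not_lt] at hcon
      have : r2 ^ 2 ≤ ‖x‖ ^ 2 := by nlinarith
      have h3 := hn.2
      rw [hδdef] at h3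
      linarith
  have hηU : tsupport η ⊆ U := hηsupp.trans htube
  have hηm : Measurable η := hηs.continuous.measurable
  -- the near half-density
  obtain ⟨σ, hσ0, hσs, hσc, hσW, -, -, -, hpa0⟩ := Da.exists_sqrt_density ham hηs hη0 hηc hηU
  have hpa : (sqMeas η).map a = sqMeas σ := hpa0
  -- rotation invariance
  have hνrot : ∀ θ, (sqMeas η).map (planeRot e0 e1 θ) = sqMeas η := fun θ =>
    map_planeRot_withDensity_sq e0 e1 h0 h1 h01 η hηm hηinv θ
  have hUinv : ∀ θ x, x ∈ U → planeRot e0 e1 θ x ∈ U := by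
    intro θ x hx
    refine ⟨?_, ?_⟩
    · rw [norm_planeRot e0 e1 h0 h1 h01]; exact hx.1
    · intro h
      have h2 := norm_planeP_planeRot e0 e1 h0 h1 h01 θ x
      rw [h, norm_zero] at h2
      exact hx.2 (norm_eq_zero.mp h2.symm)
  have hνU : sqMeas η Uᶜ = 0 := by
    unfold sqMeas
    rw [withDensity_apply _ hUm.compl, lintegral_eq_zero_iff' (by fun_prop), Filter.EventuallyEq,
      ae_restrict_iff' hUm.compl]
    refine Filter.Eventually.of_forall fun x hx => ?_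
    have : η x = 0 := image_eq_zero_of_notMem_tsupport (fun h => hx (hηU h))
    simp [this]
  have hfinη : IsFiniteMeasure (sqMeas η) := by
    constructor
    rw [sqMeas_univ hηs.continuous hηc]
    exact ENNReal.ofReal_lt_top
  have hνUae : ∀ᵐ x ∂(sqMeas η), x ∈ twinU e0 e1 r1 r2 := by
    rw [ae_iff]; exact hνU
  have hba : (sqMeas η).map b = (sqMeas η).map a :=
    T.map_twinMap_neg hOP (ε := 1) (by norm_num) SD.kap_meas SD.hb_meas SD.rinv_meas (sqMeas η)
      hνUae (planeRot e0 e1) (isCircleAction_planeRot e0 e1 h0 h1 h01) (fun θ y => rfl) hνrot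
  have hpb : (sqMeas η).map b = sqMeas σ := hba.trans hpa
  have hνR : ∀ θ, ((sqMeas η).map a).map (planeRot e0 e1 θ) = (sqMeas η).map a := by
    intro θ
    have hRm : Measurable (planeRot e0 e1 θ) :=
      (isCircleAction_planeRot e0 e1 h0 h1 h01).measurable_apply θ
    rw [Measure.map_map hRm ham]
    have hcomm : planeRot e0 e1 θ ∘ a = a ∘ planeRot e0 e1 θ := by
      funext x
      exact (hOP.twinMap_rot (kap := kap) (hb := hb) (ε := 1) θ x).symm
    rw [hcomm, ← Measure.map_map ham hRm, hνrot θ]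
  -- the density
  have hUW : Disjoint U W := by
    rw [Set.disjoint_left]
    intro x hx hxW
    exact hOU x (hWO hxW) hx
  have hdisj : Disjoint (tsupport η) (tsupport σ) := Set.disjoint_of_subset hηU hσW hUW
  obtain ⟨hρ0, hρs, hρc, hρsqrt, hρint, hfin, hIm, hI0, hres, hab, hμ, hnull, hmom⟩ :=
    rho_package η σ hηs hσs hη0 hσ0 hηc hσc hdisj hηmass a b ham hpa hpb
  refine ⟨rhoOf η σ, hρ0, hρs, hρc, hρsqrt, hρint, ?_⟩
  set ρ : V → ℝ := rhoOf η σ with hρdef
  set μ : Measure V := measOfDensity ρ with hμdef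
  set I : Set V := {x | η x ≠ 0} with hIdef
  have hIU : I ⊆ U := fun x hx => hηU (subset_tsupport η hx)
  set S : Set V := I ∪ O with hSdef
  have hSm : MeasurableSet S := hIm.union hOm
  have hSμ : μ Sᶜ = 0 := by
    refine measure_mono_null ?_ hnull
    intro x hx hρx
    apply hx
    by_cases hη : η x = 0
    · right
      have hσx : σ x ≠ 0 := by
        intro hσx
        apply hρx
        simp [hρdef, rhoOf, hη, hσx]
      exact hWO (hσW (subset_tsupport σ hσx))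
    · left; exact hη
  -- the potential
  set tt : V → ℝ := fun x => tau ‖x‖ with httdef
  set u : V → ℝ := U.piecewise (fun x => pGst s (tau ‖x‖) - 2 * (5 / 6 + s / 4))
    (fun x => 5 / 6 + s / 4 - s * ‖x‖ ^ 2) with hudef
  have hucont : ContinuousOn (fun x : V => pGst s (tau ‖x‖) - 2 * (5 / 6 + s / 4)) U := by
    intro x hx
    have h1 : ContinuousAt tau ‖x‖ :=
      SD.tau_smooth.continuousOn.continuousAt (Ioo_mem_nhds (hUnorm x hx).1 (hUnorm x hx).2)
    have h2 : ContinuousAt (pGst s) (tau ‖x‖) :=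
      (contDiffAt_pGst (n := 0) hs (hpar x hx).1 (hpar x hx).2.1).continuousAt
    have h3 : ContinuousAt (fun x : V => tau ‖x‖) x :=
      ContinuousAt.comp (f := fun x : V => ‖x‖) h1 continuous_norm.continuousAt
    have h4 : ContinuousAt (fun x : V => pGst s (tau ‖x‖)) x :=
      ContinuousAt.comp (f := fun x : V => tau ‖x‖) h2 h3
    exact (h4.sub continuousAt_const).continuousWithinAt
  have hum : Measurable u :=
    ContinuousOn.measurable_piecewise hucont (by fun_prop) hUm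
  have P : PotData s I O tt u :=
    { hs := hs
      far := fun x hx => by
        obtain ⟨p1, p2, p3, p4, -⟩ := hpar x (hIU hx)
        exact ⟨p1, p2, p3, p4, by linarith [(hUnorm x (hIU hx)).1]⟩
      near := fun y hy => hy
      uI := fun x hx => Set.piecewise_eq_of_mem _ _ _ (hIU hx)
      uO := fun y hy => Set.piecewise_eq_of_notMem _ _ _ (hOU y hy) }
  have hfinμ : IsFiniteMeasure μ := hfin
  have hu : Integrable u μ := by
    refine integrable_of_bounded_on_support hρs.continuous.measurable u hum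
      (2 * (5 / 6 + s / 4) + 1) ?_
    intro x hρx
    have hxS : x ∈ S := by
      by_contra hxS
      by_cases hη : η x = 0
      · have hσx : σ x ≠ 0 := by
          intro hσx
          apply hρx
          simp [hρdef, rhoOf, hη, hσx]
        exact hxS (Or.inr (hWO (hσW (subset_tsupport σ hσx))))
      · exact hxS (Or.inl hη)
    rcases hxS with hxI | hxO
    · have h1 := P.uI_le hxI
      have h2 : u x = pGst s (tau ‖x‖) - 2 * (5 / 6 + s / 4) := P.uI x hxI
      obtain ⟨p1, p2, -, -, -⟩ := hpar x (hIU hxI)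
      have h3 : 0 ≤ pGst s (tau ‖x‖) := by
        have ht0 : (0 : ℝ) < tau ‖x‖ := by linarith
        have hD : 0 < pD s (tau ‖x‖) := pD_pos hs p1
        unfold pGst
        have e1 : 0 ≤ tau ‖x‖ ^ (-s) := Real.rpow_nonneg ht0.le _
        have e2 : 0 ≤ pD s (tau ‖x‖) ^ (-s / 2) := Real.rpow_nonneg hD.le _
        positivity
      rw [abs_le]
      constructor <;> linarith
    · have h2 : u x = 5 / 6 + s / 4 - s * ‖x‖ ^ 2 := P.uO x hxO
      have h3 : 1 / 4 < ‖x‖ ^ 2 := hxO.1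
      have h4 : ‖x‖ ^ 2 ≤ 1 / 3 := hxO.2
      rw [abs_le, h2]
      constructor <;> nlinarith
  -- contact relations in terms of `tt`
  have hkap : ∀ x ∈ U, kap ‖x‖ = pKap s (tt x) := fun x hx => SD.kap_eq _ (hUnorm x hx)
  have htt : ∀ x ∈ U, 2 * hb ‖x‖ = tt x := fun x hx => by
    rw [SD.hb_eq _ (hUnorm x hx)]; simp only [httdef]; ring
  have hdual : ∀ x ∈ S, ∀ y ∈ S, ∀ z ∈ S,
      ENNReal.ofReal (u x + u y + u z) ≤ tripleCost s (x, y, z) :=
    fun x hx y hy z hz => P.dual_le hx hy hz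
  have hcontact : ∀ x ∈ I, tripleCost s (x, a x, b x)
        = ENNReal.ofReal (u x + u (a x) + u (b x)) ∧ 0 ≤ u x + u (a x) + u (b x) := by
    intro x hx
    have hxU := hIU hx
    refine P.contact_eq hx (haO x hxU) (hbO x hxU) ?_ ?_ (horth x hxU)
    · rw [hsum x hxU, hkap x hxU]
    · rw [hdiffn x hxU, htt x hxU]
  -- injectivity
  have hainj : InjOn a I := by
    intro x hx y hy hxy
    have h1 := Da.left_inv x (hIU hx)
    have h2 := Da.left_inv y (hIU hy)
    rw [← h1, ← h2, hxy]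
  have hbinj : InjOn b I := by
    intro x hx y hy hxy
    have h1 := Db0.left_inv x (hIU hx)
    have h2 := Db0.left_inv y (hIU hy)
    rw [← h1, ← h2, hxy]
  -- rigidity
  set κ : V → ℝ := fun x => kap ‖x‖ with hκdef
  have hκm : Measurable κ := SD.kap_meas.comp measurable_norm
  have hκU : ∀ x ∈ U, κ x = kap ‖x‖ := fun x _ => rfl
  set t : V → ℝ := fun x => 2 * hb ‖x‖ with htdef
  have hadefI : ∀ p ∈ I, a p = κ p • p + (t p / 2) • (‖planeP e0 e1 p‖⁻¹ • planeJ e0 e1 p) := by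
    intro p hp
    rw [hadef p (hIU hp), hκU p (hIU hp)]
    simp only [htdef]
    congr 2
    ring
  have hbdefI : ∀ p ∈ I, b p = κ p • p - (t p / 2) • (‖planeP e0 e1 p‖⁻¹ • planeJ e0 e1 p) := by
    intro p hp
    rw [hbdef p (hIU hp), hκU p (hIU hp)]
    simp only [htdef]
    congr 2
    ring
  have hchar : ∀ x ∈ S, ∀ y ∈ S, ∀ z ∈ S,
      tripleCost s (x, y, z) = ENNReal.ofReal (u x + u y + u z) →
      (x ∈ I ∧ y ∉ I ∧ z ∉ I ∧ y + z = (2 * κ x) • x ∧ ‖y - z‖ = t x ∧ inner ℝ (y - z) x = 0) ∨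
      (y ∈ I ∧ x ∉ I ∧ z ∉ I ∧ x + z = (2 * κ y) • y ∧ ‖x - z‖ = t y ∧ inner ℝ (x - z) y = 0) ∨
      (z ∈ I ∧ x ∉ I ∧ y ∉ I ∧ x + y = (2 * κ z) • z ∧ ‖x - y‖ = t z ∧
        inner ℝ (x - y) z = 0) := by
    intro x hx y hy z hz h
    have key : ∀ p ∈ I, pKap s (tt p) = κ p ∧ tt p = t p := fun p hp =>
      ⟨by rw [hκU p (hIU hp), hkap p (hIU hp)], (htt p (hIU hp)).symm⟩
    rcases P.dual_char hx hy hz h with ⟨g1, g2, g3, g4, g5, g6⟩ | ⟨g1, g2, g3, g4, g5, g6⟩ |
      ⟨g1, g2, g3, g4, g5, g6⟩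
    · exact Or.inl ⟨g1, g2, g3, by rw [g4, (key x g1).1], by rw [g5, (key x g1).2], g6⟩
    · exact Or.inr (Or.inl ⟨g1, g2, g3, by rw [g4, (key y g1).1], by rw [g5, (key y g1).2], g6⟩)
    · exact Or.inr (Or.inr ⟨g1, g2, g3, by rw [g4, (key z g1).1], by rw [g5, (key z g1).2], g6⟩)
  have hrig : ∀ T₂ T₃ : V → V, Measurable T₂ → Measurable T₃ → μ.map T₂ = μ → μ.map T₃ = μ →
      (∀ᵐ x ∂μ, tripleCost s (x, T₂ x, T₃ x) = ENNReal.ofReal (u x + u (T₂ x) + u (T₃ x))) →
      ∀ᵐ x ∂μ, (x ∈ I → T₂ x ∉ I) ∧ (x ∉ I → T₂ x ∈ I → (x = a (T₂ x) ∨ x = b (T₂ x))) :=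
    fun T₂ T₃ hT₂ hT₃ hm₂ hm₃ hcon =>
      rigid_of_design μ I S hIm hSm hSμ e0 e1 h0 h1 h01 κ t hκm a b ham hbm hadefI hbdefI
        (fun p hp => hPU p (hIU hp)) hμ hmom (tripleCost s) u hchar T₂ T₃ hT₂ hT₃ hm₂ hm₃ hcon
  -- Monge approximants
  have hνR' : ∀ θ, ((μ.restrict I).map a).map (planeRot e0 e1 θ) = (μ.restrict I).map a := by
    intro θ
    rw [hres]
    exact hνR θ
  have hnorm_a : ∀ x ∈ I, ‖a x‖ ≤ 1 := by
    intro x hx
    have h := (haO x (hIU hx)).2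
    nlinarith [norm_nonneg (a x)]
  have hnorm_b : ∀ x ∈ I, ‖b x‖ ≤ 1 := by
    intro x hx
    have h := (hbO x (hIU hx)).2
    nlinarith [norm_nonneg (b x)]
  have hfar : ∀ x ∈ I, (1 : ℝ) < ‖x‖ := fun x hx => by linarith [(hUnorm x (hIU hx)).1]
  have happrox := happrox_planeRot e0 e1 h0 h1 h01 μ I a b ham hbm hainj hbinj hab hμ hνR'
    (fun x hx => hPa x (hIU hx)) (fun x hx => hPb x (hIU hx)) 1 hfar hnorm_a hnorm_b 1 s hs
    one_pos
    (fun x hx => by
      have h1 := norm_sub_norm_le x (a x)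
      have h2 := (hUnorm x (hIU hx)).1
      linarith [hnorm_a x hx])
    (fun x hx => by
      have h1 := norm_sub_norm_le x (b x)
      have h2 := (hUnorm x (hIU hx)).1
      linarith [hnorm_b x hx])
    (fun x hx => by
      rw [hdiffn x (hIU hx), htt x (hIU hx)]
      exact (hpar x (hIU hx)).1.le)
  exact abstract_main μ I S hIm hSm hSμ hI0 a b ham hbm hainj hbinj hab hμ u hu (tripleCost s)
    (measurable_tripleCost s) (tripleCost_cyclic s) hdual (fun x hx => (hcontact x hx).1)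
    (fun x hx => (hcontact x hx).2) hrig happrox

end Assembly

end Crest.Agent.S0175
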