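import Mathlib
import Crest.Prelude.Def_MultiMarginal

/-!
# Abstract three-marginal transport layer for S0175 (no geometry)

`E` is a standard Borel space, `μ` a finite measure, `I` a measurable set, `a b : E → E`
measurable maps ("the two twins of an inner point"), `u` a real potential, `c` a cost.

* `plan₃` : the cyclic symmetrisation of `(x, a x, b x)`, `x ∈ I`;
* `plan₃_isCoupling`, `lintegral_plan₃` : marginals and cost of `plan₃`;
* `weak_duality`, `lintegral_plan₃_eq_ofReal` : optimality of `plan₃`;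
* `ae_contact_of_le` : a Monge plan whose cost is not larger lives on the contact set;
* `no_monge_of_rigid` : the parity obstruction;
* `exists_monge_maps` : Monge maps from two injective "approximate twin" maps;
* `abstract_main` : all of it assembled in the shape of the statement S0175.
-/

set_option autoImplicit false
open MeasureTheory
open scoped ENNReal

namespace Crest.Agent.S0175

open Crest.AnalysisR.OT

variable {E : Type*} [MeasurableSpace E]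

/-- The cyclically symmetrised plan built from the triples `(x, a x, b x)`, `x ∈ I`. -/
noncomputable def plan₃ (μ : Measure E) (I : Set E) (a b : E → E) : Measure (E × E × E) :=
  (μ.restrict I).map (fun x => (x, a x, b x)) + (μ.restrict I).map (fun x => (b x, x, a x))
    + (μ.restrict I).map (fun x => (a x, b x, x))

theorem plan₃_isCoupling (μ : Measure E) (I : Set E) (a b : E → E)
    (ha : Measurable a) (hb : Measurable b)
    (hμ : μ = μ.restrict I + (μ.restrict I).map a + (μ.restrict I).map b) :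
    IsCoupling₃ μ (plan₃ μ I a b) := by
  have m1 : Measurable (fun x : E => (x, a x, b x)) := measurable_id.prodMk (ha.prodMk hb)
  have m2 : Measurable (fun x : E => (b x, x, a x)) := hb.prodMk (measurable_id.prodMk ha)
  have m3 : Measurable (fun x : E => (a x, b x, x)) := ha.prodMk (hb.prodMk measurable_id)
  have p1 : Measurable (fun p : E × E × E => p.1) := measurable_fst
  have p2 : Measurable (fun p : E × E × E => p.2.1) := measurable_snd.fst
  have p3 : Measurable (fun p : E × E × E => p.2.2) := measurable_snd.snd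
  have hid : (μ.restrict I).map (fun x : E => x) = μ.restrict I := Measure.map_id
  refine ⟨?_, ?_, ?_⟩
  · unfold plan₃
    rw [Measure.map_add _ _ p1, Measure.map_add _ _ p1, Measure.map_map p1 m1,
      Measure.map_map p1 m2, Measure.map_map p1 m3]
    have e1 : ((fun p : E × E × E => p.1) ∘ fun x : E => (x, a x, b x)) = fun x => x := rfl
    have e2 : ((fun p : E × E × E => p.1) ∘ fun x : E => (b x, x, a x)) = b := rfl
    have e3 : ((fun p : E × E × E => p.1) ∘ fun x : E => (a x, b x, x)) = a := rfl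
    rw [e1, e2, e3, hid]
    conv_rhs => rw [hμ]
    abel
  · unfold plan₃
    rw [Measure.map_add _ _ p2, Measure.map_add _ _ p2, Measure.map_map p2 m1,
      Measure.map_map p2 m2, Measure.map_map p2 m3]
    have e1 : ((fun p : E × E × E => p.2.1) ∘ fun x : E => (x, a x, b x)) = a := rfl
    have e2 : ((fun p : E × E × E => p.2.1) ∘ fun x : E => (b x, x, a x)) = fun x => x := rfl
    have e3 : ((fun p : E × E × E => p.2.1) ∘ fun x : E => (a x, b x, x)) = b := rfl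
    rw [e1, e2, e3, hid]
    conv_rhs => rw [hμ]
    abel
  · unfold plan₃
    rw [Measure.map_add _ _ p3, Measure.map_add _ _ p3, Measure.map_map p3 m1,
      Measure.map_map p3 m2, Measure.map_map p3 m3]
    have e1 : ((fun p : E × E × E => p.2.2) ∘ fun x : E => (x, a x, b x)) = b := rfl
    have e2 : ((fun p : E × E × E => p.2.2) ∘ fun x : E => (b x, x, a x)) = a := rfl
    have e3 : ((fun p : E × E × E => p.2.2) ∘ fun x : E => (a x, b x, x)) = fun x => x := rfl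
    rw [e1, e2, e3, hid]
    conv_rhs => rw [hμ]
    abel

theorem lintegral_plan₃ (μ : Measure E) (I : Set E) (a b : E → E)
    (ha : Measurable a) (hb : Measurable b)
    (c : E × E × E → ℝ≥0∞) (hc : Measurable c) (hcyc : ∀ x y z, c (x, y, z) = c (z, x, y)) :
    ∫⁻ p, c p ∂(plan₃ μ I a b) = 3 * ∫⁻ x in I, c (x, a x, b x) ∂μ := by
  have m1 : Measurable (fun x : E => (x, a x, b x)) := measurable_id.prodMk (ha.prodMk hb)
  have m2 : Measurable (fun x : E => (b x, x, a x)) := hb.prodMk (measurable_id.prodMk ha)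
  have m3 : Measurable (fun x : E => (a x, b x, x)) := ha.prodMk (hb.prodMk measurable_id)
  unfold plan₃
  rw [lintegral_add_measure, lintegral_add_measure, lintegral_map hc m1, lintegral_map hc m2,
    lintegral_map hc m3]
  have e2 : ∀ x, c (b x, x, a x) = c (x, a x, b x) := fun x => by
    rw [hcyc (x) (a x) (b x)]
  have e3 : ∀ x, c (a x, b x, x) = c (x, a x, b x) := fun x => by
    rw [hcyc (x) (a x) (b x), hcyc (b x) x (a x)]
  simp only [e2, e3]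
  ring

theorem ofReal_integral_le_lintegral_ofReal' {α : Type*} [MeasurableSpace α] {ν : Measure α}
    {G : α → ℝ} (hG : Integrable G ν) :
    ENNReal.ofReal (∫ x, G x ∂ν) ≤ ∫⁻ x, ENNReal.ofReal (G x) ∂ν := by
  have h1 : ∫ x, G x ∂ν ≤ ∫ x, max (G x) 0 ∂ν :=
    integral_mono hG hG.pos_part (fun x => le_max_left _ _)
  calc ENNReal.ofReal (∫ x, G x ∂ν) ≤ ENNReal.ofReal (∫ x, max (G x) 0 ∂ν) :=
        ENNReal.ofReal_le_ofReal h1
    _ = ∫⁻ x, ENNReal.ofReal (max (G x) 0) ∂ν :=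
        ofReal_integral_eq_lintegral_ofReal hG.pos_part (ae_of_all _ fun x => le_max_right _ _)
    _ = ∫⁻ x, ENNReal.ofReal (G x) ∂ν := by
        congr 1 with x
        rcases le_total 0 (G x) with h | h
        · rw [max_eq_left h]
        · rw [max_eq_right h, ENNReal.ofReal_of_nonpos h, ENNReal.ofReal_zero]

/-- Weak duality: a dual-feasible potential bounds the cost of every coupling from below. -/
theorem weak_duality (μ : Measure E) (S : Set E) (hS : MeasurableSet S)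
    (hSμ : μ Sᶜ = 0) (u : E → ℝ) (hu : Integrable u μ) (c : E × E × E → ℝ≥0∞)
    (hdual : ∀ x ∈ S, ∀ y ∈ S, ∀ z ∈ S, ENNReal.ofReal (u x + u y + u z) ≤ c (x, y, z))
    (π : Measure (E × E × E)) (hπ : IsCoupling₃ μ π) :
    ENNReal.ofReal (3 * ∫ x, u x ∂μ) ≤ ∫⁻ p, c p ∂π := by
  obtain ⟨h1, h2, h3⟩ := hπ
  have p1 : Measurable (fun p : E × E × E => p.1) := measurable_fst
  have p2 : Measurable (fun p : E × E × E => p.2.1) := measurable_snd.fst
  have p3 : Measurable (fun p : E × E × E => p.2.2) := measurable_snd.snd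
  have key : ∀ (f : E × E × E → E), Measurable f → π.map f = μ →
      Integrable (fun p => u (f p)) π ∧ ∫ p, u (f p) ∂π = ∫ x, u x ∂μ ∧ ∀ᵐ p ∂π, f p ∈ S := by
    intro f hf hfμ
    have hu' : Integrable u (π.map f) := by rw [hfμ]; exact hu
    refine ⟨(integrable_map_measure hu'.aestronglyMeasurable hf.aemeasurable).1 hu', ?_, ?_⟩
    · rw [← hfμ, integral_map hf.aemeasurable hu'.aestronglyMeasurable]
    · have h0 : π (f ⁻¹' Sᶜ) = 0 := by
        rw [← Measure.map_apply hf hS.compl, hfμ]; exact hSμ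
      rw [ae_iff]
      exact h0
  obtain ⟨i1, e1, a1⟩ := key _ p1 h1
  obtain ⟨i2, e2, a2⟩ := key _ p2 h2
  obtain ⟨i3, e3, a3⟩ := key _ p3 h3
  have hG : Integrable (fun p : E × E × E => u p.1 + u p.2.1 + u p.2.2) π := (i1.add i2).add i3
  have hGint : ∫ p, (u p.1 + u p.2.1 + u p.2.2) ∂π = 3 * ∫ x, u x ∂μ := by
    have h12 : ∫ p, (u p.1 + u p.2.1) ∂π = ∫ p, u p.1 ∂π + ∫ p, u p.2.1 ∂π :=
      integral_add i1 i2
    have h123 : ∫ p, (u p.1 + u p.2.1 + u p.2.2) ∂π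
        = ∫ p, (u p.1 + u p.2.1) ∂π + ∫ p, u p.2.2 ∂π := integral_add (i1.add i2) i3
    rw [h123, h12, e1, e2, e3]; ring
  have hae : ∀ᵐ p ∂π, ENNReal.ofReal (u p.1 + u p.2.1 + u p.2.2) ≤ c p := by
    filter_upwards [a1, a2, a3] with p q1 q2 q3
    exact hdual _ q1 _ q2 _ q3
  calc ENNReal.ofReal (3 * ∫ x, u x ∂μ)
      = ENNReal.ofReal (∫ p, (u p.1 + u p.2.1 + u p.2.2) ∂π) := by rw [hGint]
    _ ≤ ∫⁻ p, ENNReal.ofReal (u p.1 + u p.2.1 + u p.2.2) ∂π :=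
        ofReal_integral_le_lintegral_ofReal' hG
    _ ≤ ∫⁻ p, c p ∂π := lintegral_mono_ae hae

/-- The cost of `plan₃` equals the dual value when the potential is tight on `(x, a x, b x)`. -/
theorem lintegral_plan₃_eq_ofReal (μ : Measure E) (I : Set E) (hI : MeasurableSet I)
    (a b : E → E) (ha : Measurable a) (hb : Measurable b)
    (hμ : μ = μ.restrict I + (μ.restrict I).map a + (μ.restrict I).map b)
    (u : E → ℝ) (hu : Integrable u μ)
    (c : E × E × E → ℝ≥0∞) (hc : Measurable c) (hcyc : ∀ x y z, c (x, y, z) = c (z, x, y))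
    (heq : ∀ x ∈ I, c (x, a x, b x) = ENNReal.ofReal (u x + u (a x) + u (b x)))
    (hnn : ∀ x ∈ I, 0 ≤ u x + u (a x) + u (b x)) :
    ∫⁻ p, c p ∂(plan₃ μ I a b) = ENNReal.ofReal (3 * ∫ x, u x ∂μ) := by
  rw [lintegral_plan₃ μ I a b ha hb c hc hcyc]
  have hle1 : μ.restrict I ≤ μ := Measure.restrict_le_self
  have hle2 : (μ.restrict I).map a ≤ μ := by
    conv_rhs => rw [hμ]
    exact (Measure.le_add_left le_rfl).trans (Measure.le_add_right le_rfl)
  have hle3 : (μ.restrict I).map b ≤ μ := by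
    conv_rhs => rw [hμ]
    exact Measure.le_add_left le_rfl
  have j1 : Integrable u (μ.restrict I) := hu.mono_measure hle1
  have j2 : Integrable u ((μ.restrict I).map a) := hu.mono_measure hle2
  have j3 : Integrable u ((μ.restrict I).map b) := hu.mono_measure hle3
  have k2 : Integrable (fun x => u (a x)) (μ.restrict I) :=
    (integrable_map_measure j2.aestronglyMeasurable ha.aemeasurable).1 j2
  have k3 : Integrable (fun x => u (b x)) (μ.restrict I) :=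
    (integrable_map_measure j3.aestronglyMeasurable hb.aemeasurable).1 j3
  have hsum : ∫ x in I, (u x + u (a x) + u (b x)) ∂μ = ∫ x, u x ∂μ := by
    have h12 : ∫ x in I, (u x + u (a x)) ∂μ = ∫ x in I, u x ∂μ + ∫ x in I, u (a x) ∂μ :=
      integral_add j1 k2
    have h123 : ∫ x in I, (u x + u (a x) + u (b x)) ∂μ
        = ∫ x in I, (u x + u (a x)) ∂μ + ∫ x in I, u (b x) ∂μ := integral_add (j1.add k2) k3
    rw [h123, h12]
    conv_rhs => rw [hμ]
    rw [integral_add_measure (j1.add_measure j2) j3, integral_add_measure j1 j2,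
      integral_map ha.aemeasurable j2.aestronglyMeasurable,
      integral_map hb.aemeasurable j3.aestronglyMeasurable]
  have hcong : ∫⁻ x in I, c (x, a x, b x) ∂μ
      = ∫⁻ x in I, ENNReal.ofReal (u x + u (a x) + u (b x)) ∂μ :=
    setLIntegral_congr_fun hI (fun x hx => heq x hx)
  have hof : ENNReal.ofReal (∫ x in I, (u x + u (a x) + u (b x)) ∂μ)
      = ∫⁻ x in I, ENNReal.ofReal (u x + u (a x) + u (b x)) ∂μ :=
    ofReal_integral_eq_lintegral_ofReal ((j1.add k2).add k3)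
      ((ae_restrict_iff' hI).2 (ae_of_all _ hnn))
  rw [hcong, ← hof, hsum, ENNReal.ofReal_mul (by norm_num : (0:ℝ) ≤ 3)]
  norm_num

/-- A Monge plan whose cost does not exceed the dual value is concentrated on the contact set. -/
theorem ae_contact_of_le (μ : Measure E) (S : Set E) (hS : MeasurableSet S)
    (hSμ : μ Sᶜ = 0) (u : E → ℝ) (hu : Integrable u μ) (c : E × E × E → ℝ≥0∞) (hc : Measurable c)
    (hdual : ∀ x ∈ S, ∀ y ∈ S, ∀ z ∈ S, ENNReal.ofReal (u x + u y + u z) ≤ c (x, y, z))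
    (T₂ T₃ : E → E) (hT₂ : Measurable T₂) (hT₃ : Measurable T₃)
    (h₂ : μ.map T₂ = μ) (h₃ : μ.map T₃ = μ)
    (hle : ∫⁻ x, c (x, T₂ x, T₃ x) ∂μ ≤ ENNReal.ofReal (3 * ∫ x, u x ∂μ)) :
    ∀ᵐ x ∂μ, c (x, T₂ x, T₃ x) = ENNReal.ofReal (u x + u (T₂ x) + u (T₃ x)) := by
  have key : ∀ (f : E → E), Measurable f → μ.map f = μ →
      Integrable (fun p => u (f p)) μ ∧ ∫ p, u (f p) ∂μ = ∫ x, u x ∂μ ∧ ∀ᵐ p ∂μ, f p ∈ S := by
    intro f hf hfμ
    have hu' : Integrable u (μ.map f) := by rw [hfμ]; exact hu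
    refine ⟨(integrable_map_measure hu'.aestronglyMeasurable hf.aemeasurable).1 hu', ?_, ?_⟩
    · conv_rhs => rw [← hfμ]
      rw [integral_map hf.aemeasurable hu'.aestronglyMeasurable]
    · have h0 : μ (f ⁻¹' Sᶜ) = 0 := by
        rw [← Measure.map_apply hf hS.compl, hfμ]; exact hSμ
      rw [ae_iff]
      exact h0
  have a1 : ∀ᵐ x ∂μ, x ∈ S := by rw [ae_iff]; exact hSμ
  obtain ⟨i2, e2, a2⟩ := key _ hT₂ h₂
  obtain ⟨i3, e3, a3⟩ := key _ hT₃ h₃
  have hG : Integrable (fun x : E => u x + u (T₂ x) + u (T₃ x)) μ := (hu.add i2).add i3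
  have hGint : ∫ x, (u x + u (T₂ x) + u (T₃ x)) ∂μ = 3 * ∫ x, u x ∂μ := by
    have h12 : ∫ x, (u x + u (T₂ x)) ∂μ = ∫ x, u x ∂μ + ∫ x, u (T₂ x) ∂μ :=
      integral_add hu i2
    have h123 : ∫ x, (u x + u (T₂ x) + u (T₃ x)) ∂μ
        = ∫ x, (u x + u (T₂ x)) ∂μ + ∫ x, u (T₃ x) ∂μ := integral_add (hu.add i2) i3
    rw [h123, h12, e2, e3]; ring
  have hae : ∀ᵐ x ∂μ, ENNReal.ofReal (u x + u (T₂ x) + u (T₃ x)) ≤ c (x, T₂ x, T₃ x) := by
    filter_upwards [a1, a2, a3] with p q1 q2 q3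
    exact hdual _ q1 _ q2 _ q3
  have hmeas : Measurable (fun x : E => c (x, T₂ x, T₃ x)) :=
    hc.comp (measurable_id.prodMk (hT₂.prodMk hT₃))
  have hfin : ∫⁻ x, ENNReal.ofReal (u x + u (T₂ x) + u (T₃ x)) ∂μ ≠ ∞ :=
    ne_of_lt (lt_of_le_of_lt (lintegral_mono_ae hae)
      (lt_of_le_of_lt hle ENNReal.ofReal_lt_top))
  have hle' : ∫⁻ x, c (x, T₂ x, T₃ x) ∂μ
      ≤ ∫⁻ x, ENNReal.ofReal (u x + u (T₂ x) + u (T₃ x)) ∂μ := by
    refine hle.trans ?_
    rw [← hGint]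
    exact ofReal_integral_le_lintegral_ofReal' hG
  have := ae_eq_of_ae_le_of_lintegral_le hae hfin hmeas.aemeasurable hle'
  filter_upwards [this] with x hx
  exact hx.symm

/-- The parity obstruction: if `μ = μ|I + a#μ|I + b#μ|I` with `a#μ|I = b#μ|I`, `a`, `b` injective
on `I`, no `μ`-preserving map `T₂` can send (a.e.) inner points outside `I` and outer points with
inner image to a twin of that image. -/
theorem no_monge_of_rigid [StandardBorelSpace E] (μ : Measure E) [IsFiniteMeasure μ]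
    (I : Set E) (hI : MeasurableSet I) (hI0 : μ I ≠ 0)
    (a b : E → E) (ha : Measurable a) (hb : Measurable b)
    (hainj : Set.InjOn a I) (hbinj : Set.InjOn b I)
    (hab : (μ.restrict I).map a = (μ.restrict I).map b)
    (hμ : μ = μ.restrict I + (μ.restrict I).map a + (μ.restrict I).map b)
    (T₂ : E → E) (hT₂ : Measurable T₂) (h₂ : μ.map T₂ = μ)
    (hrig : ∀ᵐ x ∂μ, (x ∈ I → T₂ x ∉ I) ∧
      (x ∉ I → T₂ x ∈ I → (x = a (T₂ x) ∨ x = b (T₂ x)))) :
    False := by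
  classical
  -- the general mechanism, for a map `f` (= `a` or `b`) with `μ S = 2 μ (f⁻¹ S ∩ I)` off `I`
  have mech : ∀ f : E → E, Measurable f → Set.InjOn f I →
      (∀ S : Set E, MeasurableSet S → S ⊆ Iᶜ → μ S = 2 * μ (f ⁻¹' S ∩ I)) →
      μ {y | y ∉ I ∧ T₂ y ∈ I ∧ y = f (T₂ y)} = 0 := by
    intro f hf hfinj hform
    set A : Set E := {y | y ∉ I ∧ T₂ y ∈ I ∧ y = f (T₂ y)} with hA
    have hA_meas : MeasurableSet A := by
      have h1 : MeasurableSet {y : E | y ∉ I} := hI.compl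
      have h2 : MeasurableSet {y : E | T₂ y ∈ I} := hT₂ hI
      have h3 : MeasurableSet {y : E | y = f (T₂ y)} :=
        measurableSet_eq_fun measurable_id (hf.comp hT₂)
      exact h1.inter (h2.inter h3)
    have hA_sub : A ⊆ Iᶜ := fun y hy => hy.1
    set B : Set E := f ⁻¹' A ∩ I with hB
    have hB_meas : MeasurableSet B := (hf hA_meas).inter hI
    have hsub : B ⊆ f ⁻¹' (T₂ ⁻¹' B ∩ A) ∩ I := by
      rintro p ⟨hpA, hpI⟩
      have hpA' : f p ∉ I ∧ T₂ (f p) ∈ I ∧ f p = f (T₂ (f p)) := hpA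
      have hp : p = T₂ (f p) := hfinj hpI hpA'.2.1 hpA'.2.2
      refine ⟨⟨?_, hpA⟩, hpI⟩
      show T₂ (f p) ∈ B
      rw [← hp]
      exact ⟨hpA, hpI⟩
    have hS_meas : MeasurableSet (T₂ ⁻¹' B ∩ A) := (hT₂ hB_meas).inter hA_meas
    have hS_sub : T₂ ⁻¹' B ∩ A ⊆ Iᶜ := fun y hy => hy.2.1
    have h1 : 2 * μ B ≤ μ B := calc
      2 * μ B ≤ 2 * μ (f ⁻¹' (T₂ ⁻¹' B ∩ A) ∩ I) := by gcongr
      _ = μ (T₂ ⁻¹' B ∩ A) := (hform _ hS_meas hS_sub).symm
      _ ≤ μ (T₂ ⁻¹' B) := measure_mono Set.inter_subset_left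
      _ = μ B := by rw [← Measure.map_apply hT₂ hB_meas, h₂]
    have hB0 : μ B = 0 := by
      by_contra hne
      have hfin : μ B ≠ ⊤ := measure_ne_top μ B
      have : μ B < 2 * μ B := by
        rw [two_mul]; exact ENNReal.lt_add_right hfin hne
      exact absurd h1 (not_le.mpr this)
    rw [hform A hA_meas hA_sub, ← hB, hB0, mul_zero]
  have hall : ∀ S : Set E, μ S
      = (μ.restrict I) S + ((μ.restrict I).map a) S + ((μ.restrict I).map b) S := by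
    intro S
    have := congrArg (fun m : Measure E => m S) hμ
    simpa [Measure.add_apply] using this
  have hforma : ∀ S : Set E, MeasurableSet S → S ⊆ Iᶜ → μ S = 2 * μ (a ⁻¹' S ∩ I) := by
    intro S hS hSI
    have hSI' : S ∩ I = ∅ := by
      ext x; constructor
      · rintro ⟨h1, h2⟩; exact (hSI h1 h2).elim
      · intro h; exact h.elim
    rw [hall S, ← hab, Measure.map_apply ha hS, Measure.restrict_apply hS,
      Measure.restrict_apply (ha hS), hSI', measure_empty, zero_add, two_mul]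
  have hformb : ∀ S : Set E, MeasurableSet S → S ⊆ Iᶜ → μ S = 2 * μ (b ⁻¹' S ∩ I) := by
    intro S hS hSI
    have hSI' : S ∩ I = ∅ := by
      ext x; constructor
      · rintro ⟨h1, h2⟩; exact (hSI h1 h2).elim
      · intro h; exact h.elim
    rw [hall S, hab, Measure.map_apply hb hS, Measure.restrict_apply hS,
      Measure.restrict_apply (hb hS), hSI', measure_empty, zero_add, two_mul]
  have hAa := mech a ha hainj hforma
  have hAb := mech b hb hbinj hformb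
  have hN : μ {x | ¬ ((x ∈ I → T₂ x ∉ I) ∧
      (x ∉ I → T₂ x ∈ I → (x = a (T₂ x) ∨ x = b (T₂ x))))} = 0 := by
    rw [← ae_iff]; exact hrig
  have hsub : T₂ ⁻¹' I ⊆ {x | ¬ ((x ∈ I → T₂ x ∉ I) ∧
      (x ∉ I → T₂ x ∈ I → (x = a (T₂ x) ∨ x = b (T₂ x))))}
      ∪ ({y | y ∉ I ∧ T₂ y ∈ I ∧ y = a (T₂ y)} ∪ {y | y ∉ I ∧ T₂ y ∈ I ∧ y = b (T₂ y)}) := by
    intro x hx
    have hx' : T₂ x ∈ I := hx
    by_cases hP : ((x ∈ I → T₂ x ∉ I) ∧ (x ∉ I → T₂ x ∈ I → (x = a (T₂ x) ∨ x = b (T₂ x))))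
    · right
      by_cases hxI : x ∈ I
      · exact absurd hx' (hP.1 hxI)
      · rcases hP.2 hxI hx' with h | h
        · left; exact ⟨hxI, hx', h⟩
        · right; exact ⟨hxI, hx', h⟩
    · left; exact hP
  have hI_zero : μ I = 0 := by
    have h1 : μ I = μ (T₂ ⁻¹' I) := by rw [← Measure.map_apply hT₂ hI, h₂]
    rw [h1]
    refine measure_mono_null hsub ?_
    exact measure_union_null hN (measure_union_null hAa hAb)
  exact hI0 hI_zero

/-- A measurable left inverse of a measurable map injective on a measurable set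
(Lusin–Souslin). -/
theorem exists_measurable_leftInverse [StandardBorelSpace E] [Nonempty E]
    (I : Set E) (hI : MeasurableSet I) (τ : E → E) (hτ : Measurable τ) (hinj : Set.InjOn τ I) :
    ∃ σ : E → E, Measurable σ ∧ ∀ x ∈ I, σ (τ x) = x := by
  classical
  obtain ⟨y₀⟩ := ‹Nonempty E›
  refine ⟨fun y => if y ∈ τ '' I then Function.invFunOn τ I y else y₀, ?_, ?_⟩
  · intro B hB
    have himg : MeasurableSet (τ '' I) := hI.image_of_measurable_injOn hτ hinj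
    have himgB : MeasurableSet (τ '' (I ∩ B)) :=
      (hI.inter hB).image_of_measurable_injOn hτ (hinj.mono Set.inter_subset_left)
    have hpre : (fun y => if y ∈ τ '' I then Function.invFunOn τ I y else y₀) ⁻¹' B
        = τ '' (I ∩ B) ∪ ((τ '' I)ᶜ ∩ {_y | y₀ ∈ B}) := by
      ext y
      simp only [Set.mem_preimage, Set.mem_union, Set.mem_inter_iff, Set.mem_compl_iff,
        Set.mem_ofPred_eq]
      by_cases hy : y ∈ τ '' I
      · rw [if_pos hy]
        constructor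
        · intro h
          left
          exact ⟨Function.invFunOn τ I y, ⟨Function.invFunOn_mem hy, h⟩, Function.invFunOn_eq hy⟩
        · rintro (⟨x, ⟨hxI, hxB⟩, rfl⟩ | ⟨h, _⟩)
          · rw [hinj.leftInvOn_invFunOn hxI]; exact hxB
          · exact absurd hy h
      · rw [if_neg hy]
        constructor
        · intro h; right; exact ⟨hy, h⟩
        · rintro (⟨x, ⟨hxI, hxB⟩, rfl⟩ | ⟨_, h⟩)
          · exact absurd ⟨x, hxI, rfl⟩ hy
          · exact h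
    rw [hpre]
    exact himgB.union (himg.compl.inter (MeasurableSet.const _))
  · intro x hx
    show (if τ x ∈ τ '' I then Function.invFunOn τ I (τ x) else y₀) = x
    rw [if_pos ⟨x, hx, rfl⟩]
    exact hinj.leftInvOn_invFunOn hx

/-- Monge maps from two injective maps `τ₁ τ₂` with `μ = μ|I + τ₁#μ|I + τ₂#μ|I`:
`T₂` is the cyclic map `I → τ₁ I → τ₂ I → I` and `T₃ = T₂ ∘ T₂`. -/
theorem exists_monge_maps [StandardBorelSpace E] (μ : Measure E) (I : Set E)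
    (hI : MeasurableSet I) (τ₁ τ₂ : E → E) (h₁ : Measurable τ₁) (h₂ : Measurable τ₂)
    (hinj₁ : Set.InjOn τ₁ I) (hinj₂ : Set.InjOn τ₂ I)
    (hd₁ : ∀ x ∈ I, τ₁ x ∉ I) (hd₂ : ∀ x ∈ I, τ₂ x ∉ I)
    (hd₁₂ : ∀ x ∈ I, ∀ y ∈ I, τ₁ x ≠ τ₂ y)
    (hμ : μ = μ.restrict I + (μ.restrict I).map τ₁ + (μ.restrict I).map τ₂)
    (c : E × E × E → ℝ≥0∞) (hc : Measurable c) (hcyc : ∀ x y z, c (x, y, z) = c (z, x, y)) :
    ∃ T₂ T₃ : E → E, Measurable T₂ ∧ Measurable T₃ ∧ μ.map T₂ = μ ∧ μ.map T₃ = μ ∧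
      ∫⁻ x, c (x, T₂ x, T₃ x) ∂μ = 3 * ∫⁻ x in I, c (x, τ₁ x, τ₂ x) ∂μ := by
  classical
  rcases isEmpty_or_nonempty E with hE | hE
  · have hμ0 : μ = 0 := Measure.eq_zero_of_isEmpty μ
    refine ⟨id, id, measurable_id, measurable_id, Measure.map_id, Measure.map_id, ?_⟩
    rw [hμ0]; simp
  obtain ⟨σ₁, hσ₁, hσ₁'⟩ := exists_measurable_leftInverse I hI τ₁ h₁ hinj₁
  obtain ⟨σ₂, hσ₂, hσ₂'⟩ := exists_measurable_leftInverse I hI τ₂ h₂ hinj₂
  have hA₁ : MeasurableSet (τ₁ '' I) := hI.image_of_measurable_injOn h₁ hinj₁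
  have hA₂ : MeasurableSet (τ₂ '' I) := hI.image_of_measurable_injOn h₂ hinj₂
  set T₂ : E → E := fun x => if x ∈ I then τ₁ x else if x ∈ τ₁ '' I then τ₂ (σ₁ x)
    else if x ∈ τ₂ '' I then σ₂ x else x with hT₂def
  have hT₂ : Measurable T₂ :=
    Measurable.ite hI h₁ (Measurable.ite hA₁ (h₂.comp hσ₁) (Measurable.ite hA₂ hσ₂ measurable_id))
  have f1 : ∀ x ∈ I, T₂ x = τ₁ x := fun x hx => by
    show (if x ∈ I then τ₁ x else _) = τ₁ x
    rw [if_pos hx]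
  have f2 : ∀ x ∈ I, T₂ (τ₁ x) = τ₂ x := fun x hx => by
    show (if τ₁ x ∈ I then τ₁ (τ₁ x) else if τ₁ x ∈ τ₁ '' I then τ₂ (σ₁ (τ₁ x)) else _) = τ₂ x
    rw [if_neg (hd₁ x hx), if_pos ⟨x, hx, rfl⟩, hσ₁' x hx]
  have f3 : ∀ x ∈ I, T₂ (τ₂ x) = x := fun x hx => by
    have hnot : τ₂ x ∉ τ₁ '' I := by
      rintro ⟨y, hy, hyx⟩
      exact hd₁₂ y hy x hx hyx
    show (if τ₂ x ∈ I then τ₁ (τ₂ x) else if τ₂ x ∈ τ₁ '' I then τ₂ (σ₁ (τ₂ x))
      else if τ₂ x ∈ τ₂ '' I then σ₂ (τ₂ x) else τ₂ x) = x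
    rw [if_neg (hd₂ x hx), if_neg hnot, if_pos ⟨x, hx, rfl⟩, hσ₂' x hx]
  have hmapT₂ : μ.map T₂ = μ := by
    have e1 : (μ.restrict I).map T₂ = (μ.restrict I).map τ₁ :=
      Measure.map_congr ((ae_restrict_iff' hI).2 (ae_of_all _ f1))
    have e2 : ((μ.restrict I).map τ₁).map T₂ = (μ.restrict I).map τ₂ := by
      rw [Measure.map_map hT₂ h₁]
      exact Measure.map_congr ((ae_restrict_iff' hI).2 (ae_of_all _ f2))
    have e3 : ((μ.restrict I).map τ₂).map T₂ = μ.restrict I := by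
      rw [Measure.map_map hT₂ h₂]
      have : (μ.restrict I).map (T₂ ∘ τ₂) = (μ.restrict I).map id :=
        Measure.map_congr ((ae_restrict_iff' hI).2 (ae_of_all _ f3))
      rw [this, Measure.map_id]
    have e0 : μ.map T₂ = (μ.restrict I).map T₂ + ((μ.restrict I).map τ₁).map T₂
        + ((μ.restrict I).map τ₂).map T₂ := by
      rw [← Measure.map_add _ _ hT₂, ← Measure.map_add _ _ hT₂, ← hμ]
    rw [e0, e1, e2, e3]
    conv_rhs => rw [hμ]
    abel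
  have hmapT₃ : μ.map (T₂ ∘ T₂) = μ := by
    rw [← Measure.map_map hT₂ hT₂, hmapT₂, hmapT₂]
  refine ⟨T₂, T₂ ∘ T₂, hT₂, hT₂.comp hT₂, hmapT₂, hmapT₃, ?_⟩
  have hF : Measurable (fun x : E => c (x, T₂ x, (T₂ ∘ T₂) x)) :=
    hc.comp (measurable_id.prodMk (hT₂.prodMk (hT₂.comp hT₂)))
  have e0 : ∫⁻ x, c (x, T₂ x, (T₂ ∘ T₂) x) ∂μ
      = ∫⁻ x, c (x, T₂ x, (T₂ ∘ T₂) x) ∂(μ.restrict I)
        + ∫⁻ x, c (x, T₂ x, (T₂ ∘ T₂) x) ∂((μ.restrict I).map τ₁)
        + ∫⁻ x, c (x, T₂ x, (T₂ ∘ T₂) x) ∂((μ.restrict I).map τ₂) := by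
    rw [← lintegral_add_measure, ← lintegral_add_measure, ← hμ]
  rw [e0, lintegral_map hF h₁, lintegral_map hF h₂]
  have g1 : ∫⁻ x in I, c (x, T₂ x, (T₂ ∘ T₂) x) ∂μ = ∫⁻ x in I, c (x, τ₁ x, τ₂ x) ∂μ := by
    refine setLIntegral_congr_fun hI (fun x hx => ?_)
    show c (x, T₂ x, T₂ (T₂ x)) = c (x, τ₁ x, τ₂ x)
    rw [f1 x hx, f2 x hx]
  have g2 : ∫⁻ x in I, c (τ₁ x, T₂ (τ₁ x), (T₂ ∘ T₂) (τ₁ x)) ∂μ
      = ∫⁻ x in I, c (x, τ₁ x, τ₂ x) ∂μ := by
    refine setLIntegral_congr_fun hI (fun x hx => ?_)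
    show c (τ₁ x, T₂ (τ₁ x), T₂ (T₂ (τ₁ x))) = c (x, τ₁ x, τ₂ x)
    rw [f2 x hx, f3 x hx, hcyc x (τ₁ x) (τ₂ x), hcyc (τ₂ x) x (τ₁ x)]
  have g3 : ∫⁻ x in I, c (τ₂ x, T₂ (τ₂ x), (T₂ ∘ T₂) (τ₂ x)) ∂μ
      = ∫⁻ x in I, c (x, τ₁ x, τ₂ x) ∂μ := by
    refine setLIntegral_congr_fun hI (fun x hx => ?_)
    show c (τ₂ x, T₂ (τ₂ x), T₂ (T₂ (τ₂ x))) = c (x, τ₁ x, τ₂ x)
    rw [f3 x hx, f1 x hx, hcyc x (τ₁ x) (τ₂ x)]
  rw [g1, g2, g3]
  ring

/-- **Abstract main theorem.** From the geometric data (`G1`–`G4` in the module docstring of the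
project) one gets an optimal plan of finite cost, no Monge minimiser, and Monge plans with cost
arbitrarily close to the minimum. -/
theorem abstract_main [StandardBorelSpace E] (μ : Measure E) [IsFiniteMeasure μ]
    (I S : Set E) (hI : MeasurableSet I) (hS : MeasurableSet S) (hSμ : μ Sᶜ = 0) (hI0 : μ I ≠ 0)
    (a b : E → E) (ha : Measurable a) (hb : Measurable b)
    (hainj : Set.InjOn a I) (hbinj : Set.InjOn b I)
    (hab : (μ.restrict I).map a = (μ.restrict I).map b)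
    (hμ : μ = μ.restrict I + (μ.restrict I).map a + (μ.restrict I).map b)
    (u : E → ℝ) (hu : Integrable u μ)
    (c : E × E × E → ℝ≥0∞) (hc : Measurable c) (hcyc : ∀ x y z, c (x, y, z) = c (z, x, y))
    (hdual : ∀ x ∈ S, ∀ y ∈ S, ∀ z ∈ S, ENNReal.ofReal (u x + u y + u z) ≤ c (x, y, z))
    (heq : ∀ x ∈ I, c (x, a x, b x) = ENNReal.ofReal (u x + u (a x) + u (b x)))
    (hnn : ∀ x ∈ I, 0 ≤ u x + u (a x) + u (b x))
    (hrig : ∀ T₂ T₃ : E → E, Measurable T₂ → Measurable T₃ → μ.map T₂ = μ → μ.map T₃ = μ →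
      (∀ᵐ x ∂μ, c (x, T₂ x, T₃ x) = ENNReal.ofReal (u x + u (T₂ x) + u (T₃ x))) →
      ∀ᵐ x ∂μ, (x ∈ I → T₂ x ∉ I) ∧ (x ∉ I → T₂ x ∈ I → (x = a (T₂ x) ∨ x = b (T₂ x))))
    (happrox : ∀ ε : ℝ, 0 < ε → ∃ τ₁ τ₂ : E → E, Measurable τ₁ ∧ Measurable τ₂ ∧
      Set.InjOn τ₁ I ∧ Set.InjOn τ₂ I ∧ (∀ x ∈ I, τ₁ x ∉ I) ∧ (∀ x ∈ I, τ₂ x ∉ I) ∧
      (∀ x ∈ I, ∀ y ∈ I, τ₁ x ≠ τ₂ y) ∧
      μ = μ.restrict I + (μ.restrict I).map τ₁ + (μ.restrict I).map τ₂ ∧
      ∀ x ∈ I, c (x, τ₁ x, τ₂ x) ≤ c (x, a x, b x) + ENNReal.ofReal ε) :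
    ∃ π₀ : Measure (E × E × E), IsCoupling₃ μ π₀ ∧ ∫⁻ p, c p ∂π₀ < ⊤ ∧
      (∀ π : Measure (E × E × E), IsCoupling₃ μ π → ∫⁻ p, c p ∂π₀ ≤ ∫⁻ p, c p ∂π) ∧
      (∀ T₂ T₃ : E → E, Measurable T₂ → Measurable T₃ → μ.map T₂ = μ → μ.map T₃ = μ →
        ∫⁻ p, c p ∂π₀ < ∫⁻ x, c (x, T₂ x, T₃ x) ∂μ) ∧
      (∀ ε : ℝ≥0∞, 0 < ε → ∃ T₂ T₃ : E → E, Measurable T₂ ∧ Measurable T₃ ∧
        μ.map T₂ = μ ∧ μ.map T₃ = μ ∧
        ∫⁻ x, c (x, T₂ x, T₃ x) ∂μ < ∫⁻ p, c p ∂π₀ + ε) := by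
  have hcost : ∫⁻ p, c p ∂(plan₃ μ I a b) = ENNReal.ofReal (3 * ∫ x, u x ∂μ) :=
    lintegral_plan₃_eq_ofReal μ I hI a b ha hb hμ u hu c hc hcyc heq hnn
  have hcost' : ∫⁻ p, c p ∂(plan₃ μ I a b) = 3 * ∫⁻ x in I, c (x, a x, b x) ∂μ :=
    lintegral_plan₃ μ I a b ha hb c hc hcyc
  have hfin : ∫⁻ p, c p ∂(plan₃ μ I a b) < ⊤ := by rw [hcost]; exact ENNReal.ofReal_lt_top
  refine ⟨plan₃ μ I a b, plan₃_isCoupling μ I a b ha hb hμ, hfin, ?_, ?_, ?_⟩
  · intro π hπ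
    rw [hcost]
    exact weak_duality μ S hS hSμ u hu c hdual π hπ
  · intro T₂ T₃ hT₂ hT₃ hm₂ hm₃
    by_contra hnot
    have hle : ∫⁻ x, c (x, T₂ x, T₃ x) ∂μ ≤ ENNReal.ofReal (3 * ∫ x, u x ∂μ) := by
      rw [← hcost]; exact not_lt.mp hnot
    have hcontact := ae_contact_of_le μ S hS hSμ u hu c hc hdual T₂ T₃ hT₂ hT₃ hm₂ hm₃ hle
    exact no_monge_of_rigid μ I hI hI0 a b ha hb hainj hbinj hab hμ T₂ hT₂ hm₂
      (hrig T₂ T₃ hT₂ hT₃ hm₂ hm₃ hcontact)
  · intro ε hε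
    have hfinI : 3 * μ I ≠ ⊤ := ENNReal.mul_ne_top (by norm_num) (measure_ne_top μ I)
    obtain ⟨n, hn0, hn⟩ := ENNReal.exists_nnreal_pos_mul_lt hfinI hε.ne'
    obtain ⟨τ₁, τ₂, h₁, h₂, hinj₁, hinj₂, hd₁, hd₂, hd₁₂, hμ', hclose⟩ :=
      happrox (n : ℝ) (by exact_mod_cast hn0)
    obtain ⟨T₂, T₃, hT₂, hT₃, hm₂, hm₃, hcostT⟩ :=
      exists_monge_maps μ I hI τ₁ τ₂ h₁ h₂ hinj₁ hinj₂ hd₁ hd₂ hd₁₂ hμ' c hc hcyc
    refine ⟨T₂, T₃, hT₂, hT₃, hm₂, hm₃, ?_⟩
    rw [hcostT]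
    have hle : ∫⁻ x in I, c (x, τ₁ x, τ₂ x) ∂μ
        ≤ ∫⁻ x in I, c (x, a x, b x) ∂μ + (n : ℝ≥0∞) * μ I := by
      calc ∫⁻ x in I, c (x, τ₁ x, τ₂ x) ∂μ
          ≤ ∫⁻ x in I, (c (x, a x, b x) + ENNReal.ofReal (n : ℝ)) ∂μ :=
            setLIntegral_mono' hI (fun x hx => hclose x hx)
        _ = ∫⁻ x in I, c (x, a x, b x) ∂μ + (n : ℝ≥0∞) * μ I := by
            rw [lintegral_add_right _ measurable_const, setLIntegral_const,
              ENNReal.ofReal_coe_nnreal]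
    calc 3 * ∫⁻ x in I, c (x, τ₁ x, τ₂ x) ∂μ
        ≤ 3 * (∫⁻ x in I, c (x, a x, b x) ∂μ + (n : ℝ≥0∞) * μ I) := by gcongr
      _ = ∫⁻ p, c p ∂(plan₃ μ I a b) + (n : ℝ≥0∞) * (3 * μ I) := by rw [hcost']; ring
      _ < ∫⁻ p, c p ∂(plan₃ μ I a b) + ε := ENNReal.add_lt_add_left hfin.ne hn

end Crest.Agent.S0175
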