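import Crest.Agent.S0175.CircleCompress
import Crest.Agent.S0175.CostBasics

/-!
# Row 130 (S0175): Monge approximants from angular compression (generic)

`happrox_of_circle` produces exactly the hypothesis `happrox` of `abstract_main`
(`Crest/Agent/S0175/Abstract.lean`) from a circle action under which the twin measure
`a # μ|I = b # μ|I` is invariant: the approximate twin maps are `compress₁ ∘ a`, `compress₂ ∘ b`
for a large number `N` of sectors.
-/

set_option autoImplicit false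
open MeasureTheory Set
open scoped ENNReal

namespace Crest.Agent.S0175lib

open Crest.AnalysisR.OT Crest.Agent.S0175 Real

theorem happrox_of_circle {E : Type*} [NormedAddCommGroup E] [MeasurableSpace E]
    (μ : Measure E) [IsFiniteMeasure μ] (I : Set E) (a b : E → E)
    (ha : Measurable a) (hb : Measurable b) (hainj : InjOn a I) (hbinj : InjOn b I)
    (hab : (μ.restrict I).map a = (μ.restrict I).map b)
    (hμ : μ = μ.restrict I + (μ.restrict I).map a + (μ.restrict I).map b)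
    (R : ℝ → E → E) (hR : IsCircleAction R)
    (hνR : ∀ θ, ((μ.restrict I).map a).map (R θ) = (μ.restrict I).map a)
    (z : E → ℂ) (hz : Measurable z)
    (hzR : ∀ θ x, z (R θ x) = Complex.exp (θ * Complex.I) * z x)
    (hza : ∀ x ∈ I, z (a x) ≠ 0) (hzb : ∀ x ∈ I, z (b x) ≠ 0)
    (hRa : ∀ x ∈ I, ∀ θ, R θ (a x) ∉ I) (hRb : ∀ x ∈ I, ∀ θ, R θ (b x) ∉ I)
    (hRdist : ∀ θ y, ‖R θ y - y‖ ≤ |θ| * ‖y‖)
    (M r s : ℝ) (hs : 0 < s) (hr : 0 < r)
    (hMa : ∀ x ∈ I, ‖a x‖ ≤ M) (hMb : ∀ x ∈ I, ‖b x‖ ≤ M)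
    (h1 : ∀ x ∈ I, r ≤ ‖x - a x‖) (h2 : ∀ x ∈ I, r ≤ ‖x - b x‖)
    (h3 : ∀ x ∈ I, r ≤ ‖a x - b x‖) :
    ∀ ε : ℝ, 0 < ε → ∃ τ₁ τ₂ : E → E, Measurable τ₁ ∧ Measurable τ₂ ∧
      Set.InjOn τ₁ I ∧ Set.InjOn τ₂ I ∧ (∀ x ∈ I, τ₁ x ∉ I) ∧ (∀ x ∈ I, τ₂ x ∉ I) ∧
      (∀ x ∈ I, ∀ y ∈ I, τ₁ x ≠ τ₂ y) ∧
      μ = μ.restrict I + (μ.restrict I).map τ₁ + (μ.restrict I).map τ₂ ∧
      ∀ x ∈ I, tripleCost s (x, τ₁ x, τ₂ x)
        ≤ tripleCost s (x, a x, b x) + ENNReal.ofReal ε := by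
  intro ε hε
  -- constants
  set M' : ℝ := |M| + 1 with hM'
  have hM'pos : 0 < M' := by positivity
  have hMM' : M ≤ M' := by linarith [le_abs_self M]
  set K : ℝ := 4 * s * (r / 2) ^ (-s - 1) with hK
  have hKpos : 0 < K := by
    have : 0 < (r / 2) ^ (-s - 1) := Real.rpow_pos_of_pos (by positivity) _
    positivity
  set δ₀ : ℝ := min (r / 4) (ε / K) with hδ₀
  have hδ₀pos : 0 < δ₀ := lt_min (by positivity) (by positivity)
  obtain ⟨N, hNgt⟩ := exists_nat_gt (π * M' / δ₀)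
  have hNpos : (0 : ℝ) < N := lt_trans (by positivity) hNgt
  have hN0 : 0 < N := Nat.cast_pos.mp hNpos
  set δ : ℝ := π / N * M' with hδ
  have hδ0 : 0 ≤ δ := by positivity
  have hδle : δ ≤ δ₀ := by
    rw [hδ, div_mul_eq_mul_div, div_le_iff₀ hNpos]
    rw [div_lt_iff₀ hδ₀pos] at hNgt
    linarith
  have hδ4 : 4 * δ ≤ r := by
    have := hδle.trans (min_le_left _ _)
    linarith
  have hKδ : K * δ ≤ ε := by
    have := hδle.trans (min_le_right _ _)
    rw [le_div_iff₀ hKpos] at this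
    linarith
  -- the twin measure
  set ν : Measure E := (μ.restrict I).map a with hνdef
  have hz0 : ∀ᵐ y ∂ν, z y ≠ 0 := by
    have hS : MeasurableSet {y | z y = 0} := measurableSet_eq_fun hz measurable_const
    rw [ae_iff]
    simp only [not_not]
    rw [hνdef, Measure.map_apply ha hS, Measure.restrict_apply (ha hS)]
    have : a ⁻¹' {y | z y = 0} ∩ I = ∅ := by
      ext x
      simp only [mem_inter_iff, mem_preimage, mem_ofPred_eq, mem_empty_iff_false, iff_false,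
        not_and]
      intro h hx
      exact hza x hx h
    rw [this, measure_empty]
  have hC1 := measurable_compress₁ hR hz N
  have hC2 := measurable_compress₂ hR hz N
  refine ⟨fun x => compress₁ R z N (a x), fun x => compress₂ R z N (b x), hC1.comp ha,
    hC2.comp hb, ?_, ?_, ?_, ?_, ?_, ?_, ?_⟩
  · intro x hx y hy hxy
    have := congrArg (expand R z N) hxy
    simp only at this
    rw [expand_compress₁ hR hzR N hN0 (hza x hx), expand_compress₁ hR hzR N hN0 (hza y hy)] at this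
    exact hainj hx hy this
  · intro x hx y hy hxy
    have := congrArg (unCompress₂ R z N) hxy
    simp only at this
    rw [unCompress₂_compress₂ hR hzR N hN0 (hzb x hx),
      unCompress₂_compress₂ hR hzR N hN0 (hzb y hy)] at this
    exact hbinj hx hy this
  · intro x hx
    exact hRa x hx _
  · intro x hx
    exact hRb x hx _
  · intro x hx y hy heq
    have m1 := compress₁_mem_upperSet hzR N hN0 (hza x hx)
    have m2 := (arg_compress₂ hzR N hN0 (hzb y hy)).2
    simp only at heq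
    rw [heq] at m1
    exact m2 m1
  · have e1 : (μ.restrict I).map (fun x => compress₁ R z N (a x)) = ν.map (compress₁ R z N) :=
      (Measure.map_map hC1 ha).symm
    have e2 : (μ.restrict I).map (fun x => compress₂ R z N (b x)) = ν.map (compress₂ R z N) := by
      rw [hab]
      exact (Measure.map_map hC2 hb).symm
    have e3 := map_compress_add hR ν hνR hz hzR hz0 N hN0
    rw [e1, e2, add_assoc, e3, two_smul, ← add_assoc]
    conv_lhs => rw [hμ, ← hab]
  · intro x hx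
    have hy : ‖compress₁ R z N (a x) - a x‖ ≤ δ := by
      calc ‖compress₁ R z N (a x) - a x‖
          ≤ |-(argPos (z (a x) ^ N)) / (2 * N)| * ‖a x‖ := hRdist _ _
        _ ≤ π / N * M' := by
            apply mul_le_mul (abs_compress₁_angle_le _ N hN0) ((hMa x hx).trans hMM')
              (norm_nonneg _) (by positivity)
    have hz' : ‖compress₂ R z N (b x) - b x‖ ≤ δ := by
      calc ‖compress₂ R z N (b x) - b x‖
          ≤ |(2 * π - argPos (z (b x) ^ N)) / (2 * N)| * ‖b x‖ := hRdist _ _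
        _ ≤ π / N * M' := by
            apply mul_le_mul (abs_compress₂_angle_le _ N hN0) ((hMb x hx).trans hMM')
              (norm_nonneg _) (by positivity)
    have := tripleCost_le_add_of_close hs hr hδ0 hδ4 (h1 x hx) (h2 x hx) (h3 x hx) hy hz'
    exact this.trans (add_le_add le_rfl (ENNReal.ofReal_le_ofReal hKδ))

/-- The hypothesis `hcomp` of `approx_of_compress` (`Crest/Agent/S0175/ApproxGlue.lean`) from a
norm-preserving circle action, with good set `G = {y | z y ≠ 0}`. -/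
theorem hcomp_of_circle {E : Type*} [NormedAddCommGroup E] [MeasurableSpace E]
    (νO : Measure E) [SFinite νO] (R : ℝ → E → E) (hR : IsCircleAction R)
    (hνR : ∀ θ, νO.map (R θ) = νO) (z : E → ℂ) (hz : Measurable z)
    (hzR : ∀ θ x, z (R θ x) = Complex.exp (θ * Complex.I) * z x)
    (hz0 : ∀ᵐ y ∂νO, z y ≠ 0)
    (hRnorm : ∀ θ y, ‖R θ y‖ = ‖y‖) (hRdist : ∀ θ y, ‖R θ y - y‖ ≤ |θ| * ‖y‖) :
    ∀ δ : ℝ, 0 < δ → ∃ C₁ C₂ : E → E, Measurable C₁ ∧ Measurable C₂ ∧
      Set.InjOn C₁ {y | z y ≠ 0} ∧ Set.InjOn C₂ {y | z y ≠ 0} ∧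
      (∀ x ∈ {y | z y ≠ 0}, ∀ y ∈ {y | z y ≠ 0}, C₁ x ≠ C₂ y) ∧
      (∀ x ∈ {y | z y ≠ 0}, ‖C₁ x‖ = ‖x‖) ∧ (∀ x ∈ {y | z y ≠ 0}, ‖C₂ x‖ = ‖x‖) ∧
      (∀ x ∈ {y | z y ≠ 0}, ‖C₁ x - x‖ ≤ δ * ‖x‖) ∧
      (∀ x ∈ {y | z y ≠ 0}, ‖C₂ x - x‖ ≤ δ * ‖x‖) ∧
      νO.map C₁ + νO.map C₂ = νO + νO := by
  intro δ hδ
  obtain ⟨N, hNgt⟩ := exists_nat_gt (π / δ)
  have hNpos : (0 : ℝ) < N := lt_trans (by positivity) hNgt
  have hN0 : 0 < N := Nat.cast_pos.mp hNpos
  have hNδ : π / N ≤ δ := by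
    rw [div_lt_iff₀ hδ] at hNgt
    rw [div_le_iff₀ hNpos]
    linarith
  refine ⟨compress₁ R z N, compress₂ R z N, measurable_compress₁ hR hz N,
    measurable_compress₂ hR hz N, ?_, ?_, ?_, ?_, ?_, ?_, ?_, ?_⟩
  · intro x hx y hy hxy
    have := congrArg (expand R z N) hxy
    rwa [expand_compress₁ hR hzR N hN0 hx, expand_compress₁ hR hzR N hN0 hy] at this
  · intro x hx y hy hxy
    have := congrArg (unCompress₂ R z N) hxy
    rwa [unCompress₂_compress₂ hR hzR N hN0 hx, unCompress₂_compress₂ hR hzR N hN0 hy] at this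
  · intro x hx y hy heq
    have m1 := compress₁_mem_upperSet hzR N hN0 hx
    have m2 := (arg_compress₂ hzR N hN0 hy).2
    rw [heq] at m1
    exact m2 m1
  · intro x _
    exact hRnorm _ _
  · intro x _
    exact hRnorm _ _
  · intro x _
    calc ‖compress₁ R z N x - x‖ ≤ |-(argPos (z x ^ N)) / (2 * N)| * ‖x‖ := hRdist _ _
      _ ≤ δ * ‖x‖ :=
        mul_le_mul_of_nonneg_right ((abs_compress₁_angle_le _ N hN0).trans hNδ) (norm_nonneg _)
  · intro x _
    calc ‖compress₂ R z N x - x‖ ≤ |(2 * π - argPos (z x ^ N)) / (2 * N)| * ‖x‖ := hRdist _ _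
      _ ≤ δ * ‖x‖ :=
        mul_le_mul_of_nonneg_right ((abs_compress₂_angle_le _ N hN0).trans hNδ) (norm_nonneg _)
  · rw [map_compress_add hR νO hνR hz hzR hz0 N hN0, two_smul]

end Crest.Agent.S0175lib
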