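import Mathlib
import Crest.Prelude.Def_MultiMarginal
import Crest.Agent.S0175.CostBasics

/-!
# Glue for the Monge approximants of S0175 (generic)

From twin maps `a b` on a far region `I` (`‖x‖ ≥ 2`, `‖a x‖, ‖b x‖ ≤ 1`, `‖a x - b x‖ ≥ 1`)
and, for every `δ > 0`, two "compression" maps `C₁ C₂` (norm preserving, moving each point `y` by
at most `δ ‖y‖`, injective on a good set `G`, with separated images, and
`νO.map C₁ + νO.map C₂ = νO + νO`) we get the hypothesis `happrox` of `abstract_main`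
with `τ₁ = C₁ ∘ a`, `τ₂ = C₂ ∘ b`.
-/

set_option autoImplicit false
open MeasureTheory
open scoped ENNReal

namespace Crest.Agent.S0175

open Crest.AnalysisR.OT

theorem approx_of_compress {E : Type*} [NormedAddCommGroup E] [MeasurableSpace E]
    {s : ℝ} (hs : 0 < s) (μ νI νO : Measure E) (I G : Set E) (a b : E → E)
    (ha : Measurable a) (hb : Measurable b)
    (hres : μ.restrict I = νI) (hμ : μ = νI + νO + νO)
    (hpa : νI.map a = νO) (hpb : νI.map b = νO)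
    (hfar : ∀ x ∈ I, 2 ≤ ‖x‖) (hna : ∀ x ∈ I, ‖a x‖ ≤ 1) (hnb : ∀ x ∈ I, ‖b x‖ ≤ 1)
    (hdist : ∀ x ∈ I, 1 ≤ ‖a x - b x‖) (hainj : Set.InjOn a I) (hbinj : Set.InjOn b I)
    (haG : ∀ x ∈ I, a x ∈ G) (hbG : ∀ x ∈ I, b x ∈ G)
    (hcomp : ∀ δ : ℝ, 0 < δ → ∃ C₁ C₂ : E → E, Measurable C₁ ∧ Measurable C₂ ∧
      Set.InjOn C₁ G ∧ Set.InjOn C₂ G ∧ (∀ x ∈ G, ∀ y ∈ G, C₁ x ≠ C₂ y) ∧
      (∀ x ∈ G, ‖C₁ x‖ = ‖x‖) ∧ (∀ x ∈ G, ‖C₂ x‖ = ‖x‖) ∧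
      (∀ x ∈ G, ‖C₁ x - x‖ ≤ δ * ‖x‖) ∧ (∀ x ∈ G, ‖C₂ x - x‖ ≤ δ * ‖x‖) ∧
      νO.map C₁ + νO.map C₂ = νO + νO) :
    ∀ ε : ℝ, 0 < ε → ∃ τ₁ τ₂ : E → E, Measurable τ₁ ∧ Measurable τ₂ ∧
      Set.InjOn τ₁ I ∧ Set.InjOn τ₂ I ∧ (∀ x ∈ I, τ₁ x ∉ I) ∧ (∀ x ∈ I, τ₂ x ∉ I) ∧
      (∀ x ∈ I, ∀ y ∈ I, τ₁ x ≠ τ₂ y) ∧
      μ = μ.restrict I + (μ.restrict I).map τ₁ + (μ.restrict I).map τ₂ ∧
      ∀ x ∈ I, tripleCost s (x, τ₁ x, τ₂ x)
        ≤ tripleCost s (x, a x, b x) + ENNReal.ofReal ε := by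
  intro ε hε
  set K : ℝ := 4 * s * ((1:ℝ) / 2) ^ (-s - 1) with hK
  have hKpos : 0 < K := by positivity
  set δ : ℝ := min (1 / 4) (ε / K) with hδ
  have hδpos : 0 < δ := lt_min (by norm_num) (div_pos hε hKpos)
  have hδ4 : 4 * δ ≤ 1 := by
    have : δ ≤ 1 / 4 := min_le_left _ _
    linarith
  have hδK : K * δ ≤ ε := by
    have h1 : δ ≤ ε / K := min_le_right _ _
    calc K * δ ≤ K * (ε / K) := mul_le_mul_of_nonneg_left h1 hKpos.le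
      _ = ε := by field_simp
  obtain ⟨C₁, C₂, hC₁, hC₂, hC₁inj, hC₂inj, hsep, hn₁, hn₂, hm₁, hm₂, hsum⟩ := hcomp δ hδpos
  refine ⟨C₁ ∘ a, C₂ ∘ b, hC₁.comp ha, hC₂.comp hb, ?_, ?_, ?_, ?_, ?_, ?_, ?_⟩
  · intro x hx y hy hxy
    exact hainj hx hy (hC₁inj (haG x hx) (haG y hy) hxy)
  · intro x hx y hy hxy
    exact hbinj hx hy (hC₂inj (hbG x hx) (hbG y hy) hxy)
  · intro x hx hmem
    have h1 : 2 ≤ ‖C₁ (a x)‖ := hfar _ hmem
    rw [hn₁ _ (haG x hx)] at h1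
    linarith [hna x hx]
  · intro x hx hmem
    have h1 : 2 ≤ ‖C₂ (b x)‖ := hfar _ hmem
    rw [hn₂ _ (hbG x hx)] at h1
    linarith [hnb x hx]
  · intro x hx y hy
    exact hsep _ (haG x hx) _ (hbG y hy)
  · rw [hres, ← Measure.map_map hC₁ ha, ← Measure.map_map hC₂ hb, hpa, hpb, add_assoc, hsum,
      ← add_assoc]
    exact hμ
  · intro x hx
    have hxa : (1:ℝ) ≤ ‖x - a x‖ := by
      have := norm_sub_norm_le x (a x)
      linarith [hfar x hx, hna x hx]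
    have hxb : (1:ℝ) ≤ ‖x - b x‖ := by
      have := norm_sub_norm_le x (b x)
      linarith [hfar x hx, hnb x hx]
    have hy : ‖C₁ (a x) - a x‖ ≤ δ := by
      refine (hm₁ _ (haG x hx)).trans ?_
      calc δ * ‖a x‖ ≤ δ * 1 := mul_le_mul_of_nonneg_left (hna x hx) hδpos.le
        _ = δ := mul_one δ
    have hz : ‖C₂ (b x) - b x‖ ≤ δ := by
      refine (hm₂ _ (hbG x hx)).trans ?_
      calc δ * ‖b x‖ ≤ δ * 1 := mul_le_mul_of_nonneg_left (hnb x hx) hδpos.le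
        _ = δ := mul_one δ
    have hmain := tripleCost_le_add_of_close (s := s) (r := 1) (δ := δ) hs one_pos hδpos.le
      (by linarith) hxa hxb (hdist x hx) hy hz
    refine hmain.trans ?_
    gcongr

end Crest.Agent.S0175
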