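import Crest.Agent.S0175.CircleAvg

/-!
# Row 130 (S0175): angular compression by 2 into half-sectors (driver's module G7)

For a circle action `R` with equivariant complex coordinate `z` and `N ≥ 1`, the two maps
`compress₁`, `compress₂` rotate every point by an angle of absolute value `≤ π / N`, have explicit
measurable left inverses (`expand`, `unCompress₂`), have disjoint images (separated by the label
set `upperSet`), and satisfy `ν.map C₁ = 2 • ν.restrict upperSet`,
`ν.map C₂ = 2 • ν.restrict lowerSet`, `ν.map C₁ + ν.map C₂ = 2 • ν` for every invariant finite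
measure `ν` with `z ≠ 0` a.e.
-/

set_option autoImplicit false
open MeasureTheory Set
open scoped ENNReal

namespace Crest.Agent.S0175lib

open Real

/-- The argument normalised to `[0, 2π)`. -/
noncomputable def argPos (w : ℂ) : ℝ :=
  if 0 ≤ Complex.arg w then Complex.arg w else Complex.arg w + 2 * π

/-- The argument normalised to `[-π, π)`... more precisely to `(-π, 0) ∪ [-π, -π]`-style branch:
`arg w` if negative, `arg w - 2π` otherwise. -/
noncomputable def argNeg (w : ℂ) : ℝ :=
  if Complex.arg w < 0 then Complex.arg w else Complex.arg w - 2 * π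

theorem argPos_nonneg (w : ℂ) : 0 ≤ argPos w := by
  unfold argPos
  split_ifs with h
  · exact h
  · linarith [Complex.neg_pi_lt_arg w, Real.pi_pos]

theorem argPos_lt (w : ℂ) : argPos w < 2 * π := by
  unfold argPos
  split_ifs with h
  · linarith [Complex.arg_le_pi w, Real.pi_pos]
  · linarith [not_le.mp h]

theorem measurable_argPos : Measurable argPos :=
  Measurable.ite (measurableSet_le measurable_const Complex.measurable_arg)
    Complex.measurable_arg (Complex.measurable_arg.add_const _)

theorem measurable_argNeg : Measurable argNeg :=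
  Measurable.ite (measurableSet_lt Complex.measurable_arg measurable_const)
    Complex.measurable_arg (Complex.measurable_arg.sub_const _)

/-- `arg` of the `N`-th power of a rotated point, given the branch. -/
theorem arg_rot_pow (N : ℕ) {z : ℂ} (hz : z ≠ 0) (θ : ℝ) (m : ℤ)
    (h : N * θ + Complex.arg (z ^ N) - 2 * m * π ∈ Ioc (-π) π) :
    Complex.arg ((Complex.exp (θ * Complex.I) * z) ^ N)
      = N * θ + Complex.arg (z ^ N) - 2 * m * π := by
  rw [exp_mul_pow]
  exact arg_exp_mul_of_mem (pow_ne_zero _ hz) _ m h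

section Maps

variable {X : Type*}

/-- Compression into the first half-sectors: rotate back by half of the sector position. -/
noncomputable def compress₁ (R : ℝ → X → X) (z : X → ℂ) (N : ℕ) (x : X) : X :=
  R (-(argPos (z x ^ N)) / (2 * N)) x

/-- Compression into the second half-sectors: rotate forward by half of the remaining part. -/
noncomputable def compress₂ (R : ℝ → X → X) (z : X → ℂ) (N : ℕ) (x : X) : X :=
  R ((2 * π - argPos (z x ^ N)) / (2 * N)) x

/-- Left inverse of `compress₂`. -/
noncomputable def unCompress₂ (R : ℝ → X → X) (z : X → ℂ) (N : ℕ) (x : X) : X :=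
  R (argNeg (z x ^ N) / N) x

/-- The union of the first half-sectors (half-open). -/
def upperSet (z : X → ℂ) (N : ℕ) : Set X :=
  {x | 0 ≤ Complex.arg (z x ^ N) ∧ Complex.arg (z x ^ N) < π}

/-- The union of the (open) second half-sectors. -/
def lowerSet (z : X → ℂ) (N : ℕ) : Set X := {x | (z x ^ N).im < 0}

theorem abs_compress₁_angle_le (w : ℂ) (N : ℕ) (hN : 0 < N) :
    |-(argPos w) / (2 * N)| ≤ π / N := by
  have hNpos : (0 : ℝ) < N := Nat.cast_pos.mpr hN
  have h1 := argPos_nonneg w
  have h2 := argPos_lt w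
  rw [abs_le]
  constructor
  · rw [neg_le, ← neg_div, neg_neg, div_le_div_iff₀ (by positivity) hNpos]
    nlinarith
  · have : -(argPos w) / (2 * N) ≤ 0 := by
      apply div_nonpos_of_nonpos_of_nonneg <;> [linarith; positivity]
    have : 0 ≤ π / N := by positivity
    linarith

theorem abs_compress₂_angle_le (w : ℂ) (N : ℕ) (hN : 0 < N) :
    |(2 * π - argPos w) / (2 * N)| ≤ π / N := by
  have hNpos : (0 : ℝ) < N := Nat.cast_pos.mpr hN
  have h1 := argPos_nonneg w
  have h2 := argPos_lt w
  rw [abs_of_nonneg (by apply div_nonneg <;> [linarith; positivity]),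
    div_le_div_iff₀ (by positivity) hNpos]
  nlinarith

variable {R : ℝ → X → X} {z : X → ℂ}

/-- After `compress₁` the argument of `z ^ N` is half of the normalised argument. -/
theorem arg_compress₁ (hzR : ∀ θ x, z (R θ x) = Complex.exp (θ * Complex.I) * z x)
    (N : ℕ) (hN : 0 < N) {x : X} (hx : z x ≠ 0) :
    Complex.arg (z (compress₁ R z N x) ^ N) = argPos (z x ^ N) / 2 := by
  have hNpos : (0 : ℝ) < N := Nat.cast_pos.mpr hN
  have hNne : (N : ℝ) ≠ 0 := hNpos.ne'
  unfold compress₁
  rw [hzR]
  have e0 : (N : ℝ) * (-(argPos (z x ^ N)) / (2 * N)) = -(argPos (z x ^ N)) / 2 := by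
    field_simp
  have hl := Complex.neg_pi_lt_arg (z x ^ N)
  have hu := Complex.arg_le_pi (z x ^ N)
  by_cases h : 0 ≤ Complex.arg (z x ^ N)
  · have ep : argPos (z x ^ N) = Complex.arg (z x ^ N) := if_pos h
    have := arg_rot_pow N hx (-(argPos (z x ^ N)) / (2 * N)) 0 (by
      rw [e0, ep]; constructor <;> [(simp only [Int.cast_zero]; linarith [Real.pi_pos]);
        (simp only [Int.cast_zero]; linarith [Real.pi_pos])])
    rw [this, e0, ep]; simp only [Int.cast_zero]; ring
  · have ep : argPos (z x ^ N) = Complex.arg (z x ^ N) + 2 * π := if_neg h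
    have h' := not_le.mp h
    have := arg_rot_pow N hx (-(argPos (z x ^ N)) / (2 * N)) (-1) (by
      rw [e0, ep]; constructor <;> [(push_cast; linarith [Real.pi_pos]);
        (push_cast; linarith [Real.pi_pos])])
    rw [this, e0, ep]; push_cast; ring

theorem compress₁_mem_upperSet (hzR : ∀ θ x, z (R θ x) = Complex.exp (θ * Complex.I) * z x)
    (N : ℕ) (hN : 0 < N) {x : X} (hx : z x ≠ 0) : compress₁ R z N x ∈ upperSet z N := by
  show 0 ≤ Complex.arg (z (compress₁ R z N x) ^ N) ∧ Complex.arg (z (compress₁ R z N x) ^ N) < π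
  rw [arg_compress₁ hzR N hN hx]
  constructor
  · linarith [argPos_nonneg (z x ^ N)]
  · linarith [argPos_lt (z x ^ N)]

/-- After `compress₂` the argument of `z ^ N` is in `(-π, 0) ∪ {π}`, with `argNeg` equal to
half of the normalised argument minus `π`. -/
theorem arg_compress₂ (hzR : ∀ θ x, z (R θ x) = Complex.exp (θ * Complex.I) * z x)
    (N : ℕ) (hN : 0 < N) {x : X} (hx : z x ≠ 0) :
    argNeg (z (compress₂ R z N x) ^ N) = argPos (z x ^ N) / 2 - π ∧
      compress₂ R z N x ∉ upperSet z N := by
  have hNpos : (0 : ℝ) < N := Nat.cast_pos.mpr hN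
  have hNne : (N : ℝ) ≠ 0 := hNpos.ne'
  have e0 : (N : ℝ) * ((2 * π - argPos (z x ^ N)) / (2 * N)) = π - argPos (z x ^ N) / 2 := by
    field_simp
  have hl := Complex.neg_pi_lt_arg (z x ^ N)
  have hu := Complex.arg_le_pi (z x ^ N)
  have hzc : z (compress₂ R z N x)
      = Complex.exp ((((2 * π - argPos (z x ^ N)) / (2 * N) : ℝ) : ℂ) * Complex.I) * z x := by
    unfold compress₂; rw [hzR]
  show argNeg (z (compress₂ R z N x) ^ N) = argPos (z x ^ N) / 2 - π ∧
    ¬ (0 ≤ Complex.arg (z (compress₂ R z N x) ^ N) ∧ Complex.arg (z (compress₂ R z N x) ^ N) < π)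
  rw [hzc]
  rcases lt_trichotomy (Complex.arg (z x ^ N)) 0 with h | h | h
  · have ep : argPos (z x ^ N) = Complex.arg (z x ^ N) + 2 * π := if_neg (not_le.mpr h)
    have := arg_rot_pow N hx ((2 * π - argPos (z x ^ N)) / (2 * N)) 0 (by
      rw [e0, ep]; constructor <;> [(simp only [Int.cast_zero]; linarith [Real.pi_pos]);
        (simp only [Int.cast_zero]; linarith [Real.pi_pos])])
    have hval : Complex.arg ((Complex.exp ((((2 * π - argPos (z x ^ N)) / (2 * N) : ℝ) : ℂ)
        * Complex.I) * z x) ^ N) = Complex.arg (z x ^ N) / 2 := by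
      rw [this, e0, ep]; simp only [Int.cast_zero]; ring
    have hneg : Complex.arg (z x ^ N) / 2 < 0 := by linarith
    constructor
    · unfold argNeg; rw [hval, if_pos hneg, ep]; ring
    · rw [hval]; intro hc; linarith [hc.1]
  · have ep : argPos (z x ^ N) = Complex.arg (z x ^ N) := if_pos h.ge
    have := arg_rot_pow N hx ((2 * π - argPos (z x ^ N)) / (2 * N)) 0 (by
      rw [e0, ep, h]; constructor <;> [(simp only [Int.cast_zero]; linarith [Real.pi_pos]);
        (simp only [Int.cast_zero]; linarith [Real.pi_pos])])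
    have hval : Complex.arg ((Complex.exp ((((2 * π - argPos (z x ^ N)) / (2 * N) : ℝ) : ℂ)
        * Complex.I) * z x) ^ N) = π := by
      rw [this, e0, ep, h]; simp only [Int.cast_zero]; ring
    constructor
    · unfold argNeg; rw [hval, if_neg (by linarith [Real.pi_pos]), ep, h]; ring
    · rw [hval]; intro hc; linarith [hc.2]
  · have ep : argPos (z x ^ N) = Complex.arg (z x ^ N) := if_pos h.le
    have := arg_rot_pow N hx ((2 * π - argPos (z x ^ N)) / (2 * N)) 1 (by
      rw [e0, ep]; constructor <;> [(push_cast; linarith [Real.pi_pos]);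
        (push_cast; linarith [Real.pi_pos])])
    have hval : Complex.arg ((Complex.exp ((((2 * π - argPos (z x ^ N)) / (2 * N) : ℝ) : ℂ)
        * Complex.I) * z x) ^ N) = Complex.arg (z x ^ N) / 2 - π := by
      rw [this, e0, ep]; push_cast; ring
    have hneg : Complex.arg (z x ^ N) / 2 - π < 0 := by linarith
    constructor
    · unfold argNeg; rw [hval, if_pos hneg, ep]
    · rw [hval]; intro hc; linarith [hc.1]

end Maps

section Inverses

variable {X : Type*} {R : ℝ → X → X} {z : X → ℂ}

/-- `expand` is a left inverse of `compress₁` (wherever `z ≠ 0`). -/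
theorem expand_compress₁ [MeasurableSpace X] (hR : IsCircleAction R)
    (hzR : ∀ θ x, z (R θ x) = Complex.exp (θ * Complex.I) * z x)
    (N : ℕ) (hN : 0 < N) {x : X} (hx : z x ≠ 0) :
    expand R z N (compress₁ R z N x) = x := by
  have hNpos : (0 : ℝ) < N := Nat.cast_pos.mpr hN
  have hNne : (N : ℝ) ≠ 0 := hNpos.ne'
  unfold expand
  rw [arg_compress₁ hzR N hN hx]
  unfold compress₁
  rw [← hR.add]
  have : argPos (z x ^ N) / 2 / N + -(argPos (z x ^ N)) / (2 * N) = 0 := by
    field_simp; ring
  rw [this, hR.zero]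

/-- `unCompress₂` is a left inverse of `compress₂` (wherever `z ≠ 0`). -/
theorem unCompress₂_compress₂ [MeasurableSpace X] (hR : IsCircleAction R)
    (hzR : ∀ θ x, z (R θ x) = Complex.exp (θ * Complex.I) * z x)
    (N : ℕ) (hN : 0 < N) {x : X} (hx : z x ≠ 0) :
    unCompress₂ R z N (compress₂ R z N x) = x := by
  have hNpos : (0 : ℝ) < N := Nat.cast_pos.mpr hN
  have hNne : (N : ℝ) ≠ 0 := hNpos.ne'
  unfold unCompress₂
  rw [(arg_compress₂ hzR N hN hx).1]
  unfold compress₂
  rw [← hR.add]
  have : (argPos (z x ^ N) / 2 - π) / N + (2 * π - argPos (z x ^ N)) / (2 * N) = 0 := by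
    field_simp; ring
  rw [this, hR.zero]

/-- `compress₁` is a left inverse of `expand` on the first half-sectors. -/
theorem compress₁_expand [MeasurableSpace X] (hR : IsCircleAction R)
    (hzR : ∀ θ x, z (R θ x) = Complex.exp (θ * Complex.I) * z x)
    (N : ℕ) (hN : 0 < N) {x : X} (hx : z x ≠ 0) (hxU : x ∈ upperSet z N) :
    compress₁ R z N (expand R z N x) = x := by
  have hNpos : (0 : ℝ) < N := Nat.cast_pos.mpr hN
  have hNne : (N : ℝ) ≠ 0 := hNpos.ne'
  obtain ⟨h0, h1⟩ := hxU
  have e0 : (N : ℝ) * (Complex.arg (z x ^ N) / N) = Complex.arg (z x ^ N) := by field_simp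
  have key : argPos (z (expand R z N x) ^ N) = 2 * Complex.arg (z x ^ N) := by
    unfold expand
    rw [hzR]
    by_cases h : 2 * Complex.arg (z x ^ N) ≤ π
    · have := arg_rot_pow N hx (Complex.arg (z x ^ N) / N) 0 (by
        rw [e0]; constructor <;> [(simp only [Int.cast_zero]; linarith [Real.pi_pos]);
          (simp only [Int.cast_zero]; linarith [Real.pi_pos])])
      have hval : Complex.arg ((Complex.exp (((Complex.arg (z x ^ N) / N : ℝ) : ℂ) * Complex.I)
          * z x) ^ N) = 2 * Complex.arg (z x ^ N) := by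
        rw [this, e0]; simp only [Int.cast_zero]; ring
      unfold argPos
      rw [hval, if_pos (by linarith)]
    · have h' := not_le.mp h
      have := arg_rot_pow N hx (Complex.arg (z x ^ N) / N) 1 (by
        rw [e0]; constructor <;> [(push_cast; linarith [Real.pi_pos]);
          (push_cast; linarith [Real.pi_pos])])
      have hval : Complex.arg ((Complex.exp (((Complex.arg (z x ^ N) / N : ℝ) : ℂ) * Complex.I)
          * z x) ^ N) = 2 * Complex.arg (z x ^ N) - 2 * π := by
        rw [this, e0]; push_cast; ring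
      unfold argPos
      rw [hval, if_neg (by linarith)]; ring
  unfold compress₁
  rw [key]
  unfold expand
  rw [← hR.add]
  have : -(2 * Complex.arg (z x ^ N)) / (2 * N) + Complex.arg (z x ^ N) / N = 0 := by
    field_simp; ring
  rw [this, hR.zero]

/-- `compress₂` is a left inverse of `expand` on the second half-sectors. -/
theorem compress₂_expand [MeasurableSpace X] (hR : IsCircleAction R)
    (hzR : ∀ θ x, z (R θ x) = Complex.exp (θ * Complex.I) * z x)
    (N : ℕ) (hN : 0 < N) {x : X} (hx : z x ≠ 0) (hxL : x ∈ lowerSet z N) :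
    compress₂ R z N (expand R z N x) = x := by
  have hNpos : (0 : ℝ) < N := Nat.cast_pos.mpr hN
  have hNne : (N : ℝ) ≠ 0 := hNpos.ne'
  have h0 : Complex.arg (z x ^ N) < 0 := Complex.arg_neg_iff.mpr hxL
  have hl := Complex.neg_pi_lt_arg (z x ^ N)
  have e0 : (N : ℝ) * (Complex.arg (z x ^ N) / N) = Complex.arg (z x ^ N) := by field_simp
  have key : argPos (z (expand R z N x) ^ N) = 2 * Complex.arg (z x ^ N) + 2 * π := by
    unfold expand
    rw [hzR]
    by_cases h : -π < 2 * Complex.arg (z x ^ N)
    · have := arg_rot_pow N hx (Complex.arg (z x ^ N) / N) 0 (by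
        rw [e0]; constructor <;> [(simp only [Int.cast_zero]; linarith [Real.pi_pos]);
          (simp only [Int.cast_zero]; linarith [Real.pi_pos])])
      have hval : Complex.arg ((Complex.exp (((Complex.arg (z x ^ N) / N : ℝ) : ℂ) * Complex.I)
          * z x) ^ N) = 2 * Complex.arg (z x ^ N) := by
        rw [this, e0]; simp only [Int.cast_zero]; ring
      unfold argPos
      rw [hval, if_neg (by linarith)]
    · have h' := not_lt.mp h
      have := arg_rot_pow N hx (Complex.arg (z x ^ N) / N) (-1) (by
        rw [e0]; constructor <;> [(push_cast; linarith [Real.pi_pos]);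
          (push_cast; linarith [Real.pi_pos])])
      have hval : Complex.arg ((Complex.exp (((Complex.arg (z x ^ N) / N : ℝ) : ℂ) * Complex.I)
          * z x) ^ N) = 2 * Complex.arg (z x ^ N) + 2 * π := by
        rw [this, e0]; push_cast; ring
      unfold argPos
      rw [hval, if_pos (by linarith)]
  unfold compress₂
  rw [key]
  unfold expand
  rw [← hR.add]
  have : (2 * π - (2 * Complex.arg (z x ^ N) + 2 * π)) / (2 * N) + Complex.arg (z x ^ N) / N
      = 0 := by
    field_simp; ring
  rw [this, hR.zero]

end Inverses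

section Measure

variable {X : Type*} [MeasurableSpace X] {R : ℝ → X → X} {z : X → ℂ}

theorem measurable_compress₁ (hR : IsCircleAction R) (hz : Measurable z) (N : ℕ) :
    Measurable (compress₁ R z N) :=
  hR.meas.comp ((((measurable_argPos.comp (hz.pow_const N)).neg).div_const _).prodMk
    measurable_id)

theorem measurable_compress₂ (hR : IsCircleAction R) (hz : Measurable z) (N : ℕ) :
    Measurable (compress₂ R z N) :=
  hR.meas.comp (((measurable_const.sub (measurable_argPos.comp (hz.pow_const N))).div_const _).prodMk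
    measurable_id)

theorem measurable_unCompress₂ (hR : IsCircleAction R) (hz : Measurable z) (N : ℕ) :
    Measurable (unCompress₂ R z N) :=
  hR.meas.comp (((measurable_argNeg.comp (hz.pow_const N)).div_const _).prodMk measurable_id)

theorem measurableSet_upperSet (hz : Measurable z) (N : ℕ) : MeasurableSet (upperSet z N) :=
  (measurableSet_le measurable_const (Complex.measurable_arg.comp (hz.pow_const N))).inter
    (measurableSet_lt (Complex.measurable_arg.comp (hz.pow_const N)) measurable_const)

theorem measurableSet_lowerSet (hz : Measurable z) (N : ℕ) : MeasurableSet (lowerSet z N) :=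
  measurableSet_lt (Complex.measurable_im.comp (hz.pow_const N)) measurable_const

omit [MeasurableSpace X] in
theorem disjoint_upperSet_lowerSet (z : X → ℂ) (N : ℕ) :
    Disjoint (upperSet z N) (lowerSet z N) := by
  rw [Set.disjoint_left]
  intro x hx hx'
  have : Complex.arg (z x ^ N) < 0 := Complex.arg_neg_iff.mpr hx'
  linarith [hx.1]

/-- The sector boundaries `arg (z ^ N) = π` form a null set for every invariant measure. -/
theorem measure_arg_eq_pi (hR : IsCircleAction R) (ν : Measure X) [SFinite ν]
    (hν : ∀ θ, ν.map (R θ) = ν) (hz : Measurable z)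
    (hzR : ∀ θ x, z (R θ x) = Complex.exp (θ * Complex.I) * z x)
    (hz0 : ∀ᵐ x ∂ν, z x ≠ 0) (N : ℕ) (hN : 0 < N) :
    ν {x | Complex.arg (z x ^ N) = π} = 0 := by
  have hB : MeasurableSet {x | Complex.arg (z x ^ N) = π} :=
    measurableSet_eq_fun (Complex.measurable_arg.comp (hz.pow_const N)) measurable_const
  have hw : Measurable (fun x => if Complex.arg (z x ^ N) = π then (1 : ℝ≥0∞) else 0) :=
    Measurable.ite hB measurable_const measurable_const
  have key := lintegral_twist hR ν hν (fun _ => 0) measurable_const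
    (fun x => if Complex.arg (z x ^ N) = π then (1 : ℝ≥0∞) else 0) hw 0 ?_
    (fun _ => 1) measurable_const
  · rw [zero_mul] at key
    rw [← lintegral_indicator_one hB, ← key]
    refine lintegral_congr (fun x => ?_)
    by_cases h : Complex.arg (z x ^ N) = π
    · rw [indicator_of_mem (show x ∈ {x | Complex.arg (z x ^ N) = π} from h), if_pos h]; simp
    · rw [indicator_of_notMem (show x ∉ {x | Complex.arg (z x ^ N) = π} from h), if_neg h]; simp
  · filter_upwards [hz0] with x hx h _ hper
    simp only [hzR]
    rw [zero_mul]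
    set G : ℝ → ℝ≥0∞ := fun θ => h (0 + θ)
      * (if Complex.arg ((Complex.exp (θ * Complex.I) * z x) ^ N) = π then 1 else 0) with hG
    have hGper : Function.Periodic G (2 * π) := by
      intro θ
      have e : Complex.exp (((θ + 2 * π : ℝ) : ℂ) * Complex.I)
          = Complex.exp ((θ : ℂ) * Complex.I) := by
        have := Complex.exp_mul_I_periodic (θ : ℂ)
        simpa using this
      simp only [hG, e]
      rw [← add_assoc, hper]
    rw [lintegral_sectors G hGper N hN (-(Complex.arg (z x ^ N)) / N)]
    refine Finset.sum_eq_zero (fun k _ => ?_)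
    have p1 : ∫⁻ θ in Ioo (-(Complex.arg (z x ^ N)) / N) (-(Complex.arg (z x ^ N)) / N + π / N),
        G (θ + k * (2 * π / N)) = 0 := by
      rw [← lintegral_zero (μ := volume.restrict
        (Ioo (-(Complex.arg (z x ^ N)) / N) (-(Complex.arg (z x ^ N)) / N + π / N)))]
      refine setLIntegral_congr_fun measurableSet_Ioo (fun θ hθ => ?_)
      obtain ⟨e1, e2, e3⟩ := arg_first_half N hN hx k hθ
      have hne : ¬ Complex.arg ((Complex.exp (((θ + k * (2 * π / N) : ℝ) : ℂ) * Complex.I)
          * z x) ^ N) = π := by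
        rw [e1]; exact e3.ne
      simp only [hG, if_neg hne, mul_zero]
    have p2 : ∫⁻ θ in Ioo (-(Complex.arg (z x ^ N)) / N + π / N)
        (-(Complex.arg (z x ^ N)) / N + 2 * π / N), G (θ + k * (2 * π / N)) = 0 := by
      rw [← lintegral_zero (μ := volume.restrict
        (Ioo (-(Complex.arg (z x ^ N)) / N + π / N) (-(Complex.arg (z x ^ N)) / N + 2 * π / N)))]
      refine setLIntegral_congr_fun measurableSet_Ioo (fun θ hθ => ?_)
      obtain ⟨e1, e2, e3⟩ := arg_second_half N hN hx k hθ
      have hne : ¬ Complex.arg ((Complex.exp (((θ + k * (2 * π / N) : ℝ) : ℂ) * Complex.I)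
          * z x) ^ N) = π := by
        rw [e1]; linarith [Real.pi_pos]
      simp only [hG, if_neg hne, mul_zero]
    rw [p1, p2, add_zero]

/-- Expansion lemma on the half-open first half-sectors. -/
theorem map_expand_upperSet (hR : IsCircleAction R) (ν : Measure X) [SFinite ν]
    (hν : ∀ θ, ν.map (R θ) = ν) (hz : Measurable z)
    (hzR : ∀ θ x, z (R θ x) = Complex.exp (θ * Complex.I) * z x)
    (hz0 : ∀ᵐ x ∂ν, z x ≠ 0) (N : ℕ) (hN : 0 < N) :
    (ν.restrict (upperSet z N)).map (expand R z N) = (1 / 2 : ℝ≥0∞) • ν := by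
  rw [← map_expand_pos hR ν hν z hz hzR hz0 N hN]
  congr 1
  refine Measure.restrict_congr_set ?_
  have hnull := measure_arg_eq_pi hR ν hν hz hzR hz0 N hN
  rw [Filter.eventuallyEq_set]
  have : ∀ᵐ x ∂ν, ¬ Complex.arg (z x ^ N) = π := by
    rw [ae_iff]; simpa using hnull
  filter_upwards [this] with x hx
  constructor
  · intro h; exact Complex.arg_nonneg_iff.mp h.1
  · intro h
    exact ⟨Complex.arg_nonneg_iff.mpr h, lt_of_le_of_ne (Complex.arg_le_pi _) hx⟩

theorem two_smul_half_smul (ν : Measure X) : (2 : ℝ≥0∞) • ((1 / 2 : ℝ≥0∞) • ν) = ν := by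
  rw [smul_smul, one_div, ENNReal.mul_inv_cancel two_ne_zero ENNReal.ofNat_ne_top, one_smul]

/-- **Compression into the first half-sectors.** -/
theorem map_compress₁ (hR : IsCircleAction R) (ν : Measure X) [SFinite ν]
    (hν : ∀ θ, ν.map (R θ) = ν) (hz : Measurable z)
    (hzR : ∀ θ x, z (R θ x) = Complex.exp (θ * Complex.I) * z x)
    (hz0 : ∀ᵐ x ∂ν, z x ≠ 0) (N : ℕ) (hN : 0 < N) :
    ν.map (compress₁ R z N) = (2 : ℝ≥0∞) • ν.restrict (upperSet z N) := by
  have hE := measurable_expand hR hz N
  have hC := measurable_compress₁ hR hz N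
  have e := map_expand_upperSet hR ν hν hz hzR hz0 N hN
  have h1 : ((ν.restrict (upperSet z N)).map (expand R z N)).map (compress₁ R z N)
      = ν.restrict (upperSet z N) := by
    rw [Measure.map_map hC hE]
    have : (ν.restrict (upperSet z N)).map (compress₁ R z N ∘ expand R z N)
        = (ν.restrict (upperSet z N)).map id := by
      refine Measure.map_congr ?_
      rw [Filter.EventuallyEq, ae_restrict_iff' (measurableSet_upperSet hz N)]
      filter_upwards [hz0] with x hx hxU
      exact compress₁_expand hR hzR N hN hx hxU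
    rw [this, Measure.map_id]
  rw [e, Measure.map_smul] at h1
  rw [← h1, two_smul_half_smul]

/-- **Compression into the second half-sectors.** -/
theorem map_compress₂ (hR : IsCircleAction R) (ν : Measure X) [SFinite ν]
    (hν : ∀ θ, ν.map (R θ) = ν) (hz : Measurable z)
    (hzR : ∀ θ x, z (R θ x) = Complex.exp (θ * Complex.I) * z x)
    (hz0 : ∀ᵐ x ∂ν, z x ≠ 0) (N : ℕ) (hN : 0 < N) :
    ν.map (compress₂ R z N) = (2 : ℝ≥0∞) • ν.restrict (lowerSet z N) := by
  have hE := measurable_expand hR hz N
  have hC := measurable_compress₂ hR hz N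
  have e : (ν.restrict (lowerSet z N)).map (expand R z N) = (1 / 2 : ℝ≥0∞) • ν :=
    map_expand_neg hR ν hν z hz hzR hz0 N hN
  have h1 : ((ν.restrict (lowerSet z N)).map (expand R z N)).map (compress₂ R z N)
      = ν.restrict (lowerSet z N) := by
    rw [Measure.map_map hC hE]
    have : (ν.restrict (lowerSet z N)).map (compress₂ R z N ∘ expand R z N)
        = (ν.restrict (lowerSet z N)).map id := by
      refine Measure.map_congr ?_
      rw [Filter.EventuallyEq, ae_restrict_iff' (measurableSet_lowerSet hz N)]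
      filter_upwards [hz0] with x hx hxL
      exact compress₂_expand hR hzR N hN hx hxL
    rw [this, Measure.map_id]
  rw [e, Measure.map_smul] at h1
  rw [← h1, two_smul_half_smul]

/-- **Angular compression by 2 (driver's G7).** The two compressed copies add up to `2 ν`. -/
theorem map_compress_add (hR : IsCircleAction R) (ν : Measure X) [SFinite ν]
    (hν : ∀ θ, ν.map (R θ) = ν) (hz : Measurable z)
    (hzR : ∀ θ x, z (R θ x) = Complex.exp (θ * Complex.I) * z x)
    (hz0 : ∀ᵐ x ∂ν, z x ≠ 0) (N : ℕ) (hN : 0 < N) :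
    ν.map (compress₁ R z N) + ν.map (compress₂ R z N) = (2 : ℝ≥0∞) • ν := by
  rw [map_compress₁ hR ν hν hz hzR hz0 N hN, map_compress₂ hR ν hν hz hzR hz0 N hN, ← smul_add,
    ← Measure.restrict_union (disjoint_upperSet_lowerSet z N) (measurableSet_lowerSet hz N)]
  congr 1
  refine Measure.restrict_eq_self_of_ae_mem ?_
  have hnull := measure_arg_eq_pi hR ν hν hz hzR hz0 N hN
  have : ∀ᵐ x ∂ν, ¬ Complex.arg (z x ^ N) = π := by
    rw [ae_iff]; simpa using hnull
  filter_upwards [this] with x hx
  by_cases h : 0 ≤ Complex.arg (z x ^ N)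
  · left; exact ⟨h, lt_of_le_of_ne (Complex.arg_le_pi _) hx⟩
  · right; exact Complex.arg_neg_iff.mp (not_le.mp h)

end Measure

end Crest.Agent.S0175lib
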