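import Mathlib

/-!
# Row 130 (S0175): measure core for the Monge approximants

Design-independent lemmas (helper59):

* `avg_rot` : averaging an integral over a measure-preserving circle action.
* `map_restrict_angle_reparam` : if a measure `lam` on `X` is invariant under a measurable action
  `rot` of the circle `AddCircle T`, and `ang : X → AddCircle T` is an equivariant "angle", then a
  reparametrisation `sq` of the angle that sends `volume.restrict Q` to `c • volume.restrict P`
  induces a map of `X` sending `lam.restrict (ang ⁻¹' Q)` to `c • lam.restrict (ang ⁻¹' P)`.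
-/

open MeasureTheory Set
open scoped ENNReal

namespace Crest.Agent.S0175lib

variable {T : ℝ} [hT : Fact (0 < T)]

/-- Averaging over a measure-preserving measurable circle action. -/
theorem avg_rot {X : Type*} [MeasurableSpace X] (lam : Measure X) [SFinite lam]
    (rot : AddCircle T → X → X)
    (hrot : Measurable (fun p : AddCircle T × X => rot p.1 p.2))
    (hinv : ∀ a, lam.map (rot a) = lam)
    (h : X → ℝ≥0∞) (hh : Measurable h) :
    ∫⁻ x, ∫⁻ a, h (rot a x) ∂(volume : Measure (AddCircle T)) ∂lam
      = ENNReal.ofReal T * ∫⁻ x, h x ∂lam := by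
  have hrota : ∀ a, Measurable (rot a) := fun a =>
    hrot.comp (measurable_const.prodMk measurable_id)
  rw [lintegral_lintegral_swap]
  · have : ∀ a, ∫⁻ x, h (rot a x) ∂lam = ∫⁻ x, h x ∂lam := by
      intro a
      rw [← lintegral_map hh (hrota a), hinv a]
    simp_rw [this]
    rw [lintegral_const, AddCircle.measure_univ, mul_comm]
  · apply Measurable.aemeasurable
    exact hh.comp (hrot.comp measurable_swap)

/-- **Rotation-averaging reparametrisation lemma.** -/
theorem map_restrict_angle_reparam
    {X : Type*} [MeasurableSpace X] (lam : Measure X) [SFinite lam]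
    (rot : AddCircle T → X → X) (ang : X → AddCircle T) (A : Set X)
    (hrot : Measurable (fun p : AddCircle T × X => rot p.1 p.2))
    (hang : Measurable ang)
    (hadd : ∀ a b x, rot (a + b) x = rot a (rot b x))
    (hinv : ∀ a, lam.map (rot a) = lam)
    (hAnull : lam Aᶜ = 0)
    (hangrot : ∀ a x, x ∈ A → ang (rot a x) = ang x + a)
    (sq : AddCircle T → AddCircle T) (hsq : Measurable sq)
    (Q P : Set (AddCircle T)) (hQ : MeasurableSet Q) (hP : MeasurableSet P) (c : ℝ≥0∞)
    (hpush : (volume.restrict Q).map sq = c • volume.restrict P) :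
    (lam.restrict (ang ⁻¹' Q)).map (fun x => rot (sq (ang x) - ang x) x)
      = c • lam.restrict (ang ⁻¹' P) := by
  classical
  have hT0 : ENNReal.ofReal T ≠ 0 := by
    simpa using hT.out
  have hTtop : ENNReal.ofReal T ≠ ⊤ := ENNReal.ofReal_ne_top
  have hC : Measurable (fun x => rot (sq (ang x) - ang x) x) :=
    hrot.comp (((hsq.comp hang).sub hang).prodMk measurable_id)
  have hAae : ∀ᵐ x ∂lam, x ∈ A := by
    rw [ae_iff]; exact hAnull
  ext S hS
  rw [Measure.map_apply hC hS, Measure.restrict_apply (hC hS), Measure.smul_apply,
    Measure.restrict_apply hS, smul_eq_mul]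
  -- the two integrands
  set F : X → ℝ≥0∞ := (((fun x => rot (sq (ang x) - ang x) x) ⁻¹' S) ∩ ang ⁻¹' Q).indicator 1
    with hF
  set H : X → ℝ≥0∞ := (S ∩ ang ⁻¹' P).indicator 1 with hH
  have hFm : Measurable F := measurable_one.indicator ((hC hS).inter (hang hQ))
  have hHm : Measurable H := measurable_one.indicator (hS.inter (hang hP))
  have e1 : lam (((fun x => rot (sq (ang x) - ang x) x) ⁻¹' S) ∩ ang ⁻¹' Q) = ∫⁻ x, F x ∂lam := by
    rw [hF, lintegral_indicator_one ((hC hS).inter (hang hQ))]
  have e2 : lam (S ∩ ang ⁻¹' P) = ∫⁻ x, H x ∂lam := by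
    rw [hH, lintegral_indicator_one (hS.inter (hang hP))]
  rw [e1, e2]
  -- measurability of the inner average of `H`
  have hGm : Measurable (fun x => ∫⁻ a, H (rot a x) ∂(volume : Measure (AddCircle T))) := by
    have : Measurable (fun p : X × AddCircle T => H (rot p.2 p.1)) :=
      hHm.comp (hrot.comp measurable_swap)
    exact this.lintegral_prod_right'
  -- pointwise identity of the inner averages
  have hpt : ∀ x ∈ A, ∫⁻ a, F (rot a x) ∂(volume : Measure (AddCircle T))
      = c * ∫⁻ a, H (rot a x) ∂(volume : Measure (AddCircle T)) := by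
    intro x hx
    -- the test function on the circle
    set k : AddCircle T → ℝ≥0∞ := fun b => S.indicator 1 (rot (b - ang x) x) with hk
    have hkm : Measurable k := by
      have h1 : Measurable (fun b : AddCircle T => rot (b - ang x) x) :=
        hrot.comp ((measurable_id.sub measurable_const).prodMk measurable_const)
      exact (measurable_one.indicator hS).comp h1
    have hF' : ∀ a, F (rot a x) = (Q.indicator (fun b => k (sq b))) (ang x + a) := by
      intro a
      have h2 := hangrot a x hx
      have h1 : rot (sq (ang (rot a x)) - ang (rot a x)) (rot a x)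
          = rot (sq (ang x + a) - ang x) x := by
        rw [h2, ← hadd]
        congr 1
        abel
      have m1 : rot a x ∈ ((fun x => rot (sq (ang x) - ang x) x) ⁻¹' S ∩ ang ⁻¹' Q) ↔
          (rot (sq (ang x + a) - ang x) x ∈ S ∧ ang x + a ∈ Q) := by
        simp only [mem_inter_iff, mem_preimage]
        rw [h1, h2]
      have vF : F (rot a x)
          = if (rot (sq (ang x + a) - ang x) x ∈ S ∧ ang x + a ∈ Q) then 1 else 0 := by
        rw [hF, indicator_apply]
        exact if_congr m1 rfl rfl
      rw [vF]
      simp only [indicator_apply, hk, Pi.one_apply]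
      by_cases hq : ang x + a ∈ Q <;> by_cases hs : rot (sq (ang x + a) - ang x) x ∈ S <;>
        simp [hq, hs]
    have hH' : ∀ a, H (rot a x) = (P.indicator k) (ang x + a) := by
      intro a
      have h2 := hangrot a x hx
      have h1 : rot (ang x + a - ang x) x = rot a x := by
        congr 1
        abel
      have m1 : rot a x ∈ (S ∩ ang ⁻¹' P) ↔ (rot a x ∈ S ∧ ang x + a ∈ P) := by
        simp only [mem_inter_iff, mem_preimage]
        rw [h2]
      have vH : H (rot a x) = if (rot a x ∈ S ∧ ang x + a ∈ P) then 1 else 0 := by
        rw [hH, indicator_apply]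
        exact if_congr m1 rfl rfl
      rw [vH]
      simp only [indicator_apply, hk, h1, Pi.one_apply]
      by_cases hp : ang x + a ∈ P <;> by_cases hs : rot a x ∈ S <;> simp [hp, hs]
    simp_rw [hF', hH']
    rw [lintegral_add_left_eq_self (fun b => Q.indicator (fun b => k (sq b)) b) (ang x),
      lintegral_add_left_eq_self (fun b => P.indicator k b) (ang x),
      lintegral_indicator hQ, lintegral_indicator hP, ← lintegral_map hkm hsq, hpush,
      lintegral_smul_measure, smul_eq_mul]
  have key : ENNReal.ofReal T * ∫⁻ x, F x ∂lam = ENNReal.ofReal T * (c * ∫⁻ x, H x ∂lam) := by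
    rw [← avg_rot lam rot hrot hinv F hFm, mul_left_comm, ← avg_rot lam rot hrot hinv H hHm,
      ← lintegral_const_mul _ hGm]
    apply lintegral_congr_ae
    filter_upwards [hAae] with x hx
    exact hpt x hx
  exact (ENNReal.mul_right_inj hT0 hTtop).mp key

end Crest.Agent.S0175lib
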