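import Mathlib
import Crest.Prelude.Def_MultiMarginal
import Crest.Agent.S0175.Potential
import Crest.Agent.S0175.Window
import Crest.Agent.S0175.TwinGeom
import Crest.Agent.S0175.NoMonge

/-!
# Row 130 (S0175): the dual side of the design (helper90)

From a `ScalarDesign s r1 r2 m1 m2 tau kap hb rinv` (Window.lean) and an orthonormal pair
`e0 e1` we get, for the twin maps `a = twinMap e0 e1 kap hb 1`, `b = twinMap e0 e1 kap hb (-1)`
(TwinGeom.lean), the potential `designU s r1 r2 tau`, any far set `I ⊆ twinU e0 e1 r1 r2` and any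
`S ⊆ I ∪ nearSet V`:

* `ScalarDesign.twinData`     : the `TwinData` needed by TwinGeom (so `a`, `b` are diffeomorphisms);
* `ScalarDesign.hdual`        : the dual inequality on `S³` (hypothesis `hdual` of `abstract_main`);
* `ScalarDesign.heq_hnn`      : equality on the twin triples (hypotheses `heq`, `hnn`);
* `ScalarDesign.hrig`         : the rigidity hypothesis `hrig` (through `rigid_of_design`);
* `ScalarDesign.twinMap_mem_near`, `norm_twinMap_le_one`, `one_le_norm_twin_sub`, `two_le_norm`,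
  `injOn_twinMap` : geometry used by the approximation step;
* `ScalarDesign.measurable_designU`, `ScalarDesign.abs_designU_le` :
  measurability / boundedness (integrability of the potential); `measurable_twinMap` is in
  TwinGeom.lean.
-/

set_option autoImplicit false
set_option linter.unusedSectionVars false

namespace Crest.Agent.S0175lib

open Set Real MeasureTheory Crest.AnalysisR.OT Crest.Agent.S0175
open scoped ENNReal ContDiff

section DesignPot

variable {V : Type*} [NormedAddCommGroup V] [InnerProductSpace ℝ V]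
variable {s r1 r2 m1 m2 : ℝ} {tau kap hb rinv : ℝ → ℝ}

/-- The near region `1/4 < ‖y‖² ≤ 1/3`. -/
def nearSet (V : Type*) [NormedAddCommGroup V] : Set V :=
  {y | 1 / 4 < ‖y‖ ^ 2 ∧ ‖y‖ ^ 2 ≤ 1 / 3}

/-- The dual potential of the design: `pGst s (tau ‖x‖) - 2 κ₀` on the far shell
`‖x‖ ∈ (r1, r2)`, `κ₀ - s ‖x‖²` elsewhere (`κ₀ = 5/6 + s/4`). -/
noncomputable def designU (s r1 r2 : ℝ) (tau : ℝ → ℝ) (x : V) : ℝ :=
  if ‖x‖ ∈ Ioo r1 r2 then pGst s (tau ‖x‖) - 2 * (5 / 6 + s / 4)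
  else 5 / 6 + s / 4 - s * ‖x‖ ^ 2

theorem norm_lt_one_of_near {y : V} (hy : y ∈ nearSet V) : ‖y‖ < 1 := by
  have h2 : ‖y‖ ^ 2 ≤ 1 / 3 := hy.2
  nlinarith [norm_nonneg y]

theorem norm_le_one_of_near {y : V} (hy : y ∈ nearSet V) : ‖y‖ ≤ 1 :=
  (norm_lt_one_of_near hy).le

theorem measurableSet_nearSet [MeasurableSpace V] [BorelSpace V] :
    MeasurableSet (nearSet V) := by
  have h : Measurable fun y : V => ‖y‖ ^ 2 := measurable_norm.pow_const 2
  exact (measurableSet_lt measurable_const h).inter (measurableSet_le h measurable_const)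

theorem measurable_pGst (s : ℝ) : Measurable (pGst s) := by
  have hE : Measurable (pE s) := by
    unfold pE
    exact measurable_const.mul (measurable_const.sub (measurable_id.pow_const _))
  have hD : Measurable (pD s) := by
    unfold pD
    exact hE.pow_const _
  have hL : Measurable (pL s) := by
    unfold pL
    exact (hD.sub ((measurable_id.pow_const 2).div_const 4)).sqrt
  have hXi : Measurable (pXi s) := by
    unfold pXi
    exact (hE.neg.mul hL).div_const 2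
  unfold pGst
  exact (((measurable_id.pow_const _).add
    ((measurable_const.mul (measurable_id.pow_const 2)).div_const 2)).add
    (measurable_const.mul (hXi.pow_const 2))).add (measurable_const.mul (hD.pow_const _))

namespace ScalarDesign

variable (SD : ScalarDesign s r1 r2 m1 m2 tau kap hb rinv)
include SD

/-- The scalar design provides the `TwinData` of TwinGeom.lean. -/
theorem twinData : TwinData r1 r2 m1 m2 kap hb rinv where
  r₁_pos := SD.r1_pos
  m₁_pos := SD.m1_pos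
  kap_smooth := SD.kap_smooth
  hb_smooth := SD.hb_smooth
  rinv_smooth := SD.rinv_smooth
  kap_ne := SD.kap_ne
  hb_pos := SD.hb_pos
  rinv_mem := SD.rinv_maps
  M_mem := fun r hr => (SD.rinv_left r hr).1
  rinv_M := fun r hr => (SD.rinv_left r hr).2
  M_rinv := SD.rinv_right

theorem two_le_norm {x : V} (hx : ‖x‖ ∈ Ioo r1 r2) : 2 ≤ ‖x‖ :=
  SD.two_le_r1.trans hx.1.le

theorem near_not_far {y : V} (hy : y ∈ nearSet V) : ‖y‖ ∉ Ioo r1 r2 := by
  intro h
  have := SD.two_le_norm h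
  have := norm_lt_one_of_near hy
  linarith

theorem designU_far {x : V} (hx : ‖x‖ ∈ Ioo r1 r2) :
    designU s r1 r2 tau x = pGst s (tau ‖x‖) - 2 * (5 / 6 + s / 4) := if_pos hx

theorem designU_near {y : V} (hy : y ∈ nearSet V) :
    designU s r1 r2 tau y = 5 / 6 + s / 4 - s * ‖y‖ ^ 2 := if_neg (SD.near_not_far hy)

/-- The `PotData` of Potential.lean for any far set inside the shell. -/
theorem potData {I : Set V} (hI : ∀ x ∈ I, ‖x‖ ∈ Ioo r1 r2) :
    PotData s I (nearSet V) (fun x => tau ‖x‖) (designU s r1 r2 tau) where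
  hs := SD.hs
  far := fun x hx => by
    obtain ⟨h1, h2, h3, h4, -⟩ := SD.param _ (hI x hx)
    exact ⟨h1, h2, h3, h4, by linarith [SD.two_le_norm (hI x hx)]⟩
  near := fun y hy => hy
  uI := fun x hx => SD.designU_far (hI x hx)
  uO := fun y hy => SD.designU_near hy

/-- **`hdual`**: the dual inequality on `S³` for `S ⊆ I ∪ nearSet V`. -/
theorem hdual {I S : Set V} (hI : ∀ x ∈ I, ‖x‖ ∈ Ioo r1 r2) (hS : S ⊆ I ∪ nearSet V) :
    ∀ x ∈ S, ∀ y ∈ S, ∀ z ∈ S,
      ENNReal.ofReal (designU s r1 r2 tau x + designU s r1 r2 tau y + designU s r1 r2 tau z)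
        ≤ tripleCost s (x, y, z) :=
  fun _ hx _ hy _ hz => (SD.potData hI).dual_le (hS hx) (hS hy) (hS hz)

/-- Abstract twins of a far point lie in the near region. -/
theorem twin_mem_near {x y z : V} (hx : ‖x‖ ∈ Ioo r1 r2)
    (hsum : y + z = (2 * kap ‖x‖) • x) (hnorm : ‖y - z‖ = 2 * hb ‖x‖)
    (horth : inner ℝ (y - z) x = 0) : y ∈ nearSet V ∧ z ∈ nearSet V := by
  obtain ⟨h1, -, h3, -, h5⟩ := SD.param _ hx
  rw [SD.kap_eq _ hx] at hsum
  have hnorm' : ‖y - z‖ = tau ‖x‖ := by rw [hnorm, SD.hb_eq _ hx]; ring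
  obtain ⟨e1, e2⟩ := twin_norm_sq (s := s) (by linarith) x y z h3 hsum hnorm'
    (by rw [real_inner_comm]; exact horth)
  have hq := quarter_lt_pM2 h1 s
  exact ⟨⟨by rw [e1]; exact hq, by rw [e1]; exact h5⟩, ⟨by rw [e2]; exact hq, by rw [e2]; exact h5⟩⟩

/-- Equality in the dual inequality on abstract twin triples. -/
theorem contact {x y z : V} (hx : ‖x‖ ∈ Ioo r1 r2)
    (hsum : y + z = (2 * kap ‖x‖) • x) (hnorm : ‖y - z‖ = 2 * hb ‖x‖)
    (horth : inner ℝ (y - z) x = 0) :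
    tripleCost s (x, y, z)
        = ENNReal.ofReal (designU s r1 r2 tau x + designU s r1 r2 tau y + designU s r1 r2 tau z) ∧
      0 ≤ designU s r1 r2 tau x + designU s r1 r2 tau y + designU s r1 r2 tau z := by
  obtain ⟨hy, hz⟩ := SD.twin_mem_near hx hsum hnorm horth
  have hI : ∀ w ∈ ({x} : Set V), ‖w‖ ∈ Ioo r1 r2 := fun w hw => by
    rw [mem_singleton_iff.mp hw]; exact hx
  have hsum' : y + z = (2 * pKap s (tau ‖x‖)) • x := by rw [← SD.kap_eq _ hx]; exact hsum
  have hnorm' : ‖y - z‖ = tau ‖x‖ := by rw [hnorm, SD.hb_eq _ hx]; ring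
  exact (SD.potData hI).contact_eq (mem_singleton x) hy hz hsum' hnorm' horth

section Twins

variable {e0 e1 : V} (h : OrthoPair e0 e1)
include h

/-- The three contact relations for the concrete twins. -/
theorem twin_relations {x : V} (hx : x ∈ twinU e0 e1 r1 r2) :
    twinMap e0 e1 kap hb 1 x + twinMap e0 e1 kap hb (-1) x = (2 * kap ‖x‖) • x ∧
      ‖twinMap e0 e1 kap hb 1 x - twinMap e0 e1 kap hb (-1) x‖ = 2 * hb ‖x‖ ∧
      inner ℝ (twinMap e0 e1 kap hb 1 x - twinMap e0 e1 kap hb (-1) x) x = 0 :=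
  ⟨twinMap_add_neg x, h.norm_twinMap_sub_neg (by norm_num) (SD.hb_pos _ hx.1).le hx.2,
    h.inner_twinMap_sub_neg x⟩

/-- The concrete twins lie in the near region. -/
theorem twinMap_mem_near {x : V} (hx : x ∈ twinU e0 e1 r1 r2) :
    twinMap e0 e1 kap hb 1 x ∈ nearSet V ∧ twinMap e0 e1 kap hb (-1) x ∈ nearSet V := by
  obtain ⟨e1', e2, e3⟩ := SD.twin_relations h hx
  exact SD.twin_mem_near hx.1 e1' e2 e3

theorem norm_twinMap_le_one {x : V} (hx : x ∈ twinU e0 e1 r1 r2) :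
    ‖twinMap e0 e1 kap hb 1 x‖ ≤ 1 ∧ ‖twinMap e0 e1 kap hb (-1) x‖ ≤ 1 :=
  ⟨norm_le_one_of_near (SD.twinMap_mem_near h hx).1,
    norm_le_one_of_near (SD.twinMap_mem_near h hx).2⟩

/-- The twins are at distance `> 1` from each other. -/
theorem one_le_norm_twin_sub {x : V} (hx : x ∈ twinU e0 e1 r1 r2) :
    1 ≤ ‖twinMap e0 e1 kap hb 1 x - twinMap e0 e1 kap hb (-1) x‖ := by
  rw [(SD.twin_relations h hx).2.1, SD.hb_eq _ hx.1]
  have := (SD.param _ hx.1).1
  linarith

/-- The twin maps are injective on `twinU`. -/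
theorem injOn_twinMap {ε : ℝ} (hε : ε ^ 2 = 1) :
    InjOn (twinMap e0 e1 kap hb ε) (twinU e0 e1 r1 r2) := by
  intro x hx y hy hxy
  rw [← SD.twinData.twinInv_twinMap h hε hx, hxy, SD.twinData.twinInv_twinMap h hε hy]

/-- **`heq` and `hnn`**: equality in the dual inequality along the twin plan. -/
theorem heq_hnn {x : V} (hx : x ∈ twinU e0 e1 r1 r2) :
    tripleCost s (x, twinMap e0 e1 kap hb 1 x, twinMap e0 e1 kap hb (-1) x)
        = ENNReal.ofReal (designU s r1 r2 tau x + designU s r1 r2 tau (twinMap e0 e1 kap hb 1 x)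
            + designU s r1 r2 tau (twinMap e0 e1 kap hb (-1) x)) ∧
      0 ≤ designU s r1 r2 tau x + designU s r1 r2 tau (twinMap e0 e1 kap hb 1 x)
            + designU s r1 r2 tau (twinMap e0 e1 kap hb (-1) x) := by
  obtain ⟨e1', e2, e3⟩ := SD.twin_relations h hx
  exact SD.contact hx.1 e1' e2 e3

/-- **`hchar`** in the exact shape of `rigid_of_design`, with `κ x = kap ‖x‖`,
`t x = 2 * hb ‖x‖`. -/
theorem hchar {I S : Set V} (hI : ∀ x ∈ I, ‖x‖ ∈ Ioo r1 r2) (hS : S ⊆ I ∪ nearSet V) :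
    ∀ x ∈ S, ∀ y ∈ S, ∀ z ∈ S,
      tripleCost s (x, y, z)
        = ENNReal.ofReal (designU s r1 r2 tau x + designU s r1 r2 tau y + designU s r1 r2 tau z) →
      (x ∈ I ∧ y ∉ I ∧ z ∉ I ∧ y + z = (2 * (fun w : V => kap ‖w‖) x) • x ∧
          ‖y - z‖ = (fun w : V => 2 * hb ‖w‖) x ∧ inner ℝ (y - z) x = 0) ∨
        (y ∈ I ∧ x ∉ I ∧ z ∉ I ∧ x + z = (2 * (fun w : V => kap ‖w‖) y) • y ∧
          ‖x - z‖ = (fun w : V => 2 * hb ‖w‖) y ∧ inner ℝ (x - z) y = 0) ∨
        (z ∈ I ∧ x ∉ I ∧ y ∉ I ∧ x + y = (2 * (fun w : V => kap ‖w‖) z) • z ∧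
          ‖x - y‖ = (fun w : V => 2 * hb ‖w‖) z ∧ inner ℝ (x - y) z = 0) := by
  intro x hx y hy z hz hxyz
  have key : ∀ p ∈ I, ∀ q r : V, q + r = (2 * pKap s (tau ‖p‖)) • p → ‖q - r‖ = tau ‖p‖ →
      q + r = (2 * kap ‖p‖) • p ∧ ‖q - r‖ = 2 * hb ‖p‖ := by
    intro p hp q r h1 h2
    refine ⟨by rw [SD.kap_eq _ (hI p hp)]; exact h1, ?_⟩
    rw [h2, SD.hb_eq _ (hI p hp)]; ring
  rcases (SD.potData hI).dual_char (hS hx) (hS hy) (hS hz) hxyz with
    ⟨a1, a2, a3, a4, a5, a6⟩ | ⟨a1, a2, a3, a4, a5, a6⟩ | ⟨a1, a2, a3, a4, a5, a6⟩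
  · exact Or.inl ⟨a1, a2, a3, (key x a1 y z a4 a5).1, (key x a1 y z a4 a5).2, a6⟩
  · exact Or.inr (Or.inl ⟨a1, a2, a3, (key y a1 x z a4 a5).1, (key y a1 x z a4 a5).2, a6⟩)
  · exact Or.inr (Or.inr ⟨a1, a2, a3, (key z a1 x y a4 a5).1, (key z a1 x y a4 a5).2, a6⟩)

/-- **`hrig`** of `abstract_main` for the design. -/
theorem hrig [MeasurableSpace V] [BorelSpace V] [SecondCountableTopology V]
    (μ : Measure V) [IsFiniteMeasure μ] {I S : Set V} (hIm : MeasurableSet I)
    (hSm : MeasurableSet S) (hSμ : μ Sᶜ = 0)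
    (hI : I ⊆ twinU e0 e1 r1 r2) (hS : S ⊆ I ∪ nearSet V)
    (hμ : μ = μ.restrict I + (μ.restrict I).map (twinMap e0 e1 kap hb 1)
      + (μ.restrict I).map (twinMap e0 e1 kap hb (-1)))
    (hmom : ∫⁻ x, ‖x‖ₑ ^ 2 ∂μ ≠ ⊤)
    (T₂ T₃ : V → V) (hT₂ : Measurable T₂) (hT₃ : Measurable T₃)
    (hT₂μ : μ.map T₂ = μ) (hT₃μ : μ.map T₃ = μ)
    (hcon : ∀ᵐ x ∂μ, tripleCost s (x, T₂ x, T₃ x)
      = ENNReal.ofReal (designU s r1 r2 tau x + designU s r1 r2 tau (T₂ x)
          + designU s r1 r2 tau (T₃ x))) :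
    ∀ᵐ x ∂μ, (x ∈ I → T₂ x ∉ I) ∧
      (x ∉ I → T₂ x ∈ I →
        (x = twinMap e0 e1 kap hb 1 (T₂ x) ∨ x = twinMap e0 e1 kap hb (-1) (T₂ x))) := by
  have hI' : ∀ x ∈ I, ‖x‖ ∈ Ioo r1 r2 := fun x hx => (hI hx).1
  exact rigid_of_design μ I S hIm hSm hSμ e0 e1 h.n0 h.n1 h.orth
    (fun w : V => kap ‖w‖) (fun w : V => 2 * hb ‖w‖)
    (SD.kap_meas.comp measurable_norm)
    (twinMap e0 e1 kap hb 1) (twinMap e0 e1 kap hb (-1))
    (measurable_twinMap e0 e1 SD.kap_meas SD.hb_meas 1)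
    (measurable_twinMap e0 e1 SD.kap_meas SD.hb_meas (-1))
    (fun p _ => by simp only [twinMap]; module)
    (fun p _ => by simp only [twinMap]; module)
    (fun p hp => (hI hp).2) hμ hmom (tripleCost s) (designU s r1 r2 tau)
    (SD.hchar h hI' hS) T₂ T₃ hT₂ hT₃ hT₂μ hT₃μ hcon

end Twins

/-- The potential is measurable. -/
theorem measurable_designU [MeasurableSpace V] [BorelSpace V] :
    Measurable (designU s r1 r2 tau : V → ℝ) := by
  unfold designU
  refine Measurable.ite ?_ ?_ ?_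
  · exact measurable_norm measurableSet_Ioo
  · exact ((measurable_pGst s).comp (SD.tau_meas.comp measurable_norm)).sub measurable_const
  · exact measurable_const.sub (measurable_const.mul (measurable_norm.pow_const 2))

/-- The potential is bounded on `I ∪ nearSet V`. -/
theorem abs_designU_le {x : V} (hx : ‖x‖ ∈ Ioo r1 r2 ∨ x ∈ nearSet V) :
    |designU s r1 r2 tau x| ≤ 2 * (5 / 6 + s / 4) := by
  have hs := SD.hs
  rcases hx with hx | hx
  · rw [SD.designU_far hx]
    obtain ⟨h1, h2, -, h4, -⟩ := SD.param _ hx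
    have hD := (pD_pos hs h1).le
    have h0 : 0 ≤ pGst s (tau ‖x‖) := by
      unfold pGst
      have ht : 0 ≤ tau ‖x‖ := by linarith
      positivity
    rw [abs_le]
    constructor <;> linarith
  · rw [SD.designU_near hx]
    obtain ⟨h1, h2⟩ := hx
    rw [abs_le]
    constructor <;> nlinarith

end ScalarDesign

end DesignPot

end Crest.Agent.S0175lib
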