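import Mathlib
import Crest.Prelude.Def_MultiMarginal
import Crest.Agent.S0175.Core

/-!
# Row 130 (S0175): the dual certificate of a trap design, in `tripleCost` / `ENNReal` form

Abstract data: an inner product space `V`, `s > 0`, two disjoint sets `I` (far shell) and `O`
(near shell), per-point parameter functions `tt EE DD LL XI κ gst : V → ℝ` satisfying on `I`
exactly the hypotheses of `core_ineq`, `gst ≤ 5/4 + s/2` on `I`, and `1/4 ≤ ‖y‖² ≤ 1/3` on `O`
(structure `TrapData`).  The potential is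
`trapU s I gst x = if x ∈ I then gst x - 2 κ₀ else κ₀ - s ‖x‖²`, `κ₀ = 5/6 + s/4`.

* `dual_le`   : `ofReal (u x + u y + u z) ≤ tripleCost s (x, y, z)` on `(I ∪ O)³`;
* `dual_char` : equality forces a twin configuration (the shape of `hchar` in `rigid_of_design`);
* `dual_eq`   : twin configurations are tight, with nonnegative potential sum.
-/

set_option autoImplicit false
open scoped ENNReal
open Crest.AnalysisR.OT

namespace Crest.Agent.S0175lib

variable {V : Type*} [NormedAddCommGroup V]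

/-! ### `pairCost` / `tripleCost` bookkeeping -/

theorem pairCost_of_ne (s : ℝ) {x y : V} (h : x ≠ y) :
    pairCost s x y = ENNReal.ofReal (‖x - y‖ ^ (-s)) := by
  unfold pairCost
  exact ENNReal.ofReal_rpow_of_pos (norm_pos_iff.mpr (sub_ne_zero.mpr h))

theorem pairCost_self {s : ℝ} (hs : 0 < s) (x : V) : pairCost s x x = ⊤ := by
  unfold pairCost
  rw [sub_self, norm_zero, ENNReal.ofReal_zero, ENNReal.zero_rpow_of_neg (neg_lt_zero.mpr hs)]

theorem pairCost_comm (s : ℝ) (x y : V) : pairCost s x y = pairCost s y x := by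
  unfold pairCost
  rw [norm_sub_rev]

theorem pairCost_ne_zero {s : ℝ} (hs : 0 < s) (x y : V) : pairCost s x y ≠ 0 := by
  by_cases h : x = y
  · subst h; rw [pairCost_self hs]; exact ENNReal.top_ne_zero
  · rw [pairCost_of_ne s h]
    have : 0 < ‖x - y‖ ^ (-s) :=
      Real.rpow_pos_of_pos (norm_pos_iff.mpr (sub_ne_zero.mpr h)) _
    exact (ENNReal.ofReal_pos.mpr this).ne'

theorem tripleCost_apply (s : ℝ) (x y z : V) :
    tripleCost s (x, y, z) = pairCost s x y + pairCost s x z + pairCost s y z := rfl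

theorem tripleCost_swap12 (s : ℝ) (x y z : V) :
    tripleCost s (x, y, z) = tripleCost s (y, x, z) := by
  rw [tripleCost_apply, tripleCost_apply, pairCost_comm s y x]
  ring

theorem tripleCost_swap23 (s : ℝ) (x y z : V) :
    tripleCost s (x, y, z) = tripleCost s (x, z, y) := by
  rw [tripleCost_apply, tripleCost_apply, pairCost_comm s z y]
  ring

theorem tripleCost_cyc (s : ℝ) (x y z : V) :
    tripleCost s (x, y, z) = tripleCost s (z, x, y) := by
  rw [tripleCost_swap23 s x y z, tripleCost_swap12 s x z y]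

theorem tripleCost_ne_zero {s : ℝ} (hs : 0 < s) (x y z : V) : tripleCost s (x, y, z) ≠ 0 := by
  rw [tripleCost_apply]
  intro h
  have h1 : pairCost s x y = 0 := by
    have := le_of_eq h
    exact le_antisymm (le_trans (le_trans le_self_add le_self_add) this) zero_le
  exact pairCost_ne_zero hs x y h1

/-- The real three-body cost. -/
noncomputable def cost3 (s : ℝ) (x y z : V) : ℝ :=
  ‖x - y‖ ^ (-s) + ‖x - z‖ ^ (-s) + ‖y - z‖ ^ (-s)

theorem cost3_pos (s : ℝ) {x y z : V} (hxy : x ≠ y) (hxz : x ≠ z) (hyz : y ≠ z) :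
    0 < cost3 s x y z := by
  have h1 : 0 < ‖x - y‖ ^ (-s) :=
    Real.rpow_pos_of_pos (norm_pos_iff.mpr (sub_ne_zero.mpr hxy)) _
  have h2 : 0 < ‖x - z‖ ^ (-s) :=
    Real.rpow_pos_of_pos (norm_pos_iff.mpr (sub_ne_zero.mpr hxz)) _
  have h3 : 0 < ‖y - z‖ ^ (-s) :=
    Real.rpow_pos_of_pos (norm_pos_iff.mpr (sub_ne_zero.mpr hyz)) _
  unfold cost3; positivity

theorem tripleCost_of_distinct (s : ℝ) {x y z : V} (hxy : x ≠ y) (hxz : x ≠ z) (hyz : y ≠ z) :
    tripleCost s (x, y, z) = ENNReal.ofReal (cost3 s x y z) := by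
  have h1 : 0 ≤ ‖x - y‖ ^ (-s) := Real.rpow_nonneg (norm_nonneg _) _
  have h2 : 0 ≤ ‖x - z‖ ^ (-s) := Real.rpow_nonneg (norm_nonneg _) _
  have h3 : 0 ≤ ‖y - z‖ ^ (-s) := Real.rpow_nonneg (norm_nonneg _) _
  rw [tripleCost_apply, pairCost_of_ne s hxy, pairCost_of_ne s hxz, pairCost_of_ne s hyz,
    cost3, ENNReal.ofReal_add (add_nonneg h1 h2) h3, ENNReal.ofReal_add h1 h2]

theorem tripleCost_eq_top_of_eq23 {s : ℝ} (hs : 0 < s) (x y : V) :
    tripleCost s (x, y, y) = ⊤ := by
  rw [tripleCost_apply, pairCost_self hs]; simp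

/-! ### The trap design data and its potential -/

/-- Abstract trap design: the per-point hypotheses of `core_ineq` on `I`, and the two shells. -/
structure TrapData (s : ℝ) (I O : Set V) (tt EE DD LL XI κ gst : V → ℝ) : Prop where
  hs : 0 < s
  disj : ∀ x, x ∈ I → x ∉ O
  tt_pos : ∀ x ∈ I, 0 < tt x
  hE : ∀ x ∈ I, EE x = 2 * (1 - tt x ^ (-s - 2))
  hE1 : ∀ x ∈ I, EE x ≤ 1
  hD : ∀ x ∈ I, 0 < DD x
  hED : ∀ x ∈ I, EE x = DD x ^ (-s / 2 - 1)
  hL : ∀ x ∈ I, LL x ^ 2 = DD x - tt x ^ 2 / 4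
  hXI : ∀ x ∈ I, XI x = -EE x * LL x / 2
  hR : ∀ x ∈ I, ‖x‖ = LL x * (1 - EE x / 2)
  hκ : ∀ x ∈ I, κ x * (1 - EE x / 2) = -EE x / 2
  hgst : ∀ x ∈ I, gst x = tt x ^ (-s) + s * tt x ^ 2 / 2 + 2 * s * XI x ^ 2
    + 2 * DD x ^ (-s / 2)
  hgst_le : ∀ x ∈ I, gst x ≤ 5 / 4 + s / 2
  hO_lo : ∀ y ∈ O, 1 / 4 ≤ ‖y‖ ^ 2
  hO_hi : ∀ y ∈ O, ‖y‖ ^ 2 ≤ 1 / 3

open Classical in
/-- The dual potential of the trap design. -/
noncomputable def trapU (s : ℝ) (I : Set V) (gst : V → ℝ) (x : V) : ℝ :=
  if x ∈ I then gst x - 2 * (5 / 6 + s / 4) else (5 / 6 + s / 4) - s * ‖x‖ ^ 2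

theorem trapU_of_mem (s : ℝ) (I : Set V) (gst : V → ℝ) {x : V} (hx : x ∈ I) :
    trapU s I gst x = gst x - 2 * (5 / 6 + s / 4) := by
  unfold trapU; rw [if_pos hx]

theorem trapU_of_notMem (s : ℝ) (I : Set V) (gst : V → ℝ) {x : V} (hx : x ∉ I) :
    trapU s I gst x = (5 / 6 + s / 4) - s * ‖x‖ ^ 2 := by
  unfold trapU; rw [if_neg hx]

section

variable {s : ℝ} {I O : Set V} {tt EE DD LL XI κ gst : V → ℝ}

theorem TrapData.notMem_of_mem_O (T : TrapData s I O tt EE DD LL XI κ gst) {y : V}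
    (hy : y ∈ O) : y ∉ I := fun h => T.disj y h hy

theorem TrapData.ne_of_mem (T : TrapData s I O tt EE DD LL XI κ gst) {p q : V}
    (hp : p ∈ I) (hq : q ∈ O) : p ≠ q := by
  rintro rfl; exact T.disj p hp hq

theorem TrapData.trapU_I_le (T : TrapData s I O tt EE DD LL XI κ gst) {p : V} (hp : p ∈ I) :
    trapU s I gst p ≤ -(5 / 12) := by
  rw [trapU_of_mem s I gst hp]
  have := T.hgst_le p hp
  linarith

theorem TrapData.trapU_O_le (T : TrapData s I O tt EE DD LL XI κ gst) {q : V} (hq : q ∈ O) :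
    trapU s I gst q ≤ 5 / 6 := by
  rw [trapU_of_notMem s I gst (T.notMem_of_mem_O hq)]
  have := T.hO_lo q hq
  have hs := T.hs
  nlinarith

theorem TrapData.trapU_le (T : TrapData s I O tt EE DD LL XI κ gst) {z : V} (hz : z ∈ I ∪ O) :
    trapU s I gst z ≤ 5 / 6 := by
  rcases hz with h | h
  · have := T.trapU_I_le h; linarith
  · exact T.trapU_O_le h

variable [InnerProductSpace ℝ V]

/-- Type `(I, O, O)`: the real inequality. -/
theorem TrapData.IOO_real (T : TrapData s I O tt EE DD LL XI κ gst) {p q r : V}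
    (hp : p ∈ I) (hq : q ∈ O) (hr : r ∈ O) (hqr : q ≠ r) :
    trapU s I gst p + trapU s I gst q + trapU s I gst r ≤ cost3 s p q r := by
  have h := core_ineq s (tt p) (EE p) (DD p) (LL p) (XI p) (LL p * (1 - EE p / 2)) T.hs
    (T.tt_pos p hp) (T.hE p hp) (T.hE1 p hp) (T.hD p hp) (T.hED p hp) (T.hL p hp) (T.hXI p hp)
    rfl p q r (T.hR p hp) hqr (T.ne_of_mem hp hq) (T.ne_of_mem hp hr)
  rw [trapU_of_mem s I gst hp, trapU_of_notMem s I gst (T.notMem_of_mem_O hq),
    trapU_of_notMem s I gst (T.notMem_of_mem_O hr), T.hgst p hp]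
  unfold cost3
  linarith

/-- Type `(I, O, O)`: the equality case. -/
theorem TrapData.IOO_eq (T : TrapData s I O tt EE DD LL XI κ gst) {p q r : V}
    (hp : p ∈ I) (hq : q ∈ O) (hr : r ∈ O) (hqr : q ≠ r)
    (h : cost3 s p q r ≤ trapU s I gst p + trapU s I gst q + trapU s I gst r) :
    q + r = (2 * κ p) • p ∧ ‖q - r‖ = tt p ∧ inner ℝ (q - r) p = 0 := by
  have h' : ‖q - r‖ ^ (-s) + ‖p - q‖ ^ (-s) + ‖p - r‖ ^ (-s) + s * ‖q‖ ^ 2 + s * ‖r‖ ^ 2
      ≤ tt p ^ (-s) + s * tt p ^ 2 / 2 + 2 * s * XI p ^ 2 + 2 * DD p ^ (-s / 2) := by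
    rw [trapU_of_mem s I gst hp, trapU_of_notMem s I gst (T.notMem_of_mem_O hq),
      trapU_of_notMem s I gst (T.notMem_of_mem_O hr), T.hgst p hp] at h
    unfold cost3 at h
    linarith
  obtain ⟨e1, e2, e3, e4⟩ := core_eq s (tt p) (EE p) (DD p) (LL p) (XI p)
    (LL p * (1 - EE p / 2)) T.hs
    (T.tt_pos p hp) (T.hE p hp) (T.hE1 p hp) (T.hD p hp) (T.hED p hp) (T.hL p hp) (T.hXI p hp)
    rfl p q r (T.hR p hp) hqr (T.ne_of_mem hp hq) (T.ne_of_mem hp hr) h'
  have hu : 0 < 1 - EE p / 2 := by have := T.hE1 p hp; linarith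
  have hκ := T.hκ p hp
  have hsum : q + r = (2 * κ p) • p := by
    have h1 : (1 - EE p / 2) • (q + r) = (1 - EE p / 2) • ((2 * κ p) • p) := by
      rw [smul_smul]
      have : (1 - EE p / 2) * (2 * κ p) = -EE p := by linarith
      rw [this, neg_smul]
      exact eq_neg_of_add_eq_zero_left e2
    exact smul_right_injective V hu.ne' h1
  refine ⟨hsum, e1, ?_⟩
  -- orthogonality from `‖p - q‖² = ‖p - r‖²`
  have hκ1 : κ p ≠ 1 := by
    intro h1
    rw [h1] at hκ
    linarith
  have n1 := norm_sub_sq_real p q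
  have n2 := norm_sub_sq_real p r
  have hd : 2 * inner ℝ p (q - r) = ‖q‖ ^ 2 - ‖r‖ ^ 2 := by
    rw [inner_sub_right]; linarith
  have hqr2 : ‖q‖ ^ 2 - ‖r‖ ^ 2 = inner ℝ (q - r) (q + r) := by
    rw [inner_sub_left, inner_add_right, inner_add_right, real_inner_self_eq_norm_sq,
      real_inner_self_eq_norm_sq, real_inner_comm q r]
    ring
  rw [hsum, inner_smul_right] at hqr2
  rw [real_inner_comm (q - r) p] at hd
  have : (2 - 2 * κ p) * inner ℝ (q - r) p = 0 := by linear_combination hd + hqr2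
  rcases mul_eq_zero.mp this with h0 | h0
  · exact absurd (by linarith : κ p = 1) hκ1
  · exact h0

/-- Twin configurations are tight (real form). -/
theorem TrapData.twin_real (T : TrapData s I O tt EE DD LL XI κ gst) {p q r : V}
    (hp : p ∈ I) (hq : q ∈ O) (hr : r ∈ O)
    (hsum : q + r = (2 * κ p) • p) (hnorm : ‖q - r‖ = tt p) (horth : inner ℝ (q - r) p = 0) :
    cost3 s p q r = trapU s I gst p + trapU s I gst q + trapU s I gst r := by
  have hu : 0 < 1 - EE p / 2 := by have := T.hE1 p hp; linarith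
  have hκ := T.hκ p hp
  have hsplit := core_split s (tt p) (EE p) (DD p) (LL p) (XI p) (LL p * (1 - EE p / 2))
    (T.tt_pos p hp) (T.hE p hp) (T.hE1 p hp) (T.hED p hp) (T.hL p hp) (T.hXI p hp) rfl p q r
    (T.hR p hp)
  -- the square terms vanish
  have z1 : (1 - EE p / 2) • (q + r) + EE p • p = 0 := by
    rw [hsum, smul_smul, ← add_smul]
    have : (1 - EE p / 2) * (2 * κ p) + EE p = 0 := by linarith
    rw [this, zero_smul]
  -- `‖p - q‖² = D = ‖p - r‖²`
  have hhalf : (1 / 2 : ℝ) • (q + r) = κ p • p := by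
    rw [hsum, smul_smul]; congr 1; ring
  have hq2 : q = κ p • p + (1 / 2 : ℝ) • (q - r) := by
    have e : q + r + (q - r) = (2 : ℝ) • q := by rw [two_smul]; abel
    calc q = (1 / 2 : ℝ) • (q + r) + (1 / 2 : ℝ) • (q - r) := by
          rw [← smul_add, e, smul_smul]; norm_num
      _ = κ p • p + (1 / 2 : ℝ) • (q - r) := by rw [hhalf]
  have hr2 : r = κ p • p - (1 / 2 : ℝ) • (q - r) := by
    have e : q + r - (q - r) = (2 : ℝ) • r := by rw [two_smul]; abel
    calc r = (1 / 2 : ℝ) • (q + r) - (1 / 2 : ℝ) • (q - r) := by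
          rw [← smul_sub, e, smul_smul]; norm_num
      _ = κ p • p - (1 / 2 : ℝ) • (q - r) := by rw [hhalf]
  have hpn : ‖p‖ ^ 2 = (LL p * (1 - EE p / 2)) ^ 2 := by rw [T.hR p hp]
  have hLL : (1 - κ p) * (LL p * (1 - EE p / 2)) = LL p := by
    have : (1 - κ p) * (1 - EE p / 2) = 1 := by linarith
    calc (1 - κ p) * (LL p * (1 - EE p / 2)) = LL p * ((1 - κ p) * (1 - EE p / 2)) := by ring
      _ = LL p := by rw [this, mul_one]
  have horth' : inner ℝ p (q - r) = 0 := by rw [real_inner_comm]; exact horth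
  have dq : ‖p - q‖ ^ 2 = DD p := by
    have e : p - q = (1 - κ p) • p - (1 / 2 : ℝ) • (q - r) := by
      conv_lhs => rw [hq2]
      rw [sub_smul, one_smul]; abel
    rw [e, norm_sub_sq_real, norm_smul, norm_smul, inner_smul_left, inner_smul_right, horth',
      mul_pow, mul_pow, hnorm, Real.norm_eq_abs, Real.norm_eq_abs, sq_abs, sq_abs, hpn]
    have h5 : (1 - κ p) ^ 2 * (LL p * (1 - EE p / 2)) ^ 2 = LL p ^ 2 := by
      rw [← mul_pow, hLL]
    have hL := T.hL p hp
    simp only [mul_zero, sub_zero]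
    rw [h5, hL]; ring
  have dr : ‖p - r‖ ^ 2 = DD p := by
    have e : p - r = (1 - κ p) • p + (1 / 2 : ℝ) • (q - r) := by
      conv_lhs => rw [hr2]
      rw [sub_smul, one_smul]; abel
    rw [e, norm_add_sq_real, norm_smul, norm_smul, inner_smul_left, inner_smul_right, horth',
      mul_pow, mul_pow, hnorm, Real.norm_eq_abs, Real.norm_eq_abs, sq_abs, sq_abs, hpn]
    have h5 : (1 - κ p) ^ 2 * (LL p * (1 - EE p / 2)) ^ 2 = LL p ^ 2 := by
      rw [← mul_pow, hLL]
    have hL := T.hL p hp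
    simp only [mul_zero, add_zero]
    rw [h5, hL]; ring
  rw [z1, hnorm, dq, dr] at hsplit
  simp only [sub_self, norm_zero, mul_zero, add_zero, ne_eq, OfNat.ofNat_ne_zero,
    not_false_eq_true, zero_pow, zero_div] at hsplit
  rw [trapU_of_mem s I gst hp, trapU_of_notMem s I gst (T.notMem_of_mem_O hq),
    trapU_of_notMem s I gst (T.notMem_of_mem_O hr), T.hgst p hp]
  unfold cost3
  rw [hnorm]
  linarith

/-- Type `(O, O, O)`: the cost is at least `3`. -/
theorem TrapData.OOO_real (T : TrapData s I O tt EE DD LL XI κ gst) {x y z : V}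
    (hx : x ∈ O) (hy : y ∈ O) (hz : z ∈ O) (hxy : x ≠ y) (hxz : x ≠ z) (hyz : y ≠ z) :
    3 ≤ cost3 s x y z := by
  have hs := T.hs
  have pxy : 0 < ‖x - y‖ ^ 2 := pow_pos (norm_pos_iff.mpr (sub_ne_zero.mpr hxy)) 2
  have pxz : 0 < ‖x - z‖ ^ 2 := pow_pos (norm_pos_iff.mpr (sub_ne_zero.mpr hxz)) 2
  have pyz : 0 < ‖y - z‖ ^ 2 := pow_pos (norm_pos_iff.mpr (sub_ne_zero.mpr hyz)) 2
  have t1 := rpow_tangent_le (p := -s / 2) (by linarith) pxy one_pos
  have t2 := rpow_tangent_le (p := -s / 2) (by linarith) pxz one_pos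
  have t3 := rpow_tangent_le (p := -s / 2) (by linarith) pyz one_pos
  simp only [Real.one_rpow, mul_one] at t1 t2 t3
  have e1 := rpow_neg_eq_sq_rpow (norm_nonneg (x - y)) s
  have e2 := rpow_neg_eq_sq_rpow (norm_nonneg (x - z)) s
  have e3 := rpow_neg_eq_sq_rpow (norm_nonneg (y - z)) s
  have n1 := norm_sub_sq_real x y
  have n2 := norm_sub_sq_real x z
  have n3 := norm_sub_sq_real y z
  have hsum : 0 ≤ ‖x + y + z‖ ^ 2 := sq_nonneg _
  rw [norm_add_sq_real, norm_add_sq_real, inner_add_left] at hsum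
  have hx3 := T.hO_hi x hx
  have hy3 := T.hO_hi y hy
  have hz3 := T.hO_hi z hz
  have hd : ‖x - y‖ ^ 2 + ‖x - z‖ ^ 2 + ‖y - z‖ ^ 2 ≤ 3 := by linarith
  unfold cost3
  rw [e1, e2, e3]
  nlinarith

end

/-! ### The three theorems in `ENNReal` form -/

section

variable [InnerProductSpace ℝ V]

variable {s : ℝ} {I O : Set V} {tt EE DD LL XI κ gst : V → ℝ}

/-- Canonical position `(I, O, O)`: inequality and equality case. -/
theorem TrapData.dual_IOO (T : TrapData s I O tt EE DD LL XI κ gst) {p q r : V}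
    (hp : p ∈ I) (hq : q ∈ O) (hr : r ∈ O) :
    ENNReal.ofReal (trapU s I gst p + trapU s I gst q + trapU s I gst r)
        ≤ tripleCost s (p, q, r) ∧
      (tripleCost s (p, q, r)
          = ENNReal.ofReal (trapU s I gst p + trapU s I gst q + trapU s I gst r) →
        q + r = (2 * κ p) • p ∧ ‖q - r‖ = tt p ∧ inner ℝ (q - r) p = 0) := by
  by_cases hqr : q = r
  · subst hqr
    rw [tripleCost_eq_top_of_eq23 T.hs]
    exact ⟨le_top, fun h => absurd h.symm ENNReal.ofReal_ne_top⟩
  · have hpq := T.ne_of_mem hp hq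
    have hpr := T.ne_of_mem hp hr
    rw [tripleCost_of_distinct s hpq hpr hqr]
    refine ⟨ENNReal.ofReal_le_ofReal (T.IOO_real hp hq hr hqr), fun h => ?_⟩
    have hpos := cost3_pos s hpq hpr hqr
    have hle : cost3 s p q r ≤ trapU s I gst p + trapU s I gst q + trapU s I gst r :=
      (ENNReal.ofReal_le_ofReal_iff' .. |>.mp h.le).resolve_right (not_le.mpr hpos)
    exact T.IOO_eq hp hq hr hqr hle

omit [InnerProductSpace ℝ V] in
/-- Two points in `I`: the potential sum is nonpositive, hence strictly below the cost. -/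
theorem TrapData.dual_II (T : TrapData s I O tt EE DD LL XI κ gst) {p₁ p₂ z : V}
    (h₁ : p₁ ∈ I) (h₂ : p₂ ∈ I) (hz : z ∈ I ∪ O) (c : ℝ≥0∞) (hc : c ≠ 0) :
    ENNReal.ofReal (trapU s I gst p₁ + trapU s I gst p₂ + trapU s I gst z) < c := by
  have a1 := T.trapU_I_le h₁
  have a2 := T.trapU_I_le h₂
  have a3 := T.trapU_le hz
  rw [ENNReal.ofReal_of_nonpos (by linarith)]
  exact pos_iff_ne_zero.mpr hc

/-- Type `(O, O, O)`: strict inequality. -/
theorem TrapData.dual_OOO (T : TrapData s I O tt EE DD LL XI κ gst) {x y z : V}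
    (hx : x ∈ O) (hy : y ∈ O) (hz : z ∈ O) :
    ENNReal.ofReal (trapU s I gst x + trapU s I gst y + trapU s I gst z)
      < tripleCost s (x, y, z) := by
  have hs := T.hs
  have hsum : trapU s I gst x + trapU s I gst y + trapU s I gst z ≤ 5 / 2 := by
    rw [trapU_of_notMem s I gst (T.notMem_of_mem_O hx),
      trapU_of_notMem s I gst (T.notMem_of_mem_O hy),
      trapU_of_notMem s I gst (T.notMem_of_mem_O hz)]
    have := T.hO_lo x hx
    have := T.hO_lo y hy
    have := T.hO_lo z hz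
    nlinarith
  by_cases hxy : x = y
  · subst hxy
    rw [tripleCost_cyc s x x z, tripleCost_eq_top_of_eq23 hs]
    exact ENNReal.ofReal_lt_top
  by_cases hxz : x = z
  · subst hxz
    rw [tripleCost_swap12 s x y x, tripleCost_eq_top_of_eq23 hs]
    exact ENNReal.ofReal_lt_top
  by_cases hyz : y = z
  · subst hyz
    rw [tripleCost_eq_top_of_eq23 hs]
    exact ENNReal.ofReal_lt_top
  rw [tripleCost_of_distinct s hxy hxz hyz]
  have h3 := T.OOO_real hx hy hz hxy hxz hyz
  exact (ENNReal.ofReal_lt_ofReal_iff (by linarith)).mpr (by linarith)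

/-- **Dual feasibility** of the trap potential on `(I ∪ O)³`. -/
theorem TrapData.dual_le (T : TrapData s I O tt EE DD LL XI κ gst) :
    ∀ x ∈ I ∪ O, ∀ y ∈ I ∪ O, ∀ z ∈ I ∪ O,
      ENNReal.ofReal (trapU s I gst x + trapU s I gst y + trapU s I gst z)
        ≤ tripleCost s (x, y, z) := by
  intro x hx y hy z hz
  have hc := tripleCost_ne_zero T.hs x y z
  rcases hx with hx | hx
  · rcases hy with hy | hy
    · exact (T.dual_II hx hy hz _ hc).le
    · rcases hz with hz | hz
      · have := (T.dual_II hx hz (Or.inr hy) _ hc).le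
        rw [show trapU s I gst x + trapU s I gst y + trapU s I gst z
          = trapU s I gst x + trapU s I gst z + trapU s I gst y by ring]
        exact this
      · exact (T.dual_IOO hx hy hz).1
  · rcases hy with hy | hy
    · rcases hz with hz | hz
      · have := (T.dual_II hy hz (Or.inr hx) _ hc).le
        rw [show trapU s I gst x + trapU s I gst y + trapU s I gst z
          = trapU s I gst y + trapU s I gst z + trapU s I gst x by ring]
        exact this
      · have := (T.dual_IOO hy hx hz).1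
        rw [tripleCost_swap12 s x y z,
          show trapU s I gst x + trapU s I gst y + trapU s I gst z
            = trapU s I gst y + trapU s I gst x + trapU s I gst z by ring]
        exact this
    · rcases hz with hz | hz
      · have := (T.dual_IOO hz hx hy).1
        rw [tripleCost_cyc s x y z,
          show trapU s I gst x + trapU s I gst y + trapU s I gst z
            = trapU s I gst z + trapU s I gst x + trapU s I gst y by ring]
        exact this
      · exact (T.dual_OOO hx hy hz).le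

/-- **Contact characterisation**: equality in the dual inequality forces a twin configuration
(exactly the hypothesis `hchar` of `rigid_of_design`). -/
theorem TrapData.dual_char (T : TrapData s I O tt EE DD LL XI κ gst) :
    ∀ x ∈ I ∪ O, ∀ y ∈ I ∪ O, ∀ z ∈ I ∪ O,
      tripleCost s (x, y, z)
          = ENNReal.ofReal (trapU s I gst x + trapU s I gst y + trapU s I gst z) →
      (x ∈ I ∧ y ∉ I ∧ z ∉ I ∧ y + z = (2 * κ x) • x ∧ ‖y - z‖ = tt x ∧
        inner ℝ (y - z) x = 0) ∨
      (y ∈ I ∧ x ∉ I ∧ z ∉ I ∧ x + z = (2 * κ y) • y ∧ ‖x - z‖ = tt y ∧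
        inner ℝ (x - z) y = 0) ∨
      (z ∈ I ∧ x ∉ I ∧ y ∉ I ∧ x + y = (2 * κ z) • z ∧ ‖x - y‖ = tt z ∧
        inner ℝ (x - y) z = 0) := by
  intro x hx y hy z hz heq
  have hc := tripleCost_ne_zero T.hs x y z
  rcases hx with hx | hx
  · rcases hy with hy | hy
    · exact absurd heq.symm (T.dual_II hx hy hz _ hc).ne
    · rcases hz with hz | hz
      · have := (T.dual_II hx hz (Or.inr hy) _ hc).ne
        rw [show trapU s I gst x + trapU s I gst z + trapU s I gst y
          = trapU s I gst x + trapU s I gst y + trapU s I gst z by ring] at this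
        exact absurd heq.symm this
      · exact Or.inl ⟨hx, T.notMem_of_mem_O hy, T.notMem_of_mem_O hz,
          (T.dual_IOO hx hy hz).2 heq⟩
  · rcases hy with hy | hy
    · rcases hz with hz | hz
      · have := (T.dual_II hy hz (Or.inr hx) _ hc).ne
        rw [show trapU s I gst y + trapU s I gst z + trapU s I gst x
          = trapU s I gst x + trapU s I gst y + trapU s I gst z by ring] at this
        exact absurd heq.symm this
      · refine Or.inr (Or.inl ⟨hy, T.notMem_of_mem_O hx, T.notMem_of_mem_O hz, ?_⟩)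
        refine (T.dual_IOO hy hx hz).2 ?_
        rw [← tripleCost_swap12 s x y z, heq]
        congr 1; ring
    · rcases hz with hz | hz
      · refine Or.inr (Or.inr ⟨hz, T.notMem_of_mem_O hx, T.notMem_of_mem_O hy, ?_⟩)
        refine (T.dual_IOO hz hx hy).2 ?_
        rw [← tripleCost_cyc s x y z, heq]
        congr 1; ring
      · exact absurd heq.symm (T.dual_OOO hx hy hz).ne

/-- **Twin configurations are tight**: gives `heq` and `hnn` of `abstract_main`. -/
theorem TrapData.dual_eq (T : TrapData s I O tt EE DD LL XI κ gst) {p q r : V}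
    (hp : p ∈ I) (hq : q ∈ O) (hr : r ∈ O)
    (hsum : q + r = (2 * κ p) • p) (hnorm : ‖q - r‖ = tt p) (horth : inner ℝ (q - r) p = 0) :
    tripleCost s (p, q, r)
        = ENNReal.ofReal (trapU s I gst p + trapU s I gst q + trapU s I gst r) ∧
      0 ≤ trapU s I gst p + trapU s I gst q + trapU s I gst r := by
  have hqr : q ≠ r := by
    intro h
    have : ‖q - r‖ = 0 := by rw [h, sub_self, norm_zero]
    have ht := T.tt_pos p hp
    rw [hnorm] at this
    linarith
  have hpq := T.ne_of_mem hp hq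
  have hpr := T.ne_of_mem hp hr
  have h := T.twin_real hp hq hr hsum hnorm horth
  rw [tripleCost_of_distinct s hpq hpr hqr, h]
  exact ⟨rfl, h ▸ (cost3_pos s hpq hpr hqr).le⟩

end

end Crest.Agent.S0175lib
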