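import Mathlib
import Crest.Agent.S0175.TwinGeom
import Crest.Agent.S0175.PlaneRot

/-!
# Row 130 (S0175): the measure side of the twin design in one theorem (helper94)

`TwinData.exists_sigma`: from the scalar twin data (with measurable scalar functions), an
orthonormal pair and a rotation-invariant smooth bump `η` supported in `twinU`, produce the
smooth square-root density `σ` on `twinV` with

* `(η² dx).map (twinMap .. 1) = σ² dy`  and  `(η² dx).map (twinMap .. (-1)) = σ² dy`,
* `σ² dy` invariant under the plane rotations,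
* `tsupport η` and `tsupport σ` disjoint (when `m₂ ≤ r₁`).
-/

set_option autoImplicit false
set_option linter.unusedSectionVars false
set_option linter.unusedVariables false

open Set Filter Topology MeasureTheory
open scoped ContDiff

namespace Crest.Agent.S0175lib

section

variable {V : Type*} [NormedAddCommGroup V] [InnerProductSpace ℝ V]
  [MeasurableSpace V] [BorelSpace V] [SecondCountableTopology V]
variable {e0 e1 : V} {kap hb rinv : ℝ → ℝ} {ε : ℝ} {r₁ r₂ m₁ m₂ : ℝ}

/-- The image of a rotation-invariant measure under a twin map is rotation invariant. -/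
theorem OrthoPair.map_twinMap_planeRot (h : OrthoPair e0 e1)
    (hkap : Measurable kap) (hhb : Measurable hb) (ε : ℝ)
    (μ : Measure V) (hμR : ∀ θ, μ.map (planeRot e0 e1 θ) = μ) (θ : ℝ) :
    (μ.map (twinMap e0 e1 kap hb ε)).map (planeRot e0 e1 θ) = μ.map (twinMap e0 e1 kap hb ε) := by
  have ha : Measurable (twinMap e0 e1 kap hb ε) := measurable_twinMap e0 e1 hkap hhb ε
  have hRm : Measurable (planeRot e0 e1 θ) :=
    (isCircleAction_planeRot e0 e1 h.n0 h.n1 h.orth).measurable_apply θ
  rw [Measure.map_map hRm ha]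
  have : planeRot e0 e1 θ ∘ twinMap e0 e1 kap hb ε = twinMap e0 e1 kap hb ε ∘ planeRot e0 e1 θ := by
    funext x
    exact (h.twinMap_rot θ x).symm
  rw [this, ← Measure.map_map ha hRm, hμR]

/-- `planeRot` version of `TwinData.map_twinMap_neg`. -/
theorem TwinData.map_twinMap_neg_planeRot (T : TwinData r₁ r₂ m₁ m₂ kap hb rinv)
    (h : OrthoPair e0 e1) (hε : ε ^ 2 = 1)
    (hkap : Measurable kap) (hhb : Measurable hb) (hrinv : Measurable rinv)
    (μ : Measure V) [SFinite μ] (hμU : ∀ᵐ x ∂μ, x ∈ twinU e0 e1 r₁ r₂)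
    (hμR : ∀ θ, μ.map (planeRot e0 e1 θ) = μ) :
    μ.map (twinMap e0 e1 kap hb (-ε)) = μ.map (twinMap e0 e1 kap hb ε) :=
  T.map_twinMap_neg h hε hkap hhb hrinv μ hμU (planeRot e0 e1)
    (isCircleAction_planeRot e0 e1 h.n0 h.n1 h.orth) (fun _ _ => rfl) hμR

end

section

variable {V : Type*} [NormedAddCommGroup V] [InnerProductSpace ℝ V] [FiniteDimensional ℝ V]
  [MeasurableSpace V] [BorelSpace V]
variable {e0 e1 : V} {kap hb rinv : ℝ → ℝ} {r₁ r₂ m₁ m₂ : ℝ}

/-- `η² dx` is concentrated on any set containing `tsupport η`. -/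
theorem h94_ae_mem_of_tsupport_subset {η : V → ℝ} (hηm : Measurable η) {U : Set V}
    (hU : tsupport η ⊆ U) :
    ∀ᵐ x ∂((volume : Measure V).withDensity fun x => ENNReal.ofReal (η x ^ 2)), x ∈ U := by
  rw [ae_withDensity_iff (by fun_prop)]
  refine Filter.Eventually.of_forall fun x hx => ?_
  apply hU
  apply subset_tsupport
  intro h0
  apply hx
  rw [h0]; simp

/-- **The measure side in one theorem.** -/
theorem TwinData.exists_sigma (T : TwinData r₁ r₂ m₁ m₂ kap hb rinv) (h : OrthoPair e0 e1)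
    (hkap : Measurable kap) (hhb : Measurable hb) (hrinv : Measurable rinv)
    (hsep : m₂ ≤ r₁)
    (η : V → ℝ) (hη : ContDiff ℝ ∞ η) (hη0 : ∀ x, 0 ≤ η x) (hc : HasCompactSupport η)
    (hU : tsupport η ⊆ twinU e0 e1 r₁ r₂)
    (hinv : ∀ x y, ‖planeP e0 e1 x‖ = ‖planeP e0 e1 y‖ →
      ‖x - planeP e0 e1 x‖ = ‖y - planeP e0 e1 y‖ → η x = η y) :
    ∃ σ : V → ℝ, (∀ y, 0 ≤ σ y) ∧ ContDiff ℝ ∞ σ ∧ HasCompactSupport σ ∧
      tsupport σ ⊆ twinV e0 e1 hb rinv m₁ m₂ ∧
      tsupport σ ⊆ twinMap e0 e1 kap hb 1 '' tsupport η ∧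
      Disjoint (tsupport η) (tsupport σ) ∧
      (Measure.map (twinMap e0 e1 kap hb 1)
          ((volume : Measure V).withDensity fun x => ENNReal.ofReal (η x ^ 2))
        = (volume : Measure V).withDensity fun y => ENNReal.ofReal (σ y ^ 2)) ∧
      (Measure.map (twinMap e0 e1 kap hb (-1))
          ((volume : Measure V).withDensity fun x => ENNReal.ofReal (η x ^ 2))
        = (volume : Measure V).withDensity fun y => ENNReal.ofReal (σ y ^ 2)) ∧
      (∀ θ, Measure.map (planeRot e0 e1 θ)
          ((volume : Measure V).withDensity fun y => ENNReal.ofReal (σ y ^ 2))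
        = (volume : Measure V).withDensity fun y => ENNReal.ofReal (σ y ^ 2)) := by
  have hone : (1 : ℝ) ^ 2 = 1 := by norm_num
  have D := T.diffeoData (e0 := e0) (e1 := e1) h hone
  have ha : Measurable (twinMap e0 e1 kap hb 1) := measurable_twinMap e0 e1 hkap hhb 1
  obtain ⟨σ, hσ0, hσs, hσc, hσV, hσim, -, -, hmap⟩ := D.exists_sqrt_density ha hη hη0 hc hU
  have hηm : Measurable η := hη.continuous.measurable
  have hμR : ∀ θ, Measure.map (planeRot e0 e1 θ)
      ((volume : Measure V).withDensity fun x => ENNReal.ofReal (η x ^ 2))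
      = (volume : Measure V).withDensity fun x => ENNReal.ofReal (η x ^ 2) :=
    fun θ => map_planeRot_withDensity_sq e0 e1 h.n0 h.n1 h.orth η hηm hinv θ
  have hae := h94_ae_mem_of_tsupport_subset hηm hU
  refine ⟨σ, hσ0, hσs, hσc, hσV, hσim, ?_, hmap, ?_, ?_⟩
  · rw [Set.disjoint_left]
    intro x hx hx'
    have h1 : r₁ < ‖x‖ := (hU hx).1.1
    have h2 : ‖x‖ < m₂ := (hσV hx').1.2
    linarith
  · rw [← hmap]
    exact T.map_twinMap_neg_planeRot h hone hkap hhb hrinv _ hae hμR
  · intro θ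
    rw [← hmap]
    exact h.map_twinMap_planeRot hkap hhb 1 _ hμR θ

end

end Crest.Agent.S0175lib
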