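import Mathlib
import Crest.Agent.S0175.TwinSigma
import Crest.Agent.S0175.Bump
import Crest.Agent.S0175.DesignPot
import Crest.Agent.S0175.RhoPack

/-!
# Row 130 (S0175): tube choice and the full measure-side existence statement (helper94)

* `exists_eta_in_twinU` : a rotation-invariant smooth bump `η` with `tsupport η ⊆ twinU`,
  `∫ η² = m` (helper88's tube bump with the tube inside the shell).
* `ScalarDesign.exists_eta_sigma` : for a scalar design, `η` and `σ` with every property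
  needed by `rho_package` (hpa, hpb), by the approximation step (rotation invariance of `σ² dy`)
  and the two inclusions `{η ≠ 0} ⊆ twinU`, `{ρ ≠ 0} ⊆ {η ≠ 0} ∪ nearSet`.
-/

set_option autoImplicit false
set_option linter.unusedSectionVars false
set_option linter.unusedVariables false

open Set Filter Topology MeasureTheory
open scoped ContDiff

namespace Crest.Agent.S0175lib

section

variable {V : Type*} [NormedAddCommGroup V] [InnerProductSpace ℝ V]
variable {e0 e1 : V} {kap hb rinv : ℝ → ℝ} {ε : ℝ} {r₁ r₂ m₁ m₂ : ℝ}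

/-- Points of `twinV` have nonzero planar part. -/
theorem planeP_ne_zero_of_mem_twinV {y : V} (hy : y ∈ twinV e0 e1 hb rinv m₁ m₂) :
    planeP e0 e1 y ≠ 0 := by
  intro h0
  have h1 : hb (rinv ‖y‖) ^ 2 < ‖planeP e0 e1 y‖ ^ 2 := hy.2
  rw [h0, norm_zero] at h1
  nlinarith [sq_nonneg (hb (rinv ‖y‖))]

/-- The twins of a point of `twinU` have nonzero planar part. -/
theorem TwinData.planeP_twinMap_ne_zero (T : TwinData r₁ r₂ m₁ m₂ kap hb rinv)
    (h : OrthoPair e0 e1) (hε : ε ^ 2 = 1) {x : V} (hx : x ∈ twinU e0 e1 r₁ r₂) :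
    planeP e0 e1 (twinMap e0 e1 kap hb ε x) ≠ 0 :=
  planeP_ne_zero_of_mem_twinV (T.mapsTo_twinMap h hε hx)

/-- The twins of a point of `twinU` have norm in `(m₁, m₂)`. -/
theorem TwinData.norm_twinMap_mem (T : TwinData r₁ r₂ m₁ m₂ kap hb rinv)
    (h : OrthoPair e0 e1) (hε : ε ^ 2 = 1) {x : V} (hx : x ∈ twinU e0 e1 r₁ r₂) :
    ‖twinMap e0 e1 kap hb ε x‖ ∈ Ioo m₁ m₂ :=
  (T.mapsTo_twinMap h hε hx).1

end

section

variable {V : Type*} [NormedAddCommGroup V] [InnerProductSpace ℝ V] [FiniteDimensional ℝ V]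
  [MeasurableSpace V] [BorelSpace V]
variable {e0 e1 : V} {r₁ r₂ : ℝ}

/-- A rotation-invariant smooth bump supported inside `twinU`, with prescribed `∫ η²`. -/
theorem exists_eta_in_twinU (h : OrthoPair e0 e1) (hr₁ : 0 < r₁) (hr : r₁ < r₂) (m : ℝ)
    (hm : 0 < m) :
    ∃ η : V → ℝ, ContDiff ℝ ∞ η ∧ (∀ x, 0 ≤ η x) ∧ HasCompactSupport η ∧
      tsupport η ⊆ twinU e0 e1 r₁ r₂ ∧
      (∀ x y, ‖planeP e0 e1 x‖ = ‖planeP e0 e1 y‖ →
        ‖x - planeP e0 e1 x‖ = ‖y - planeP e0 e1 y‖ → η x = η y) ∧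
      ∫ x, η x ^ 2 = m := by
  set δ : ℝ := (r₂ ^ 2 - r₁ ^ 2) / 4 with hδ
  have hδpos : 0 < δ := by rw [hδ]; nlinarith
  have hα₁ : 0 < r₁ ^ 2 + δ := by positivity
  obtain ⟨η, hη, hη0, hc, hsupp, hinv, hint⟩ := exists_tube_bump (E := V) e0 e1 h.n0 h.n1 h.orth
    (r₁ ^ 2 + δ) (r₁ ^ 2 + 2 * δ) δ m hα₁ (by linarith) hδpos hm
  refine ⟨η, hη, hη0, hc, ?_, hinv, hint⟩
  intro x hx
  have hx' := hsupp hx
  have hn := h88_tube_norm_sq e0 e1 h.n0 h.n1 h.orth hx'
  have hP := h88_tube_planeP_ne_zero e0 e1 hα₁ hx'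
  refine ⟨⟨?_, ?_⟩, hP⟩
  · by_contra hcon
    rw [not_lt] at hcon
    have : ‖x‖ ^ 2 ≤ r₁ ^ 2 := by nlinarith [norm_nonneg x]
    linarith [hn.1]
  · by_contra hcon
    rw [not_lt] at hcon
    have h1 : r₂ ^ 2 ≤ ‖x‖ ^ 2 := by nlinarith [norm_nonneg x]
    have h2 : ‖x‖ ^ 2 ≤ r₁ ^ 2 + 2 * δ + δ := hn.2
    have h3 : r₁ ^ 2 + 2 * δ + δ < r₂ ^ 2 := by rw [hδ]; nlinarith
    linarith

variable {s r1 r2 m1 m2 : ℝ} {tau kap hb rinv : ℝ → ℝ}

/-- **Measure side of the design**: existence of `η` and `σ` with all the properties used by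
`rho_package`, by the approximation step and by the dual side. -/
theorem ScalarDesign.exists_eta_sigma (SD : ScalarDesign s r1 r2 m1 m2 tau kap hb rinv)
    (h : OrthoPair e0 e1) :
    ∃ η σ : V → ℝ,
      ContDiff ℝ ∞ η ∧ (∀ x, 0 ≤ η x) ∧ HasCompactSupport η ∧
      tsupport η ⊆ twinU e0 e1 r1 r2 ∧ (∫ x, η x ^ 2 = 1 / 3) ∧
      ContDiff ℝ ∞ σ ∧ (∀ y, 0 ≤ σ y) ∧ HasCompactSupport σ ∧
      tsupport σ ⊆ twinV e0 e1 hb rinv m1 m2 ∧
      tsupport σ ⊆ twinMap e0 e1 kap hb 1 '' tsupport η ∧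
      Disjoint (tsupport η) (tsupport σ) ∧
      (Measure.map (twinMap e0 e1 kap hb 1)
          ((volume : Measure V).withDensity fun x => ENNReal.ofReal (η x ^ 2))
        = (volume : Measure V).withDensity fun y => ENNReal.ofReal (σ y ^ 2)) ∧
      (Measure.map (twinMap e0 e1 kap hb (-1))
          ((volume : Measure V).withDensity fun x => ENNReal.ofReal (η x ^ 2))
        = (volume : Measure V).withDensity fun y => ENNReal.ofReal (σ y ^ 2)) ∧
      (∀ θ, Measure.map (planeRot e0 e1 θ)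
          ((volume : Measure V).withDensity fun y => ENNReal.ofReal (σ y ^ 2))
        = (volume : Measure V).withDensity fun y => ENNReal.ofReal (σ y ^ 2)) ∧
      ({x | η x ≠ 0} ⊆ twinU e0 e1 r1 r2) ∧
      ({x | Crest.Agent.S0175.rhoOf η σ x ≠ 0} ⊆ {x | η x ≠ 0} ∪ nearSet V) := by
  obtain ⟨η, hη, hη0, hc, hU, hinv, hint⟩ :=
    exists_eta_in_twinU (V := V) h SD.r1_pos SD.r1_lt (1 / 3) (by norm_num)
  have hsep : m2 ≤ r1 := by
    have h1 : m2 ≤ 1 := by
      by_contra hcon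
      rw [not_le] at hcon
      have : 1 < m2 ^ 2 := by nlinarith
      linarith [SD.le_third]
    linarith [SD.two_le_r1]
  obtain ⟨σ, hσ0, hσs, hσc, hσV, hσim, hdisj, hpa, hpb, hrot⟩ :=
    SD.twinData.exists_sigma h SD.kap_meas SD.hb_meas SD.rinv_meas hsep η hη hη0 hc hU hinv
  refine ⟨η, σ, hη, hη0, hc, hU, hint, hσs, hσ0, hσc, hσV, hσim, hdisj, hpa, hpb, hrot, ?_, ?_⟩
  · intro x hx
    exact hU (subset_tsupport η hx)
  · intro x hx
    by_cases hηx : η x = 0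
    · right
      have hσx : σ x ≠ 0 := by
        intro h0
        apply hx
        simp [Crest.Agent.S0175.rhoOf, hηx, h0]
      obtain ⟨x', hx', rfl⟩ := hσim (subset_tsupport σ hσx)
      exact (SD.twinMap_mem_near h (hU hx')).1
    · left; exact hηx

end

end Crest.Agent.S0175lib
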