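import Mathlib
import Crest.Agent.S0175.Rigidity
import Crest.Agent.S0175.NoMonge
import Crest.Agent.S0175.CircleAvg

/-!
# The two twin maps push a rotation-invariant measure to the same measure (S0175)

`a x = κ x • x + h x • (‖P x‖⁻¹ • J x)`, `b x = κ x • x - h x • (‖P x‖⁻¹ • J x)` with `κ`, `h`
rotation invariant.  Then `b x = a (R (φ x) x)` for an explicit rotation-invariant measurable
angle `φ`, hence `ν.map b = ν.map a` for every rotation-invariant measure `ν` (averaging lemma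
`map_twist_eq_self`).  Here `R θ x = x + (cos θ - 1) • P x + sin θ • J x` is the plane rotation.
-/

set_option autoImplicit false
open MeasureTheory

namespace Crest.Agent.S0175

open Crest.Agent.S0175lib

section algebra

variable {V : Type*} [NormedAddCommGroup V] [InnerProductSpace ℝ V]

theorem ts_planeJ_add (e0 e1 x y : V) :
    planeJ e0 e1 (x + y) = planeJ e0 e1 x + planeJ e0 e1 y := by
  simp only [planeJ, inner_add_right, add_smul, neg_add, neg_smul]; abel

theorem ts_planeJ_smul (e0 e1 : V) (c : ℝ) (x : V) :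
    planeJ e0 e1 (c • x) = c • planeJ e0 e1 x := by
  simp only [planeJ, inner_smul_right, smul_add, smul_smul, neg_smul, smul_neg]

variable (e0 e1 : V) (h0 : ‖e0‖ = 1) (h1 : ‖e1‖ = 1) (h01 : inner ℝ e0 e1 = 0)
include h0 h1 h01

theorem ts_planeP_planeP (x : V) : planeP e0 e1 (planeP e0 e1 x) = planeP e0 e1 x := by
  have e00 : inner ℝ e0 e0 = 1 := by rw [real_inner_self_eq_norm_sq, h0]; norm_num
  have e11 : inner ℝ e1 e1 = 1 := by rw [real_inner_self_eq_norm_sq, h1]; norm_num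
  have e10 : inner ℝ e1 e0 = 0 := by rw [real_inner_comm]; exact h01
  simp only [planeP, inner_add_right, inner_smul_right, e00, e11, e10, h01]
  simp

theorem ts_planeJ_planeP (x : V) : planeJ e0 e1 (planeP e0 e1 x) = planeJ e0 e1 x := by
  have e00 : inner ℝ e0 e0 = 1 := by rw [real_inner_self_eq_norm_sq, h0]; norm_num
  have e11 : inner ℝ e1 e1 = 1 := by rw [real_inner_self_eq_norm_sq, h1]; norm_num
  have e10 : inner ℝ e1 e0 = 0 := by rw [real_inner_comm]; exact h01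
  simp only [planeP, planeJ, inner_add_right, inner_smul_right, e00, e11, e10, h01]
  simp

theorem ts_planeJ_planeJ (x : V) : planeJ e0 e1 (planeJ e0 e1 x) = -planeP e0 e1 x := by
  have e00 : inner ℝ e0 e0 = 1 := by rw [real_inner_self_eq_norm_sq, h0]; norm_num
  have e11 : inner ℝ e1 e1 = 1 := by rw [real_inner_self_eq_norm_sq, h1]; norm_num
  have e10 : inner ℝ e1 e0 = 0 := by rw [real_inner_comm]; exact h01
  simp only [planeP, planeJ, inner_add_right, inner_smul_right, e00, e11, e10, h01]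
  simp
  abel

/-- `P (x + β P x + γ J x) = (1 + β) P x + γ J x`. -/
theorem ts_planeP_comb (x : V) (β γ : ℝ) :
    planeP e0 e1 (x + β • planeP e0 e1 x + γ • planeJ e0 e1 x)
      = (1 + β) • planeP e0 e1 x + γ • planeJ e0 e1 x := by
  rw [planeP_add, planeP_add, planeP_smul, planeP_smul, ts_planeP_planeP e0 e1 h0 h1 h01,
    planeP_planeJ e0 e1 h0 h1 h01, add_smul, one_smul]

/-- `J (x + β P x + γ J x) = (1 + β) J x - γ P x`. -/
theorem ts_planeJ_comb (x : V) (β γ : ℝ) :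
    planeJ e0 e1 (x + β • planeP e0 e1 x + γ • planeJ e0 e1 x)
      = (1 + β) • planeJ e0 e1 x - γ • planeP e0 e1 x := by
  rw [ts_planeJ_add, ts_planeJ_add, ts_planeJ_smul, ts_planeJ_smul,
    ts_planeJ_planeP e0 e1 h0 h1 h01, ts_planeJ_planeJ e0 e1 h0 h1 h01, add_smul, one_smul,
    smul_neg, sub_eq_add_neg]

theorem ts_inner_planeP_planeJ (x : V) : inner ℝ (planeP e0 e1 x) (planeJ e0 e1 x) = 0 := by
  have e00 : inner ℝ e0 e0 = 1 := by rw [real_inner_self_eq_norm_sq, h0]; norm_num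
  have e11 : inner ℝ e1 e1 = 1 := by rw [real_inner_self_eq_norm_sq, h1]; norm_num
  have e10 : inner ℝ e1 e0 = 0 := by rw [real_inner_comm]; exact h01
  simp only [planeP, planeJ, inner_add_left, inner_add_right, inner_smul_left, inner_smul_right,
    e00, e11, e10, h01]
  simp
  ring

/-- `‖c P x + s J x‖ = ‖P x‖` when `c² + s² = 1`. -/
theorem ts_norm_comb (x : V) (c s : ℝ) (hcs : c ^ 2 + s ^ 2 = 1) :
    ‖c • planeP e0 e1 x + s • planeJ e0 e1 x‖ = ‖planeP e0 e1 x‖ := by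
  have hJ : ‖planeJ e0 e1 x‖ ^ 2 = ‖planeP e0 e1 x‖ ^ 2 := by
    rw [planeJ_norm_sq e0 e1 h0 h1 h01, planeP_norm_sq e0 e1 h0 h1 h01]
  have hsq : ‖c • planeP e0 e1 x + s • planeJ e0 e1 x‖ ^ 2 = ‖planeP e0 e1 x‖ ^ 2 := by
    rw [norm_add_sq_real, real_inner_smul_left, real_inner_smul_right,
      ts_inner_planeP_planeJ e0 e1 h0 h1 h01, norm_smul, norm_smul, mul_pow, mul_pow,
      Real.norm_eq_abs, Real.norm_eq_abs, sq_abs, sq_abs, hJ]
    linear_combination ‖planeP e0 e1 x‖ ^ 2 * hcs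
  exact (sq_eq_sq₀ (norm_nonneg _) (norm_nonneg _)).mp hsq

end algebra

section twin

/-- The rotation angle taking the twin `a x` to the twin `b x` (`g = h / ‖P x‖`). -/
noncomputable def twinAngle (κ g : ℝ) : ℝ :=
  Complex.arg ((↑(κ ^ 2 - g ^ 2) : ℂ) + (↑(-2 * κ * g) : ℂ) * Complex.I)

theorem ts_re_add_mul_I (A B : ℝ) : ((A : ℂ) + (B : ℂ) * Complex.I).re = A := by simp

theorem ts_im_add_mul_I (A B : ℝ) : ((A : ℂ) + (B : ℂ) * Complex.I).im = B := by simp

theorem twinAngle_norm (κ g : ℝ) :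
    ‖((↑(κ ^ 2 - g ^ 2) : ℂ) + (↑(-2 * κ * g) : ℂ) * Complex.I)‖ = κ ^ 2 + g ^ 2 := by
  rw [Complex.norm_add_mul_I]
  have : (κ ^ 2 - g ^ 2) ^ 2 + (-2 * κ * g) ^ 2 = (κ ^ 2 + g ^ 2) ^ 2 := by ring
  rw [this, Real.sqrt_sq (by positivity)]

theorem twinAngle_cos (κ g : ℝ) (hκ : κ ≠ 0) :
    Real.cos (twinAngle κ g) = (κ ^ 2 - g ^ 2) / (κ ^ 2 + g ^ 2) := by
  have hpos : 0 < κ ^ 2 + g ^ 2 := by positivity
  have hne : ((↑(κ ^ 2 - g ^ 2) : ℂ) + (↑(-2 * κ * g) : ℂ) * Complex.I) ≠ 0 := by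
    intro h0
    have := twinAngle_norm κ g
    rw [h0, norm_zero] at this
    linarith
  unfold twinAngle
  rw [Complex.cos_arg hne, twinAngle_norm, ts_re_add_mul_I]

theorem twinAngle_sin (κ g : ℝ) :
    Real.sin (twinAngle κ g) = (-2 * κ * g) / (κ ^ 2 + g ^ 2) := by
  unfold twinAngle
  rw [Complex.sin_arg, twinAngle_norm, ts_im_add_mul_I]

theorem measurable_twinAngle_comp {α : Type*} [MeasurableSpace α] {f g : α → ℝ}
    (hf : Measurable f) (hg : Measurable g) : Measurable (fun x => twinAngle (f x) (g x)) := by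
  unfold twinAngle
  have h1 : Measurable (fun x : α => ((↑(f x ^ 2 - g x ^ 2) : ℂ))) :=
    Complex.measurable_ofReal.comp ((hf.pow_const 2).sub (hg.pow_const 2))
  have h2 : Measurable (fun x : α => ((↑(-2 * f x * g x) : ℂ))) :=
    Complex.measurable_ofReal.comp ((measurable_const.mul hf).mul hg)
  exact Complex.measurable_arg.comp (h1.add (h2.mul measurable_const))

variable {V : Type*} [NormedAddCommGroup V] [InnerProductSpace ℝ V]

/-- Rotating `x` by the twin angle and applying the `+` twin formula gives the `-` twin of `x`. -/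
theorem twin_rot (e0 e1 : V) (h0 : ‖e0‖ = 1) (h1 : ‖e1‖ = 1) (h01 : inner ℝ e0 e1 = 0)
    (x : V) (κ h : ℝ) (hκ : κ ≠ 0) (θ : ℝ)
    (hθ : θ = twinAngle κ (h / ‖planeP e0 e1 x‖)) :
    ‖planeP e0 e1 (x + (Real.cos θ - 1) • planeP e0 e1 x + Real.sin θ • planeJ e0 e1 x)‖
        = ‖planeP e0 e1 x‖ ∧
    κ • (x + (Real.cos θ - 1) • planeP e0 e1 x + Real.sin θ • planeJ e0 e1 x)
        + h • (‖planeP e0 e1 x‖⁻¹ •
          planeJ e0 e1 (x + (Real.cos θ - 1) • planeP e0 e1 x + Real.sin θ • planeJ e0 e1 x))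
      = κ • x - h • (‖planeP e0 e1 x‖⁻¹ • planeJ e0 e1 x) := by
  set N : ℝ := ‖planeP e0 e1 x‖ with hN
  set c : ℝ := Real.cos θ with hc
  set sn : ℝ := Real.sin θ with hsn
  have hcs : c ^ 2 + sn ^ 2 = 1 := Real.cos_sq_add_sin_sq θ
  have hPx' : planeP e0 e1 (x + (c - 1) • planeP e0 e1 x + sn • planeJ e0 e1 x)
      = c • planeP e0 e1 x + sn • planeJ e0 e1 x := by
    rw [ts_planeP_comb e0 e1 h0 h1 h01]
    congr 2; ring
  have hJx' : planeJ e0 e1 (x + (c - 1) • planeP e0 e1 x + sn • planeJ e0 e1 x)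
      = c • planeJ e0 e1 x - sn • planeP e0 e1 x := by
    rw [ts_planeJ_comb e0 e1 h0 h1 h01]
    congr 2; ring
  refine ⟨?_, ?_⟩
  · rw [hPx']
    exact ts_norm_comb e0 e1 h0 h1 h01 x c sn hcs
  · rw [hJx']
    set g : ℝ := h / N with hg
    have hpos : 0 < κ ^ 2 + g ^ 2 := by positivity
    have hcv : c = (κ ^ 2 - g ^ 2) / (κ ^ 2 + g ^ 2) := by
      rw [hc, hθ]; exact twinAngle_cos κ g hκ
    have hsv : sn = (-2 * κ * g) / (κ ^ 2 + g ^ 2) := by
      rw [hsn, hθ]; exact twinAngle_sin κ g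
    have hgN : h * N⁻¹ = g := by rw [hg, div_eq_mul_inv]
    have k1 : κ * (c - 1) - h * N⁻¹ * sn = 0 := by
      rw [hgN, hcv, hsv]; field_simp; ring
    have k2 : κ * sn + h * N⁻¹ * c = -(h * N⁻¹) := by
      rw [hgN, hcv, hsv]; field_simp; ring
    have e : κ • (x + (c - 1) • planeP e0 e1 x + sn • planeJ e0 e1 x)
        + h • (N⁻¹ • (c • planeJ e0 e1 x - sn • planeP e0 e1 x))
        = κ • x + (κ * (c - 1) - h * N⁻¹ * sn) • planeP e0 e1 x
          + (κ * sn + h * N⁻¹ * c) • planeJ e0 e1 x := by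
      module
    rw [e, k1, k2]
    module

end twin

section measure

variable {V : Type*} [NormedAddCommGroup V] [InnerProductSpace ℝ V] [MeasurableSpace V]
  [BorelSpace V]

/-- **Twin symmetry.** For a rotation-invariant measure `ν` (a.e. concentrated on a rotation
invariant set `U` on which the twin formulas hold), the two twin maps have the same image
measure. -/
theorem map_twin_eq (e0 e1 : V) (h0 : ‖e0‖ = 1) (h1 : ‖e1‖ = 1) (h01 : inner ℝ e0 e1 = 0)
    (ν : Measure V) [SFinite ν] (R : ℝ → V → V) (hR : IsCircleAction R)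
    (hRdef : ∀ θ x, R θ x
      = x + (Real.cos θ - 1) • planeP e0 e1 x + Real.sin θ • planeJ e0 e1 x)
    (hν : ∀ θ, ν.map (R θ) = ν) (U : Set V) (hU : ∀ᵐ x ∂ν, x ∈ U)
    (hUR : ∀ θ x, x ∈ U → R θ x ∈ U)
    (κ h : V → ℝ) (hκ : Measurable κ) (hh : Measurable h)
    (hκR : ∀ θ x, κ (R θ x) = κ x) (hhR : ∀ θ x, h (R θ x) = h x)
    (hκ0 : ∀ x ∈ U, κ x ≠ 0)
    (a b : V → V) (ha : Measurable a)
    (hadef : ∀ x ∈ U, a x = κ x • x + h x • (‖planeP e0 e1 x‖⁻¹ • planeJ e0 e1 x))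
    (hbdef : ∀ x ∈ U, b x = κ x • x - h x • (‖planeP e0 e1 x‖⁻¹ • planeJ e0 e1 x)) :
    ν.map b = ν.map a := by
  set φ : V → ℝ := fun x => twinAngle (κ x) (h x / ‖planeP e0 e1 x‖) with hφdef
  have hNm : Measurable (fun x : V => ‖planeP e0 e1 x‖) :=
    (continuous_planeP e0 e1).norm.measurable
  have hφ : Measurable φ := measurable_twinAngle_comp hκ (hh.div hNm)
  have hNR : ∀ θ x, ‖planeP e0 e1 (R θ x)‖ = ‖planeP e0 e1 x‖ := by
    intro θ x
    rw [hRdef, ts_planeP_comb e0 e1 h0 h1 h01]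
    have : (1 + (Real.cos θ - 1)) = Real.cos θ := by ring
    rw [this]
    exact ts_norm_comb e0 e1 h0 h1 h01 x _ _ (Real.cos_sq_add_sin_sq θ)
  have hφR : ∀ θ x, φ (R θ x) = φ x := by
    intro θ x
    simp only [hφdef, hκR, hhR, hNR]
  have hf : Measurable (fun x => R (φ x) x) := hR.meas.comp (hφ.prodMk measurable_id)
  have htw : ν.map (fun x => R (φ x) x) = ν := map_twist_eq_self hR ν hν φ hφ hφR
  have hba : ∀ᵐ x ∂ν, b x = a (R (φ x) x) := by
    filter_upwards [hU] with x hx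
    have hx' : R (φ x) x ∈ U := hUR _ _ hx
    obtain ⟨hn, hmain⟩ := twin_rot e0 e1 h0 h1 h01 x (κ x) (h x) (hκ0 x hx) (φ x) rfl
    rw [hbdef x hx, hadef _ hx', hκR, hhR, hNR, hRdef]
    exact hmain.symm
  calc ν.map b = ν.map (fun x => a (R (φ x) x)) := Measure.map_congr hba
    _ = (ν.map (fun x => R (φ x) x)).map a := (Measure.map_map ha hf).symm
    _ = ν.map a := by rw [htw]

end measure

end Crest.Agent.S0175
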