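import Mathlib
import Crest.Agent.S0175.PlaneRot

/-!
# Row 130 (S0175): the two twin maps have the same push-forward (helper59)

For twin maps of the shape
`a x = κ x • x + h x • (‖P x‖⁻¹ • J x)`, `b x = κ x • x - h x • (‖P x‖⁻¹ • J x)`
(`P = planeP e0 e1`, `J = planeJ e0 e1`, `κ`, `h` rotation-invariant) and a rotation-invariant
measure `ν`:

* `twin_planeRot` : the twin maps commute with the plane rotations;
* `twin_neg_eq_planeRot` : `b x = planeRot (h59_twinAngle x (a x)) (a x)`;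
* `map_twin_planeRot` : `ν.map a` is rotation-invariant;
* `map_twin_eq` : `ν.map b = ν.map a` (by the twist lemma `map_twist_eq_self`).
-/

set_option autoImplicit false

open MeasureTheory
open scoped ENNReal

namespace Crest.Agent.S0175lib

section TwinAlg

variable {V : Type*} [NormedAddCommGroup V] [InnerProductSpace ℝ V]

/-- The twin formula commutes with the plane rotation. -/
theorem twin_planeRot (e0 e1 : V) (h0 : ‖e0‖ = 1) (h1 : ‖e1‖ = 1) (h01 : inner ℝ e0 e1 = 0)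
    (θ κ h : ℝ) (x : V) :
    κ • planeRot e0 e1 θ x
        + h • (‖planeP e0 e1 (planeRot e0 e1 θ x)‖⁻¹ • planeJ e0 e1 (planeRot e0 e1 θ x))
      = planeRot e0 e1 θ (κ • x + h • (‖planeP e0 e1 x‖⁻¹ • planeJ e0 e1 x)) := by
  rw [norm_planeP_planeRot e0 e1 h0 h1 h01, planeJ_planeRot e0 e1 h0 h1 h01, planeRot_vadd,
    planeRot_smul, planeRot_smul, planeRot_smul]

/-- The rotation angle sending a point `y` with planar part at angle `ω` from that of `x` to the
point with planar part at angle `-ω`. -/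
noncomputable def h59_twinAngle (e0 e1 : V) (x y : V) : ℝ :=
  -2 * Complex.arg (planeZ e0 e1 y * (starRingEnd ℂ) (planeZ e0 e1 x))

/-- `h59_twinAngle` is invariant under simultaneous rotation of both arguments. -/
theorem h59_twinAngle_planeRot (e0 e1 : V) (h0 : ‖e0‖ = 1) (h1 : ‖e1‖ = 1)
    (h01 : inner ℝ e0 e1 = 0) (θ : ℝ) (x y : V) :
    h59_twinAngle e0 e1 (planeRot e0 e1 θ x) (planeRot e0 e1 θ y) = h59_twinAngle e0 e1 x y := by
  unfold h59_twinAngle
  rw [planeZ_planeRot e0 e1 h0 h1 h01, planeZ_planeRot e0 e1 h0 h1 h01, map_mul]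
  have hunit : Complex.exp (θ * Complex.I) * (starRingEnd ℂ) (Complex.exp (θ * Complex.I)) = 1 := by
    rw [Complex.mul_conj, Complex.normSq_eq_norm_sq, Complex.norm_exp_ofReal_mul_I]
    simp
  have : Complex.exp (θ * Complex.I) * planeZ e0 e1 y
      * ((starRingEnd ℂ) (Complex.exp (θ * Complex.I)) * (starRingEnd ℂ) (planeZ e0 e1 x))
      = planeZ e0 e1 y * (starRingEnd ℂ) (planeZ e0 e1 x) := by
    linear_combination (planeZ e0 e1 y * (starRingEnd ℂ) (planeZ e0 e1 x)) * hunit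
  rw [this]

/-- **Twin rotation lemma.** The `-` twin is the `+` twin rotated by `h59_twinAngle`. -/
theorem twin_neg_eq_planeRot (e0 e1 : V) (h0 : ‖e0‖ = 1) (h1 : ‖e1‖ = 1)
    (h01 : inner ℝ e0 e1 = 0) (κ h : ℝ) (x : V) (hx : planeP e0 e1 x ≠ 0) :
    κ • x - h • (‖planeP e0 e1 x‖⁻¹ • planeJ e0 e1 x)
      = planeRot e0 e1
          (h59_twinAngle e0 e1 x (κ • x + h • (‖planeP e0 e1 x‖⁻¹ • planeJ e0 e1 x)))
          (κ • x + h • (‖planeP e0 e1 x‖⁻¹ • planeJ e0 e1 x)) := by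
  have hp : 0 < ‖planeP e0 e1 x‖ := norm_pos_iff.mpr hx
  have hp2 := planeP_norm_sq e0 e1 h0 h1 h01 x
  set p : ℝ := ‖planeP e0 e1 x‖ with hpdef
  have hp0 : p ≠ 0 := hp.ne'
  have hpinv : p * p⁻¹ = 1 := mul_inv_cancel₀ hp0
  set y : V := κ • x + h • (p⁻¹ • planeJ e0 e1 x) with hy
  set w : ℂ := planeZ e0 e1 y * (starRingEnd ℂ) (planeZ e0 e1 x) with hw
  have hwre : w.re = κ * p ^ 2 := by
    rw [hp2, hw]
    simp only [Complex.mul_re, Complex.conj_re, Complex.conj_im, planeZ, hy, inner_add_right,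
      inner_smul_right, h59_inner_e0_planeJ e0 e1 h0 h01, h59_inner_e1_planeJ e0 e1 h1 h01]
    ring
  have hwim : w.im = h * p := by
    have : h * p = h * p⁻¹ * p ^ 2 := by
      rw [pow_two, ← mul_assoc, mul_assoc h, inv_mul_cancel₀ hp0, mul_one]
    rw [this, hp2, hw]
    simp only [Complex.mul_im, Complex.conj_re, Complex.conj_im, planeZ, hy, inner_add_right,
      inner_smul_right, h59_inner_e0_planeJ e0 e1 h0 h01, h59_inner_e1_planeJ e0 e1 h1 h01]
    ring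
  set ω : ℝ := Complex.arg w with hω
  have E1 : ‖w‖ * Real.cos ω = κ * p ^ 2 := by rw [← hwre]; exact Complex.norm_mul_cos_arg w
  have E2 : ‖w‖ * Real.sin ω = h * p := by rw [← hwim]; exact Complex.norm_mul_sin_arg w
  have hcs : Real.sin ω ^ 2 + Real.cos ω ^ 2 = 1 := Real.sin_sq_add_cos_sq ω
  have hθ : h59_twinAngle e0 e1 x y = -(2 * ω) := by
    rw [h59_twinAngle, ← hw, ← hω]; ring
  have hc : Real.cos (h59_twinAngle e0 e1 x y) = 2 * Real.cos ω ^ 2 - 1 := by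
    rw [hθ, Real.cos_neg, Real.cos_two_mul]
  have hsn : Real.sin (h59_twinAngle e0 e1 x y) = -(2 * Real.sin ω * Real.cos ω) := by
    rw [hθ, Real.sin_neg, Real.sin_two_mul]
  have key1 : (Real.cos (h59_twinAngle e0 e1 x y) - 1) * κ
      - Real.sin (h59_twinAngle e0 e1 x y) * (h * p⁻¹) = 0 := by
    have hq : p ^ 2 * ((Real.cos (h59_twinAngle e0 e1 x y) - 1) * κ
        - Real.sin (h59_twinAngle e0 e1 x y) * (h * p⁻¹)) = 0 := by
      rw [hc, hsn]
      linear_combination (2 * Real.sin ω * Real.cos ω * h * p) * hpinv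
        - (2 * Real.cos ω ^ 2 - 2) * E1 - (2 * Real.sin ω * Real.cos ω) * E2
        + 2 * ‖w‖ * Real.cos ω * hcs
    exact (mul_eq_zero.mp hq).resolve_left (pow_ne_zero 2 hp0)
  have key2 : (Real.cos (h59_twinAngle e0 e1 x y) + 1) * (h * p⁻¹)
      + Real.sin (h59_twinAngle e0 e1 x y) * κ = 0 := by
    have hq : p ^ 2 * ((Real.cos (h59_twinAngle e0 e1 x y) + 1) * (h * p⁻¹)
        + Real.sin (h59_twinAngle e0 e1 x y) * κ) = 0 := by
      rw [hc, hsn]
      linear_combination (2 * Real.cos ω ^ 2 * h * p) * hpinv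
        + (2 * Real.sin ω * Real.cos ω) * E1 - (2 * Real.cos ω ^ 2) * E2
    exact (mul_eq_zero.mp hq).resolve_left (pow_ne_zero 2 hp0)
  have hPy : planeP e0 e1 y = κ • planeP e0 e1 x + (h * p⁻¹) • planeJ e0 e1 x := by
    simp only [hy, planeP_add, planeP_smul, planeP_planeJ e0 e1 h0 h1 h01, smul_smul]
  have hJy : planeJ e0 e1 y = κ • planeJ e0 e1 x - (h * p⁻¹) • planeP e0 e1 x := by
    simp only [hy, h59_planeJ_add, h59_planeJ_smul, h59_planeJ_planeJ e0 e1 h0 h1 h01, smul_smul,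
      smul_neg]
    abel
  have hdiff : planeRot e0 e1 (h59_twinAngle e0 e1 x y) y - (κ • x - h • (p⁻¹ • planeJ e0 e1 x))
      = ((Real.cos (h59_twinAngle e0 e1 x y) - 1) * κ
          - Real.sin (h59_twinAngle e0 e1 x y) * (h * p⁻¹)) • planeP e0 e1 x
        + ((Real.cos (h59_twinAngle e0 e1 x y) + 1) * (h * p⁻¹)
          + Real.sin (h59_twinAngle e0 e1 x y) * κ) • planeJ e0 e1 x := by
    rw [planeRot, hPy, hJy]
    simp only [hy]
    module
  rw [key1, key2, zero_smul, zero_smul, add_zero] at hdiff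
  exact (sub_eq_zero.mp hdiff).symm

/-- Complex coordinate of a twin. -/
theorem planeZ_twin (e0 e1 : V) (h0 : ‖e0‖ = 1) (h1 : ‖e1‖ = 1) (h01 : inner ℝ e0 e1 = 0)
    (κ h : ℝ) (x : V) :
    planeZ e0 e1 (κ • x + h • (‖planeP e0 e1 x‖⁻¹ • planeJ e0 e1 x))
      = ((κ : ℂ) + ((h * ‖planeP e0 e1 x‖⁻¹ : ℝ) : ℂ) * Complex.I) * planeZ e0 e1 x := by
  apply Complex.ext
  · simp only [planeZ, inner_add_right, inner_smul_right, h59_inner_e0_planeJ e0 e1 h0 h01,
      Complex.mul_re, Complex.add_re, Complex.add_im, Complex.mul_im, Complex.I_re, Complex.I_im,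
      Complex.ofReal_re, Complex.ofReal_im]
    ring
  · simp only [planeZ, inner_add_right, inner_smul_right, h59_inner_e1_planeJ e0 e1 h1 h01,
      Complex.mul_re, Complex.add_re, Complex.add_im, Complex.mul_im, Complex.I_re, Complex.I_im,
      Complex.ofReal_re, Complex.ofReal_im]
    ring

/-- A twin of a point with nonzero planar part has nonzero planar part, unless `κ = h = 0`. -/
theorem planeZ_twin_ne_zero (e0 e1 : V) (h0 : ‖e0‖ = 1) (h1 : ‖e1‖ = 1)
    (h01 : inner ℝ e0 e1 = 0) (κ h : ℝ) (x : V) (hx : planeP e0 e1 x ≠ 0)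
    (hκh : κ ≠ 0 ∨ h ≠ 0) :
    planeZ e0 e1 (κ • x + h • (‖planeP e0 e1 x‖⁻¹ • planeJ e0 e1 x)) ≠ 0 := by
  rw [planeZ_twin e0 e1 h0 h1 h01]
  have hz : planeZ e0 e1 x ≠ 0 := fun hz => hx ((planeZ_eq_zero_iff e0 e1 h0 h1 h01 x).mp hz)
  refine mul_ne_zero (fun hzero => ?_) hz
  have hre := congrArg Complex.re hzero
  have him := congrArg Complex.im hzero
  simp only [Complex.add_re, Complex.add_im, Complex.mul_re, Complex.mul_im, Complex.I_re,
    Complex.I_im, Complex.ofReal_re, Complex.ofReal_im, Complex.zero_re, Complex.zero_im,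
    mul_zero, mul_one, sub_zero, add_zero, zero_add] at hre him
  have hp : ‖planeP e0 e1 x‖ ≠ 0 := norm_ne_zero_iff.mpr hx
  rcases hκh with hκ | hh
  · exact hκ (by simpa using hre)
  · have : h * ‖planeP e0 e1 x‖⁻¹ = 0 := by simpa using him
    rcases mul_eq_zero.mp this with h' | h'
    · exact hh h'
    · exact hp (inv_eq_zero.mp h')

theorem planeP_twin_ne_zero (e0 e1 : V) (h0 : ‖e0‖ = 1) (h1 : ‖e1‖ = 1)
    (h01 : inner ℝ e0 e1 = 0) (κ h : ℝ) (x : V) (hx : planeP e0 e1 x ≠ 0)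
    (hκh : κ ≠ 0 ∨ h ≠ 0) :
    planeP e0 e1 (κ • x + h • (‖planeP e0 e1 x‖⁻¹ • planeJ e0 e1 x)) ≠ 0 := fun hP =>
  planeZ_twin_ne_zero e0 e1 h0 h1 h01 κ h x hx hκh
    ((planeZ_eq_zero_iff e0 e1 h0 h1 h01 _).mpr hP)

/-- Pointwise equivariance of a twin map on an invariant set. -/
theorem twin_map_planeRot (e0 e1 : V) (h0 : ‖e0‖ = 1) (h1 : ‖e1‖ = 1)
    (h01 : inner ℝ e0 e1 = 0) (U : Set V)
    (hUinv : ∀ θ x, x ∈ U → planeRot e0 e1 θ x ∈ U) (κ h : V → ℝ)
    (hκinv : ∀ θ, ∀ x ∈ U, κ (planeRot e0 e1 θ x) = κ x)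
    (hhinv : ∀ θ, ∀ x ∈ U, h (planeRot e0 e1 θ x) = h x)
    (a : V → V)
    (hadef : ∀ x ∈ U, a x = κ x • x + h x • (‖planeP e0 e1 x‖⁻¹ • planeJ e0 e1 x))
    (θ : ℝ) (x : V) (hx : x ∈ U) :
    a (planeRot e0 e1 θ x) = planeRot e0 e1 θ (a x) := by
  rw [hadef _ (hUinv θ x hx), hadef x hx, hκinv θ x hx, hhinv θ x hx,
    twin_planeRot e0 e1 h0 h1 h01]

end TwinAlg

section TwinMeas

variable {V : Type*} [NormedAddCommGroup V] [InnerProductSpace ℝ V] [MeasurableSpace V]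
  [BorelSpace V]

/-- The push-forward of a rotation-invariant measure under a twin map is rotation-invariant. -/
theorem map_twin_planeRot (e0 e1 : V) (h0 : ‖e0‖ = 1) (h1 : ‖e1‖ = 1)
    (h01 : inner ℝ e0 e1 = 0) (ν : Measure V)
    (hν : ∀ θ, ν.map (planeRot e0 e1 θ) = ν) (U : Set V)
    (hUinv : ∀ θ x, x ∈ U → planeRot e0 e1 θ x ∈ U) (hνU : ν Uᶜ = 0) (κ h : V → ℝ)
    (hκinv : ∀ θ, ∀ x ∈ U, κ (planeRot e0 e1 θ x) = κ x)
    (hhinv : ∀ θ, ∀ x ∈ U, h (planeRot e0 e1 θ x) = h x)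
    (a : V → V) (ha : Measurable a)
    (hadef : ∀ x ∈ U, a x = κ x • x + h x • (‖planeP e0 e1 x‖⁻¹ • planeJ e0 e1 x))
    (θ : ℝ) : (ν.map a).map (planeRot e0 e1 θ) = ν.map a := by
  have hR := measurable_planeRot_apply e0 e1 θ
  have hUae : ∀ᵐ x ∂ν, x ∈ U := by rw [ae_iff]; exact hνU
  rw [Measure.map_map hR ha]
  conv_rhs => rw [← hν θ, Measure.map_map ha hR]
  refine Measure.map_congr ?_
  filter_upwards [hUae] with x hx
  exact (twin_map_planeRot e0 e1 h0 h1 h01 U hUinv κ h hκinv hhinv a hadef θ x hx).symm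

/-- Same as `map_twin_planeRot` for the `-` twin. -/
theorem map_twin_planeRot' (e0 e1 : V) (h0 : ‖e0‖ = 1) (h1 : ‖e1‖ = 1)
    (h01 : inner ℝ e0 e1 = 0) (ν : Measure V)
    (hν : ∀ θ, ν.map (planeRot e0 e1 θ) = ν) (U : Set V)
    (hUinv : ∀ θ x, x ∈ U → planeRot e0 e1 θ x ∈ U) (hνU : ν Uᶜ = 0) (κ h : V → ℝ)
    (hκinv : ∀ θ, ∀ x ∈ U, κ (planeRot e0 e1 θ x) = κ x)
    (hhinv : ∀ θ, ∀ x ∈ U, h (planeRot e0 e1 θ x) = h x)
    (b : V → V) (hb : Measurable b)
    (hbdef : ∀ x ∈ U, b x = κ x • x - h x • (‖planeP e0 e1 x‖⁻¹ • planeJ e0 e1 x))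
    (θ : ℝ) : (ν.map b).map (planeRot e0 e1 θ) = ν.map b := by
  refine map_twin_planeRot e0 e1 h0 h1 h01 ν hν U hUinv hνU κ (fun x => -h x) hκinv
    (fun θ x hx => by rw [hhinv θ x hx]) b hb (fun x hx => ?_) θ
  rw [hbdef x hx, sub_eq_add_neg, neg_smul]

/-- **The two twin maps have the same push-forward.** -/
theorem map_twin_eq (e0 e1 : V) (h0 : ‖e0‖ = 1) (h1 : ‖e1‖ = 1) (h01 : inner ℝ e0 e1 = 0)
    (ν : Measure V) [SFinite ν] (hν : ∀ θ, ν.map (planeRot e0 e1 θ) = ν)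
    (U : Set V) (hU : MeasurableSet U) (hUinv : ∀ θ x, x ∈ U → planeRot e0 e1 θ x ∈ U)
    (hνU : ν Uᶜ = 0) (hPU : ∀ x ∈ U, planeP e0 e1 x ≠ 0) (κ h : V → ℝ)
    (hκinv : ∀ θ, ∀ x ∈ U, κ (planeRot e0 e1 θ x) = κ x)
    (hhinv : ∀ θ, ∀ x ∈ U, h (planeRot e0 e1 θ x) = h x)
    (a b : V → V) (ha : Measurable a) (_hb : Measurable b)
    (hadef : ∀ x ∈ U, a x = κ x • x + h x • (‖planeP e0 e1 x‖⁻¹ • planeJ e0 e1 x))
    (hbdef : ∀ x ∈ U, b x = κ x • x - h x • (‖planeP e0 e1 x‖⁻¹ • planeJ e0 e1 x)) :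
    ν.map b = ν.map a := by
  classical
  have hact := isCircleAction_planeRot e0 e1 h0 h1 h01
  have hUae : ∀ᵐ x ∂ν, x ∈ U := by rw [ae_iff]; exact hνU
  have haeq := twin_map_planeRot e0 e1 h0 h1 h01 U hUinv κ h hκinv hhinv a hadef
  -- the twisting angle
  set φ : V → ℝ := fun x => if x ∈ U then h59_twinAngle e0 e1 x (a x) else 0 with hφdef
  have hφm : Measurable φ := by
    refine Measurable.ite hU ?_ measurable_const
    unfold h59_twinAngle
    have h1' : Measurable (fun x => planeZ e0 e1 (a x)) := (measurable_planeZ e0 e1).comp ha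
    have h2' : Measurable (fun x => (starRingEnd ℂ) (planeZ e0 e1 x)) :=
      Complex.continuous_conj.measurable.comp (measurable_planeZ e0 e1)
    exact (Complex.measurable_arg.comp (h1'.mul h2')).const_mul _
  have hφinv : ∀ θ x, φ (planeRot e0 e1 θ x) = φ x := by
    intro θ x
    by_cases hx : x ∈ U
    · have hx' : planeRot e0 e1 θ x ∈ U := hUinv θ x hx
      simp only [hφdef, if_pos hx, if_pos hx']
      rw [haeq θ x hx, h59_twinAngle_planeRot e0 e1 h0 h1 h01]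
    · have hx' : planeRot e0 e1 θ x ∉ U := by
        intro hmem
        apply hx
        have := hUinv (-θ) _ hmem
        rwa [planeRot_neg_planeRot e0 e1 h0 h1 h01] at this
      simp only [hφdef, if_neg hx, if_neg hx']
  have htw := map_twist_eq_self hact ν hν φ hφm hφinv
  have htwm : Measurable (fun x => planeRot e0 e1 (φ x) x) :=
    (measurable_planeRot e0 e1).comp (hφm.prodMk measurable_id)
  have hbb : b =ᵐ[ν] fun x => a (planeRot e0 e1 (φ x) x) := by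
    filter_upwards [hUae] with x hx
    rw [haeq (φ x) x hx, hbdef x hx]
    have := twin_neg_eq_planeRot e0 e1 h0 h1 h01 (κ x) (h x) x (hPU x hx)
    rw [← hadef x hx] at this
    simp only [hφdef, if_pos hx]
    exact this
  rw [Measure.map_congr hbb]
  conv_rhs => rw [← htw]
  rw [Measure.map_map ha htwm]
  rfl

/-! ### Specialisation to the measure `η² dx` of an invariant bump -/

variable [FiniteDimensional ℝ V]

/-- `η² dx` does not charge `{η = 0}`. -/
theorem h59_withDensity_sq_compl (η : V → ℝ) (hη : Measurable η) :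
    ((volume : Measure V).withDensity fun x => ENNReal.ofReal (η x ^ 2)) {x | η x ≠ 0}ᶜ = 0 := by
  have hS : MeasurableSet {x | η x ≠ 0}ᶜ :=
    (measurableSet_eq_fun hη measurable_const).compl.compl
  rw [withDensity_apply _ hS]
  have : ∀ x ∈ {x | η x ≠ 0}ᶜ, ENNReal.ofReal (η x ^ 2) = 0 := by
    intro x hx
    have hx0 : η x = 0 := by simpa using hx
    simp [hx0]
  rw [setLIntegral_congr_fun hS this]
  simp

/-- **`hpb` from `hpa`.** For the measure `η² dx` of a bump depending only on `‖P x‖` and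
`‖x - P x‖`, the two twin maps have the same push-forward. -/
theorem map_twin_eq_withDensity_sq (e0 e1 : V) (h0 : ‖e0‖ = 1) (h1 : ‖e1‖ = 1)
    (h01 : inner ℝ e0 e1 = 0) (η : V → ℝ) (hη : Measurable η)
    (hinv : ∀ x y, ‖planeP e0 e1 x‖ = ‖planeP e0 e1 y‖ →
      ‖x - planeP e0 e1 x‖ = ‖y - planeP e0 e1 y‖ → η x = η y)
    (hPη : ∀ x, η x ≠ 0 → planeP e0 e1 x ≠ 0) (κ h : V → ℝ)
    (hκinv : ∀ θ x, η x ≠ 0 → κ (planeRot e0 e1 θ x) = κ x)
    (hhinv : ∀ θ x, η x ≠ 0 → h (planeRot e0 e1 θ x) = h x)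
    (a b : V → V) (ha : Measurable a) (hb : Measurable b)
    (hadef : ∀ x, η x ≠ 0 → a x = κ x • x + h x • (‖planeP e0 e1 x‖⁻¹ • planeJ e0 e1 x))
    (hbdef : ∀ x, η x ≠ 0 → b x = κ x • x - h x • (‖planeP e0 e1 x‖⁻¹ • planeJ e0 e1 x)) :
    ((volume : Measure V).withDensity fun x => ENNReal.ofReal (η x ^ 2)).map b
      = ((volume : Measure V).withDensity fun x => ENNReal.ofReal (η x ^ 2)).map a := by
  have hηrot : ∀ θ x, η (planeRot e0 e1 θ x) = η x := fun θ x =>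
    hinv _ _ (norm_planeP_planeRot e0 e1 h0 h1 h01 θ x)
      (by rw [sub_planeP_planeRot e0 e1 h0 h1 h01])
  exact map_twin_eq e0 e1 h0 h1 h01 _
    (map_planeRot_withDensity_sq e0 e1 h0 h1 h01 η hη hinv)
    {x | η x ≠ 0} (measurableSet_eq_fun hη measurable_const).compl
    (fun θ x hx => by show η (planeRot e0 e1 θ x) ≠ 0; rw [hηrot]; exact hx)
    (h59_withDensity_sq_compl η hη) hPη κ h (fun θ x hx => hκinv θ x hx)
    (fun θ x hx => hhinv θ x hx) a b ha hb hadef hbdef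

/-- For the measure `η² dx` of an invariant bump, the push-forward under a twin map is
rotation-invariant. -/
theorem map_twin_planeRot_withDensity_sq (e0 e1 : V) (h0 : ‖e0‖ = 1) (h1 : ‖e1‖ = 1)
    (h01 : inner ℝ e0 e1 = 0) (η : V → ℝ) (hη : Measurable η)
    (hinv : ∀ x y, ‖planeP e0 e1 x‖ = ‖planeP e0 e1 y‖ →
      ‖x - planeP e0 e1 x‖ = ‖y - planeP e0 e1 y‖ → η x = η y) (κ h : V → ℝ)
    (hκinv : ∀ θ x, η x ≠ 0 → κ (planeRot e0 e1 θ x) = κ x)
    (hhinv : ∀ θ x, η x ≠ 0 → h (planeRot e0 e1 θ x) = h x)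
    (a : V → V) (ha : Measurable a)
    (hadef : ∀ x, η x ≠ 0 → a x = κ x • x + h x • (‖planeP e0 e1 x‖⁻¹ • planeJ e0 e1 x))
    (θ : ℝ) :
    (((volume : Measure V).withDensity fun x => ENNReal.ofReal (η x ^ 2)).map a).map
        (planeRot e0 e1 θ)
      = ((volume : Measure V).withDensity fun x => ENNReal.ofReal (η x ^ 2)).map a := by
  have hηrot : ∀ θ x, η (planeRot e0 e1 θ x) = η x := fun θ x =>
    hinv _ _ (norm_planeP_planeRot e0 e1 h0 h1 h01 θ x)
      (by rw [sub_planeP_planeRot e0 e1 h0 h1 h01])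
  exact map_twin_planeRot e0 e1 h0 h1 h01 _
    (map_planeRot_withDensity_sq e0 e1 h0 h1 h01 η hη hinv)
    {x | η x ≠ 0} (fun θ x hx => by show η (planeRot e0 e1 θ x) ≠ 0; rw [hηrot]; exact hx)
    (h59_withDensity_sq_compl η hη) κ h (fun θ x hx => hκinv θ x hx)
    (fun θ x hx => hhinv θ x hx) a ha hadef θ

end TwinMeas

end Crest.Agent.S0175lib
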